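import Vale.Agent.P265.Chart
import Vale.Agent.P234.Flow

/-!
Global flows of compactly supported smooth vector fields.
-/

open scoped ContDiff Topology Manifold
open Set Filter

noncomputable section

namespace Vale.Agent.P265

variable {A E F : Type} [NormedAddCommGroup A] [NormedSpace ℝ A] [FiniteDimensional ℝ A]
  [NormedAddCommGroup E] [NormedSpace ℝ E] [FiniteDimensional ℝ E] [NormedAddCommGroup F]
  [NormedSpace ℝ F]

/-- Smooth selection with compact support (`exists_contMDiffMap_forall_mem_convex_of_local`). -/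
theorem exists_field {t : A → Set F} (ht : ∀ x, Convex ℝ (t x)) {K : Set A} (hK : IsCompact K)
    (hloc : ∀ x ∈ K, ∃ O, IsOpen O ∧ x ∈ O ∧ ∃ g : A → F, ContDiffOn ℝ ∞ g O ∧ ∀ y ∈ O, g y ∈ t y)
    (h0 : ∀ x, x ∉ K → (0 : F) ∈ t x) :
    ∃ V : A → F, ContDiff ℝ ∞ V ∧ HasCompactSupport V ∧ ∀ x, V x ∈ t x := by
  obtain ⟨R, hR⟩ := hK.isBounded.subset_ball (0 : A)
  obtain ⟨g, hg⟩ := exists_contMDiffMap_forall_mem_convex_of_local (n := (⊤ : ℕ∞)) 𝓘(ℝ, A)
    (t := fun x => {v | v ∈ t x ∧ (R < ‖x‖ → v = 0)})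
    (fun x a ha b hb p q hp hq hpq => ⟨ht x ha.1 hb.1 hp hq hpq, fun h => by
      rw [ha.2 h, hb.2 h, smul_zero, smul_zero, add_zero]⟩) (fun x => by
      by_cases hx : x ∈ K
      · obtain ⟨O, hO, hxO, g, hg, hg'⟩ := hloc x hx
        refine ⟨O ∩ Metric.ball 0 R, (hO.inter Metric.isOpen_ball).mem_nhds ⟨hxO, hR hx⟩, g,
          (hg.mono inter_subset_left).contMDiffOn, fun y hy => ⟨hg' y hy.1, fun h => ?_⟩⟩
        exact absurd (mem_ball_zero_iff.1 hy.2) (not_lt.2 h.le)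
      · exact ⟨Kᶜ, hK.isClosed.isOpen_compl.mem_nhds hx, fun _ => 0, contMDiffOn_const,
          fun y hy => ⟨h0 y hy, fun _ => rfl⟩⟩)
  refine ⟨g, g.contMDiff.contDiff, HasCompactSupport.intro (isCompact_closedBall 0 R)
    (fun x hx => (hg x).2 ?_), fun x => (hg x).1⟩
  rwa [mem_closedBall_zero_iff, not_le] at hx

/-- `Φ` is the smooth global flow of `V`. -/
structure IsFlow (V : A → A) (Φ : ℝ × A → A) : Prop where
  smooth : ContDiff ℝ ∞ Φ
  zero : ∀ x, Φ (0, x) = x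
  deriv : ∀ t x, HasDerivAt (fun s => Φ (s, x)) (V (Φ (t, x))) t
  add : ∀ s t x, Φ (s + t, x) = Φ (s, Φ (t, x))
  uniq : ∀ γ : ℝ → A, (∀ t, HasDerivAt γ (V (γ t)) t) → ∀ t, γ t = Φ (t, γ 0)

omit [FiniteDimensional ℝ A] in
theorem flow_uniq {V : A → A} {K : NNReal} (hV : LipschitzWith K V) {α β : ℝ → A} {r : ℝ}
    (hr : 0 < r) (hα : ∀ t ∈ Ioo (-r) r, HasDerivAt α (V (α t)) t)
    (hβ : ∀ t ∈ Ioo (-r) r, HasDerivAt β (V (β t)) t) (h : α 0 = β 0) : EqOn α β (Ioo (-r) r) :=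
  ODE_solution_unique_of_mem_Ioo (v := fun _ => V) (s := fun _ => univ) (K := K)
    (fun _ _ => hV.lipschitzOnWith) ⟨by linarith, hr⟩ (fun t ht => ⟨hα t ht, trivial⟩)
    (fun t ht => ⟨hβ t ht, trivial⟩) h

theorem flow_sol {V : A → A} {K : NNReal} (hV : LipschitzWith K V) {L : NNReal}
    (hL : ∀ x, ‖V x‖ ≤ L) (x : A) : ∃ γ : ℝ → A, γ 0 = x ∧ ∀ t, HasDerivAt γ (V (γ t)) t := by
  have := FiniteDimensional.complete ℝ A
  have h1 : ∀ n : ℕ, ∃ α : ℝ → A, α 0 = x ∧
      ∀ t ∈ Ioo (-((n : ℝ) + 1)) ((n : ℝ) + 1), HasDerivAt α (V (α t)) t := by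
    intro n
    have hn : (0 : ℝ) < n + 1 := by positivity
    have hp : IsPicardLindelof (fun _ => V) (tmin := -((n : ℝ) + 1)) (tmax := (n : ℝ) + 1)
        ⟨0, by linarith, hn.le⟩ x (L * (n + 1)) 0 L K :=
      ⟨fun _ _ => hV.lipschitzOnWith, fun _ _ => continuousOn_const, fun _ _ y _ => hL y, by simp⟩
    obtain ⟨α, h0, hα⟩ := hp.exists_eq_forall_mem_Icc_hasDerivWithinAt₀
    exact ⟨α, h0, fun t ht =>
      (hα t (Ioo_subset_Icc_self ht)).hasDerivAt (Icc_mem_nhds ht.1 ht.2)⟩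
  choose α h0 hα using h1
  have h2 : ∀ (N : ℕ) (s : ℝ), |s| ≤ N → α ⌈|s|⌉₊ s = α N s := by
    intro N s hs
    have h3 : (⌈|s|⌉₊ : ℝ) ≤ N := by exact_mod_cast Nat.ceil_le.2 hs
    refine flow_uniq hV (r := (⌈|s|⌉₊ : ℝ) + 1) (by positivity) (hα _)
      (fun t ht => hα N t ⟨by linarith [ht.1], by linarith [ht.2]⟩) (by rw [h0, h0]) ?_
    exact abs_lt.1 (by linarith [Nat.le_ceil |s|])
  refine ⟨fun t => α ⌈|t|⌉₊ t, h0 _, fun t => ?_⟩
  have h3 : |t| < (⌈|t|⌉₊ + 1 : ℕ) := by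
    push_cast
    linarith [Nat.le_ceil |t|]
  beta_reduce
  rw [h2 _ t h3.le]
  refine (hα _ t (abs_lt.1 (by linarith))).congr_of_eventuallyEq ?_
  filter_upwards [(continuous_abs.tendsto t).eventually (gt_mem_nhds h3)] with s hs
  exact h2 _ s hs.le

/-- `V` is globally Lipschitz and bounded, so solutions exist for all times and are unique.
Smoothness: by `Vale.Agent.P234.exists_smooth_flow` and compactness of the support there is `δ > 0`
with `Φ` smooth on `ball 0 δ ×ˢ univ`; then `Φ (t, x) = (Φ (t / n, ·))^[n] x`. -/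
theorem exists_flow {V : A → A} (hV : ContDiff ℝ ∞ V) (hc : HasCompactSupport V) :
    ∃ Φ, IsFlow V Φ := by
  obtain ⟨K, hK⟩ := hV.lipschitzWith_of_hasCompactSupport hc (by simp)
  obtain ⟨L, hL⟩ := hV.continuous.bounded_above_of_compact_support hc
  choose γ h0 hγ using flow_sol hK (L := ⟨L, (norm_nonneg _).trans (hL 0)⟩) hL
  have uq : ∀ β : ℝ → A, (∀ t, HasDerivAt β (V (β t)) t) → ∀ t, β t = γ (β 0) t := by
    intro β hβ t
    exact flow_uniq hK (r := |t| + 1) (by positivity) (fun s _ => hβ s) (fun s _ => hγ _ s)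
      (h0 _).symm (abs_lt.1 (by linarith))
  have ad : ∀ s t x, γ x (s + t) = γ (γ x t) s := by
    intro s t x
    have := uq (fun s => γ x (s + t)) (fun s => (hγ x (s + t)).comp_add_const s t) s
    simpa using this
  refine ⟨fun p => γ p.2 p.1, ?_, h0, fun t x => hγ x t, ad, uq⟩
  have h1 : ∀ᶠ t in 𝓝 (0 : ℝ), ∀ y ∈ tsupport V,
      ContDiffAt ℝ ∞ (fun p : ℝ × A => γ p.2 p.1) (t, y) := by
    refine hc.isCompact.eventually_forall_of_forall_eventually
      (P := fun t y => ContDiffAt ℝ ∞ (fun p : ℝ × A => γ p.2 p.1) (t, y)) (fun z _ => ?_)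
    obtain ⟨φ, δ, hδ, h2, h3, h4⟩ := Vale.Agent.P234.exists_smooth_flow hV z
    have ho : IsOpen (Metric.ball (0 : ℝ) δ ×ˢ Metric.ball z δ) :=
      Metric.isOpen_ball.prod Metric.isOpen_ball
    have h5 : ContDiffOn ℝ ∞ (fun p : ℝ × A => γ p.2 p.1)
        (Metric.ball (0 : ℝ) δ ×ˢ Metric.ball z δ) := by
      refine h2.congr (fun p hp => ?_)
      have e : Metric.ball (0 : ℝ) δ = Ioo (-δ) δ := by simp [Real.ball_eq_Ioo]
      exact flow_uniq hK (β := fun s => φ (s, p.2)) hδ (fun s _ => hγ _ s)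
        (fun s hs => h4 _ hp.2 s (e ▸ hs)) (by rw [h0, h3 _ hp.2]) (e ▸ hp.1)
    filter_upwards [ho.mem_nhds (show ((0 : ℝ), z) ∈ _ from
      ⟨Metric.mem_ball_self hδ, Metric.mem_ball_self hδ⟩)] with p hp
    exact h5.contDiffAt (ho.mem_nhds hp)
  obtain ⟨δ, hδ, h2⟩ := Metric.eventually_nhds_iff.1 h1
  have h3 : ∀ n : ℕ, ∀ t : ℝ, |t| < 2 ^ n * δ → ∀ y,
      ContDiffAt ℝ ∞ (fun p : ℝ × A => γ p.2 p.1) (t, y) := by
    intro n
    induction n with
    | zero =>
      intro t ht y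
      by_cases hy : y ∈ tsupport V
      · exact h2 (by simpa [Real.dist_eq] using ht) y hy
      · refine contDiffAt_snd.congr_of_eventuallyEq ?_
        filter_upwards [continuous_snd.continuousAt.eventually
          ((isClosed_tsupport V).isOpen_compl.mem_nhds (show (t, y).2 ∈ _ from hy))] with p hp
        refine (uq (fun _ => p.2) (fun s => ?_) p.1).symm
        rw [image_eq_zero_of_notMem_tsupport hp]
        exact hasDerivAt_const _ _
    | succ n ih =>
      intro t ht y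
      have h4 : |t / 2| < 2 ^ n * δ := by
        rw [abs_div, abs_two, div_lt_iff₀ two_pos]
        rw [pow_succ] at ht
        linarith
      have e : (fun p : ℝ × A => γ p.2 p.1) = (fun p : ℝ × A => γ p.2 p.1) ∘
          fun p : ℝ × A => (p.1 / 2, γ p.2 (p.1 / 2)) := by
        funext p
        simp only [Function.comp_apply, ← ad, add_halves]
      have h5 : ContDiffAt ℝ ∞ (fun p : ℝ × A => p.1 / 2) (t, y) := contDiffAt_fst.div_const 2
      rw [e]
      exact ContDiffAt.comp (t, y) (ih _ h4 _) (h5.prodMk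
        (ContDiffAt.comp (g := fun p : ℝ × A => γ p.2 p.1)
          (f := fun p : ℝ × A => (p.1 / 2, p.2)) (t, y) (ih _ h4 y) (h5.prodMk contDiffAt_snd)))
  refine contDiff_iff_contDiffAt.2 (fun p => ?_)
  obtain ⟨n, hn⟩ := pow_unbounded_of_one_lt (|p.1| / δ) (one_lt_two (α := ℝ))
  exact h3 n p.1 ((div_lt_iff₀ hδ).1 hn) p.2

/-- The flow of a tangent field preserves a closed submanifold: the set of good times is closed,
and open because solutions of `η' = Dχ (V (ψ η))` in a chart give solutions in the ambient space. -/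
theorem IsFlow.mem {V : A → A} {Φ : ℝ × A → A} (h : IsFlow V Φ) (hV : ContDiff ℝ ∞ V) {S : Set A}
    (hS : IsClosed S) (hc : ∀ s ∈ S, ∃ c : PChart S E, s ∈ c.O) (ht : ∀ s ∈ S, Tan S s (V s))
    {x : A} (hx : x ∈ S) (t : ℝ) : Φ (t, x) ∈ S := by
  have := FiniteDimensional.complete ℝ E
  have hcont : Continuous (fun s => Φ (s, x)) :=
    continuous_iff_continuousAt.2 fun s => (h.deriv s x).continuousAt
  have h1 : IsClopen {s | Φ (s, x) ∈ S} := by
    refine ⟨hS.preimage hcont, isOpen_iff_mem_nhds.2 fun t₀ h₀ => ?_⟩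
    obtain ⟨c, hO⟩ := hc _ h₀
    have hm : Φ (t₀, x) ∈ S ∩ c.O := ⟨h₀, hO⟩
    have hU := c.mχ hm
    have k1 : ContDiffAt ℝ ∞ c.ψ (c.χ (Φ (t₀, x))) := c.sψ.contDiffAt (c.oU.mem_nhds hU)
    have k2 : ContDiffAt ℝ ∞ c.χ (c.ψ (c.χ (Φ (t₀, x)))) :=
      c.sχ.contDiffAt (c.oO.mem_nhds (c.mψ hU).2)
    have k3 : ContDiffAt ℝ 1 (fun η => fderiv ℝ c.χ (c.ψ η) (V (c.ψ η))) (c.χ (Φ (t₀, x))) :=
      ((((k2.fderiv_right (m := ∞) le_rfl).comp _ k1).clm_apply
        (hV.contDiffAt.comp _ k1))).of_le (by exact_mod_cast le_top)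
    obtain ⟨α, a0, ε, hε, hα⟩ :=
      k3.exists_forall_mem_closedBall_exists_eq_forall_mem_Ioo_hasDerivAt₀ t₀
    have hI : Ioo (t₀ - ε) (t₀ + ε) ∈ 𝓝 t₀ := Ioo_mem_nhds (by linarith) (by linarith)
    have ac : ContinuousAt α t₀ := (hα t₀ (mem_of_mem_nhds hI)).continuousAt
    have aU : ∀ᶠ s in 𝓝 t₀, α s ∈ c.U := ac.eventually (c.oU.mem_nhds (a0 ▸ hU))
    have b0 : c.ψ (α t₀) = Φ (t₀, x) := by rw [a0, c.ri _ hm]
    have bc : ContinuousAt (fun s => c.ψ (α s)) t₀ :=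
      ContinuousAt.comp (g := c.ψ) (a0 ▸ k1.continuousAt) ac
    obtain ⟨K, u, hu, hK⟩ := ((hV.of_le (m := 1) (by exact_mod_cast le_top)).contDiffAt
      (x := Φ (t₀, x))).exists_lipschitzOnWith
    have key := ODE_solution_unique_of_eventually (v := fun _ => V) (s := fun _ => u) (K := K)
      (f := fun s => Φ (s, x)) (g := fun s => c.ψ (α s)) (t₀ := t₀)
      (Eventually.of_forall fun _ => hK)
      (by
        filter_upwards [hcont.continuousAt.eventually hu] with s hs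
        exact ⟨h.deriv s x, hs⟩)
      (by
        filter_upwards [bc.eventually (b0.symm ▸ hu), aU, hI] with s hs h2 h3
        refine ⟨?_, hs⟩
        have d1 := ((c.sψ.contDiffAt (c.oU.mem_nhds h2)).differentiableAt
          (by simp)).hasFDerivAt.comp_hasDerivAt s (hα s h3)
        have d2 := c.dψ_dχ (c.mψ h2) (ht _ (c.mψ h2).1)
        rw [c.li _ h2] at d2
        rw [d2] at d1
        exact d1) b0.symm
    filter_upwards [key, aU] with s h2 h3
    show Φ (s, x) ∈ S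
    rw [show Φ (s, x) = c.ψ (α s) from h2]
    exact (c.mψ h3).1
  have h2 := h1.eq_univ ⟨0, by simpa [h.zero] using hx⟩
  exact (h2.ge (mem_univ t) : t ∈ {s | Φ (s, x) ∈ S})

omit [FiniteDimensional ℝ A] in
/-- Short periodic orbits are constant: with `m = sup ‖γ'‖` on `[0, T]`, any two values of `γ'`
differ by at most `L T m`, and the mean value of `γ'` is zero. -/
theorem yorke [CompleteSpace A] {V : A → A} {L : NNReal} (hV : LipschitzWith L V) {γ : ℝ → A}
    (hγ : ∀ t, HasDerivAt γ (V (γ t)) t) {T : ℝ} (hT : 0 < T) (hL : L * T < 1)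
    (hp : γ T = γ 0) : V (γ 0) = 0 := by
  have hc : Continuous γ := continuous_iff_continuousAt.2 fun t => (hγ t).continuousAt
  obtain ⟨t₁, h1, hm⟩ := (isCompact_Icc (a := (0 : ℝ)) (b := T)).exists_isMaxOn
    ⟨0, left_mem_Icc.2 hT.le⟩ (hV.continuous.comp hc).norm.continuousOn
  set m := ‖V (γ t₁)‖ with hmd
  have m0 : 0 ≤ m := norm_nonneg _
  have h2 : ∀ s ∈ Icc 0 T, ‖V (γ s) - V (γ t₁)‖ ≤ L * (m * T) := by
    intro s hs
    have h3 := Convex.norm_image_sub_le_of_norm_hasDerivWithin_le (f := γ) (C := m)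
      (fun t _ => (hγ t).hasDerivWithinAt) (fun t ht => hm ht) (convex_Icc 0 T) h1 hs
    have h4 : ‖s - t₁‖ ≤ T := abs_le.2 ⟨by linarith [hs.1, h1.2], by linarith [hs.2, h1.1]⟩
    refine (hV.norm_sub_le _ _).trans (mul_le_mul_of_nonneg_left ?_ L.2)
    exact h3.trans (mul_le_mul_of_nonneg_left h4 m0)
  have h3 := Convex.norm_image_sub_le_of_norm_hasDerivWithin_le
    (f := fun s => γ s - s • V (γ t₁)) (f' := fun s => V (γ s) - V (γ t₁))
    (fun t _ => by
      simpa using ((hγ t).fun_sub ((hasDerivAt_id t).smul_const (V (γ t₁)))).hasDerivWithinAt)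
    h2 (convex_Icc 0 T) (left_mem_Icc.2 hT.le) (right_mem_Icc.2 hT.le)
  simp only [hp, zero_smul, sub_zero, sub_sub_cancel_left, norm_neg, norm_smul, Real.norm_eq_abs,
    abs_of_pos hT] at h3
  have h4 : m ≤ 0 := by
    by_contra h5
    have := mul_pos hT (not_le.1 h5)
    nlinarith
  exact norm_le_zero_iff.1 ((hm (left_mem_Icc.2 hT.le)).trans h4)

/-- The variational equation at a zero of the field (symmetry of the second derivative of `Φ`). -/
theorem IsFlow.lin {V : A → A} {Φ : ℝ × A → A} (h : IsFlow V Φ) (hV : ContDiff ℝ ∞ V) {x : A}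
    (hx : V x = 0) (v : A) (t : ℝ) :
    HasDerivAt (fun s => fderiv ℝ (fun y => Φ (s, y)) x v)
      (fderiv ℝ V x (fderiv ℝ (fun y => Φ (t, y)) x v)) t := by
  have hd : ∀ p, HasFDerivAt Φ (fderiv ℝ Φ p) p := fun p =>
    (h.smooth.differentiable (by simp) p).hasFDerivAt
  have h1 : ∀ s, fderiv ℝ (fun y => Φ (s, y)) x v = fderiv ℝ Φ (s, x) (0, v) := fun s => by
    have := ((hd (s, x)).comp x (hasFDerivAt_prodMk_right s x)).fderiv
    rw [show fderiv ℝ (fun y => Φ (s, y)) x = _ from this]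
    simp
  have h2 : ∀ p, fderiv ℝ Φ p (1, 0) = V (Φ p) := fun p => by
    have := ((hd p).comp_hasDerivAt p.1 ((hasDerivAt_id p.1).prodMk (hasDerivAt_const p.1 p.2)))
    exact this.unique (h.deriv p.1 p.2)
  have h3 : Φ (t, x) = x := (h.uniq (fun _ => x) (fun s => by
    rw [hx]
    exact hasDerivAt_const _ _) t).symm
  have hD : HasFDerivAt (fderiv ℝ Φ) (fderiv ℝ (fderiv ℝ Φ) (t, x)) (t, x) :=
    ((h.smooth.fderiv_right (m := ∞) le_rfl).differentiable
      (by simp) _).hasFDerivAt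
  have h4 : HasDerivAt (fun s => fderiv ℝ Φ (s, x)) (fderiv ℝ (fderiv ℝ Φ) (t, x) (1, 0)) t :=
    hD.comp_hasDerivAt (f := fun s => (s, x)) t
      ((hasDerivAt_id t).prodMk (hasDerivAt_const t x))
  have h5 : IsSymmSndFDerivAt ℝ Φ (t, x) := (h.smooth.contDiffAt (x := (t, x))).isSymmSndFDerivAt
    (by
      rw [minSmoothness_of_isRCLikeNormedField]
      exact WithTop.coe_le_coe.2 (le_top : (2 : ℕ∞) ≤ ⊤))
  have h6 := hD.clm_apply (hasFDerivAt_const ((1 : ℝ), (0 : A)) (t, x))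
  have h7 : HasFDerivAt (fun p => V (Φ p)) _ (t, x) :=
    (hV.differentiable (by simp) (Φ (t, x))).hasFDerivAt.comp (t, x) (hd (t, x))
  simp only [h2] at h6
  have h8 := DFunLike.congr_fun (h6.unique h7) (0, v)
  simp only [h1]
  refine (h4.clm_apply (hasDerivAt_const t ((0 : ℝ), v))).congr_deriv ?_
  simp only [ContinuousLinearMap.comp_zero, zero_add, ContinuousLinearMap.flip_apply,
    ContinuousLinearMap.comp_apply, h3] at h8
  rw [← h8, map_zero, add_zero]
  exact h5 _ _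

end Vale.Agent.P265
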