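import Vale.Agent.P265.Lin

/-!
Alexander-Spanier cochains on lists of points, with an action of a cyclic group of order six.
Definitions and the basic chain level identities.
-/

open Set

noncomputable section

namespace Vale.Agent.P265

variable {K : Type} [Field K] {X Y : Type}

/-- The differential, by recursion on the list. -/
def dd : List X → (List X → K) → K
  | [], _ => 0
  | x :: l, φ => φ l - dd l (fun m => φ (x :: m))

theorem dd_add (l : List X) (φ ψ : List X → K) : dd l (φ + ψ) = dd l φ + dd l ψ := by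
  induction l generalizing φ ψ with
  | nil => simp [dd]
  | cons x l ih =>
    have := ih (fun m => φ (x :: m)) (fun m => ψ (x :: m))
    simp only [dd, Pi.add_apply]
    rw [show (fun m => φ (x :: m) + ψ (x :: m)) =
      (fun m => φ (x :: m)) + fun m => ψ (x :: m) from rfl, this]
    ring

theorem dd_smul (l : List X) (c : K) (φ : List X → K) : dd l (c • φ) = c * dd l φ := by
  induction l generalizing φ with
  | nil => simp [dd]
  | cons x l ih =>
    have := ih (fun m => φ (x :: m))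
    simp only [dd, Pi.smul_apply, smul_eq_mul]
    rw [show (fun m => c * φ (x :: m)) = c • fun m => φ (x :: m) from rfl, this]
    ring

variable (K X) in
/-- The differential as a linear map. -/
def dL : (List X → K) →ₗ[K] (List X → K) where
  toFun φ l := dd l φ
  map_add' φ ψ := funext fun l => dd_add l φ ψ
  map_smul' c φ := funext fun l => dd_smul l c φ

variable (K) in
/-- Pull-back of cochains along any map. -/
def pull (f : X → Y) : (List Y → K) →ₗ[K] (List X → K) := LinearMap.funLeft K K (List.map f)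

/-- The prism operator, by recursion on the list. -/
def pr (f g : X → Y) : List X → (List Y → K) → K
  | [], _ => 0
  | x :: l, φ => φ (f x :: g x :: l.map g) - pr f g l (fun m => φ (f x :: m))

theorem AS_dd_sub (l : List X) (φ ψ : List X → K) :
    dd l (fun m => φ m - ψ m) = dd l φ - dd l ψ :=
  congrFun ((dL K X).map_sub φ ψ) l

theorem AS_pr_sub (f g : X → Y) (l : List X) (φ ψ : List Y → K) :
    pr f g l (fun m => φ m - ψ m) = pr f g l φ - pr f g l ψ := by
  induction l generalizing φ ψ with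
  | nil => simp [pr]
  | cons x l ih =>
    simp only [pr, ih]
    ring

theorem AS_dd_map (f : X → Y) (l : List X) (φ : List Y → K) :
    dd l (fun m => φ (m.map f)) = dd (l.map f) φ := by
  induction l generalizing φ with
  | nil => rfl
  | cons x l ih => simp only [dd, List.map_cons, ← ih]

theorem dL_dL (φ : List X → K) : dL K X (dL K X φ) = 0 := by
  funext l
  change dd l (fun m => dd m φ) = 0
  induction l generalizing φ with
  | nil => rfl
  | cons x l ih => simp only [dd, AS_dd_sub, ih, sub_zero, sub_self]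

theorem dL_pull (f : X → Y) (φ : List Y → K) : dL K X (pull K f φ) = pull K f (dL K Y φ) := by
  exact funext fun l => AS_dd_map f l φ

/-- The prism identity. -/
theorem prism (f g : X → Y) (φ : List Y → K) :
    pull K g φ - pull K f φ = dL K X (fun l => pr f g l φ) + fun l => pr f g l (dL K Y φ) := by
  funext l
  change φ (l.map g) - φ (l.map f) = dd l (fun m => pr f g m φ) + pr f g l fun m => dd m φ
  induction l generalizing φ with
  | nil => simp [dd, pr]
  | cons x l ih =>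
    have h1 := ih fun m => φ (f x :: m)
    have h2 := AS_dd_map g l fun m => φ (f x :: g x :: m)
    simp only [dd, pr, AS_dd_sub, AS_pr_sub, List.map_cons, h2]
    linear_combination h1

theorem dd_eq_zero {l : List X} {φ : List X → K}
    (h : ∀ m : List X, m.length + 1 = l.length → (∀ y ∈ m, y ∈ l) → φ m = 0) : dd l φ = 0 := by
  induction l generalizing φ with
  | nil => rfl
  | cons x l ih =>
    rw [dd, h l rfl fun y hy => List.mem_cons_of_mem _ hy, ih fun m h1 h2 => h (x :: m)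
      (by simp [← h1]) fun y hy => (List.mem_cons.1 hy).elim (· ▸ List.mem_cons_self)
        fun hy => List.mem_cons_of_mem _ (h2 y hy), sub_zero]

theorem pr_eq_zero {f g : X → Y} {l : List X} {φ : List Y → K}
    (h : ∀ m : List Y, m.length = l.length + 1 → (∀ y ∈ m, ∃ x ∈ l, y = f x ∨ y = g x) → φ m = 0) :
    pr f g l φ = 0 := by
  induction l generalizing φ with
  | nil => rfl
  | cons x l ih =>
    rw [pr, h _ (by simp) ?_, ih fun m h1 h2 => h (f x :: m) (by simp [h1]) fun y hy => ?_,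
      sub_zero]
    · rcases List.mem_cons.1 hy with rfl | hy
      · exact ⟨x, List.mem_cons_self, Or.inl rfl⟩
      · obtain ⟨z, hz, h3⟩ := h2 y hy
        exact ⟨z, List.mem_cons_of_mem _ hz, h3⟩
    · intro y hy
      simp only [List.mem_cons, List.mem_map] at hy ⊢
      rcases hy with rfl | rfl | ⟨z, hz, rfl⟩
      exacts [⟨x, Or.inl rfl, Or.inl rfl⟩, ⟨x, Or.inl rfl, Or.inr rfl⟩, ⟨z, Or.inr hz, Or.inr rfl⟩]

variable [MetricSpace X] [MetricSpace Y]

/-- Small lists in `Z`. -/
def Small (Z : Set X) (ε : ℝ) (l : List X) : Prop :=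
  (∀ x ∈ l, x ∈ Z) ∧ ∀ x ∈ l, ∀ y ∈ l, dist x y < ε

variable (K) in
/-- Cochains that vanish on the small lists of length `n` in `Z`. -/
def Nul (Z : Set X) (n : ℕ) : Submodule K (List X → K) where
  carrier := {φ | ∃ ε > 0, ∀ l : List X, l.length = n → Small Z ε l → φ l = 0}
  zero_mem' := ⟨1, one_pos, fun _ _ _ => rfl⟩
  add_mem' := by
    rintro φ ψ ⟨ε, hε, h⟩ ⟨δ, hδ, h'⟩
    refine ⟨min ε δ, lt_min hε hδ, fun l hl hs => ?_⟩
    rw [Pi.add_apply, h l hl ⟨hs.1, fun x hx y hy => (hs.2 x hx y hy).trans_le (min_le_left _ _)⟩,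
      h' l hl ⟨hs.1, fun x hx y hy => (hs.2 x hx y hy).trans_le (min_le_right _ _)⟩, add_zero]
  smul_mem' := by
    rintro c φ ⟨ε, hε, h⟩
    exact ⟨ε, hε, fun l hl hs => by rw [Pi.smul_apply, h l hl hs, smul_zero]⟩

theorem Nul.sub (Z : Set X) : IsSub (dL K X) (Nul K Z) := by
  rintro n φ ⟨ε, hε, h⟩
  exact ⟨ε, hε, fun l hl hs => dd_eq_zero fun m h1 h2 => h m (by omega)
    ⟨fun x hx => hs.1 x (h2 x hx), fun x hx y hy => hs.2 x (h2 x hx) y (h2 y hy)⟩⟩

theorem Nul.anti {A Z : Set X} (h : A ⊆ Z) (n : ℕ) : Nul K Z n ≤ Nul K A n := by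
  rintro φ ⟨ε, hε, h'⟩
  exact ⟨ε, hε, fun l hl hs => h' l hl ⟨fun x hx => h (hs.1 x hx), hs.2⟩⟩

theorem Nul.zero (A Z : Set X) : ∀ φ ∈ Nul K A 0, dL K X φ ∈ Nul K Z 1 := by
  rintro φ ⟨ε, -, h⟩
  refine ⟨1, one_pos, fun l hl _ => dd_eq_zero fun m h1 _ => ?_⟩
  obtain rfl : m = [] := List.length_eq_zero_iff.1 (by omega)
  exact h [] rfl ⟨by simp, by simp⟩

theorem Nul.pull {f : X → Y} {Z : Set X} {Z' : Set Y} (hZ : IsCompact Z) (hf : ContinuousOn f Z)
    (hm : MapsTo f Z Z') {n : ℕ} {φ : List Y → K} (h : φ ∈ Nul K Z' n) :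
    pull K f φ ∈ Nul K Z n := by
  obtain ⟨ε, hε, h⟩ := h
  obtain ⟨δ, hδ, h'⟩ :=
    Metric.uniformContinuousOn_iff.1 (hZ.uniformContinuousOn_of_continuous hf) ε hε
  refine ⟨δ, hδ, fun l hl hs => h (l.map f) (by simpa using hl) ⟨?_, ?_⟩⟩ <;>
    simp only [List.forall_mem_map]
  · exact fun x hx => hm (hs.1 x hx)
  · exact fun x hx y hy => h' x (hs.1 x hx) y (hs.1 y hy) (hs.2 x hx y hy)

theorem Nul.pull_sub {f g : X → Y} {Z : Set X} (h : EqOn f g Z) (n : ℕ) (φ : List Y → K) :
    Vale.Agent.P265.pull K f φ - Vale.Agent.P265.pull K g φ ∈ Nul K Z n := by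
  exact ⟨1, one_pos, fun l _ hs => sub_eq_zero.2
    (congrArg φ (List.map_congr_left fun x hx => h (hs.1 x hx)))⟩

theorem AS_pr_nul {f g : X → Y} {Z : Set X} {Z' : Set Y} {ε δ : ℝ} {n : ℕ} {φ : List Y → K}
    (hφ : ∀ l : List Y, l.length = n + 1 → Small Z' ε l → φ l = 0) (hf : MapsTo f Z Z')
    (hg : MapsTo g Z Z') (h : ∀ x ∈ Z, ∀ y ∈ Z, dist x y < δ → dist (f x) (f y) < ε ∧
      dist (f x) (g y) < ε ∧ dist (g x) (f y) < ε ∧ dist (g x) (g y) < ε)
    {l : List X} (hl : l.length = n) (hs : Small Z δ l) : pr f g l φ = 0 := by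
  refine pr_eq_zero fun m h1 h2 => hφ m (by omega) ⟨fun y hy => ?_, fun y hy y' hy' => ?_⟩
  · obtain ⟨x, hx, rfl | rfl⟩ := h2 y hy
    exacts [hf (hs.1 x hx), hg (hs.1 x hx)]
  · obtain ⟨x, hx, h3⟩ := h2 y hy
    obtain ⟨x', hx', h4⟩ := h2 y' hy'
    have := h x (hs.1 x hx) x' (hs.1 x' hx') (hs.2 x hx x' hx')
    rcases h3 with rfl | rfl <;> rcases h4 with rfl | rfl <;> tauto

/-- Homotopy invariance, at the level of cochains. Subdivide the time interval using uniform
continuity on `Icc 0 1 ×ˢ Z` and apply `prism` to consecutive maps. -/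
theorem htpy {H : ℝ × X → Y} {Z A : Set X} {Z' A' : Set Y} (hZ : IsCompact Z) (hA : A ⊆ Z)
    (hH : ContinuousOn H (Icc 0 1 ×ˢ Z)) (h1 : MapsTo H (Icc 0 1 ×ˢ Z) Z')
    (h2 : MapsTo H (Icc 0 1 ×ˢ A) A') {n : ℕ} {φ : List Y → K}
    (hφ : φ ∈ Zc (dL K Y) (Nul K A') (Nul K Z') n) :
    pull K (fun x => H (1, x)) φ - pull K (fun x => H (0, x)) φ ∈
      Bc (dL K X) (Nul K A) (Nul K Z) n := by
  obtain ⟨⟨ε₁, hε₁, h3⟩, ε₂, hε₂, h4⟩ := hφ
  obtain ⟨δ, hδ, h'⟩ := Metric.uniformContinuousOn_iff.1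
    ((isCompact_Icc.prod hZ).uniformContinuousOn_of_continuous hH) _ (lt_min hε₁ hε₂)
  have key : ∀ s ∈ Icc (0 : ℝ) 1, ∀ t ∈ Icc (0 : ℝ) 1, dist s t < δ →
      pull K (fun x => H (t, x)) φ - pull K (fun x => H (s, x)) φ ∈
        Bc (dL K X) (Nul K A) (Nul K Z) n := fun s hs t ht hst => by
    have h5 : ∀ u ∈ Icc (0 : ℝ) 1, ∀ v ∈ Icc (0 : ℝ) 1, dist u v < δ → ∀ x ∈ Z, ∀ y ∈ Z,
        dist x y < δ → dist (H (u, x)) (H (v, y)) < min ε₁ ε₂ := fun u hu v hv h x hx y hy h'' =>
      h' _ ⟨hu, hx⟩ _ ⟨hv, hy⟩ (max_lt h h'')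
    have h6 : ∀ x ∈ Z, ∀ y ∈ Z, dist x y < δ → ∀ ε, min ε₁ ε₂ ≤ ε →
        dist (H (s, x)) (H (s, y)) < ε ∧ dist (H (s, x)) (H (t, y)) < ε ∧
        dist (H (t, x)) (H (s, y)) < ε ∧ dist (H (t, x)) (H (t, y)) < ε := fun x hx y hy h ε hε =>
      ⟨(h5 s hs s hs (by simpa using hδ) x hx y hy h).trans_le hε,
        (h5 s hs t ht hst x hx y hy h).trans_le hε,
        (h5 t ht s hs (by rwa [dist_comm]) x hx y hy h).trans_le hε,
        (h5 t ht t ht (by simpa using hδ) x hx y hy h).trans_le hε⟩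
    rw [prism]
    refine Submodule.add_mem_sup ⟨_, ⟨δ, hδ, fun l hl hs' => ?_⟩, rfl⟩ ⟨δ, hδ, fun l hl hs' => ?_⟩
    · exact AS_pr_nul (Z := A) (f := fun x => H (s, x)) (g := fun x => H (t, x)) h3
        (fun x hx => h2 ⟨hs, hx⟩) (fun x hx => h2 ⟨ht, hx⟩)
        (fun x hx y hy h => h6 x (hA hx) y (hA hy) h _ (min_le_left _ _)) hl hs'
    · exact AS_pr_nul (Z := Z) (f := fun x => H (s, x)) (g := fun x => H (t, x)) h4
        (fun x hx => h1 ⟨hs, hx⟩) (fun x hx => h1 ⟨ht, hx⟩)
        (fun x hx y hy h => h6 x hx y hy h _ (min_le_right _ _)) hl hs'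
  obtain ⟨N, hN⟩ := exists_nat_one_div_lt hδ
  have hm : ∀ k : ℕ, k ≤ N + 1 → (k : ℝ) / (N + 1) ∈ Icc (0 : ℝ) 1 := fun k hk =>
    ⟨by positivity, div_le_one_of_le₀ (by exact_mod_cast hk) (by positivity)⟩
  have : ∀ k : ℕ, k ≤ N + 1 → pull K (fun x => H (k / (N + 1), x)) φ -
      pull K (fun x => H (0, x)) φ ∈ Bc (dL K X) (Nul K A) (Nul K Z) n := fun k hk => by
    induction k with
    | zero => simp
    | succ k ih =>
      rw [← sub_add_sub_cancel _ (pull K (fun x => H (k / (N + 1), x)) φ)]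
      refine Submodule.add_mem _ (key _ (hm k (by omega)) _ (hm _ hk) ?_) (ih (by omega))
      rwa [dist_comm, Real.dist_eq, ← sub_div, Nat.cast_succ, add_sub_cancel_left,
        abs_of_pos (by positivity)]
  have h5 := this (N + 1) le_rfl
  rwa [Nat.cast_succ, div_self (by positivity)] at h5

variable (X) in
/-- A continuous action of the cyclic group of order six, given by a generator. -/
structure Act where
  T : X → X
  cont : Continuous T
  per : ∀ x, T^[6] x = x

variable (X) in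
/-- The trivial action. -/
def Act.triv : Act X := ⟨id, continuous_id, fun _ => rfl⟩

/-- The action on a product, trivial on the second factor. -/
def Act.prod (a : Act X) (Y : Type) [MetricSpace Y] : Act (X × Y) :=
  ⟨fun p => (a.T p.1, p.2), by have := a.cont; fun_prop, fun p => by
    have := a.per p.1
    simp only [Function.iterate_succ, Function.iterate_zero, Function.comp_apply, id_eq] at this ⊢
    rw [this]⟩

/-- Cyclic permutation of the numbers below `m`. -/
def cycT (m i : ℕ) : ℕ := if i < m then (i + 1) % m else i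

theorem cycT_per {m : ℕ} (hm : m ∣ 6) (i : ℕ) : (cycT m)^[6] i = i := by
  have h6 : m ≤ 6 := Nat.le_of_dvd (by norm_num) hm
  by_cases h : i < m
  · interval_cases m <;> first | omega | (interval_cases i <;> rfl)
  · have : cycT m i = i := if_neg h
    exact Function.iterate_fixed this 6

/-- The cyclic action on the numbers below `m`, for `m` dividing six. -/
def Act.cyc (m : ℕ) (hm : m ∣ 6) : Act ℕ := ⟨cycT m, continuous_of_discreteTopology, cycT_per hm⟩

/-- An invariant compact set. -/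
structure Act.Inv (a : Act X) (Z : Set X) : Prop where
  cpt : IsCompact Z
  maps : MapsTo a.T Z Z

/-- Eigencochains. -/
def Eig (a : Act X) (l : K) : Submodule K (List X → K) where
  carrier := {φ | ∀ m : List X, φ (m.map a.T) = l * φ m}
  zero_mem' := fun _ => by simp
  add_mem' := fun h h' m => by rw [Pi.add_apply, Pi.add_apply, h m, h' m, mul_add]
  smul_mem' := fun c φ h m => by
    rw [Pi.smul_apply, Pi.smul_apply, h m, smul_eq_mul, smul_eq_mul]; ring

/-- Betti numbers of the eigenspace for `l` of the cohomology of the pair `(Z, A)`. -/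
def beta (a : Act X) (l : K) (Z A : Set X) (n : ℕ) : ℕ∞ :=
  bet (dL K X) (fun k => Nul K A k ⊓ Eig a l) (fun k => Nul K Z k ⊓ Eig a l) n

/-- The standing assumption on the eigenvalue. -/
structure Good (l : K) : Prop where
  six : (6 : K) ≠ 0
  pow : l ^ 6 = 1

variable (K) in
/-- The map `f` of pairs induces an isomorphism in cohomology (no actions). -/
structure QI (f : X → Y) (Z A : Set X) (Z' A' : Set Y) : Prop where
  inj : ∀ n, ∀ φ ∈ Zc (dL K Y) (Nul K A') (Nul K Z') n,
    pull K f φ ∈ Bc (dL K X) (Nul K A) (Nul K Z) n → φ ∈ Bc (dL K Y) (Nul K A') (Nul K Z') n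
  surj : ∀ n, ∀ φ ∈ Zc (dL K X) (Nul K A) (Nul K Z) n,
    ∃ ψ ∈ Zc (dL K Y) (Nul K A') (Nul K Z') n,
      φ - pull K f ψ ∈ Bc (dL K X) (Nul K A) (Nul K Z) n

end Vale.Agent.P265
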