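import Vale.Agent.P265.Chart

/-!
An embedded submanifold as a Mathlib manifold, and symplectic forms on it.
-/

open scoped Manifold ContDiff Topology
open Set Filter

noncomputable section

namespace Vale.Agent.P265

variable {A A' E E' F : Type} [NormedAddCommGroup A] [NormedSpace ℝ A] [NormedAddCommGroup A']
  [NormedSpace ℝ A'] [NormedAddCommGroup E] [NormedSpace ℝ E] [NormedAddCommGroup E']
  [NormedSpace ℝ E'] [NormedAddCommGroup F] [NormedSpace ℝ F]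

/-- A choice of a chart around every point. -/
structure Atl (S : Set A) (E : Type) [NormedAddCommGroup E] [NormedSpace ℝ E] where
  c : A → PChart S E
  mem : ∀ s ∈ S, s ∈ (c s).O

namespace Atl

variable {S : Set A} (a : Atl S E)

/-- The underlying type. -/
def M (_ : Atl S E) : Type := S

instance : TopologicalSpace a.M := inferInstanceAs (TopologicalSpace S)
instance : T2Space a.M := inferInstanceAs (T2Space S)

/-- The inclusion. -/
def val (x : a.M) : A := Subtype.val (p := fun s => s ∈ S) x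

theorem val_mem (x : a.M) : a.val x ∈ S := Subtype.property (p := fun s => s ∈ S) x

/-- A point of `S` as a point of the manifold. -/
def mk' (s : A) (h : s ∈ S) : a.M := Subtype.mk (p := fun s => s ∈ S) s h

theorem val_inj {x y : a.M} (h : a.val x = a.val y) : x = y := Subtype.ext h

theorem cont_val : Continuous a.val := continuous_subtype_val

open Classical in
/-- The chart at `x`. -/
def chart (x : a.M) : OpenPartialHomeomorph a.M E where
  toFun y := (a.c (a.val x)).χ (a.val y)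
  invFun η := if h : η ∈ (a.c (a.val x)).U then a.mk' _ ((a.c (a.val x)).mψ h).1 else x
  source := a.val ⁻¹' (a.c (a.val x)).O
  target := (a.c (a.val x)).U
  map_source' y hy := (a.c (a.val x)).mχ ⟨a.val_mem y, hy⟩
  map_target' η hη := by
    rw [dif_pos hη]; exact ((a.c (a.val x)).mψ hη).2
  left_inv' y hy := by
    rw [dif_pos ((a.c (a.val x)).mχ ⟨a.val_mem y, hy⟩)]
    exact a.val_inj ((a.c (a.val x)).ri _ ⟨a.val_mem y, hy⟩)
  right_inv' η hη := by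
    rw [dif_pos hη]; exact (a.c (a.val x)).li _ hη
  open_source := (a.c (a.val x)).oO.preimage a.cont_val
  open_target := (a.c (a.val x)).oU
  continuousOn_toFun := (a.c (a.val x)).sχ.continuousOn.comp a.cont_val.continuousOn fun _ h => h
  continuousOn_invFun := by
    refine (Topology.IsInducing.subtypeVal.continuousOn_iff).2 ?_
    refine (a.c (a.val x)).sψ.continuousOn.congr fun η hη => ?_
    exact congrArg Subtype.val (dif_pos hη)

instance : ChartedSpace E a.M where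
  atlas := range a.chart
  chartAt := a.chart
  mem_chart_source x := a.mem _ (a.val_mem x)
  chart_mem_atlas x := ⟨x, rfl⟩

theorem chartAt_apply (x y : a.M) : chartAt E x y = (a.c (a.val x)).χ (a.val y) := rfl

theorem chartAt_target (x : a.M) : (chartAt E x).target = (a.c (a.val x)).U := rfl

theorem val_symm (x : a.M) {η : E} (h : η ∈ (a.c (a.val x)).U) :
    a.val ((chartAt E x).symm η) = (a.c (a.val x)).ψ η := congrArg Subtype.val (dif_pos h)

theorem atl_mem (x : a.M) : (a.c (a.val x)).χ (a.val x) ∈ (a.c (a.val x)).U :=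
  (a.c (a.val x)).mχ ⟨a.val_mem x, a.mem _ (a.val_mem x)⟩

theorem atl_loc (f : A → F) (x : a.M) :
    writtenInExtChartAt 𝓘(ℝ, E) 𝓘(ℝ, F) x (fun y : a.M => f (a.val y)) =ᶠ[𝓝 (extChartAt 𝓘(ℝ, E) x x)]
      fun η => f ((a.c (a.val x)).ψ η) :=
  ((a.c (a.val x)).oU.eventually_mem (a.atl_mem x)).mono fun _ h => congrArg f (a.val_symm x h)

theorem atl_sm {f : A → F} (h : Sm S f) :
    ContMDiff 𝓘(ℝ, E) 𝓘(ℝ, F) ∞ (fun x : a.M => f (a.val x)) := fun x =>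
  contMDiffAt_iff.2 ⟨(h.continuousOn.comp_continuous a.cont_val a.val_mem).continuousAt,
    ((((a.c (a.val x)).sm h).contDiffAt ((a.c (a.val x)).oU.mem_nhds
      (a.atl_mem x))).congr_of_eventuallyEq (a.atl_loc f x)).contDiffWithinAt⟩

theorem atl_mfderiv {f : A → F} (h : Sm S f) (x : a.M) :
    mfderiv 𝓘(ℝ, E) 𝓘(ℝ, F) (fun x : a.M => f (a.val x)) x =
      fderiv ℝ (fun η => f ((a.c (a.val x)).ψ η)) ((a.c (a.val x)).χ (a.val x)) := by
  rw [((a.atl_sm h x).mdifferentiableAt (by simp)).mfderiv, modelWithCornersSelf_coe, range_id,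
    fderivWithin_univ]
  exact (a.atl_loc f x).fderiv_eq

theorem isManifold : IsManifold 𝓘(ℝ, E) ∞ a.M := by
  refine isManifold_of_contDiffOn _ _ _ ?_
  rintro _ _ ⟨x, rfl⟩ ⟨y, rfl⟩
  refine ContDiffOn.congr ((a.c (a.val y)).sχ.comp ((a.c (a.val x)).sψ.mono fun η h => h.1.1)
    fun η h => ?_) fun η h => congrArg (a.c (a.val y)).χ (a.val_symm x h.1.1)
  exact a.val_symm x h.1.1 ▸ h.1.2

theorem contMDiff_val : ContMDiff 𝓘(ℝ, E) 𝓘(ℝ, A) ∞ a.val :=   a.atl_sm (sm_of_contDiffOn isOpen_univ (subset_univ _) contDiffOn_id)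

theorem mfderiv_val (x : a.M) (v : E) : mfderiv 𝓘(ℝ, E) 𝓘(ℝ, A) a.val x v =
    fderiv ℝ (a.c (a.val x)).ψ ((a.c (a.val x)).χ (a.val x)) v :=   congrArg (fun L : E →L[ℝ] A => L v)
    (a.atl_mfderiv (sm_of_contDiffOn isOpen_univ (subset_univ _) contDiffOn_id) x)

theorem contMDiff_of_sm {f : A → F} (h : Sm S f) :
    ContMDiff 𝓘(ℝ, E) 𝓘(ℝ, F) ∞ (fun x : a.M => f (a.val x)) := a.atl_sm h

theorem mfderiv_of_sm {f : A → F} (h : Sm S f) (x : a.M) (v : E) :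
    mfderiv 𝓘(ℝ, E) 𝓘(ℝ, F) (fun x : a.M => f (a.val x)) x v =
      fderiv ℝ (fun η => f ((a.c (a.val x)).ψ η)) ((a.c (a.val x)).χ (a.val x)) v :=   congrArg (fun L : E →L[ℝ] F => L v) (a.atl_mfderiv h x)

section into
variable {EN HN N : Type} [NormedAddCommGroup EN] [NormedSpace ℝ EN] [TopologicalSpace HN]
  {I : ModelWithCorners ℝ EN HN} [TopologicalSpace N] [ChartedSpace HN N]

theorem contMDiff_into {f : N → a.M} (h : ContMDiff I 𝓘(ℝ, A) ∞ (fun y => a.val (f y))) :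
    ContMDiff I 𝓘(ℝ, E) ∞ f := fun y =>
  contMDiffAt_iff_target.2 ⟨(h.continuous.subtype_mk fun y => a.val_mem (f y)).continuousAt,
    ((a.c _).sχ.contDiffAt ((a.c _).oO.mem_nhds (a.mem _ (a.val_mem (f y))))).comp_contMDiffAt
      (f := fun y => a.val (f y)) (h y)⟩

theorem mfderiv_into {f : N → a.M} {y : N}
    (h : MDifferentiableAt I 𝓘(ℝ, A) (fun y => a.val (f y)) y) (v : EN) :
    mfderiv I 𝓘(ℝ, E) f y v = fderiv ℝ (a.c (a.val (f y))).χ (a.val (f y))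
      (mfderiv I 𝓘(ℝ, A) (fun y => a.val (f y)) y v) := by
  have h1 := h.hasMFDerivAt
  have h2 : HasMFDerivAt I 𝓘(ℝ, E) f y ((fderiv ℝ (a.c (a.val (f y))).χ (a.val (f y))).comp
      (mfderiv I 𝓘(ℝ, A) (fun y => a.val (f y)) y)) :=
    ⟨Topology.IsInducing.subtypeVal.continuousAt_iff.2 h1.1,
      HasFDerivAt.comp_hasFDerivWithinAt (g := (a.c (a.val (f y))).χ) _ (by
        simpa [chartAt_self_eq] using
          ((a.c _).chart_dχ (a.mem _ (a.val_mem (f y)))).hasFDerivAt) h1.2⟩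
  exact congrArg (fun L : EN →L[ℝ] E => L v) h2.mfderiv

end into

/-- A smooth function on `M × ℝ^k`, in the chart at `x`. -/
theorem contDiffOn_loc {k : ℕ} {G : a.M × Eu k → ℝ}
    (h : ContMDiff (𝓘(ℝ, E).prod 𝓘(ℝ, Eu k)) 𝓘(ℝ, ℝ) ∞ G) (x : a.M) :
    ContDiffOn ℝ ∞ (fun q : E × Eu k => G ((chartAt E x).symm q.1, q.2))
      ((a.c (a.val x)).U ×ˢ univ) := by
  have := a.isManifold
  exact contMDiffOn_iff_contDiffOn.1 (h.comp_contMDiffOn (ContMDiffOn.prodMk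
    ((contMDiffOn_chart_symm (x := x)).comp contDiff_fst.contMDiff.contMDiffOn fun _ h => h.1)
    contDiff_snd.contMDiff.contMDiffOn))

theorem mem_critSet {k : ℕ} {G : a.M × Eu k → ℝ}
    (h : ContMDiff (𝓘(ℝ, E).prod 𝓘(ℝ, Eu k)) 𝓘(ℝ, ℝ) ∞ G) (p : a.M × Eu k) :
    p ∈ critSet E G ↔ fderiv ℝ (fun q : E × Eu k => G ((chartAt E p.1).symm q.1, q.2))
      (chartAt E p.1 p.1, p.2) = 0 := by
  rw [critSet, mem_ofPred_eq, ((h p).mdifferentiableAt (by simp)).mfderiv,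
    ModelWithCorners.range_eq_univ, fderivWithin_univ]
  rfl

end Atl

/-- An atlas with a symplectic form: `w s` is the form on tangent vectors at `s`, and `Ω s` is its
expression in the chart chosen at `s`. -/
structure SAtl (S : Set A) (E : Type) [NormedAddCommGroup E] [NormedSpace ℝ E] extends Atl S E where
  w : A → A → A → ℝ
  Ω : A → E → E →L[ℝ] E →L[ℝ] ℝ
  compat : ∀ s ∈ S, ∀ η ∈ (c s).U, ∀ u v,
    w ((c s).ψ η) (fderiv ℝ (c s).ψ η u) (fderiv ℝ (c s).ψ η v) = Ω s η u v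
  smooth : ∀ s ∈ S, ContDiffOn ℝ ∞ (Ω s) (c s).U
  alt : ∀ s ∈ S, ∀ η ∈ (c s).U, ∀ v, Ω s η v v = 0
  nondeg : ∀ s ∈ S, ∀ η ∈ (c s).U, ∀ v, (∀ u, Ω s η v u = 0) → v = 0
  closed : ∀ s ∈ S, ∀ η ∈ (c s).U, ∀ u v z,
    fderiv ℝ (Ω s) η u v z + fderiv ℝ (Ω s) η v z u + fderiv ℝ (Ω s) η z u v = 0

namespace SAtl

variable {S : Set A}

/-- The form as a field on the manifold. -/
def form (a : SAtl S E) (x : a.toAtl.M) : E →L[ℝ] E →L[ℝ] ℝ :=
  a.Ω (a.toAtl.val x) ((a.c (a.toAtl.val x)).χ (a.toAtl.val x))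

/-- On the target of the chart at `x` one has `inChart a.form x = a.Ω (val x)`, by `compat` used
twice (`mfderiv_into`, `dψ_dχ`). -/
theorem symplectic (a : SAtl S E) : IsSymplectic a.form := by
  have key : ∀ x : a.toAtl.M, ∀ η ∈ (a.c (a.toAtl.val x)).U,
      inChart a.form x η = a.Ω (a.toAtl.val x) η := fun x η hη => by
    set y := (chartAt E x).symm η with hy
    have e : a.toAtl.val y = (a.c (a.toAtl.val x)).ψ η := a.toAtl.val_symm x hη
    have e1 : (fun η => a.toAtl.val ((chartAt E x).symm η)) =ᶠ[𝓝 η] (a.c (a.toAtl.val x)).ψ :=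
      ((a.c _).oU.eventually_mem hη).mono fun _ h => a.toAtl.val_symm x h
    have d := ((a.c _).chart_dψ hη).congr_of_eventuallyEq e1
    have e2 : ∀ u : E, mfderiv 𝓘(ℝ, E) 𝓘(ℝ, E) (chartAt E x).symm η u =
        fderiv ℝ (a.c (a.toAtl.val y)).χ (a.toAtl.val y)
          (fderiv ℝ (a.c (a.toAtl.val x)).ψ η u) := fun u => by
      rw [a.toAtl.mfderiv_into d.mdifferentiableAt, mfderiv_eq_fderiv, e1.fderiv_eq]
      rfl
    have hy' : a.toAtl.val y ∈ S ∩ (a.c (a.toAtl.val y)).O :=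
      ⟨a.toAtl.val_mem y, a.mem _ (a.toAtl.val_mem y)⟩
    have e3 := fun u => (a.c _).dψ_dχ hy' (e ▸ (a.c _).tan hη u)
    ext u v
    have k := a.compat _ hy'.1 _ (a.toAtl.atl_mem y) (mfderiv 𝓘(ℝ, E) 𝓘(ℝ, E) (chartAt E x).symm η u)
      (mfderiv 𝓘(ℝ, E) 𝓘(ℝ, E) (chartAt E x).symm η v)
    refine k.symm.trans ?_
    rw [(a.c _).ri _ hy', e2, e2, e3, e3, e]
    exact a.compat _ (a.toAtl.val_mem x) η hη u v
  refine ⟨fun x => a.alt _ (a.toAtl.val_mem x) _ (a.toAtl.atl_mem x),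
    fun x => a.nondeg _ (a.toAtl.val_mem x) _ (a.toAtl.atl_mem x),
    fun x => (a.smooth _ (a.toAtl.val_mem x)).congr (key x), fun x η hη => ?_⟩
  rw [EventuallyEq.fderiv_eq (((a.c _).oU.eventually_mem hη).mono (key x))]
  exact a.closed _ (a.toAtl.val_mem x) η hη

/-- Pull back of bilinear forms. -/
def atlP (g : E' →L[ℝ] E) : (E →L[ℝ] E →L[ℝ] ℝ) →L[ℝ] E' →L[ℝ] E' →L[ℝ] ℝ :=
  (ContinuousLinearMap.compL ℝ E' (E →L[ℝ] ℝ) (E' →L[ℝ] ℝ)
    ((ContinuousLinearMap.compL ℝ E' E ℝ).flip g)).comp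
    ((ContinuousLinearMap.compL ℝ E' E (E →L[ℝ] ℝ)).flip g)

theorem atl_pull (g : E' →L[ℝ] E) {Ω : E → E →L[ℝ] E →L[ℝ] ℝ} {U : Set E} (hU : IsOpen U)
    (h : ContDiffOn ℝ ∞ Ω U) : ContDiffOn ℝ ∞ (fun η => atlP g (Ω (g η))) (g ⁻¹' U) ∧
      ∀ η, g η ∈ U → DifferentiableAt ℝ (fun η => atlP g (Ω (g η))) η ∧ ∀ u v z,
        fderiv ℝ (fun η => atlP g (Ω (g η))) η u v z = fderiv ℝ Ω (g η) (g u) (g v) (g z) := by
  have c : ContDiff ℝ ∞ (fun B : E →L[ℝ] E →L[ℝ] ℝ => atlP g B) :=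
    ContinuousLinearMap.contDiff (𝕜 := ℝ) (E := E →L[ℝ] E →L[ℝ] ℝ) (F := E' →L[ℝ] E' →L[ℝ] ℝ)
      (atlP g)
  refine ⟨c.comp_contDiffOn (h.comp g.contDiff.contDiffOn fun _ h => h), fun η hη => ?_⟩
  have k1 := ContinuousLinearMap.hasFDerivAt (E := E →L[ℝ] E →L[ℝ] ℝ) (F := E' →L[ℝ] E' →L[ℝ] ℝ)
    (atlP g) (x := Ω (g η))
  have k0 := ((h.contDiffAt (hU.mem_nhds hη)).differentiableAt
    (by simp)).hasFDerivAt.comp η g.hasFDerivAt
  have k := HasFDerivAt.comp (𝕜 := ℝ) (F := E →L[ℝ] E →L[ℝ] ℝ) (G := E' →L[ℝ] E' →L[ℝ] ℝ) η k1 k0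
  exact ⟨k.differentiableAt, fun u v z =>
    congrArg (fun L : E' →L[ℝ] E' →L[ℝ] E' →L[ℝ] ℝ => L u v z) k.fderiv⟩

theorem atl_add {f g : E → E →L[ℝ] E →L[ℝ] ℝ} {η : E} (d1 : DifferentiableAt ℝ f η)
    (d2 : DifferentiableAt ℝ g η) (u v z : E) :
    fderiv ℝ (fun η => f η + g η) η u v z = fderiv ℝ f η u v z + fderiv ℝ g η u v z :=
  congrArg (fun L : E →L[ℝ] E →L[ℝ] E →L[ℝ] ℝ => L u v z) (fderiv_fun_add (𝕜 := ℝ) (E := E)
    (F := E →L[ℝ] E →L[ℝ] ℝ) (f := f) (g := g) (x := η) d1 d2)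

theorem exists_prod {S' : Set A'} (a : SAtl S E) (b : SAtl S' E') :
    ∃ p : SAtl (S ×ˢ S') (E × E'), (∀ s, p.c s = (a.c s.1).prod (b.c s.2)) ∧
      ∀ s u v, p.w s u v = a.w s.1 u.1 v.1 + b.w s.2 u.2 v.2 := by
  have D : ∀ {s : A × A'} {η : E × E'}, η ∈ ((a.c s.1).prod (b.c s.2)).U → ∀ u,
      fderiv ℝ ((a.c s.1).prod (b.c s.2)).ψ η u =
        (fderiv ℝ (a.c s.1).ψ η.1 u.1, fderiv ℝ (b.c s.2).ψ η.2 u.2) := fun h u =>
    congrArg (fun L : E × E' →L[ℝ] A × A' => L u) (((a.c _).chart_dψ h.1).hasFDerivAt.prodMap _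
      ((b.c _).chart_dψ h.2).hasFDerivAt).fderiv
  have p1 := fun s hs => atl_pull (ContinuousLinearMap.fst ℝ E E') (a.c s).oU (a.smooth s hs)
  have p2 := fun s hs => atl_pull (ContinuousLinearMap.snd ℝ E E') (b.c s).oU (b.smooth s hs)
  refine ⟨⟨⟨fun s => (a.c s.1).prod (b.c s.2), fun s hs => ⟨a.mem _ hs.1, b.mem _ hs.2⟩⟩,
    fun s u v => a.w s.1 u.1 v.1 + b.w s.2 u.2 v.2,
    fun s η => atlP (.fst ℝ E E') (a.Ω s.1 η.1) + atlP (.snd ℝ E E') (b.Ω s.2 η.2),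
    fun s hs η hη u v => ?_, fun s hs => ((p1 _ hs.1).1.mono fun _ h => h.1).add
      ((p2 _ hs.2).1.mono fun _ h => h.2), fun s hs η hη v => ?_, fun s hs η hη v h => ?_,
    fun s hs η hη u v z => ?_⟩, fun _ => rfl, fun _ _ _ => rfl⟩
  · rw [D hη, D hη]
    exact congrArg₂ (· + ·) (a.compat _ hs.1 _ hη.1 _ _) (b.compat _ hs.2 _ hη.2 _ _)
  · exact (congrArg₂ (· + ·) (a.alt _ hs.1 _ hη.1 v.1) (b.alt _ hs.2 _ hη.2 v.2)).trans (add_zero 0)
  · exact Prod.ext (a.nondeg _ hs.1 _ hη.1 _ fun u => by simpa [atlP] using h (u, 0))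
      (b.nondeg _ hs.2 _ hη.2 _ fun u => by simpa [atlP] using h (0, u))
  · obtain ⟨d1, k1⟩ := (p1 _ hs.1).2 η hη.1
    obtain ⟨d2, k2⟩ := (p2 _ hs.2).2 η hη.2
    refine (congrArg₂ (· + ·) (congrArg₂ (· + ·) (atl_add d1 d2 u v z) (atl_add d1 d2 v z u))
      (atl_add d1 d2 z u v)).trans ?_
    rw [k1, k1, k1, k2, k2, k2]
    simp only [ContinuousLinearMap.coe_fst', ContinuousLinearMap.coe_snd']
    linarith [a.closed _ hs.1 _ hη.1 u.1 v.1 z.1, b.closed _ hs.2 _ hη.2 u.2 v.2 z.2]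

/-- Change of the model space. -/
theorem exists_model (a : SAtl S E) (L : E' ≃L[ℝ] E) :
    ∃ p : SAtl S E', p.w = a.w ∧ ∀ s, (p.c s).U = L ⁻¹' (a.c s).U ∧
      ∀ η, (p.c s).ψ η = (a.c s).ψ (L η) := by
  have p := fun s hs => atl_pull (L : E' →L[ℝ] E) (a.c s).oU (a.smooth s hs)
  refine ⟨⟨⟨fun s => ⟨fun η => (a.c s).ψ (L η), fun x => L.symm ((a.c s).χ x), L ⁻¹' (a.c s).U,
      (a.c s).O, (a.c s).oU.preimage L.continuous, (a.c s).oO,
      (a.c s).sψ.comp L.contDiff.contDiffOn fun _ h => h,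
      L.symm.contDiff.comp_contDiffOn (a.c s).sχ, fun _ h => (a.c s).mψ h,
      fun x h => by simpa using (a.c s).mχ h, fun η h => by simp [(a.c s).li _ h],
      fun x h => by simp [(a.c s).ri _ h]⟩, a.mem⟩, a.w,
    fun s η => atlP (L : E' →L[ℝ] E) (a.Ω s (L η)), fun s hs η hη u v => ?_, fun s hs => (p s hs).1,
    fun s hs η hη v => a.alt s hs _ hη (L v), fun s hs η hη v h => ?_,
    fun s hs η hη u v z => ?_⟩, rfl, fun _ => ⟨rfl, fun _ => rfl⟩⟩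
  · rw [show fderiv ℝ (fun η => (a.c s).ψ (L η)) η = _ from
      (((a.c s).chart_dψ hη).hasFDerivAt.comp η L.hasFDerivAt).fderiv]
    exact a.compat s hs _ hη (L u) (L v)
  · refine L.map_eq_zero_iff.1 (a.nondeg s hs _ hη _ fun u => ?_)
    simpa [atlP] using h (L.symm u)
  · have k := ((p s hs).2 η hη).2
    exact (congrArg₂ (· + ·) (congrArg₂ (· + ·) (k u v z) (k v z u)) (k z u v)).trans
      (a.closed s hs _ hη _ _ _)

end SAtl

end Vale.Agent.P265
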