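import Vale.Agent.P265.Rel

/-!
The rules for computing the numbers `beta`.
-/

open Set

noncomputable section

namespace Vale.Agent.P265

variable {K : Type} [Field K] {X Y : Type} [MetricSpace X] [MetricSpace Y]

/-- Averaging over the group, a projection onto the eigencochains. -/
def avg (a : Act X) (l : K) : (List X → K) →ₗ[K] (List X → K) :=
  (6 : K)⁻¹ • ∑ j ∈ Finset.range 6, l ^ (5 * j) • pull K (a.T^[j])

omit [MetricSpace X] [MetricSpace Y] in
theorem Beta_pull_apply (f : X → Y) (φ : List Y → K) (m : List X) :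
    pull K f φ m = φ (m.map f) := rfl

omit [MetricSpace X] in
theorem Beta_pull_id (φ : List X → K) : pull K id φ = φ := funext fun m => by
  rw [Beta_pull_apply, List.map_id]

theorem Beta_avg_eq (a : Act X) (l : K) (φ : List X → K) :
    avg a l φ = (6 : K)⁻¹ • ∑ j ∈ Finset.range 6, l ^ (5 * j) • pull K (a.T^[j]) φ := by
  simp only [avg, LinearMap.smul_apply, LinearMap.sum_apply]

theorem Beta_avg_apply (a : Act X) (l : K) (φ : List X → K) (m : List X) :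
    avg a l φ m = (6 : K)⁻¹ * ∑ j ∈ Finset.range 6, l ^ (5 * j) * φ (m.map a.T^[j]) := by
  simp only [Beta_avg_eq, Pi.smul_apply, Finset.sum_apply, smul_eq_mul, Beta_pull_apply]

theorem Beta_eig_iter {a : Act X} {l : K} {φ : List X → K} (h : φ ∈ Eig a l) (j : ℕ)
    (m : List X) : φ (m.map a.T^[j]) = l ^ j * φ m := by
  induction j with
  | zero => simp
  | succ j ih => rw [Function.iterate_succ', ← List.map_map, h, ih, pow_succ', mul_assoc]

theorem Beta_eig_dL {a : Act X} {l : K} {φ : List X → K} (h : φ ∈ Eig a l) :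
    dL K X φ ∈ Eig a l := fun m => by
  have e : pull K a.T φ = l • φ := funext h
  show pull K a.T (dL K X φ) m = _
  rw [← dL_pull, e, map_smul]
  rfl

theorem avg_mem {a : Act X} {l : K} (hl : Good l) (φ : List X → K) : avg a l φ ∈ Eig a l := by
  intro m
  have e : ∀ j, (m.map a.T).map a.T^[j] = m.map a.T^[j + 1] := fun j => by
    rw [List.map_map, Function.iterate_succ]
  have e6 : m.map a.T^[6] = m.map a.T^[0] := List.map_congr_left fun x _ => a.per x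
  simp only [Beta_avg_apply, e, Finset.sum_range_succ, Finset.sum_range_zero, Nat.reduceAdd, e6,
    Nat.reduceMul]
  linear_combination (6 : K)⁻¹ * ((l ^ 19 + l ^ 13 + l ^ 7 + l) * φ (m.map a.T^[0]) -
    φ (m.map a.T^[1]) - l ^ 5 * φ (m.map a.T^[2]) - l ^ 10 * φ (m.map a.T^[3]) -
    l ^ 15 * φ (m.map a.T^[4]) - l ^ 20 * φ (m.map a.T^[5])) * hl.pow

theorem avg_of_mem {a : Act X} {l : K} (hl : Good l) {φ : List X → K} (h : φ ∈ Eig a l) :
    avg a l φ = φ := by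
  funext m
  have e : ∀ j ∈ Finset.range 6, l ^ (5 * j) * φ (m.map a.T^[j]) = φ m := fun j _ => by
    rw [Beta_eig_iter h, ← mul_assoc, ← pow_add, show 5 * j + j = 6 * j by ring, pow_mul, hl.pow,
      one_pow, one_mul]
  rw [Beta_avg_apply, Finset.sum_congr rfl e, Finset.sum_const, Finset.card_range, nsmul_eq_mul,
    Nat.cast_ofNat, inv_mul_cancel_left₀ hl.six]

theorem avg_dL (a : Act X) (l : K) (φ : List X → K) :
    avg a l (dL K X φ) = dL K X (avg a l φ) := by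
  simp only [Beta_avg_eq, map_smul, map_sum, dL_pull]

theorem avg_nul {a : Act X} (l : K) {Z : Set X} (hZ : a.Inv Z) {n : ℕ} {φ : List X → K}
    (h : φ ∈ Nul K Z n) : avg a l φ ∈ Nul K Z n := by
  rw [Beta_avg_eq]
  exact Submodule.smul_mem _ _ (Submodule.sum_mem _ fun j _ => Submodule.smul_mem _ _
    (Nul.pull hZ.cpt (a.cont.iterate j).continuousOn (hZ.maps.iterate j) h))

theorem Act.Inv.empty (a : Act X) : a.Inv ∅ := ⟨isCompact_empty, mapsTo_empty _ _⟩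

theorem Act.Inv.prod {a : Act X} {Z : Set X} (h : a.Inv Z) {W : Set Y} (hW : IsCompact W) :
    (a.prod Y).Inv (Z ×ˢ W) := ⟨h.cpt.prod hW, fun _ hp => ⟨h.maps hp.1, hp.2⟩⟩

theorem Act.Inv.union {a : Act X} {Z W : Set X} (h : a.Inv Z) (h' : a.Inv W) : a.Inv (Z ∪ W) :=
  ⟨h.cpt.union h'.cpt, h.maps.union_union h'.maps⟩

/-- Eigencochains vanishing on small lists. -/
abbrev BetaP (a : Act X) (l : K) (Z : Set X) : ℕ → Submodule K (List X → K) :=
  fun k => Nul K Z k ⊓ Eig a l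

theorem Beta_Zc_full {a : Act X} {l : K} {Z A : Set X} {n : ℕ} {φ : List X → K}
    (h : φ ∈ Zc (dL K X) (BetaP a l A) (BetaP a l Z) n) : φ ∈ Zc (dL K X) (Nul K A) (Nul K Z) n :=
  ⟨h.1.1, h.2.1⟩

theorem Beta_Bc_full {a : Act X} {l : K} {Z A : Set X} {n : ℕ} {φ : List X → K}
    (h : φ ∈ Bc (dL K X) (BetaP a l A) (BetaP a l Z) n) : φ ∈ Bc (dL K X) (Nul K A) (Nul K Z) n :=
  (show Bc (dL K X) (BetaP a l A) (BetaP a l Z) n ≤ Bc (dL K X) (Nul K A) (Nul K Z) n from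
    sup_le_sup (Submodule.map_mono inf_le_left) inf_le_left) h

theorem Beta_avg_P {a : Act X} {l : K} (hl : Good l) {Z : Set X} (hZ : a.Inv Z) {n : ℕ}
    {φ : List X → K} (h : φ ∈ Nul K Z n) : avg a l φ ∈ BetaP a l Z n :=
  ⟨avg_nul l hZ h, avg_mem hl φ⟩

theorem Beta_avg_Zc {a : Act X} {l : K} (hl : Good l) {Z A : Set X} (hZ : a.Inv Z) (hA : a.Inv A)
    {n : ℕ} {φ : List X → K} (h : φ ∈ Zc (dL K X) (Nul K A) (Nul K Z) n) :
    avg a l φ ∈ Zc (dL K X) (BetaP a l A) (BetaP a l Z) n :=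
  ⟨Beta_avg_P hl hA h.1, by
    rw [SetLike.mem_coe, Submodule.mem_comap, ← avg_dL]
    exact Beta_avg_P hl hZ h.2⟩

theorem Beta_avg_Bc {a : Act X} {l : K} (hl : Good l) {Z A : Set X} (hZ : a.Inv Z) (hA : a.Inv A)
    {n : ℕ} {φ : List X → K} (h : φ ∈ Bc (dL K X) (Nul K A) (Nul K Z) n) :
    avg a l φ ∈ Bc (dL K X) (BetaP a l A) (BetaP a l Z) n := by
  obtain ⟨_, ⟨ψ, hψ, rfl⟩, q, hq, rfl⟩ := Submodule.mem_sup.1 h
  rw [map_add, avg_dL]
  exact Submodule.add_mem_sup ⟨_, Beta_avg_P hl hA hψ, rfl⟩ (Beta_avg_P hl hZ hq)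

theorem Beta_Bc_eig {a : Act X} {l : K} (hl : Good l) {Z A : Set X} (hZ : a.Inv Z) (hA : a.Inv A)
    {n : ℕ} {φ : List X → K} (he : φ ∈ Eig a l) (h : φ ∈ Bc (dL K X) (Nul K A) (Nul K Z) n) :
    φ ∈ Bc (dL K X) (BetaP a l A) (BetaP a l Z) n :=
  avg_of_mem hl he ▸ Beta_avg_Bc hl hZ hA h

theorem Beta_les (a : Act X) (l : K) {Z A B : Set X} (h1 : B ⊆ A) (h2 : A ⊆ Z) :
    ∃ i j r : ℕ → ℕ∞, r 0 = 0 ∧ (∀ n, beta a l Z B n = i n + j n) ∧
      (∀ n, beta a l A B n = i n + r (n + 1)) ∧ (∀ n, beta a l Z A n = j n + r n) ∧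
      ∀ n, (∀ z ∈ Zc (dL K X) (BetaP a l B) (BetaP a l A) n,
        ∃ z' ∈ Zc (dL K X) (BetaP a l B) (BetaP a l Z) n, z - z' ∈ BetaP a l A (n + 1)) →
        r (n + 1) = 0 :=
  have hs : ∀ W : Set X, IsSub (dL K X) (BetaP a l W) := fun W n z hz =>
    ⟨Nul.sub W n z hz.1, Beta_eig_dL hz.2⟩
  les_rank dL_dL (hs B) (hs Z) (hs A) (fun n => inf_le_inf_right _ (Nul.anti h2 n))
    (fun n => inf_le_inf_right _ (Nul.anti h1 n)) fun z hz =>
      ⟨Nul.zero B Z z hz.1, Beta_eig_dL hz.2⟩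

theorem beta_self (a : Act X) (l : K) (Z : Set X) (n : ℕ) : beta a l Z Z n = 0 := rd_eq_zero.2 fun _ hz => Submodule.mem_sup_right hz.1

/-- The long exact sequence of a triple. -/
theorem beta_les (a : Act X) (l : K) {Z A B : Set X} (h1 : B ⊆ A) (h2 : A ⊆ Z) :
    ∃ i j r : ℕ → ℕ∞, r 0 = 0 ∧ (∀ n, beta a l Z B n = i n + j n) ∧
      (∀ n, beta a l A B n = i n + r (n + 1)) ∧ ∀ n, beta a l Z A n = j n + r n := by
  obtain ⟨i, j, r, h0, hx, hy, hz, -⟩ := Beta_les a l h1 h2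
  exact ⟨i, j, r, h0, hx, hy, hz⟩

/-- The sequence splits if `A` is a retract of `Z` (the retraction need not be equivariant:
average the pull-back). -/
theorem beta_split {a : Act X} {l : K} (hl : Good l) {Z A B : Set X} (hZ : a.Inv Z) (hA : a.Inv A)
    (hB : a.Inv B) (h1 : B ⊆ A) (h2 : A ⊆ Z) {ρ : X → X} (hρ : ContinuousOn ρ Z)
    (hm : MapsTo ρ Z A) (hid : ∀ x ∈ A, ρ x = x) (n : ℕ) :
    beta a l Z B n = beta a l Z A n + beta a l A B n := by
  obtain ⟨i, j, r, h0, hx, hy, hz, hr⟩ := Beta_les a l h1 h2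
  have key : ∀ n, r n = 0 := fun n => by
    rcases n with _ | n
    · exact h0
    refine hr n fun z hz => ?_
    have e : z - pull K ρ z ∈ Nul K A (n + 1) := by
      have := Nul.pull_sub (f := id) (g := ρ) (Z := A) (fun x hx => (hid x hx).symm) (n + 1) z
      rwa [Beta_pull_id] at this
    refine ⟨avg a l (pull K ρ z), Beta_avg_Zc hl hZ hB ⟨?_, ?_⟩, ?_⟩
    · simpa using sub_mem hz.1.1 (Nul.anti h1 _ e)
    · rw [SetLike.mem_coe, Submodule.mem_comap, dL_pull]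
      exact Nul.pull hZ.cpt hρ hm hz.2.1
    · have := Beta_avg_P hl hA e
      rwa [map_sub, avg_of_mem hl hz.1.2] at this
  rw [hx, hy, hz, key, key, add_zero, add_zero, add_comm]

/-- A deformation of `Z` into `A` that preserves `A` (not necessarily equivariant). -/
theorem beta_acyc {a : Act X} {l : K} (hl : Good l) {Z A : Set X} (hZ : a.Inv Z) (hA : a.Inv A)
    (h : A ⊆ Z) {H : ℝ × X → X} (hH : ContinuousOn H (Icc 0 1 ×ˢ Z))
    (h1 : MapsTo H (Icc 0 1 ×ˢ Z) Z) (h2 : MapsTo H (Icc 0 1 ×ˢ A) A)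
    (h3 : ∀ x ∈ Z, H (0, x) = x) (h4 : ∀ x ∈ Z, H (1, x) ∈ A) (n : ℕ) : beta a l Z A n = 0 := by
  refine rd_eq_zero.2 fun z hz => Beta_Bc_eig hl hZ hA hz.1.2 ?_
  have e1 := htpy hZ.cpt h hH h1 h2 (Beta_Zc_full hz)
  have e2 : pull K (fun x => H (1, x)) z ∈ Nul K Z (n + 1) :=
    Nul.pull hZ.cpt (hH.comp (by fun_prop) fun x hx => ⟨right_mem_Icc.2 zero_le_one, hx⟩) h4 hz.1.1
  have e3 := Nul.pull_sub (f := fun x => H (0, x)) (g := id) (Z := Z) h3 (n + 1) z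
  rw [Beta_pull_id] at e3
  have e4 := sub_mem (sub_mem (Submodule.mem_sup_right e2) e1) (Submodule.mem_sup_right e3)
  rwa [sub_sub_cancel, sub_sub_cancel] at e4

theorem beta_left {a : Act X} {l : K} {Z A B : Set X} (h1 : B ⊆ A) (h2 : A ⊆ Z)
    (h : ∀ n, beta a l Z A n = 0) (n : ℕ) : beta a l Z B n = beta a l A B n := by
  obtain ⟨i, j, r, -, hx, hy, hz⟩ := beta_les a l h1 h2
  rw [hx, hy, (add_eq_zero.1 ((hz n).symm.trans (h n))).1,
    (add_eq_zero.1 ((hz (n + 1)).symm.trans (h (n + 1)))).2]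

theorem beta_right {a : Act X} {l : K} {Z A B : Set X} (h1 : B ⊆ A) (h2 : A ⊆ Z)
    (h : ∀ n, beta a l A B n = 0) (n : ℕ) : beta a l Z B n = beta a l Z A n := by
  obtain ⟨i, j, r, h0, hx, hy, hz⟩ := beta_les a l h1 h2
  have key : r n = 0 := by
    rcases n with _ | n
    exacts [h0, (add_eq_zero.1 ((hy n).symm.trans (h n))).2]
  rw [hx, hz, (add_eq_zero.1 ((hy n).symm.trans (h n))).1, key, zero_add, add_zero]

/-- An equivariant map that is an isomorphism in cohomology. Use `avg a l ∘ pull f` with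
`rd_le_of_inj` and `rd_le_of_surj`; `avg a l (pull f φ) - pull f φ ∈ Nul Z` for eigencochains. -/
theorem beta_qi {a : Act X} {b : Act Y} {l : K} (hl : Good l) {f : X → Y} {Z A : Set X}
    {Z' A' : Set Y} (hZ : a.Inv Z) (hA : a.Inv A) (hZ' : b.Inv Z') (hA' : b.Inv A') (h : A ⊆ Z)
    (hf : ContinuousOn f Z) (h1 : MapsTo f Z Z') (h2 : MapsTo f A A')
    (he : ∀ x ∈ Z, f (a.T x) = b.T (f x)) (hq : QI K f Z A Z' A') (n : ℕ) :
    beta a l Z A n = beta b l Z' A' n := by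
  have e : ∀ j, EqOn (f ∘ a.T^[j]) (b.T^[j] ∘ f) Z := fun j x hx => by
    induction j with
    | zero => rfl
    | succ j ih =>
      simp only [Function.comp_apply, Function.iterate_succ_apply'] at ih ⊢
      rw [he _ (hZ.maps.iterate j hx), ih]
  have hc : ∀ k (φ : List Y → K), avg a l (pull K f φ) - pull K f (avg b l φ) ∈ Nul K Z k := by
    intro k φ
    rw [Beta_avg_eq, Beta_avg_eq, map_smul, map_sum, ← smul_sub, ← Finset.sum_sub_distrib]
    refine Submodule.smul_mem _ _ (Submodule.sum_mem _ fun j _ => ?_)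
    rw [map_smul, ← smul_sub]
    refine Submodule.smul_mem _ _ ?_
    have e1 : pull K a.T^[j] (pull K f φ) = pull K (f ∘ a.T^[j]) φ := funext fun m => by
      simp only [Beta_pull_apply, List.map_map]
    have e2 : pull K f (pull K b.T^[j] φ) = pull K (b.T^[j] ∘ f) φ := funext fun m => by
      simp only [Beta_pull_apply, List.map_map]
    rw [e1, e2]
    exact Nul.pull_sub (e j) k φ
  refine le_antisymm (rd_le_of_surj (avg a l ∘ₗ pull K f) (fun z hz => ?_) fun z hz => ?_)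
    (rd_le_of_inj (avg a l ∘ₗ pull K f) (fun z hz => ?_) fun z hz hb => ?_)
  · obtain ⟨ψ, hψ, e⟩ := hq.surj n z (Beta_Zc_full hz)
    refine ⟨avg b l ψ, Beta_avg_Zc hl hZ' hA' hψ, ?_⟩
    have e1 := Beta_avg_Bc hl hZ hA e
    have e2 := Beta_avg_P hl hZ (hc (n + 1) ψ)
    rw [map_sub, avg_of_mem hl hz.1.2] at e1
    rw [map_sub, avg_of_mem hl (avg_mem hl _)] at e2
    have e3 := add_mem e1 (Submodule.mem_sup_right e2)
    rwa [sub_add_sub_cancel] at e3
  · obtain ⟨_, ⟨ψ, hψ, rfl⟩, q, hq, rfl⟩ := Submodule.mem_sup.1 hz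
    refine Beta_avg_Bc hl hZ hA ?_
    rw [map_add, ← dL_pull]
    exact Submodule.add_mem_sup ⟨_, Nul.pull hA.cpt (hf.mono h) h2 hψ.1, rfl⟩
      (Nul.pull hZ.cpt hf h1 hq.1)
  · refine Beta_avg_Zc hl hZ hA ⟨Nul.pull hA.cpt (hf.mono h) h2 hz.1.1, ?_⟩
    rw [SetLike.mem_coe, Submodule.mem_comap, dL_pull]
    exact Nul.pull hZ.cpt hf h1 hz.2.1
  · refine Beta_Bc_eig hl hZ' hA' hz.1.2 (hq.inj n z (Beta_Zc_full hz) ?_)
    have e := hc (n + 1) z
    rw [avg_of_mem hl hz.1.2] at e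
    have e2 := sub_mem (Beta_Bc_full hb) (Submodule.mem_sup_right e)
    rwa [LinearMap.comp_apply, sub_sub_cancel] at e2

theorem beta_rel {a : Act X} {b : Act Y} {l : K} (hl : Good l) {f : X → Y} {Z A : Set X}
    {Z' A' : Set Y} (hZ : MapsTo a.T Z Z) (hA : MapsTo a.T A A) (hZ' : MapsTo b.T Z' Z')
    (hA' : MapsTo b.T A' A') (h : RelH f Z A Z' A') (he : ∀ x ∈ Z, f (a.T x) = b.T (f x))
    (n : ℕ) : beta a l Z A n = beta b l Z' A' n := beta_qi hl ⟨h.cZ, hZ⟩ ⟨h.cA, hA⟩ ⟨h.cZ', hZ'⟩ ⟨h.cA', hA'⟩ h.sub h.cont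
    (fun x hx => by
      by_cases hxA : x ∈ A
      exacts [h.sub' (h.mA hxA), (h.bij.mapsTo ⟨hx, hxA⟩).1]) h.mA he h.qi n

theorem Beta_two_le {a b : Act X} {l : K} (hl : Good l) {Z : Set X} (ha : a.Inv Z) (hb : b.Inv Z)
    {n : ℕ} (h : ∀ φ ∈ Zc (dL K X) (Nul K ∅) (Nul K Z) n,
      avg b l φ - avg a l φ ∈ Bc (dL K X) (Nul K ∅) (Nul K Z) n) :
    beta a l Z ∅ n ≤ beta b l Z ∅ n := by
  refine rd_le_of_inj (avg b l) (fun z hz => Beta_avg_Zc hl hb (.empty b) (Beta_Zc_full hz))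
    fun z hz hb' => Beta_Bc_eig hl ha (.empty a) hz.1.2 ?_
  have e := sub_mem (Beta_Bc_full hb') (h z (Beta_Zc_full hz))
  rwa [sub_sub_cancel, avg_of_mem hl hz.1.2] at e

/-- Two actions whose powers are homotopic. -/
theorem beta_two {a b : Act X} {l : K} (hl : Good l) {Z : Set X} (ha : a.Inv Z) (hb : b.Inv Z)
    {H : ℕ → ℝ × X → X} (hH : ∀ j, ContinuousOn (H j) (Icc 0 1 ×ˢ Z))
    (h1 : ∀ j, MapsTo (H j) (Icc 0 1 ×ˢ Z) Z) (h2 : ∀ j, ∀ x ∈ Z, H j (0, x) = a.T^[j] x)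
    (h3 : ∀ j, ∀ x ∈ Z, H j (1, x) = b.T^[j] x) (n : ℕ) : beta a l Z ∅ n = beta b l Z ∅ n := by
  have key : ∀ φ ∈ Zc (dL K X) (Nul K ∅) (Nul K Z) n,
      avg b l φ - avg a l φ ∈ Bc (dL K X) (Nul K ∅) (Nul K Z) n := fun φ hφ => by
    rw [Beta_avg_eq, Beta_avg_eq, ← smul_sub, ← Finset.sum_sub_distrib]
    refine Submodule.smul_mem _ _ (Submodule.sum_mem _ fun j _ => ?_)
    rw [← smul_sub]
    refine Submodule.smul_mem _ _ ?_
    have e1 := htpy ha.cpt (empty_subset Z) (hH j) (h1 j) (fun _ hp => hp.2.elim) hφ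
    have e2 := Nul.pull_sub (f := fun x => H j (0, x)) (Z := Z) (h2 j) (n + 1) φ
    have e3 := Nul.pull_sub (f := fun x => H j (1, x)) (Z := Z) (h3 j) (n + 1) φ
    have e4 := sub_mem (add_mem e1 (Submodule.mem_sup_right e2)) (Submodule.mem_sup_right e3)
    rwa [sub_add_sub_cancel, sub_sub_sub_cancel_left] at e4
  exact le_antisymm (Beta_two_le hl ha hb key)
    (Beta_two_le hl hb ha fun φ hφ => neg_sub (avg b l φ) _ ▸ neg_mem (key φ hφ))

theorem Beta_nul_empty (k : ℕ) (φ : List X → K) : φ ∈ Nul K ∅ (k + 1) :=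
  ⟨1, one_pos, fun m hm hs => by
    rcases m with _ | ⟨x, m⟩
    exacts [absurd hm (by simp), (hs.1 x List.mem_cons_self).elim]⟩

omit [MetricSpace X] in
theorem Beta_dL_two (φ : List X → K) (x y : X) : dL K X φ [x, y] = φ [y] - φ [x] := by
  simp [dL, dd]

theorem Beta_Bc_zero {a : Act X} {l : K} {Z : Set X} {φ : List X → K}
    (h : φ ∈ Bc (dL K X) (BetaP a l ∅) (BetaP a l Z) 0) {x : X} (hx : x ∈ Z) : φ [x] = 0 := by
  obtain ⟨_, ⟨ψ, ⟨⟨ε, -, hψ⟩, -⟩, rfl⟩, q, ⟨⟨δ, hδ, hq⟩, -⟩, rfl⟩ := Submodule.mem_sup.1 h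
  have e1 : ψ [] = 0 := hψ [] rfl ⟨by simp, by simp⟩
  have e2 : q [x] = 0 := hq [x] rfl ⟨by simpa, by simpa⟩
  simp [dL, dd, e1, e2]

theorem one_le_beta_zero (a : Act X) {Z : Set X} (h : Z.Nonempty) :
    1 ≤ beta a (1 : K) Z ∅ 0 := by
  obtain ⟨x, hx⟩ := h
  have he : (fun _ => 1 : List X → K) ∈ Eig a (1 : K) := fun _ => (one_mul _).symm
  refine one_le_rd (z := fun _ => 1) ⟨⟨Beta_nul_empty _ _, he⟩,
    ⟨1, one_pos, fun m hm _ => ?_⟩, Beta_eig_dL he⟩ fun hb => one_ne_zero (Beta_Bc_zero hb hx)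
  obtain ⟨y, z, rfl⟩ := List.length_eq_two.1 hm
  exact (Beta_dL_two _ _ _).trans (sub_self _)

theorem beta_zero_le_one (a : Act X) {Z : Set X}
    (h : ∀ u : X → K, (∀ x, u (a.T x) = u x) →
      (∃ ε > 0, ∀ x ∈ Z, ∀ y ∈ Z, dist x y < ε → u x = u y) → ∃ c, ∀ x ∈ Z, u x = c) :
    beta a (1 : K) Z ∅ 0 ≤ 1 := by
  refine rd_le_one (fun _ => 1) fun u hu => ?_
  obtain ⟨ε, hε, hd⟩ := hu.2.1
  obtain ⟨c, hc⟩ := h (fun x => u [x]) (fun x => (hu.1.2 [x]).trans (one_mul _))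
    ⟨ε, hε, fun x hx y hy hxy => by
      have := hd [x, y] rfl ⟨by simp [hx, hy], by simp [hε, hxy, dist_comm y x]⟩
      rw [Beta_dL_two, sub_eq_zero] at this
      exact this.symm⟩
  refine ⟨c, Submodule.mem_sup_right ⟨⟨1, one_pos, fun m hm hs => ?_⟩,
    sub_mem hu.1.2 (Submodule.smul_mem _ _ fun _ => (one_mul _).symm)⟩⟩
  obtain ⟨x, rfl⟩ := List.length_eq_one_iff.1 hm
  simp [hc x (hs.1 x List.mem_cons_self)]

theorem Beta_nul_nat {Z : Set ℕ} {k : ℕ} {φ : List ℕ → K} :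
    φ ∈ Nul K Z (k + 1) ↔ ∀ x ∈ Z, φ (List.replicate (k + 1) x) = 0 := by
  refine ⟨fun ⟨ε, hε, h⟩ x hx => h _ List.length_replicate ⟨fun y hy => ?_, fun y hy z hz => ?_⟩,
    fun h => ⟨1, one_pos, fun m hm hs => ?_⟩⟩
  · rwa [List.eq_of_mem_replicate hy]
  · rwa [List.eq_of_mem_replicate hy, List.eq_of_mem_replicate hz, dist_self]
  · obtain ⟨x, hx⟩ := List.exists_mem_of_length_eq_add_one hm
    have e : m = List.replicate (k + 1) x := List.eq_replicate_iff.2 ⟨hm, fun y hy => by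
      have h1 := hs.2 y hy x hx
      rw [Nat.dist_eq, ← Int.cast_natCast, ← Int.cast_natCast x, ← Int.cast_sub, ← Int.cast_abs,
        ← Int.cast_one, Int.cast_lt, Int.abs_lt_one_iff] at h1
      omega⟩
    rw [e]
    exact h x (hs.1 x hx)

omit [MetricSpace X] in
theorem Beta_dL_rep (φ : List X → K) (k : ℕ) (x : X) :
    dL K X φ (List.replicate (k + 1) x) = if Even k then φ (List.replicate k x) else 0 := by
  induction k generalizing φ with
  | zero => simp [dL, dd]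
  | succ k ih =>
    have e := ih fun m => φ (x :: m)
    show φ (List.replicate (k + 1) x) - dL K X (fun m => φ (x :: m)) (List.replicate (k + 1) x) = _
    rw [e]
    by_cases h : Even k <;> simp [h, Nat.even_add_one, List.replicate_succ]

theorem Beta_cyc_iter {m x : ℕ} (hx : x < m) (j : ℕ) : (cycT m)^[j] x = (x + j) % m := by
  induction j with
  | zero => exact (Nat.mod_eq_of_lt hx).symm
  | succ j ih =>
    rw [Function.iterate_succ_apply', ih, cycT, if_pos (Nat.mod_lt _ (by omega)), Nat.mod_add_mod,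
      add_assoc]

/-- One orbit. Small lists in `Iio m` are constant. -/
theorem beta_cyc {l : K} (hl : Good l) {m : ℕ} (hm : m ∣ 6) (h : l ^ m = 1) (n : ℕ) :
    beta (Act.cyc m hm) l (Iio m) ∅ n = if n = 0 then 1 else 0 := by
  have hm0 : 0 < m := Nat.pos_of_dvd_of_pos hm (by norm_num)
  split_ifs with hn
  · subst hn
    let z : List ℕ → K := fun t => match t with
      | [] => 0
      | x :: _ => if x < m then l ^ x else 0
    have he : z ∈ Eig (Act.cyc m hm) l := fun t => by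
      rcases t with _ | ⟨x, t⟩
      · exact (mul_zero l).symm
      · show (if cycT m x < m then l ^ cycT m x else 0) = l * if x < m then l ^ x else 0
        by_cases hx : x < m
        · rw [cycT, if_pos hx, if_pos (Nat.mod_lt _ hm0), if_pos hx, ← pow_eq_pow_mod _ h, pow_succ']
        · rw [cycT, if_neg hx, if_neg hx, mul_zero]
    refine le_antisymm (rd_le_one z fun u hu => ⟨u [0], Submodule.mem_sup_right
      ⟨Beta_nul_nat.2 fun x hx => ?_, sub_mem hu.1.2 (Submodule.smul_mem _ _ he)⟩⟩)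
      (one_le_rd (z := z) ⟨⟨Beta_nul_empty _ _, he⟩, Beta_nul_nat.2 fun x _ => ?_, Beta_eig_dL he⟩
        fun hb => ?_)
    · have e := Beta_eig_iter hu.1.2 x [0]
      have e2 : (Act.cyc m hm).T^[x] 0 = x := by
        rw [Act.cyc, Beta_cyc_iter hm0, zero_add, Nat.mod_eq_of_lt hx]
      rw [List.map_singleton, e2] at e
      show u [x] - u [0] * (if x < m then l ^ x else 0) = 0
      rw [if_pos (show x < m from hx), e, mul_comm, sub_self]
    · exact (Beta_dL_two _ _ _).trans (sub_self _)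
    · have e := Beta_Bc_zero hb (x := 0) hm0
      simp [z, hm0] at e
  refine rd_eq_zero.2 fun z hz => ?_
  by_cases hev : Even (n + 1)
  · refine Submodule.mem_sup_right ⟨Beta_nul_nat.2 fun x hx => ?_, hz.1.2⟩
    have e := Beta_nul_nat.1 hz.2.1 x hx
    rwa [Beta_dL_rep, if_pos hev] at e
  · obtain ⟨k, rfl⟩ := Nat.exists_eq_succ_of_ne_zero hn
    let ψ : List ℕ → K := fun t => match t with
      | [] => 0
      | x :: t => z (x :: x :: t)
    have he : ψ ∈ Eig (Act.cyc m hm) l := fun t => by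
      rcases t with _ | ⟨x, t⟩
      exacts [(mul_zero l).symm, hz.1.2 (x :: x :: t)]
    refine Submodule.mem_sup.2 ⟨_, ⟨ψ, ⟨Beta_nul_empty _ _, he⟩, rfl⟩, z - dL K ℕ ψ,
      ⟨Beta_nul_nat.2 fun x _ => ?_, sub_mem hz.1.2 (Beta_eig_dL he)⟩, add_sub_cancel _ _⟩
    rw [Pi.sub_apply, Beta_dL_rep, if_pos (by rwa [Nat.even_add_one, not_not] at hev)]
    exact sub_self _

/-- If `l ^ m ≠ 1` every eigencochain vanishes on lists in `Iio m`. -/
theorem beta_cyc_ne {l : K} {m : ℕ} (hm : m ∣ 6) (h : l ^ m ≠ 1) (n : ℕ) :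
    beta (Act.cyc m hm) l (Iio m) ∅ n = 0 := by
  refine rd_eq_zero.2 fun z hz => Submodule.mem_sup_right ⟨Beta_nul_nat.2 fun x hx => ?_, hz.1.2⟩
  have e := Beta_eig_iter hz.1.2 m (List.replicate (n + 1) x)
  have e2 : (Act.cyc m hm).T^[m] x = x := by
    rw [Act.cyc, Beta_cyc_iter hx, Nat.add_mod_right, Nat.mod_eq_of_lt hx]
  rw [List.map_replicate, e2] at e
  by_contra hne
  exact h (mul_right_cancel₀ hne (e.symm.trans (one_mul _).symm))

end Vale.Agent.P265
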