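import Vale.Agent.P265.Beta

/-!
Suspension, balls and spheres, cells.
-/

open Set

noncomputable section

namespace Vale.Agent.P265

variable {K : Type} [Field K] {X : Type} [MetricSpace X]

theorem Susp_shift {a : Act X} {l : K} {Z A B : Set X} (h1 : B ⊆ A) (h2 : A ⊆ Z)
    (h : ∀ n, beta a l Z B n = 0) (n : ℕ) : beta a l Z A n = sh 1 (beta a l A B) n := by
  obtain ⟨i, j, r, h0, hx, hy, hz⟩ := beta_les a l h1 h2
  have e := fun k => add_eq_zero.1 ((hx k).symm.trans (h k))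
  rw [hz, (e n).2, zero_add, sh]
  rcases n with _ | n
  · rw [if_neg (by omega), h0]
  · rw [if_pos (by omega), Nat.add_sub_cancel, hy, (e n).1, zero_add]

theorem Susp_bij {Y : Type} [MetricSpace Y] {a : Act X} {b : Act Y} {l : K} (hl : Good l)
    {f : X → Y} (hf : Continuous f) (hb : f.Bijective) (he : ∀ x, f (a.T x) = b.T (f x))
    {Z A : Set X} {Z' A' : Set Y} (hZ : a.Inv Z) (hA : a.Inv A) (hZ' : b.Inv Z') (hA' : b.Inv A')
    (h : A ⊆ Z) (e1 : ∀ x, x ∈ Z ↔ f x ∈ Z') (e2 : ∀ x, x ∈ A ↔ f x ∈ A') (n : ℕ) :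
    beta a l Z A n = beta b l Z' A' n :=
  beta_rel hl hZ.maps hA.maps hZ'.maps hA'.maps ⟨hZ.cpt, hA.cpt, hZ'.cpt, hA'.cpt, h,
    hb.2.forall.2 fun x hx => (e1 x).1 (h ((e2 x).2 hx)), hf.continuousOn, fun x => (e2 x).1,
    fun x hx => ⟨(e1 x).1 hx.1, mt (e2 x).2 hx.2⟩, hb.1.injOn,
    hb.2.forall.2 fun x hx => ⟨x, ⟨(e1 x).2 hx.1, mt (e2 x).1 hx.2⟩, rfl⟩⟩ (fun x _ => he x) n

theorem Susp_pt {Y : Type} [MetricSpace Y] {a : Act X} {l : K} (hl : Good l) {Z : Set X}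
    (hZ : a.Inv Z) (y : Y) (n : ℕ) : beta (a.prod Y) l (Z ×ˢ {y}) ∅ n = beta a l Z ∅ n :=
  have hP := hZ.prod (isCompact_singleton (x := y))
  (beta_rel hl (f := fun x => (x, y)) hZ.maps (mapsTo_empty _ _) hP.maps (mapsTo_empty _ _)
    ⟨hZ.cpt, isCompact_empty, hP.cpt, isCompact_empty, empty_subset _, empty_subset _,
      by fun_prop, mapsTo_empty _ _, fun _ hx => ⟨⟨hx.1, rfl⟩, id⟩,
      fun _ _ _ _ e => congrArg Prod.fst e,
      fun p hp => ⟨p.1, ⟨hp.1.1, id⟩, Prod.ext rfl hp.1.2.symm⟩⟩ (fun _ _ => rfl) n).symm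

theorem Susp_split {Y : Type} [MetricSpace Y] {a : Act X} {l : K} (hl : Good l) {Z : Set X}
    (hZ : a.Inv Z) {W : Set Y} (hW : IsCompact W) {y : Y} (hy : y ∈ W) (n : ℕ) :
    beta (a.prod Y) l (Z ×ˢ W) ∅ n =
      beta (a.prod Y) l (Z ×ˢ W) (Z ×ˢ {y}) n + beta a l Z ∅ n := by
  rw [← Susp_pt hl hZ y]
  exact beta_split hl (hZ.prod hW) (hZ.prod isCompact_singleton) (.empty _) (empty_subset _)
    (prod_mono_right (singleton_subset_iff.2 hy)) (ρ := fun p => (p.1, y)) (by fun_prop)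
    (fun _ hp => ⟨hp.1, rfl⟩) (fun _ hp => Prod.ext rfl hp.2.symm) n

/-- Suspension. With `B = Z × {-1} ∪ A × I` the pair `(Z × I, B)` is acyclic, and
`(Z × {-1, 1} ∪ A × I, B)` is relatively homeomorphic to `(Z, A)`. -/
theorem beta_susp {a : Act X} {l : K} (hl : Good l) {Z A : Set X} (hZ : a.Inv Z) (hA : a.Inv A)
    (h : A ⊆ Z) (n : ℕ) :
    beta (a.prod ℝ) l (Z ×ˢ Icc (-1) 1) (Z ×ˢ {-1, 1} ∪ A ×ˢ Icc (-1) 1) n =
      sh 1 (beta a l Z A) n := by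
  have hI : IsCompact (Icc (-1 : ℝ) 1) := isCompact_Icc
  have hB := (hZ.prod (isCompact_singleton (x := (-1 : ℝ)))).union (hA.prod hI)
  have hC := (hZ.prod ((finite_singleton (1 : ℝ)).insert (-1)).isCompact).union (hA.prod hI)
  have h1 : Z ×ˢ {(-1 : ℝ)} ∪ A ×ˢ Icc (-1) 1 ⊆ Z ×ˢ {-1, 1} ∪ A ×ˢ Icc (-1) 1 :=
    union_subset_union_left _ (prod_mono_right (singleton_subset_iff.2 (mem_insert _ _)))
  have h2 : Z ×ˢ {(-1 : ℝ), 1} ∪ A ×ˢ Icc (-1) 1 ⊆ Z ×ˢ Icc (-1) 1 :=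
    union_subset (prod_mono_right (by rintro _ (rfl | rfl) <;> norm_num)) (prod_mono_left h)
  have hm : ∀ t ∈ Icc (0 : ℝ) 1, ∀ s ∈ Icc (-1 : ℝ) 1, s - t * (s + 1) ∈ Icc (-1 : ℝ) 1 :=
    fun t ht s hs => ⟨by nlinarith [ht.1, ht.2, hs.1], by nlinarith [ht.1, hs.1, hs.2]⟩
  rw [Susp_shift h1 h2 (beta_acyc hl (hZ.prod hI) hB (h1.trans h2)
    (H := fun p => (p.2.1, p.2.2 - p.1 * (p.2.2 + 1))) (by fun_prop)
    (fun p hp => ⟨hp.2.1, hm _ hp.1 _ hp.2.2⟩) ?_ (fun x _ => by simp)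
    fun x hx => Or.inl ⟨hx.1, by simp⟩)]
  · refine congrArg (sh 1 · n) (funext fun k => (beta_rel hl (f := fun x => (x, (1 : ℝ))) hZ.maps
      hA.maps hC.maps hB.maps ⟨hZ.cpt, hA.cpt, hC.cpt, hB.cpt, h, h1, by fun_prop,
        fun x hx => Or.inr ⟨hx, by norm_num⟩, fun x hx => ⟨Or.inl ⟨hx.1, Or.inr rfl⟩, ?_⟩,
        fun x _ y _ e => congrArg Prod.fst e, ?_⟩ (fun _ _ => rfl) k).symm)
    · rintro (⟨-, e⟩ | ⟨e, -⟩)
      exacts [by norm_num at e, hx.2 e]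
    · rintro ⟨x, s⟩ ⟨⟨hx, rfl | rfl⟩ | hx, hn⟩
      · exact (hn (Or.inl ⟨hx, rfl⟩)).elim
      · exact ⟨x, ⟨hx, fun e => hn (Or.inr ⟨e, by norm_num⟩)⟩, rfl⟩
      · exact (hn (Or.inr hx)).elim
  · rintro ⟨t, x, s⟩ ⟨ht, ⟨hx, rfl⟩ | hx⟩
    exacts [Or.inl ⟨hx, by simp⟩, Or.inr ⟨hx.1, hm _ ht _ hx.2⟩]

variable {V : Type} [NormedAddCommGroup V] [NormedSpace ℝ V] [FiniteDimensional ℝ V]

/-- A continuous, positively homogeneous, positive definite function. -/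
structure Gauge (g : V → ℝ) : Prop where
  cont : Continuous g
  hom : ∀ t : ℝ, 0 ≤ t → ∀ v, g (t • v) = t * g v
  pos : ∀ v, v ≠ 0 → 0 < g v

omit [FiniteDimensional ℝ V] in
theorem gauge_norm : Gauge (fun v : V => ‖v‖) :=
  ⟨continuous_norm, fun t ht v => by rw [norm_smul, Real.norm_of_nonneg ht],
    fun _ hv => norm_pos_iff.2 hv⟩

omit [FiniteDimensional ℝ V] in
theorem Susp_zero {g : V → ℝ} (h : Gauge g) : g 0 = 0 := by
  simpa using h.hom 0 le_rfl 0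

theorem Susp_lower {g : V → ℝ} (h : Gauge g) : ∃ c > 0, ∀ v, c * ‖v‖ ≤ g v := by
  obtain ⟨c, hc, e⟩ := (isCompact_sphere (0 : V) 1).exists_forall_le' h.cont.continuousOn
    (a := 0) fun v hv => h.pos v (ne_zero_of_mem_unit_sphere ⟨v, hv⟩)
  refine ⟨c, hc, fun v => ?_⟩
  rcases eq_or_ne v 0 with rfl | hv
  · simp [Susp_zero h]
  have h1 := norm_pos_iff.2 hv
  have h2 := e (‖v‖⁻¹ • v) (by simp [norm_smul, h1.ne'])
  rwa [h.hom _ (inv_pos.2 h1).le, le_inv_mul_iff₀' h1] at h2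

theorem Gauge.ball {g : V → ℝ} (h : Gauge g) : IsCompact {v | g v ≤ 1} := by
  obtain ⟨c, hc, e⟩ := Susp_lower h
  refine (isCompact_closedBall (0 : V) c⁻¹).of_isClosed_subset
    (isClosed_le h.cont continuous_const) fun v hv => ?_
  rw [mem_closedBall_zero_iff, ← one_div, le_div_iff₀' hc]
  exact (e v).trans hv

theorem Gauge.sphere {g : V → ℝ} (h : Gauge g) : IsCompact {v | g v = 1} := h.ball.of_isClosed_subset (isClosed_eq h.cont continuous_const) fun _ hv => hv.le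

omit [FiniteDimensional ℝ V] in
/-- The radial homeomorphism. -/
theorem Susp_radial {W : Type} [NormedAddCommGroup W] [NormedSpace ℝ W] [FiniteDimensional ℝ W]
    (e : V ≃L[ℝ] W) {g : V → ℝ} {g' : W → ℝ} (h : Gauge g) (h' : Gauge g') :
    ∃ ρ : V → W, Continuous ρ ∧ ρ.Bijective ∧ ∀ v, g' (ρ v) = g v := by
  have p : ∀ v, v ≠ 0 → 0 < g' (e v) := fun v hv => h'.pos _ (by simpa using hv)
  have q : ∀ v, v ≠ 0 → 0 < g v / g' (e v) := fun v hv => div_pos (h.pos v hv) (p v hv)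
  have k : ∀ v, g' ((g v / g' (e v)) • e v) = g v := fun v => by
    rcases eq_or_ne v 0 with rfl | hv
    · simp [Susp_zero h, Susp_zero h']
    · rw [h'.hom _ (q v hv).le, div_mul_cancel₀ _ (p v hv).ne']
  refine ⟨fun v => (g v / g' (e v)) • e v, continuous_iff_continuousAt.2 fun v => ?_,
    ⟨fun v w hvw => ?_, fun w => ?_⟩, k⟩
  · rcases eq_or_ne v 0 with rfl | hv
    · obtain ⟨c, hc, hb⟩ := Susp_lower h'
      have t := (h.cont.tendsto 0).div_const c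
      rw [Susp_zero h, zero_div] at t
      rw [ContinuousAt, map_zero, smul_zero]
      exact squeeze_zero_norm (fun v => (le_div_iff₀' hc).2 ((hb _).trans (k v).le)) t
    · exact (h.cont.continuousAt.div (h'.cont.comp e.continuous).continuousAt (p v hv).ne').smul
        e.continuous.continuousAt
  · have e1 : g v = g w := (k v).symm.trans ((congrArg g' hvw).trans (k w))
    rcases eq_or_ne v 0 with rfl | hv
    · by_contra hw
      exact (h.pos w (Ne.symm hw)).ne (Susp_zero h ▸ e1)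
    have e2 : v = ((g v / g' (e v))⁻¹ * (g w / g' (e w))) • w := by
      apply e.injective
      rw [map_smul, mul_smul, eq_inv_smul_iff₀ (q v hv).ne']
      exact hvw
    have hw : w ≠ 0 := fun hw => hv (by rw [e2, hw, smul_zero])
    have e3 := h.hom _ (mul_pos (inv_pos.2 (q v hv)) (q w hw)).le w
    rw [← e2, e1, eq_comm, mul_eq_right₀ (h.pos w hw).ne', ← e1] at e3
    rw [e2, e1, ← e1, e3, one_smul]
  · rcases eq_or_ne w 0 with rfl | hw
    · exact ⟨0, by simp⟩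
    have hv : e.symm w ≠ 0 := by simpa using hw
    have h1 := h.pos _ hv
    have h2 := h'.pos _ hw
    refine ⟨(g' w / g (e.symm w)) • e.symm w, ?_⟩
    simp only [map_smul, e.apply_symm_apply]
    rw [h.hom _ (div_pos h2 h1).le, h'.hom _ (div_pos h2 h1).le, smul_smul,
      show _ / _ * _ = (1 : ℝ) by field_simp, one_smul]

theorem Susp_ball {a : Act X} {l : K} (hl : Good l) {Z : Set X} (hZ : a.Inv Z) (d : ℕ) :
    ∀ (V : Type) [NormedAddCommGroup V] [NormedSpace ℝ V] [FiniteDimensional ℝ V],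
      Module.finrank ℝ V = d → ∀ {g : V → ℝ}, Gauge g → ∀ n,
        beta (a.prod V) l (Z ×ˢ {v | g v ≤ 1}) (Z ×ˢ {v | g v = 1}) n =
          sh d (beta a l Z ∅) n := by
  induction d with
  | zero =>
    intro V _ _ _ hd g hg n
    have := Module.finrank_zero_iff.1 hd
    have e : ∀ v, g v = 0 := fun v => Subsingleton.elim 0 v ▸ Susp_zero hg
    have e1 : {v | g v ≤ 1} = {0} := by ext v; simp [e, Subsingleton.elim v 0]
    have e2 : {v | g v = 1} = ∅ := by simp [e]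
    rw [e1, e2, prod_empty, Susp_pt hl hZ, sh, if_pos (Nat.zero_le _), Nat.sub_zero]
  | succ d ih =>
    intro V _ _ _ hd g hg n
    obtain ⟨ρ, h1, h2, h3⟩ := Susp_radial (ContinuousLinearEquiv.ofFinrankEq
      (show Module.finrank ℝ ((Fin d → ℝ) × ℝ) = Module.finrank ℝ V by simp [hd])) gauge_norm hg
    have hB := hZ.prod (gauge_norm (V := Fin d → ℝ)).ball
    have hS := hZ.prod (gauge_norm (V := Fin d → ℝ)).sphere
    have hs : Z ×ˢ {v : Fin d → ℝ | ‖v‖ = 1} ⊆ Z ×ˢ {v | ‖v‖ ≤ 1} :=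
      prod_mono_right fun _ hv => hv.le
    have hI : IsCompact (Icc (-1 : ℝ) 1) := isCompact_Icc
    have e := beta_susp hl hB hS hs n
    rw [funext (ih _ (by simp) gauge_norm)] at e
    rw [← Susp_bij hl (b := a.prod V) (f := fun p => (p.1.1, ρ (p.1.2, p.2))) (by fun_prop)
      (((Function.bijective_id).prodMap h2).comp (Equiv.prodAssoc _ _ _).bijective)
      (fun _ => rfl) (hB.prod hI)
      ((hB.prod ((finite_singleton (1 : ℝ)).insert (-1)).isCompact).union (hS.prod hI))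
      (hZ.prod hg.ball) (hZ.prod hg.sphere)
      (union_subset (prod_mono_right (by rintro _ (rfl | rfl) <;> norm_num)) (prod_mono_left hs))
      (fun p => ?_) (fun p => ?_), e]
    · simp only [sh]
      split_ifs <;> first | rfl | omega | (rw [Nat.sub_sub, add_comm])
    · simp only [mem_prod, mem_ofPred_eq, h3, Prod.norm_def, max_le_iff, Real.norm_eq_abs, abs_le,
        mem_Icc, and_assoc]
    · simp only [mem_union, mem_prod, mem_ofPred_eq, h3, Prod.norm_def, max_eq_iff,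
        Real.norm_eq_abs, mem_Icc, mem_insert_iff, mem_singleton_iff, ← abs_le]
      have := abs_eq (a := p.2) zero_le_one
      grind

/-- Balls. First for the sup norm on `Fin d → ℝ` by induction with `beta_susp`; then transport
along a linear equivalence and the radial homeomorphism `v ↦ (g v / g' v) • v`. -/
theorem beta_ball {a : Act X} {l : K} (hl : Good l) {Z : Set X} (hZ : a.Inv Z) {g : V → ℝ}
    (hg : Gauge g) (n : ℕ) :
    beta (a.prod V) l (Z ×ˢ {v | g v ≤ 1}) (Z ×ˢ {v | g v = 1}) n =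
      sh (Module.finrank ℝ V) (beta a l Z ∅) n := Susp_ball hl hZ _ V rfl hg n

/-- Spheres: split off `Z × {v₀}` by a retraction; `(Z × ball, Z × {v₀})` is acyclic. -/
theorem beta_sphere {a : Act X} {l : K} (hl : Good l) {Z : Set X} (hZ : a.Inv Z) {g : V → ℝ}
    (hg : Gauge g) {d : ℕ} (hd : Module.finrank ℝ V = d + 1) (n : ℕ) :
    beta (a.prod V) l (Z ×ˢ {v | g v = 1}) ∅ n = beta a l Z ∅ n + sh d (beta a l Z ∅) n := by
  obtain ⟨ρ, h1, h2, h3⟩ := Susp_radial (.refl ℝ V) gauge_norm hg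
  have hS := (gauge_norm (V := V)).sphere
  rw [← Susp_bij hl (f := Prod.map id ρ) (by fun_prop) (Function.bijective_id.prodMap h2)
    (fun _ => rfl) (hZ.prod hS) (.empty _) (hZ.prod hg.sphere) (.empty _) (empty_subset _)
    (fun p => by simp [h3]) fun _ => Iff.rfl]
  have := Module.nontrivial_of_finrank_eq_succ hd
  obtain ⟨v, hv⟩ := exists_norm_eq V zero_le_one
  have s1 : Z ×ˢ {v} ⊆ Z ×ˢ {v : V | ‖v‖ = 1} := prod_mono_right (singleton_subset_iff.2 hv)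
  have s2 : Z ×ˢ {v : V | ‖v‖ = 1} ⊆ Z ×ˢ {v | ‖v‖ ≤ 1} := prod_mono_right fun _ hv => hv.le
  have e := Susp_shift s1 s2 (beta_acyc hl (hZ.prod gauge_norm.ball)
    (hZ.prod isCompact_singleton) (s1.trans s2)
    (H := fun p => (p.2.1, (1 - p.1) • p.2.2 + p.1 • v)) (by fun_prop) (fun p hp => ⟨hp.2.1, ?_⟩)
    (fun p hp => ⟨hp.2.1, ?_⟩) (fun x _ => by simp) fun x hx => ⟨hx.1, by simp⟩) (n + 1)
  · rw [beta_ball hl hZ gauge_norm, hd, sh, sh, if_pos (Nat.le_add_left 1 n),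
      Nat.add_sub_add_right, Nat.add_sub_cancel] at e
    rw [Susp_split hl hZ hS hv, add_comm, ← e, sh]
    simp only [add_le_add_iff_right]
  · exact mem_closedBall_zero_iff.1 (convex_closedBall (0 : V) 1 (mem_closedBall_zero_iff.2 hp.2.2)
      (mem_closedBall_zero_iff.2 hv.le) (sub_nonneg.2 hp.1.2) hp.1.1 (sub_add_cancel _ _))
  · show (1 - p.1) • p.2.2 + p.1 • v = v
    rw [show p.2.2 = v from hp.2.2, ← add_smul, sub_add_cancel, one_smul]

/-- A factor with `m` points and trivial action. -/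
theorem beta_fin {a : Act X} {l : K} (hl : Good l) {Z : Set X} (hZ : a.Inv Z) (m n : ℕ) :
    beta (a.prod ℕ) l (Z ×ˢ Iio m) ∅ n = m * beta a l Z ∅ n := by
  induction m with
  | zero => rw [show Iio 0 = (∅ : Set ℕ) from Iio_bot, prod_empty, beta_self, Nat.cast_zero, zero_mul]
  | succ m ih =>
    have h1 := hZ.prod (finite_Iio m).isCompact
    have h2 := hZ.prod (finite_Iio (m + 1)).isCompact
    have h3 := hZ.prod (isCompact_singleton (x := m))
    rw [Susp_split hl hZ (finite_Iio (m + 1)).isCompact (Nat.lt_succ_self m), Nat.cast_succ,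
      add_mul, one_mul, ← ih, beta_rel hl (f := id) h1.maps (mapsTo_empty _ _) h2.maps h3.maps
      ⟨h1.cpt, isCompact_empty, h2.cpt, h3.cpt, empty_subset _,
        prod_mono_right (singleton_subset_iff.2 (Nat.lt_succ_self m)), continuousOn_id,
        mapsTo_empty _ _, fun p hp => ⟨⟨hp.1.1, Nat.lt_succ_of_lt hp.1.2⟩, fun e => hp.1.2.ne e.2⟩,
        injOn_id _, fun p hp => ⟨p, ⟨⟨hp.1.1, lt_of_le_of_ne (Nat.le_of_lt_succ hp.1.2)
          fun e => hp.2 ⟨hp.1.1, e⟩⟩, id⟩, rfl⟩⟩ fun _ _ => rfl]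

/-- A factor with trivial action can only increase the Betti numbers. -/
theorem beta_le_prod {a : Act X} {l : K} (hl : Good l) {Z : Set X} (hZ : a.Inv Z) {Y : Type}
    [MetricSpace Y] {W : Set Y} (hW : IsCompact W) (hne : W.Nonempty) (n : ℕ) :
    beta a l Z ∅ n ≤ beta (a.prod Y) l (Z ×ˢ W) ∅ n := by
  obtain ⟨y, hy⟩ := hne
  rw [Susp_split hl hZ hW hy]
  exact le_add_self

theorem Susp_cyc {m : ℕ} (hm : m ∣ 6) : (Act.cyc m hm).Inv (Iio m) :=
  ⟨(finite_Iio m).isCompact, fun i hi => by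
    show cycT m i < m
    rw [cycT, if_pos (show i < m from hi)]
    exact Nat.mod_lt _ (Nat.zero_lt_of_lt hi)⟩

/-- Attaching the orbit of a compact pair `(L₁, L₀)`: the map `(i, v) ↦ T^[i] (Φ v)` is an
equivariant relative homeomorphism. -/
theorem beta_orbit {a : Act X} {l : K} (hl : Good l) {Z Z' : Set X} (hZ : a.Inv Z) (hZ' : a.Inv Z')
    (hs : Z ⊆ Z') {m : ℕ} (hm : m ∣ 6) {Y : Type} [MetricSpace Y] {L₁ L₀ : Set Y}
    (h1 : IsCompact L₁) (h0 : IsCompact L₀) (h01 : L₀ ⊆ L₁) {Φ : Y → X} (hΦ : ContinuousOn Φ L₁)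
    (hper : ∀ v ∈ L₁, a.T^[m] (Φ v) = Φ v) (hin : MapsTo Φ L₁ Z') (hb : MapsTo Φ L₀ Z)
    (hout : ∀ v ∈ L₁ \ L₀, Φ v ∉ Z)
    (hsurj : ∀ x ∈ Z' \ Z, ∃ i < m, ∃ v ∈ L₁, x = a.T^[i] (Φ v))
    (hinj : ∀ i < m, ∀ j < m, ∀ v ∈ L₁ \ L₀, ∀ w ∈ L₁ \ L₀,
      a.T^[i] (Φ v) = a.T^[j] (Φ w) → i = j ∧ v = w) (n : ℕ) :
    beta a l Z' Z n = beta ((Act.cyc m hm).prod Y) l (Iio m ×ˢ L₁) (Iio m ×ˢ L₀) n := by
  have c1 := (Susp_cyc hm).prod h1
  have c0 := (Susp_cyc hm).prod h0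
  refine (beta_rel hl (f := fun p : ℕ × Y => a.T^[p.1] (Φ p.2)) c1.maps c0.maps hZ'.maps hZ.maps
    ⟨c1.cpt, c0.cpt, hZ'.cpt, hZ.cpt, prod_mono_right h01, hs,
      continuousOn_prod_of_discrete_left.2 fun i =>
        (a.cont.iterate i).comp_continuousOn (hΦ.mono fun _ hv => hv.2),
      fun p hp => hZ.maps.iterate _ (hb hp.2), fun p hp => ⟨hZ'.maps.iterate _ (hin hp.1.2),
        fun e => hout p.2 ⟨hp.1.2, fun e' => hp.2 ⟨hp.1.1, e'⟩⟩ ?_⟩, fun p hp q hq e => ?_,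
      fun x hx => ?_⟩ (fun p hp => ?_) n).symm
  · have e2 := hZ.maps.iterate (5 * p.1) e
    rwa [← Function.iterate_add_apply, show 5 * p.1 + p.1 = 6 * p.1 by ring, Function.iterate_mul,
      Function.iterate_fixed (a.per _)] at e2
  · exact Prod.ext_iff.2 (hinj _ hp.1.1 _ hq.1.1 _ ⟨hp.1.2, fun e' => hp.2 ⟨hp.1.1, e'⟩⟩ _
      ⟨hq.1.2, fun e' => hq.2 ⟨hq.1.1, e'⟩⟩ e)
  · obtain ⟨i, hi, v, hv, rfl⟩ := hsurj x hx
    exact ⟨(i, v), ⟨⟨hi, hv⟩, fun e => hx.2 (hZ.maps.iterate _ (hb e.2))⟩, rfl⟩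
  · show a.T^[cycT m p.1] (Φ p.2) = _
    rw [cycT, if_pos (show p.1 < m from hp.1),
      Function.IsPeriodicPt.iterate_mod_apply (hper _ hp.2), Function.iterate_succ_apply']

/-- Attaching the orbit of a cell. -/
theorem beta_cell {a : Act X} {l : K} (hl : Good l) {Z Z' : Set X} (hZ : a.Inv Z) (hZ' : a.Inv Z')
    (hs : Z ⊆ Z') {m : ℕ} (hm : m ∣ 6) {g : V → ℝ} (hg : Gauge g) {Φ : V → X}
    (hΦ : ContinuousOn Φ {v | g v ≤ 1}) (hper : ∀ v, g v ≤ 1 → a.T^[m] (Φ v) = Φ v)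
    (hin : ∀ v, g v ≤ 1 → Φ v ∈ Z') (hb : ∀ v, g v = 1 → Φ v ∈ Z)
    (hout : ∀ v, g v < 1 → Φ v ∉ Z)
    (hsurj : ∀ x ∈ Z' \ Z, ∃ i < m, ∃ v, g v ≤ 1 ∧ x = a.T^[i] (Φ v))
    (hinj : ∀ i < m, ∀ j < m, ∀ v w, g v < 1 → g w < 1 →
      a.T^[i] (Φ v) = a.T^[j] (Φ w) → i = j ∧ v = w) (n : ℕ) :
    (l ^ m = 1 → beta a l Z' Z n = if n = Module.finrank ℝ V then 1 else 0) ∧
      (l ^ m ≠ 1 → beta a l Z' Z n = 0) := by
  have e : ∀ v ∈ {v | g v ≤ 1} \ {v | g v = 1}, g v < 1 := fun v hv => lt_of_le_of_ne hv.1 hv.2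
  rw [beta_orbit hl hZ hZ' hs hm hg.ball hg.sphere (fun _ hv => hv.le) hΦ hper hin hb
    (fun v hv => hout v (e v hv)) hsurj fun i hi j hj v hv w hw => hinj i hi j hj v w (e v hv)
      (e w hw), beta_ball hl (Susp_cyc hm) hg, sh]
  refine ⟨fun h => ?_, fun h => by rw [beta_cyc_ne hm h, ite_self]⟩
  rw [beta_cyc hl hm h]
  split_ifs <;> first | rfl | omega

end Vale.Agent.P265
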