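import Vale.Agent.P265.Sig
import Vale.Agent.P265.Susp

/-!
Equivariant Betti numbers of the surface, from the cell structure of the sphere with the four
branch points as vertices, four arcs of the circle `X₂ = 0` and the two hemispheres.
-/

open scoped Topology
open Set Filter Complex

noncomputable section

namespace Vale.Agent.P265

variable {K : Type} [Field K]

/-- Pairs concentrated in the same degree add up (`beta_les`). -/
theorem beta_conc {X : Type} [MetricSpace X] (a : Act X) (l : K) {Z A B : Set X} (h1 : B ⊆ A)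
    (h2 : A ⊆ Z) {d : ℕ} {x y : ℕ∞} (hA : ∀ n, beta a l A B n = if n = d then x else 0)
    (hZ : ∀ n, beta a l Z A n = if n = d then y else 0) (n : ℕ) :
    beta a l Z B n = if n = d then x + y else 0 := by
  obtain ⟨i, j, r, h0, hx, hy, hz⟩ := beta_les a l h1 h2
  have e1 := fun n => (hy n).symm.trans (hA n)
  have e2 := fun n => (hz n).symm.trans (hZ n)
  have a1 := e1 n
  have a2 := e2 n
  rw [hx]
  split_ifs at a1 a2 ⊢ with h
  · have b1 := e2 (n + 1)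
    rw [if_neg (by omega), add_eq_zero] at b1
    have b2 : r n = 0 := by
      rcases n with _ | n
      · exact h0
      · have b2 := e1 n
        rw [if_neg (by omega), add_eq_zero] at b2
        exact b2.2
    rw [← a1, ← a2, b1.2, b2, add_zero, add_zero]
  · rw [(add_eq_zero.1 a1).1, (add_eq_zero.1 a2).1, add_zero]

/-- The part of the surface over a subset of the sphere. -/
def ovr (B : Set P3) : Set ASig := Sig ∩ {s | s.1 ∈ B}

theorem ovr_inv {B : Set P3} (h : IsClosed B) : actS.Inv (ovr B) := ⟨sig_inv.cpt.inter_right (h.preimage continuous_fst), fun _ hs => ⟨sig_inv.maps hs.1, hs.2⟩⟩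

theorem BetaSig_mono {B B' : Set P3} (h : B ⊆ B') : ovr B ⊆ ovr B' := fun _ hs => ⟨hs.1, h hs.2⟩

theorem BetaSig_congr {B B' : Set P3} (h : ∀ p ∈ S2, p ∈ B ↔ p ∈ B') : ovr B = ovr B' :=
  Set.ext fun _ => and_congr_right fun hs => h _ hs.1

theorem BetaSig_mod {ζ x : ℂ} {k i j : ℕ} (h : IsPrimitiveRoot ζ (k + 1)) (hx : x ^ (k + 1) ≠ 0)
    (e : ζ ^ i * x = ζ ^ j * x) : i % (k + 1) = j % (k + 1) :=
  h.pow_inj (Nat.mod_lt _ k.succ_pos) (Nat.mod_lt _ k.succ_pos) <| by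
    rw [← pow_eq_pow_mod _ h.pow_eq_one, ← pow_eq_pow_mod _ h.pow_eq_one]
    exact mul_right_cancel₀ (ne_zero_pow k.succ_ne_zero hx) e

/-- Attaching a free orbit of cells (`beta_cell` with `m = 6`, `sig_lift`, `sig_fib`). -/
theorem beta_over {l : K} (hl : Good l) {V : Type} [NormedAddCommGroup V] [NormedSpace ℝ V]
    [FiniteDimensional ℝ V] {B B' : Set P3} (hB : IsClosed B) (hB' : IsClosed B') (hs : B ⊆ B')
    {e : ℝ} (he : e = 1 ∨ e = -1) {Φ : V → P3} (hΦ : ContinuousOn Φ {v | ‖v‖ ≤ 1})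
    (h1 : ∀ v, ‖v‖ ≤ 1 → Φ v ∈ S2 ∧ 0 ≤ e * (Φ v).2.1 ∧ Φ v ∈ B') (h2 : ∀ v, ‖v‖ = 1 → Φ v ∈ B)
    (h3 : ∀ v, ‖v‖ < 1 → Φ v ∉ B ∧ fa (Φ v) ≠ 0 ∧ fb (Φ v) ≠ 0)
    (h4 : ∀ p ∈ S2, p ∈ B' → p ∉ B → ∃ v, ‖v‖ ≤ 1 ∧ p = Φ v) (h5 : InjOn Φ {v | ‖v‖ < 1}) (n : ℕ) :
    beta actS l (ovr B') (ovr B) n = if n = Module.finrank ℝ V then 1 else 0 := by
  obtain ⟨L, hL, hL'⟩ := sig_lift he
  have k : ∀ v, ‖v‖ ≤ 1 → L (Φ v) ∈ Sig ∧ (L (Φ v)).1 = Φ v := fun v hv =>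
    hL' _ ⟨(h1 v hv).1, (h1 v hv).2.1⟩
  refine (beta_cell hl (ovr_inv hB) (ovr_inv hB') (BetaSig_mono hs) (dvd_refl 6) gauge_norm
    (Φ := L ∘ Φ) (hL.comp hΦ fun v hv => ⟨(h1 v hv).1, (h1 v hv).2.1⟩) (fun _ _ => actS.per _)
    (fun v hv => ⟨(k v hv).1, mem_of_eq_of_mem (s := B') (k v hv).2 (h1 v hv).2.2⟩)
    (fun v hv => ⟨(k v hv.le).1, mem_of_eq_of_mem (s := B) (k v hv.le).2 (h2 v hv)⟩)
    (fun v hv h => (h3 v hv).1 ((k v hv.le).2 ▸ h.2)) (fun x hx => ?_)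
    (fun i hi j hj v w hv hw e => ?_) n).1 hl.pow
  · obtain ⟨v, hv, e⟩ := h4 _ hx.1.1.1 hx.1.2 fun h => hx.2 ⟨hx.1.1, h⟩
    obtain ⟨i, hi, e'⟩ := sig_fib (k v hv).1 hx.1.1 ((k v hv).2.trans e.symm)
    exact ⟨i, hi, v, hv, e'⟩
  · replace e := (TS_iter _ _).symm.trans (e.trans (TS_iter _ _))
    obtain rfl : v = w := h5 hv hw
      ((k v hv.le).2.symm.trans ((congrArg Prod.fst e).trans (k w hw.le).2))
    obtain ⟨⟨-, a1, a2⟩, a3⟩ := k v hv.le
    rw [a3] at a1 a2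
    have b1 := BetaSig_mod (IsPrimitiveRoot.neg_one 0 (by norm_num)) (a1 ▸ (h3 v hv).2.1)
      (congrArg (·.2.1) e)
    have b2 := BetaSig_mod z3_prim (a2 ▸ (h3 v hv).2.2) (congrArg (·.2.2) e)
    exact ⟨by omega, rfl⟩

/-- The four branch points. -/
def B0 : Set P3 := {p | p.2.1 = 0 ∧ p.2.2 ^ 2 = 9 / 25}

/-- The great circle through the branch points. -/
def B1 : Set P3 := {p | p.2.1 = 0}

theorem BetaSig_orb {l : K} (hl : Good l) {B : Set P3} (hB : IsClosed B) {s : ASig} (hs : s ∈ Sig)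
    (h : s.1 ∉ B) {m : ℕ} (hm : m ∣ 6) (h1 : TS^[m] s = s)
    (h2 : ∀ i j, TS^[i] s = TS^[j] s → i % m = j % m) (n : ℕ) :
    (l ^ m = 1 → beta actS l (ovr (insert s.1 B)) (ovr B) n = if n = 0 then 1 else 0) ∧
      (l ^ m ≠ 1 → beta actS l (ovr (insert s.1 B)) (ovr B) n = 0) := by
  have := beta_cell hl (ovr_inv hB) (ovr_inv (isClosed_singleton.union hB))
    (BetaSig_mono (subset_insert s.1 B)) hm (gauge_norm (V := Fin 0 → ℝ)) (Φ := fun _ => s)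
    continuousOn_const (fun _ _ => h1) (fun _ _ => ⟨hs, mem_insert _ _⟩)
    (fun v hv => by simp [Subsingleton.elim v 0, -Matrix.zero_empty] at hv) (fun _ _ e => h e.2) (fun x hx => ?_)
    (fun i hi j hj v w _ _ e => ⟨?_, Subsingleton.elim _ _⟩) n
  · simpa using this
  · obtain ⟨i, -, e⟩ := sig_fib hs hx.1.1 (hx.1.2.resolve_right fun e => hx.2 ⟨hx.1.1, e⟩).symm
    exact ⟨i % m, Nat.mod_lt _ (Nat.pos_of_dvd_of_pos hm (by norm_num)), 0, norm_zero.trans_le zero_le_one,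
      e.trans (Function.IsPeriodicPt.iterate_mod_apply h1 i).symm⟩
  · rw [← Nat.mod_eq_of_lt hi, h2 i j e, Nat.mod_eq_of_lt hj]

theorem BetaSig_pt {l : K} (hl : Good l) {c : ℕ∞}
    (hc : l = 1 ∧ c = 1 ∨ l ^ 2 ≠ 1 ∧ l ^ 3 ≠ 1 ∧ c = 0) {B : Set P3} (hB : IsClosed B) {p : P3}
    (h1 : p ∈ S2) (h2 : p ∈ B0) (h3 : p ∉ B) (n : ℕ) :
    beta actS l (ovr (insert p B)) (ovr B) n = if n = 0 then c else 0 := by
  obtain ⟨L, -, hL⟩ := sig_lift (.inl rfl)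
  obtain ⟨s, hs, rfl⟩ : ∃ s ∈ Sig, s.1 = p := ⟨_, hL p ⟨h1, by simp [h2.1]⟩⟩
  have e : ∀ {i j}, TS^[i] s = TS^[j] s → _ := fun e =>
    (TS_iter _ _).symm.trans (e.trans (TS_iter _ _))
  obtain ⟨m, hm, k⟩ : ∃ m, (m = 2 ∨ m = 3) ∧
      (l ^ m = 1 → beta actS l (ovr (insert s.1 B)) (ovr B) n = if n = 0 then 1 else 0) ∧
      (l ^ m ≠ 1 → beta actS l (ovr (insert s.1 B)) (ovr B) n = 0) := by
    rcases sq_eq_sq_iff_eq_or_eq_neg.1 (h2.2.trans (by norm_num : (9 / 25 : ℝ) = (3 / 5) ^ 2))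
      with h | h
    · have a1 : s.2.1 = 0 := pow_eq_zero_iff two_ne_zero |>.1
        (hs.2.1.trans (Complex.ext (by simp [h2.1]) (by simp [h])))
      refine ⟨3, .inr rfl, BetaSig_orb hl hB hs h3 (by norm_num) ?_ (fun i j h' =>
        BetaSig_mod z3_prim (fun h'' => ?_) (congrArg (·.2.2) (e h'))) n⟩
      · rw [TS_iter, z3_prim.pow_eq_one, one_mul, a1, mul_zero, ← a1]
      · have := congrArg im (hs.2.2.symm.trans h'')
        norm_num [h] at this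
    · have a1 : s.2.2 = 0 := pow_eq_zero_iff three_ne_zero |>.1
        (hs.2.2.trans (Complex.ext (by simp [h2.1]) (by simp [h])))
      refine ⟨2, .inl rfl, BetaSig_orb hl hB hs h3 (by norm_num) ?_ (fun i j h' => BetaSig_mod
        (IsPrimitiveRoot.neg_one 0 (by norm_num)) (fun h'' => ?_) (congrArg (·.2.1) (e h'))) n⟩
      · rw [TS_iter, neg_one_sq, one_mul, a1, mul_zero, ← a1]
      · have := congrArg im (hs.2.1.symm.trans h'')
        norm_num [h] at this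
  rcases hc with ⟨rfl, rfl⟩ | ⟨a1, a2, rfl⟩
  · exact k.1 (one_pow _)
  · rw [ite_self]
    exact k.2 (by rcases hm with rfl | rfl <;> assumption)

/-- Orbits of length three over `h = 3 / 5` and of length two over `h = -3 / 5` (`beta_cell` with a
zero dimensional `V`). -/
theorem beta_B0 {l : K} (hl : Good l) :
    (l = 1 → ∀ n, beta actS l (ovr B0) ∅ n = if n = 0 then 4 else 0) ∧
      (l ^ 2 ≠ 1 → l ^ 3 ≠ 1 → ∀ n, beta actS l (ovr B0) ∅ n = 0) := by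
  have key : ∀ c : ℕ∞, (l = 1 ∧ c = 1 ∨ l ^ 2 ≠ 1 ∧ l ^ 3 ≠ 1 ∧ c = 0) → ∀ n,
      beta actS l (ovr B0) ∅ n = if n = 0 then c + c + c + c else 0 := fun c hc n => by
    have e : ovr B0 = ovr (insert (4 / 5, 0, 3 / 5) (insert (-4 / 5, 0, 3 / 5)
        (insert (4 / 5, 0, -3 / 5) (insert (-4 / 5, 0, -3 / 5) ∅)))) :=
      BetaSig_congr fun p hp => by
        obtain ⟨x, y, h⟩ := p
        simp only [S2, B0, mem_ofPred_eq, mem_insert_iff, mem_empty_iff_false, Prod.mk.injEq,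
          or_false] at hp ⊢
        refine ⟨fun ⟨h1, h2⟩ => ?_, ?_⟩
        · have h3 : (x - 4 / 5) * (x + 4 / 5) = 0 := by rw [h1] at hp; linarith
          have h4 : (h - 3 / 5) * (h + 3 / 5) = 0 := by linarith
          grind
        · rintro (⟨-, h1, rfl⟩ | ⟨-, h1, rfl⟩ | ⟨-, h1, rfl⟩ | ⟨-, h1, rfl⟩) <;> norm_num [h1]
    have s := fun p B => BetaSig_mono (subset_insert p B)
    have k := fun B (hB : B.Finite) p => BetaSig_pt hl hc (B := B) (p := p) hB.isClosed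
    rw [e, show (∅ : Set ASig) = ovr ∅ from (inter_empty _).symm]
    refine beta_conc _ _ (BetaSig_mono (empty_subset _)) (s _ _) (beta_conc _ _
      (BetaSig_mono (empty_subset _)) (s _ _) (beta_conc _ _ (s _ _) (s _ _)
        (k _ ?_ _ ?_ ?_ ?_) (k _ ?_ _ ?_ ?_ ?_)) (k _ ?_ _ ?_ ?_ ?_)) (k _ ?_ _ ?_ ?_ ?_) n <;>
      norm_num [S2, B0]
  exact ⟨fun h n => (key 1 (.inl ⟨h, rfl⟩) n).trans (by norm_num),
    fun h h' n => (key 0 (.inr ⟨h, h', rfl⟩) n).trans (by simp)⟩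

theorem BetaSig_sqrt {e x w : ℝ} (he : e = 1 ∨ e = -1) (h : w ^ 2 = x) (hw : 0 ≤ e * w) :
    w = e * √x := by
  rcases he with rfl | rfl
  · rw [← h, Real.sqrt_sq (by linarith), one_mul]
  · rw [← h, ← neg_sq, Real.sqrt_sq (by linarith), neg_one_mul, neg_neg]

theorem BetaSig_arc {e a b s : ℝ} (he : e = 1 ∨ e = -1) (ha : 0 < a)
    (h : a ^ 2 + b ^ 2 = 1) (hs : ‖s‖ ≤ 1) : (e * √(1 - (a * s) ^ 2)) ^ 2 = 1 - (a * s) ^ 2 ∧
      b ≤ e * (e * √(1 - (a * s) ^ 2)) ∧ (‖s‖ = 1 → (a * s) ^ 2 = a ^ 2) ∧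
      (‖s‖ < 1 → (a * s) ^ 2 < a ^ 2 ∧ b < e * (e * √(1 - (a * s) ^ 2))) := by
  have e2 : e * e = 1 := by rcases he with rfl | rfl <;> norm_num
  have h1 : s ^ 2 ≤ 1 := (sq_le_one_iff_abs_le_one s).2 hs
  rw [← mul_assoc, e2, one_mul, mul_pow e, sq e, e2, one_mul, mul_pow]
  refine ⟨Real.sq_sqrt (by nlinarith), Real.le_sqrt_of_sq_le (by nlinarith), fun h2 => ?_,
    fun h2 => ?_⟩
  · rw [← sq_abs s, show |s| = 1 from h2, one_pow, mul_one]
  · have h3 := mul_lt_of_lt_one_right (pow_pos ha 2) ((sq_lt_one_iff_abs_lt_one s).2 h2)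
    exact ⟨h3, Real.lt_sqrt_of_sq_lt (by linarith)⟩

theorem BetaSig_arcA {l : K} (hl : Good l) {e : ℝ} (he : e = 1 ∨ e = -1) {B : Set P3}
    (hB : IsClosed B) (hA : IsClosed {p : P3 | p.2.1 = 0 ∧ 3 / 5 ≤ e * p.2.2}) (h0 : B0 ⊆ B)
    (h1 : ∀ p ∈ B, e * p.2.2 ≤ 3 / 5) (n : ℕ) :
    beta actS l (ovr (B ∪ {p | p.2.1 = 0 ∧ 3 / 5 ≤ e * p.2.2})) (ovr B) n =
      if n = 1 then 1 else 0 := by
  have k := fun s => BetaSig_arc (a := 4 / 5) (b := 3 / 5) (s := s) he (by norm_num) (by norm_num)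
  refine (beta_over hl hB (hB.union hA) subset_union_left (.inl rfl)
    (Φ := fun s : ℝ => (4 / 5 * s, 0, e * √(1 - (4 / 5 * s) ^ 2))) (by fun_prop)
    (fun v hv => ⟨?_, by simp, .inr ⟨rfl, (k v hv).2.1⟩⟩) (fun v hv => h0 ⟨rfl, ?_⟩)
    (fun v hv => ⟨fun h => ((k v hv.le).2.2.2 hv).2.not_ge (h1 _ h), fun h => ?_, fun h => ?_⟩)
    (fun p hp h h' => ?_) (fun v _ w _ h => by simpa using congrArg Prod.fst h) n).trans (by simp)
  · show _ + _ + _ = _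
    linarith [(k v hv).1]
  · linarith [(k v hv.le).1, (k v hv.le).2.2.1 hv]
  · have := congrArg im h
    rw [fa_im, zero_im] at this
    nlinarith [(k v hv.le).1, ((k v hv.le).2.2.2 hv).1]
  · have := congrArg im h
    rw [fb_im, zero_im] at this
    nlinarith [(k v hv.le).1, ((k v hv.le).2.2.2 hv).1]
  · obtain ⟨a1, a2⟩ := h.resolve_left h'
    have a3 : p.2.2 ^ 2 = 1 - (4 / 5 * (5 / 4 * p.1)) ^ 2 := by
      rw [S2, mem_ofPred_eq, a1] at hp
      linarith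
    refine ⟨5 / 4 * p.1, (sq_le_one_iff_abs_le_one _).1 ?_,
      Prod.ext (by ring) (Prod.ext a1 (BetaSig_sqrt he a3 (by linarith)))⟩
    rcases he with rfl | rfl <;> nlinarith

theorem BetaSig_arcB {l : K} (hl : Good l) {e : ℝ} (he : e = 1 ∨ e = -1) {B : Set P3}
    (hB : IsClosed B) (hA : IsClosed {p : P3 | p.2.1 = 0 ∧ 4 / 5 ≤ e * p.1}) (h0 : B0 ⊆ B)
    (h1 : ∀ p ∈ B, p ∈ S2 → e * p.1 ≤ 4 / 5) (n : ℕ) :
    beta actS l (ovr (B ∪ {p | p.2.1 = 0 ∧ 4 / 5 ≤ e * p.1})) (ovr B) n =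
      if n = 1 then 1 else 0 := by
  have k := fun s => BetaSig_arc (a := 3 / 5) (b := 4 / 5) (s := s) he (by norm_num) (by norm_num)
  have k' : ∀ s : ℝ, ‖s‖ ≤ 1 → (e * √(1 - (3 / 5 * s) ^ 2), 0, 3 / 5 * s) ∈ S2 := fun s hs => by
    show _ + _ + _ = _
    linarith [(k s hs).1]
  refine (beta_over hl hB (hB.union hA) subset_union_left (.inl rfl)
    (Φ := fun s : ℝ => (e * √(1 - (3 / 5 * s) ^ 2), 0, 3 / 5 * s)) (by fun_prop)
    (fun v hv => ⟨k' v hv, by simp, .inr ⟨rfl, (k v hv).2.1⟩⟩) (fun v hv => h0 ⟨rfl, ?_⟩)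
    (fun v hv => ⟨fun h => ((k v hv.le).2.2.2 hv).2.not_ge (h1 _ h (k' v hv.le)), fun h => ?_,
      fun h => ?_⟩) (fun p hp h h' => ?_)
    (fun v _ w _ h => by simpa using congrArg (·.2.2) h) n).trans (by simp)
  · linarith [(k v hv.le).2.2.1 hv]
  · have := congrArg im h
    rw [fa_im, zero_im] at this
    nlinarith [((k v hv.le).2.2.2 hv).1]
  · have := congrArg im h
    rw [fb_im, zero_im] at this
    nlinarith [((k v hv.le).2.2.2 hv).1]
  · obtain ⟨a1, a2⟩ := h.resolve_left h'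
    have a3 : p.1 ^ 2 = 1 - (3 / 5 * (5 / 3 * p.2.2)) ^ 2 := by
      rw [S2, mem_ofPred_eq, a1] at hp
      linarith
    refine ⟨5 / 3 * p.2.2, (sq_le_one_iff_abs_le_one _).1 ?_,
      Prod.ext (BetaSig_sqrt he a3 (by linarith)) (Prod.ext a1 (by ring))⟩
    rcases he with rfl | rfl <;> nlinarith

/-- The arcs are `s ↦ (4 s / 5, 0, ± sqrt (1 - (4 s / 5) ^ 2))` and
`s ↦ (± sqrt (1 - (3 s / 5) ^ 2), 0, 3 s / 5)`. -/
theorem beta_B1 {l : K} (hl : Good l) (n : ℕ) :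
    beta actS l (ovr B1) (ovr B0) n = if n = 1 then 4 else 0 := by
  have c0 : IsClosed B0 := (isClosed_eq continuous_snd.fst continuous_const).inter
    (isClosed_eq (f := fun p : P3 => p.2.2 ^ 2) (by fun_prop) continuous_const)
  have cA : ∀ e : ℝ, IsClosed {p : P3 | p.2.1 = 0 ∧ 3 / 5 ≤ e * p.2.2} := fun e =>
    (isClosed_eq continuous_snd.fst continuous_const).inter
      (isClosed_le continuous_const (continuous_snd.snd.const_mul e))
  have cB : ∀ e : ℝ, IsClosed {p : P3 | p.2.1 = 0 ∧ 4 / 5 ≤ e * p.1} := fun e =>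
    (isClosed_eq continuous_snd.fst continuous_const).inter
      (isClosed_le continuous_const (continuous_fst.const_mul e))
  have s := fun B B' => BetaSig_mono (subset_union_left (s := B) (t := B'))
  have c1 := c0.union (cA 1)
  have c2 := c1.union (cA (-1))
  have c3 := c2.union (cB 1)
  have u := @subset_union_left P3
  refine Eq.trans ?_ ((beta_conc _ _ (((s _ _).trans (s _ _)).trans (s _ _)) (s _ _)
    (beta_conc _ _ ((s _ _).trans (s _ _)) (s _ _) (beta_conc _ _ (s _ _) (s _ _)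
      (BetaSig_arcA hl (.inl rfl) c0 (cA _) subset_rfl ?_)
      (BetaSig_arcA hl (.inr rfl) c1 (cA _) u ?_))
      (BetaSig_arcB hl (.inl rfl) c2 (cB _) (u.trans u) ?_))
      (BetaSig_arcB hl (.inr rfl) c3 (cB _) ((u.trans u).trans u) ?_) n).trans (by norm_num))
  · rw [BetaSig_congr fun p hp => ⟨fun h : p ∈ B1 => ?_, ?_⟩]
    · by_contra hn
      simp only [S2, B1, mem_union, mem_ofPred_eq, not_or, not_and, not_le] at hn hp h
      have := hn.1.1.1.2 h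
      have := hn.1.1.2 h
      have := hn.1.2 h
      have := hn.2 h
      rw [h] at hp
      nlinarith
    · rintro ((((h | h) | h) | h) | h) <;> exact h.1
  · exact fun p h => by nlinarith [h.2]
  · rintro p (h | h) <;> nlinarith [h.2]
  · rintro p ((h | h) | h) hp <;> nlinarith [h.2, show _ = _ from hp, sq_nonneg p.2.1]
  · rintro p (((h | h) | h) | h) hp <;> nlinarith [h.2, show _ = _ from hp, sq_nonneg p.2.1]

theorem BetaSig_disc {l : K} (hl : Good l) {e : ℝ} (he : e = 1 ∨ e = -1) {B : Set P3}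
    (hB : IsClosed B) (hA : IsClosed {p : P3 | 0 ≤ e * p.2.1}) (h0 : B1 ⊆ B)
    (h1 : ∀ p ∈ B, e * p.2.1 ≤ 0) (n : ℕ) :
    beta actS l (ovr (B ∪ {p | 0 ≤ e * p.2.1})) (ovr B) n = if n = 2 then 1 else 0 := by
  have e2 : ∀ x, e * (e * x) = x := by rcases he with rfl | rfl <;> simp
  have e3 : ∀ z : ℂ, ‖z‖ ^ 2 = z.re ^ 2 + z.im ^ 2 := fun z => by
    rw [Complex.sq_norm, normSq_apply, sq, sq]
  have k : ∀ z : ℂ, ‖z‖ < 1 → 0 < e * (e * √(1 - ‖z‖ ^ 2)) := fun z hz => by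
    rw [e2, Real.sqrt_pos, sub_pos]
    exact pow_lt_one₀ (norm_nonneg _) hz two_ne_zero
  have k' : ∀ z : ℂ, 0 ≤ e * (e * √(1 - ‖z‖ ^ 2)) := fun z => (e2 _).symm ▸ Real.sqrt_nonneg _
  refine (beta_over hl hB (hB.union hA) subset_union_left he
    (Φ := fun z : ℂ => (z.re, e * √(1 - ‖z‖ ^ 2), z.im)) (by fun_prop)
    (fun v hv => ⟨?_, k' v, .inr (k' v)⟩) (fun v hv => h0 (by simp [B1, hv]))
    (fun v hv => ⟨fun h => (k v hv).not_ge (h1 _ h), fun h => (k v hv).ne' ?_,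
      fun h => (k v hv).ne' ?_⟩) (fun p hp h h' => ?_)
    (fun v _ w _ h => Complex.ext (congrArg Prod.fst h) (congrArg (·.2.2) h)) n).trans (by simp)
  · have := Real.mul_self_sqrt (sub_nonneg.2 (pow_le_one₀ (n := 2) (norm_nonneg _) hv))
    show _ + (e * _) ^ 2 + _ = _
    rw [sq (e * _), mul_mul_mul_comm, mul_assoc, e2, this, e3]
    ring
  · exact mul_eq_zero_of_right _ ((fa_re _).symm.trans (congrArg re h))
  · exact mul_eq_zero_of_right _ ((fb_re _).symm.trans (congrArg re h))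
  · have a3 : p.2.1 ^ 2 = 1 - ‖(⟨p.1, p.2.2⟩ : ℂ)‖ ^ 2 := by
      rw [e3]
      linarith [show _ = _ from hp]
    exact ⟨⟨p.1, p.2.2⟩, (sq_le_one_iff₀ (norm_nonneg _)).1 (by linarith [sq_nonneg p.2.1]),
      Prod.ext rfl (Prod.ext (BetaSig_sqrt he a3 (h.resolve_left h')) rfl)⟩

/-- The discs are `z ↦ (z.re, ± sqrt (1 - ‖z‖ ^ 2), z.im)`. -/
theorem beta_B2 {l : K} (hl : Good l) (n : ℕ) :
    beta actS l Sig (ovr B1) n = if n = 2 then 2 else 0 := by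
  have c0 : IsClosed B1 := isClosed_eq (by fun_prop) (by fun_prop)
  have cA : ∀ e : ℝ, IsClosed {p : P3 | 0 ≤ e * p.2.1} := fun e =>
    isClosed_le (by fun_prop) (by fun_prop)
  refine Eq.trans ?_ ((beta_conc _ _ (BetaSig_mono subset_union_left)
    (BetaSig_mono subset_union_left) (BetaSig_disc hl (.inl rfl) c0 (cA _) subset_rfl ?_)
    (BetaSig_disc hl (.inr rfl) (c0.union (cA 1)) (cA _) subset_union_left ?_) n).trans
      (by norm_num))
  · rw [ovr.eq_1 (_ ∪ _), inter_eq_left.2 fun s _ => ?_]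
    rcases le_total 0 s.1.2.1 with h | h
    exacts [.inl (.inr (by simpa)), .inr (by simpa)]
  · exact fun p h => by simp [show p.2.1 = 0 from h]
  · rintro p (h | h)
    exacts [by simp [show p.2.1 = 0 from h], by simpa using h]

theorem BetaSig_base : ∃ s ∈ Sig, s.1 = (1, 0, 0) := by
  obtain ⟨L, -, hL⟩ := sig_lift (.inl rfl)
  exact ⟨_, hL _ ⟨by simp [S2], by simp⟩⟩

/-- `beta_zero_le_one`, `sig_lift`, `hemi_conn`, `sig_fib`. -/
theorem beta_sig_zero : beta actS (1 : K) Sig ∅ 0 ≤ 1 := by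
  refine beta_zero_le_one _ fun u hu ⟨ε, hε, h⟩ => ?_
  have h1 : ∀ s ∈ Sig, ∀ s' ∈ Sig, s.1 = s'.1 → u s' = u s := fun s hs s' hs' e => by
    obtain ⟨i, -, rfl⟩ := sig_fib hs hs' e
    exact congrFun (Function.iterate_invariant (funext hu) i) s
  have h2 : ∀ e : ℝ, e = 1 ∨ e = -1 → ∀ s ∈ Sig, ∀ s' ∈ Sig, 0 ≤ e * s.1.2.1 → 0 ≤ e * s'.1.2.1 →
      u s = u s' := fun e he s hs s' hs' a a' => by
    obtain ⟨L, hL, hL'⟩ := sig_lift he
    rw [h1 _ (hL' _ ⟨hs.1, a⟩).1 s hs (hL' _ ⟨hs.1, a⟩).2,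
      h1 _ (hL' _ ⟨hs'.1, a'⟩).1 s' hs' (hL' _ ⟨hs'.1, a'⟩).2]
    refine (hemi_conn he).induction₂' (fun p q => u (L p) = u (L q)) (fun p hp => ?_)
      (fun _ _ _ _ _ _ => Eq.trans) ⟨hs.1, a⟩ ⟨hs'.1, a'⟩
    filter_upwards [Metric.tendsto_nhds.1 (hL p hp) ε hε, self_mem_nhdsWithin] with q b hq
    exact and_self_iff.2 (h _ (hL' q hq).1 _ (hL' p hp).1 b) |>.imp Eq.symm id
  obtain ⟨s, hs, e⟩ := BetaSig_base
  refine ⟨u s, fun x hx => ?_⟩
  rcases le_total 0 x.1.2.1 with a | a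
  exacts [h2 _ (.inl rfl) x hx s hs (by simpa) (by simp [e]),
    h2 _ (.inr rfl) x hx s hs (by simpa) (by simp [e])]

theorem BetaSig_les {l : K} {Z A : Set ASig} (h : A ⊆ Z) {x y : ℕ → ℕ}
    (hA : ∀ n, beta actS l A ∅ n = x n) (hZ : ∀ n, beta actS l Z A n = y n) :
    ∃ i j r : ℕ → ℕ, r 0 = 0 ∧ (∀ n, beta actS l Z ∅ n = (i n + j n : ℕ)) ∧
      (∀ n, x n = i n + r (n + 1)) ∧ ∀ n, y n = j n + r n := by
  obtain ⟨i, j, r, h0, hx, hy, hz⟩ := beta_les actS l (empty_subset A) h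
  simp only [hA, hZ] at hy hz
  have k : ∀ {a b : ℕ∞} {c : ℕ}, c = a + b → (∃ n : ℕ, a = n) ∧ ∃ n : ℕ, b = n := by
    intro a b c e
    cases a <;> cases b <;> simp at e ⊢
  choose i' hi using fun n => (k (hy n)).1
  choose j' hj using fun n => (k (hz n)).1
  choose r' hr using fun n => (k (hz n)).2
  simp only [hi, hj, hr] at h0 hx hy hz
  exact ⟨i', j', r', mod_cast h0, mod_cast hx, mod_cast hy, mod_cast hz⟩

theorem beta_sig_one (hl : Good (1 : K)) :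
    ∃ b : ℕ → ℕ, (∀ n, beta actS (1 : K) Sig ∅ n = b n) ∧ 1 ≤ b 0 ∧ 1 ≤ b 2 := by
  obtain ⟨i, j, r, h0, hx, hy, hz⟩ := BetaSig_les (l := (1 : K))
    (BetaSig_mono (B := B0) (B' := B1) fun _ h => h.1) (x := fun n => if n = 0 then 4 else 0)
    (y := fun n => if n = 1 then 4 else 0)
    (fun n => by simp [(beta_B0 hl).1 rfl n]) fun n => by simp [beta_B1 hl n]
  obtain ⟨i', j', r', h0', hx', hy', hz'⟩ := BetaSig_les (A := ovr B1) inter_subset_left hx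
    (y := fun n => if n = 2 then 2 else 0) fun n => by simpa using beta_B2 hl n
  have h1 := one_le_beta_zero (K := K) actS (BetaSig_base.imp fun _ h => h.1)
  have h2 := beta_sig_zero (K := K)
  rw [hx', Nat.one_le_cast] at h1
  rw [hx', Nat.cast_le_one] at h2
  refine ⟨_, hx', h1, ?_⟩
  have := And.intro (And.intro (And.intro (hy 0) (hz 1)) (And.intro (hy 1) (hz' 1)))
    (And.intro (And.intro (hy' 0) (hy' 1)) (hz' 2))
  norm_num at this
  omega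

theorem beta_sig_prim {l : K} (hl : Good l) (h2 : l ^ 2 ≠ 1) (h3 : l ^ 3 ≠ 1) :
    ∃ b : ℕ → ℕ, (∀ n, beta actS l Sig ∅ n = b n) ∧ b 0 = 0 ∧ 2 ≤ b 1 := by
  obtain ⟨i', j', r', h0', hx', hy', hz'⟩ := BetaSig_les (A := ovr B1) inter_subset_left
    (x := fun n => if n = 1 then 4 else 0) (y := fun n => if n = 2 then 2 else 0) (fun n => by
      simpa [beta_B1 hl n] using beta_right (empty_subset _)
        (BetaSig_mono (B := B0) (B' := B1) fun _ h => h.1) ((beta_B0 hl).2 h2 h3) n)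
    fun n => by simpa using beta_B2 hl n
  refine ⟨_, hx', ?_⟩
  have := And.intro (And.intro (hy' 0) (hy' 1)) (And.intro (hz' 0) (hz' 2))
  norm_num at this
  omega

end Vale.Agent.P265
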