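import Vale.Agent.P265.Sig

/-!
The four-manifold `X`, the quotient of `Σ × S¹ × S¹` by the cyclic group of order six.
-/

open scoped ContDiff Topology
open Set Filter Complex

noncomputable section

namespace Vale.Agent.P265

/-- Points `(p, (a, A), (c, C))`. -/
abbrev AX : Type := P3 × (ℂ × ℂ) × (ℂ × ℂ)

/-- The manifold `X`. -/
def XS : Set AX := {x | x.1 ∈ S2 ∧ ‖x.2.1.2‖ = 1 ∧ ‖x.2.2.2‖ = 1 ∧
  x.2.1.1 ^ 2 = fa x.1 * x.2.1.2 ∧ x.2.2.1 ^ 3 = fb x.1 * x.2.2.2}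

/-- The unit circle. -/
def S1 : Set ℂ := {z | ‖z‖ = 1}

/-- The ambient space of the cover. -/
abbrev AU : Type := ASig × ℂ × ℂ

/-- The cover. -/
def XU : Set AU := Sig ×ˢ S1 ×ˢ S1

/-- The deck transformation. -/
def TU : AU →L[ℝ] AU :=
  TS.prodMap ((-ContinuousLinearMap.id ℝ ℂ).prodMap (z3 ^ 2 • ContinuousLinearMap.id ℝ ℂ))

theorem TU_apply (x : AU) : TU x = (TS x.1, -x.2.1, z3 ^ 2 * x.2.2) := rfl

theorem TU_iter (i : ℕ) (x : AU) :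
    TU^[i] x = (TS^[i] x.1, (-1) ^ i * x.2.1, (z3 ^ 2) ^ i * x.2.2) := by
  induction i with
  | zero => simp
  | succ i ih =>
    rw [Function.iterate_succ_apply', ih, TU_apply, Function.iterate_succ_apply']
    refine Prod.ext rfl (Prod.ext ?_ ?_) <;> simp only [pow_succ] <;> ring

/-- The covering map. -/
def piX (x : AU) : AX :=
  (x.1.1, (x.1.2.1 * x.2.1, x.2.1 ^ 2), (x.1.2.2 * x.2.2, x.2.2 ^ 3))

/-- The action of the torus. -/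
def rotX (s t : ℝ) (x : AX) : AX :=
  (x.1, (cexp (s * I) * x.2.1.1, cexp (2 * s * I) * x.2.1.2),
    (cexp (t * I) * x.2.2.1, cexp (3 * t * I) * x.2.2.2))

theorem XDef_S1 : S1 = Metric.sphere 0 1 := by
  ext z
  simp [S1]

theorem S1_cpt : IsCompact S1 := by
  rw [XDef_S1]
  exact isCompact_sphere _ _

theorem rotX_mem {x : AX} (h : x ∈ XS) (s t : ℝ) : rotX s t x ∈ XS := by
  obtain ⟨h1, h2, h3, h4, h5⟩ := h
  have e2 : cexp (2 * s * I) = cexp (s * I) ^ 2 := by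
    rw [← Complex.exp_nat_mul]
    congr 1
    push_cast
    ring
  have e3 : cexp (3 * t * I) = cexp (t * I) ^ 3 := by
    rw [← Complex.exp_nat_mul]
    congr 1
    push_cast
    ring
  refine ⟨h1, ?_, ?_, ?_, ?_⟩ <;> simp only [rotX, e2, e3]
  · rw [norm_mul, norm_pow, norm_exp_ofReal_mul_I, h2, one_pow, one_mul]
  · rw [norm_mul, norm_pow, norm_exp_ofReal_mul_I, h3, one_pow, one_mul]
  · rw [mul_pow, h4]
    ring
  · rw [mul_pow, h5]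
    ring

theorem XDef_maps : MapsTo piX XU XS := by
  rintro ⟨⟨p, α, β⟩, μ, ν⟩ ⟨⟨h1, h2, h3⟩, h4, h5⟩
  have h6 : ‖μ‖ = 1 := h4
  have h7 : ‖ν‖ = 1 := h5
  refine ⟨h1, ?_, ?_, ?_, ?_⟩ <;> simp only [piX] at h2 h3 ⊢
  · rw [norm_pow, h6, one_pow]
  · rw [norm_pow, h7, one_pow]
  · rw [mul_pow, h2]
  · rw [mul_pow, h3]

theorem XDef_up {x : AX} (h : x ∈ XS) {μ ν : ℂ} (h1 : μ ^ 2 = x.2.1.2) (h2 : ν ^ 3 = x.2.2.2) :
    (((x.1, x.2.1.1 * μ⁻¹, x.2.2.1 * ν⁻¹), μ, ν) : AU) ∈ XU ∧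
      piX ((x.1, x.2.1.1 * μ⁻¹, x.2.2.1 * ν⁻¹), μ, ν) = x := by
  obtain ⟨p, ⟨a, A⟩, c, C⟩ := x
  obtain ⟨e1, e2, e3, e4, e5⟩ := h
  dsimp only at *
  have n1 : ‖μ‖ = 1 := by
    rw [← h1, norm_pow] at e2
    exact (pow_eq_one_iff_of_nonneg (norm_nonneg _) two_ne_zero).1 e2
  have n2 : ‖ν‖ = 1 := by
    rw [← h2, norm_pow] at e3
    exact (pow_eq_one_iff_of_nonneg (norm_nonneg _) three_ne_zero).1 e3
  have z1 : μ ≠ 0 := norm_ne_zero_iff.1 (n1 ▸ one_ne_zero)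
  have z2 : ν ≠ 0 := norm_ne_zero_iff.1 (n2 ▸ one_ne_zero)
  refine ⟨⟨⟨e1, ?_, ?_⟩, n1, n2⟩, ?_⟩
  · show (a * μ⁻¹) ^ 2 = fa p
    rw [mul_pow, e4, ← h1]
    field_simp
  · show (c * ν⁻¹) ^ 3 = fb p
    rw [mul_pow, e5, ← h2]
    field_simp
  · simp only [piX, h1, h2, inv_mul_cancel_right₀ z1, inv_mul_cancel_right₀ z2]

theorem piX_image : piX '' XU = XS := by
  refine XDef_maps.image_subset.antisymm fun x hx => ?_
  obtain ⟨μ, h1⟩ := IsAlgClosed.exists_pow_nat_eq x.2.1.2 two_pos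
  obtain ⟨ν, h2⟩ := IsAlgClosed.exists_pow_nat_eq x.2.2.2 three_pos
  exact ⟨_, XDef_up hx h1 h2⟩

theorem XDef_smooth : ContDiff ℝ ∞ piX := by
  unfold piX
  fun_prop

theorem XDef_cpt : IsCompact XU := sig_inv.cpt.prod (S1_cpt.prod S1_cpt)

theorem XDef_z3 : z3 ^ 3 = 1 := z3_prim.pow_eq_one

theorem XDef_norm : ‖z3‖ = 1 := by
  have := congrArg norm XDef_z3
  rw [norm_pow, norm_one] at this
  exact (pow_eq_one_iff_of_nonneg (norm_nonneg _) three_ne_zero).1 this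

theorem XDef_piT (x : AU) : piX (TU x) = piX x := by
  obtain ⟨⟨p, α, β⟩, μ, ν⟩ := x
  have e1 : z3 * β * (z3 ^ 2 * ν) = β * ν := by linear_combination β * ν * XDef_z3
  have e2 : (z3 ^ 2 * ν) ^ 3 = ν ^ 3 := by linear_combination ν ^ 3 * (z3 ^ 3 + 1) * XDef_z3
  simp only [TU_apply, TS_apply, piX, e1, e2, neg_mul_neg, neg_sq]

theorem XDef_pi_iter (i : ℕ) (x : AU) : piX (TU^[i] x) = piX x := by
  induction i with
  | zero => rfl
  | succ i ih => rw [Function.iterate_succ_apply', XDef_piT, ih]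

theorem XDef_TU : MapsTo TU XU XU := by
  rintro ⟨s, μ, ν⟩ ⟨h1, h2, h3⟩
  have h4 : ‖μ‖ = 1 := h2
  have h5 : ‖ν‖ = 1 := h3
  refine ⟨sig_inv.maps h1, ?_, ?_⟩
  · show ‖-μ‖ = 1
    rw [norm_neg, h4]
  · show ‖z3 ^ 2 * ν‖ = 1
    rw [norm_mul, norm_pow, XDef_norm, h5, one_pow, one_mul]

theorem XS_cpt : IsCompact XS := piX_image ▸ XDef_cpt.image XDef_smooth.continuous

theorem XDef_half {e : ℝ} (he : e = 1 ∨ e = -1) :
    IsPreconnected (XS ∩ {x | 0 ≤ e * x.1.2.1}) := by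
  obtain ⟨L, h1, h2⟩ := sig_lift he
  have hc : IsPreconnected S1 := by
    rw [XDef_S1]
    exact isPreconnected_sphere (by rw [Complex.rank_real_complex]; norm_num) _ _
  have h3 := ((hemi_conn he).prod (hc.prod hc)).image (fun q : P3 × ℂ × ℂ => piX (L q.1, q.2))
    (XDef_smooth.continuous.comp_continuousOn
      ((h1.comp continuousOn_fst fun q hq => hq.1).prodMk continuousOn_snd))
  have e1 : (fun q : P3 × ℂ × ℂ => piX (L q.1, q.2)) '' ((S2 ∩ {p | 0 ≤ e * p.2.1}) ×ˢ S1 ×ˢ S1) =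
      XS ∩ {x | 0 ≤ e * x.1.2.1} := by
    refine Subset.antisymm ?_ ?_
    · rintro _ ⟨q, hq, rfl⟩
      refine ⟨XDef_maps ⟨(h2 _ hq.1).1, hq.2⟩, ?_⟩
      show 0 ≤ e * (L q.1).1.2.1
      rw [(h2 _ hq.1).2]
      exact hq.1.2
    · rintro x ⟨hx, hx'⟩
      obtain ⟨y, hy, rfl⟩ := piX_image.symm ▸ hx
      have h4 : y.1.1 ∈ S2 ∩ {p | 0 ≤ e * p.2.1} := ⟨hy.1.1, hx'⟩
      obtain ⟨i, -, h5⟩ := sig_fib hy.1 (h2 _ h4).1 (h2 _ h4).2.symm
      refine ⟨(y.1.1, (TU^[i] y).2), ⟨h4, (XDef_TU.iterate i hy).2⟩, ?_⟩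
      rw [← XDef_pi_iter i y]
      refine congrArg piX (Prod.ext ?_ rfl)
      rw [TU_iter]
      exact h5
  rwa [e1] at h3

/-- `X` is the union of the images of `hemisphere × S¹ × S¹` under
`(p, μ, ν) ↦ piX (L p, μ, ν)` (`sig_lift`, `sig_fib`, `hemi_conn`). -/
theorem XS_conn : IsConnected XS := by
  obtain ⟨L, -, h2⟩ := sig_lift (Or.inl rfl)
  obtain ⟨h3, h4⟩ := h2 (1, 0, 0) ⟨by simp [S2], by simp⟩
  have h5 : piX (L (1, 0, 0), 1, 1) ∈ XS := XDef_maps ⟨h3, norm_one, norm_one⟩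
  have h6 : (piX (L (1, 0, 0), 1, 1)).1.2.1 = 0 := congrArg (fun p : P3 => p.2.1) h4
  have h8 : ∀ e : ℝ, piX (L (1, 0, 0), 1, 1) ∈ XS ∩ {x | 0 ≤ e * x.1.2.1} := fun e =>
    ⟨h5, by rw [mem_ofPred_eq, h6, mul_zero]⟩
  have h7 := IsPreconnected.union _ (h8 1) (h8 (-1)) (XDef_half (Or.inl rfl))
    (XDef_half (Or.inr rfl))
  have e : XS ∩ {x | 0 ≤ 1 * x.1.2.1} ∪ XS ∩ {x | 0 ≤ -1 * x.1.2.1} = XS := by
    rw [← inter_union_distrib_left, inter_eq_left]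
    intro x _
    rcases le_total 0 x.1.2.1 with h | h
    · exact Or.inl (by rwa [mem_ofPred_eq, one_mul])
    · exact Or.inr (by rwa [mem_ofPred_eq, neg_one_mul, neg_nonneg])
  exact ⟨⟨_, h5⟩, e ▸ h7⟩

theorem XDef_crt {u w : ℂ} (hu : u ^ 2 = 1) (hw : w ^ 3 = 1) :
    ∃ i < 6, (-1) ^ i = u ∧ (z3 ^ 2) ^ i = w := by
  obtain ⟨b, hb, rfl⟩ := z3_prim.eq_pow_of_pow_eq_one hw
  have h1 : ∀ i, (z3 ^ 2) ^ i = z3 ^ (2 * i % 3) := fun i => by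
    rw [← pow_mul, pow_eq_pow_mod _ XDef_z3]
  rcases sq_eq_sq_iff_eq_or_eq_neg.1 (hu.trans (one_pow 2).symm) with rfl | rfl
  · refine ⟨2 * b, by omega, by rw [pow_mul]; norm_num, ?_⟩
    rw [h1]
    congr 1
    omega
  · refine ⟨(2 * b + 3) % 6, by omega, Odd.neg_one_pow (by rw [Nat.odd_iff]; omega), ?_⟩
    rw [h1]
    congr 1
    omega

theorem piX_fib {x y : AU} (hx : x ∈ XU) (hy : y ∈ XU) (h : piX x = piX y) :
    ∃ i < 6, y = TU^[i] x := by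
  obtain ⟨⟨p, α, β⟩, μ, ν⟩ := x
  obtain ⟨⟨p', α', β'⟩, μ', ν'⟩ := y
  have z1 : μ ≠ 0 := norm_ne_zero_iff.1 ((show ‖μ‖ = 1 from hx.2.1) ▸ one_ne_zero)
  have z2 : ν ≠ 0 := norm_ne_zero_iff.1 ((show ‖ν‖ = 1 from hx.2.2) ▸ one_ne_zero)
  have z3' : μ' ≠ 0 := norm_ne_zero_iff.1 ((show ‖μ'‖ = 1 from hy.2.1) ▸ one_ne_zero)
  have z4 : ν' ≠ 0 := norm_ne_zero_iff.1 ((show ‖ν'‖ = 1 from hy.2.2) ▸ one_ne_zero)
  simp only [piX, Prod.mk.injEq] at h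
  obtain ⟨rfl, ⟨h1, h2⟩, h3, h4⟩ := h
  obtain ⟨i, hi, e1, e2⟩ := XDef_crt (u := μ' / μ) (w := ν' / ν)
    (by rw [div_pow, h2, div_self (pow_ne_zero _ z3')])
    (by rw [div_pow, h4, div_self (pow_ne_zero _ z4)])
  have e3 : μ' = (-1) ^ i * μ := by rw [e1, div_mul_cancel₀ _ z1]
  have e4 : ν' = (z3 ^ 2) ^ i * ν := by rw [e2, div_mul_cancel₀ _ z2]
  have e5 : ((-1 : ℂ) ^ i) * (-1) ^ i = 1 := by rw [← mul_pow]; norm_num
  have e6 : z3 ^ i * (z3 ^ 2) ^ i = 1 := by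
    rw [← mul_pow, ← pow_succ', XDef_z3, one_pow]
  refine ⟨i, hi, ?_⟩
  rw [TU_iter, TS_iter]
  refine Prod.ext (Prod.ext rfl (Prod.ext (mul_right_cancel₀ z3' ?_) (mul_right_cancel₀ z4 ?_)))
    (Prod.ext e3 e4)
  · show α' * μ' = (-1) ^ i * α * μ'
    rw [← h1, e3]
    linear_combination (-α * μ) * e5
  · show β' * ν' = z3 ^ i * β * ν'
    rw [← h3, e4]
    linear_combination (-β * ν) * e6

/-- The lift of a point of the surface and two angles. -/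
def upX (c : PChart Sig (ℝ × ℝ)) (η : (ℝ × ℝ) × ℝ × ℝ) : AU :=
  (c.ψ η.1, cexp (η.2.1 * I), cexp (η.2.2 * I))

/-- The domain of a branch of the angle. -/
def XDefV (n : ℕ) (s : ℝ) : Set ℂ := {A | A * cexp ((-(n * s) : ℝ) * I) ∈ slitPlane}

/-- A branch of the angle of an `n`-th root. -/
def XDefA (n : ℕ) (s : ℝ) (A : ℂ) : ℝ := s + arg (A * cexp ((-(n * s) : ℝ) * I)) / n

theorem XDefV_open (n : ℕ) (s : ℝ) : IsOpen (XDefV n s) :=
  isOpen_slitPlane.preimage (continuous_id.mul continuous_const)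

theorem XDefA_smooth (n : ℕ) (s : ℝ) : ContDiffOn ℝ ∞ (XDefA n s) (XDefV n s) := by
  intro A hA
  have h1 : ContDiffAt ℝ ∞ (fun A : ℂ => (log (A * cexp ((-(n * s) : ℝ) * I))).im) A :=
    imCLM.contDiff.contDiffAt.comp A (((Complex.contDiffAt_log hA).restrict_scalars ℝ).comp A
      (contDiffAt_id.mul contDiffAt_const))
  simp only [log_im] at h1
  exact (contDiffAt_const.add (h1.div_const _)).contDiffWithinAt

theorem XDefA_pow {n : ℕ} (hn : n ≠ 0) (s : ℝ) {A : ℂ} (hA : ‖A‖ = 1) :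
    cexp (XDefA n s A * I) ^ n = A := by
  have h1 := norm_mul_exp_arg_mul_I (A * cexp ((-(n * s) : ℝ) * I))
  rw [norm_mul, norm_exp_ofReal_mul_I, hA, one_mul, ofReal_one, one_mul] at h1
  have h2 : (n : ℂ) ≠ 0 := Nat.cast_ne_zero.2 hn
  have h3 : (n : ℂ) * (XDefA n s A * I) =
      arg (A * cexp ((-(n * s) : ℝ) * I)) * I + -((-(n * s) : ℝ) * I) := by
    simp only [XDefA]
    push_cast
    field_simp
    ring
  rw [← Complex.exp_nat_mul, h3, Complex.exp_add, h1, Complex.exp_neg,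
    mul_inv_cancel_right₀ (Complex.exp_ne_zero _)]

theorem XDefA_exp {n : ℕ} (hn : n ≠ 0) {s θ : ℝ}
    (h : θ ∈ Ioo (s - Real.pi / n) (s + Real.pi / n)) :
    cexp (θ * I) ^ n ∈ XDefV n s ∧ XDefA n s (cexp (θ * I) ^ n) = θ := by
  have h0 : (0 : ℝ) < n := Nat.cast_pos.2 (Nat.pos_of_ne_zero hn)
  have e : cexp (θ * I) ^ n * cexp ((-(n * s) : ℝ) * I) = cexp ((n * (θ - s) : ℝ) * I) := by
    rw [← Complex.exp_nat_mul, ← Complex.exp_add]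
    congr 1
    push_cast
    ring
  have e1 : (n : ℝ) * (Real.pi / n) = Real.pi := by field_simp
  have l1 : -Real.pi < n * (θ - s) := by nlinarith [h.1]
  have l2 : n * (θ - s) < Real.pi := by nlinarith [h.2]
  have e2 : arg (cexp ((n * (θ - s) : ℝ) * I)) = n * (θ - s) := by
    rw [exp_mul_I, arg_cos_add_sin_mul_I ⟨l1, l2.le⟩]
  refine ⟨?_, ?_⟩
  · show _ ∈ slitPlane
    rw [e, mem_slitPlane_iff_arg, e2]
    exact ⟨l2.ne, Complex.exp_ne_zero _⟩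
  · rw [XDefA, e, e2]
    field_simp
    ring

theorem XDef_exp_smooth : ContDiff ℝ ∞ fun θ : ℝ => cexp (θ * I) :=
  (ofRealCLM.contDiff.mul contDiff_const).cexp

theorem XDef_circ (s : ℝ) {r : ℝ} (hr : r ≤ Real.pi) :
    ∃ k : PChart S1 ℝ, k.U = Ioo (s - r) (s + r) ∧ ∀ θ, k.ψ θ = cexp (θ * I) := by
  have h1 : ∀ θ ∈ Ioo (s - r) (s + r), cexp (θ * I) ∈ XDefV 1 s ∧ XDefA 1 s (cexp (θ * I)) = θ := by
    intro θ h
    have := XDefA_exp (n := 1) one_ne_zero (s := s) (θ := θ) (by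
      rw [Nat.cast_one, div_one]
      exact ⟨by linarith [h.1], by linarith [h.2]⟩)
    rwa [pow_one] at this
  refine ⟨⟨fun θ => cexp (θ * I), XDefA 1 s, Ioo (s - r) (s + r),
    XDefV 1 s ∩ XDefA 1 s ⁻¹' Ioo (s - r) (s + r), isOpen_Ioo,
    (XDefA_smooth 1 s).continuousOn.isOpen_inter_preimage (XDefV_open 1 s) isOpen_Ioo,
    XDef_exp_smooth.contDiffOn, (XDefA_smooth 1 s).mono inter_subset_left,
    fun θ h => ⟨norm_exp_ofReal_mul_I θ, (h1 θ h).1, ?_⟩, fun z h => h.2.2, fun θ h => (h1 θ h).2,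
    fun z h => ?_⟩, rfl, fun _ => rfl⟩
  · rw [mem_preimage, (h1 θ h).2]
    exact h
  · have := XDefA_pow one_ne_zero s h.1
    rwa [pow_one] at this

/-- Charts of a quotient, from a chart of the cover and a local section. -/
theorem XDef_down {A A' E : Type} [NormedAddCommGroup A] [NormedSpace ℝ A] [NormedAddCommGroup A']
    [NormedSpace ℝ A'] [NormedAddCommGroup E] [NormedSpace ℝ E] {S : Set A} {S' : Set A'}
    (d : PChart S' E) {q : A' → A} (hq : ContDiff ℝ ∞ q) (hm : MapsTo q S' S) {V : Set A}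
    (hV : IsOpen V) {σ : A → A'} (hσ : ContDiffOn ℝ ∞ σ V)
    (h1 : ∀ x ∈ S, σ x ∈ S' ∧ q (σ x) = x)
    (h2 : ∀ η ∈ d.U, q (d.ψ η) ∈ V ∧ σ (q (d.ψ η)) = d.ψ η) :
    ∃ k : PChart S E, k.U = d.U ∧ ∀ η, k.ψ η = q (d.ψ η) :=
  ⟨⟨fun η => q (d.ψ η), fun x => d.χ (σ x), d.U, V ∩ σ ⁻¹' d.O, d.oU,
    hσ.continuousOn.isOpen_inter_preimage hV d.oO, hq.comp_contDiffOn d.sψ,
    d.sχ.comp (hσ.mono inter_subset_left) fun _ h => h.2,
    fun η h => ⟨hm (d.mψ h).1, (h2 η h).1, by rw [mem_preimage, (h2 η h).2]; exact (d.mψ h).2⟩,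
    fun x h => d.mχ ⟨(h1 x h.1).1, h.2.2⟩, fun η h => by rw [(h2 η h).2, d.li η h],
    fun x h => by rw [d.ri _ ⟨(h1 x h.1).1, h.2.2⟩, (h1 x h.1).2]⟩, rfl, fun _ => rfl⟩

/-- Charts of `X` and of the cover with the same domain
`c.U × (s - π / 2, s + π / 2) × (t - π / 3, t + π / 3)`. Downstairs the inverse has angles
`s' = s + arg (A * exp (-2 s I)) / 2`, `t' = t + arg (C * exp (-3 t I)) / 3` and first component
`c.χ (p, a * exp (-s' I), c * exp (-t' I))`; use `arg z = (log z).im`, smooth on `slitPlane`.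
Upstairs the angles are `s + arg (μ * exp (-s I))`, `t + arg (ν * exp (-t I))`. -/
theorem exists_chartX (c : PChart Sig (ℝ × ℝ)) (s t : ℝ) :
    ∃ (d : PChart XS ((ℝ × ℝ) × ℝ × ℝ)) (d' : PChart XU ((ℝ × ℝ) × ℝ × ℝ)),
      d.U = c.U ×ˢ Ioo (s - Real.pi / 2) (s + Real.pi / 2) ×ˢ
        Ioo (t - Real.pi / 3) (t + Real.pi / 3) ∧
      d'.U = d.U ∧ (∀ η, d.ψ η = piX (upX c η)) ∧ ∀ η, d'.ψ η = upX c η := by
  obtain ⟨k1, a1, a2⟩ := XDef_circ s (half_le_self Real.pi_pos.le)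
  obtain ⟨k2, b1, b2⟩ := XDef_circ t (r := Real.pi / 3) (by linarith [Real.pi_pos])
  have e : ∀ η, (c.prod (k1.prod k2)).ψ η = upX c η := fun η =>
    Prod.ext rfl (Prod.ext (a2 _) (b2 _))
  have eU : (c.prod (k1.prod k2)).U = c.U ×ˢ Ioo (s - Real.pi / 2) (s + Real.pi / 2) ×ˢ
      Ioo (t - Real.pi / 3) (t + Real.pi / 3) := by
    rw [← a1, ← b1]
    rfl
  have s1 : ContDiffOn ℝ ∞ (fun x : AX => cexp (XDefA 2 s x.2.1.2 * I))
      {x | x.2.1.2 ∈ XDefV 2 s ∧ x.2.2.2 ∈ XDefV 3 t} :=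
    XDef_exp_smooth.comp_contDiffOn ((XDefA_smooth 2 s).comp (f := fun x : AX => x.2.1.2)
      (by fun_prop) fun _ h => h.1)
  have s2 : ContDiffOn ℝ ∞ (fun x : AX => cexp (XDefA 3 t x.2.2.2 * I))
      {x | x.2.1.2 ∈ XDefV 2 s ∧ x.2.2.2 ∈ XDefV 3 t} :=
    XDef_exp_smooth.comp_contDiffOn ((XDefA_smooth 3 t).comp (f := fun x : AX => x.2.2.2)
      (by fun_prop) fun _ h => h.2)
  obtain ⟨d, d1, d2⟩ := XDef_down (S := XS) (S' := XU) (c.prod (k1.prod k2)) XDef_smooth XDef_maps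
    (V := {x | x.2.1.2 ∈ XDefV 2 s ∧ x.2.2.2 ∈ XDefV 3 t})
    (((XDefV_open 2 s).preimage (by fun_prop)).inter ((XDefV_open 3 t).preimage (by fun_prop)))
    (σ := fun x => ((x.1, x.2.1.1 * (cexp (XDefA 2 s x.2.1.2 * I))⁻¹,
      x.2.2.1 * (cexp (XDefA 3 t x.2.2.2 * I))⁻¹), cexp (XDefA 2 s x.2.1.2 * I),
      cexp (XDefA 3 t x.2.2.2 * I)))
    ((contDiffOn_fst.prodMk (((by fun_prop : ContDiffOn ℝ ∞ (fun x : AX => x.2.1.1) _).mul
      (s1.inv fun _ _ => Complex.exp_ne_zero _)).prodMk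
      ((by fun_prop : ContDiffOn ℝ ∞ (fun x : AX => x.2.2.1) _).mul
      (s2.inv fun _ _ => Complex.exp_ne_zero _)))).prodMk (s1.prodMk s2))
    (fun x hx => XDef_up hx (XDefA_pow two_ne_zero s hx.2.1) (XDefA_pow three_ne_zero t hx.2.2.1))
    (fun η hη => by
      rw [eU] at hη
      obtain ⟨u1, u2⟩ := XDefA_exp two_ne_zero (s := s) (θ := η.2.1) (by exact_mod_cast hη.2.1)
      obtain ⟨v1, v2⟩ := XDefA_exp three_ne_zero (s := t) (θ := η.2.2) (by exact_mod_cast hη.2.2)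
      rw [e]
      refine ⟨⟨u1, v1⟩, ?_⟩
      simp only [piX, upX, u2, v2, mul_inv_cancel_right₀ (Complex.exp_ne_zero _)])
  exact ⟨d, c.prod (k1.prod k2), d1.trans eU, d1.symm, fun η => by rw [d2, e], e⟩

end Vale.Agent.P265
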