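import Vale.Agent.P265.YDef
import Vale.Agent.P265.XDef
import Vale.Agent.P265.Susp

/-!
Betti numbers of products with the toric surface.
-/

open scoped Topology
open Set Filter Complex

noncomputable section

namespace Vale.Agent.P265

variable {K : Type} [Field K] {X : Type} [MetricSpace X]

theorem beta_S1 {a : Act X} {l : K} (hl : Good l) {Z : Set X} (hZ : a.Inv Z) (n : ℕ) :
    beta (a.prod ℂ) l (Z ×ˢ S1) ∅ n = beta a l Z ∅ n + sh 1 (beta a l Z ∅) n :=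
  beta_sphere hl hZ gauge_norm (d := 1) (by simp) n

/-- The gauge of the hexagon, centred at `(2, 2)`. -/
def gH (v : ℝ × ℝ) : ℝ :=
  max (max (max (-v.1 / 2) (-(v.1 + v.2) / 2)) (max (-(v.1 + 2 * v.2) / 3) (-v.2 / 2)))
    (max (v.1 / 2) v.2)

theorem gH_gauge : Gauge gH := by
  refine ⟨by unfold gH; fun_prop, fun t ht v => ?_, fun v hv => ?_⟩
  · simp only [gH, mul_max_of_nonneg _ _ ht, Prod.smul_fst, Prod.smul_snd, smul_eq_mul]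
    ring_nf
  · by_contra h
    simp only [gH, not_lt, max_le_iff] at h
    exact hv (Prod.ext (show v.1 = 0 by linarith [h.1.1.1, h.2.1])
      (show v.2 = 0 by linarith [h.1.2.2, h.2.2]))

theorem gH_le (v : ℝ × ℝ) : (gH v ≤ 1 ↔ (2, 2) + v ∈ Hex) ∧
    (gH v < 1 ↔ ∀ j, 0 < ell j ((2, 2) + v)) := by
  simp only [gH, Hex, max_le_iff, max_lt_iff, mem_ofPred_eq, Fin.forall_fin_succ, and_assoc]
  simp [ell, nu, cc]
  constructor <;> constructor <;> rintro ⟨h1, h2, h3, h4, h5, h6⟩ <;>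
    refine ⟨?_, ?_, ?_, ?_, ?_, ?_⟩ <;> linarith

/-- The part over the boundary of the hexagon. -/
def Yb : Set AY := {y ∈ YS | ∃ j, ell j y.1 = 0}

/-- A circle in it. -/
def Yc : Set AY := {y | y.1 ∈ Hex ∧ (∃ j, ell j y.1 = 0) ∧ y = PiY y.1 0}

theorem BetaY_closed : IsClosed {x : ℝ × ℝ | ∃ j, ell j x = 0} := by
  rw [ofPred_exists]
  exact isClosed_iUnion_of_finite fun j => isClosed_eq (by unfold ell; fun_prop) continuous_const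

theorem BetaY_eq (v : ℝ × ℝ) : gH v = 1 ↔ (2, 2) + v ∈ Hex ∧ ∃ j, ell j ((2, 2) + v) = 0 := by
  rw [le_antisymm_iff, ← not_lt (a := gH v), (gH_le v).1, (gH_le v).2, not_forall]
  exact and_congr_right fun h => exists_congr fun j => by rw [(h j).lt_iff_ne', not_not]

theorem BetaY_cont {W : Type} [TopologicalSpace W] {f g : W → ℝ × ℝ} (hf : Continuous f)
    (hg : Continuous g) : Continuous fun w => PiY (f w) (g w) := PiY_cont.comp (hf.prodMk hg)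

theorem BetaY_sub : Yc ⊆ Yb := fun _ h => ⟨⟨h.1, 0, h.2.2⟩, h.2.1⟩

theorem Yb_cpt : IsCompact Yb := YS_cpt.inter_right (BetaY_closed.preimage continuous_fst)

theorem Yc_cpt : IsCompact Yc := by
  have e : Yc = (fun x => PiY x 0) '' (Hex ∩ {x | ∃ j, ell j x = 0}) :=
    Subset.antisymm (fun y h => ⟨y.1, ⟨h.1, h.2.1⟩, h.2.2.symm⟩)
      (by rintro _ ⟨x, h, rfl⟩; exact ⟨h.1, h.2, rfl⟩)
  rw [e]
  exact (Hex_cpt.inter_right BetaY_closed).image (BetaY_cont continuous_id continuous_const)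

theorem BetaY_rad (k : Fin 6) {x : ℝ × ℝ} (h : ∀ j, j ≠ k → 0 < ell j x) : (rad k x : ℂ) ≠ 0 := by
  refine ofReal_ne_zero.2 (Real.sqrt_pos.2 (Finset.prod_pos fun j _ => ?_)).ne'
  rcases eq_or_ne j k with rfl | hj
  exacts [by simp [DD_self], pow_pos (h j hj) _]

theorem BetaY_rad_zero {k j : Fin 6} {x : ℝ × ℝ} (h : ell j x = 0) (h' : DD k j ≠ 0) :
    rad k x = 0 := by
  rw [rad, Finset.prod_eq_zero (Finset.mem_univ j) (by simp [h, h']), Real.sqrt_zero]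

/-- `beta_rel` for `(((z, μ), ν), v) ↦ (z, (x, fun k => rad k x * μ ^ (-(nu k).2) * ν ^ (nu k).1))`
with `x = (2, 2) + v`, then `beta_ball`. -/
theorem beta_Y_int {a : Act X} {l : K} (hl : Good l) {Z : Set X} (hZ : a.Inv Z) (n : ℕ) :
    beta (a.prod AY) l (Z ×ˢ YS) (Z ×ˢ Yb) n =
      sh 2 (beta ((a.prod ℂ).prod ℂ) l ((Z ×ˢ S1) ×ˢ S1) ∅) n := by
  have hT := (hZ.prod S1_cpt).prod S1_cpt
  have h1 := hT.prod gH_gauge.ball
  have h2 := hT.prod gH_gauge.sphere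
  have h3 := hZ.prod YS_cpt
  have h4 := hZ.prod Yb_cpt
  let G : ℂ → ℂ → ℝ × ℝ → AY := fun μ ν x =>
    (x, fun k => rad k x * (μ ^ (-(nu k).2) * ν ^ (nu k).1))
  have g1 : ∀ (θ : ℝ × ℝ) x, G (cexp (θ.1 * I)) (cexp (θ.2 * I)) x = PiY x θ := fun θ x => by
    refine Prod.ext rfl (funext fun k => ?_)
    show _ * (_ ^ _ * _ ^ _) = _ * cexp _
    rw [← exp_int_mul, ← exp_int_mul, ← Complex.exp_add, ph]
    push_cast
    ring_nf
  have g2 : ∀ μ ∈ S1, ∀ ν ∈ S1, ∀ x ∈ Hex, G μ ν x ∈ YS := fun μ hμ ν hν x hx => by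
    obtain ⟨s, rfl⟩ := (norm_eq_one_iff μ).1 hμ
    obtain ⟨t, rfl⟩ := (norm_eq_one_iff ν).1 hν
    exact g1 (s, t) x ▸ PiY_mem hx _
  have g3 : ∀ μ ∈ S1, μ ≠ 0 := fun μ hμ e => by simp [e, S1] at hμ
  rw [← beta_rel hl (f := fun p : ((X × ℂ) × ℂ) × ℝ × ℝ =>
    (p.1.1.1, G p.1.1.2 p.1.2 ((2, 2) + p.2))) h1.maps h2.maps h3.maps h4.maps
    ⟨h1.cpt, h2.cpt, h3.cpt, h4.cpt, prod_mono_right fun _ h => h.le,
      prod_mono_right fun _ h => h.1, ?_, fun p hp => ⟨hp.1.1.1, g2 _ hp.1.1.2 _ hp.1.2 _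
        ((BetaY_eq _).1 hp.2).1, ((BetaY_eq _).1 hp.2).2⟩, fun p hp => ⟨⟨hp.1.1.1.1,
        g2 _ hp.1.1.1.2 _ hp.1.1.2 _ ((gH_le _).1.1 hp.1.2)⟩, fun h => hp.2 ⟨hp.1.1,
        (BetaY_eq _).2 ⟨h.2.1.1, h.2.2⟩⟩⟩, ?_, ?_⟩ (fun _ _ => rfl), beta_ball hl hT gH_gauge]
  · simp
  · refine ContinuousOn.prodMk (by fun_prop) (ContinuousOn.prodMk (by fun_prop)
      (continuousOn_pi.2 fun k => ContinuousOn.mul (by unfold rad ell; fun_prop)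
        (ContinuousOn.mul ?_ ?_)))
    exacts [ContinuousOn.zpow₀ (by fun_prop) _ fun p hp => .inl (g3 _ hp.1.1.2),
      ContinuousOn.zpow₀ (by fun_prop) _ fun p hp => .inl (g3 _ hp.1.2)]
  · rintro ⟨⟨⟨z, μ⟩, ν⟩, v⟩ hp ⟨⟨⟨z', μ'⟩, ν'⟩, v'⟩ - e
    obtain rfl : z = z' := congrArg Prod.fst e
    obtain rfl : v = v' := add_left_cancel (congrArg (·.2.1) e)
    have k := fun k => mul_left_cancel₀ (BetaY_rad k fun j _ => (gH_le v).2.1
      (lt_of_le_of_ne hp.1.2 fun h => hp.2 ⟨hp.1.1, h⟩) j) (congrArg (·.2.2 k) e)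
    rw [show μ = μ' by simpa [nu] using k 5, show ν = ν' by simpa [nu] using k 0]
  · rintro ⟨z, y⟩ ⟨⟨hz, hx, θ, e⟩, hn⟩
    have e1 : (2, 2) + (y.1 - (2, 2)) = y.1 := add_sub_cancel _ _
    refine ⟨(((z, cexp (θ.1 * I)), cexp (θ.2 * I)), y.1 - (2, 2)), ⟨⟨⟨⟨hz, norm_exp_ofReal_mul_I _⟩,
      norm_exp_ofReal_mul_I _⟩, (gH_le _).1.2 (e1.symm ▸ hx)⟩, fun h => hn ⟨hz, ⟨hx, θ, e⟩,
      e1 ▸ ((BetaY_eq _).1 h.2).2⟩⟩, Prod.ext rfl ?_⟩
    exact (g1 _ _).trans (e1.symm ▸ e.symm)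

theorem BetaY_Pi {j : Fin 6} {x θ θ' : ℝ × ℝ} (h : ell j x = 0)
    (e : cexp (ph j θ * I) = cexp (ph j θ' * I)) : PiY x θ = PiY x θ' := by
  refine Prod.ext rfl (funext fun k => ?_)
  show (rad k x : ℂ) * _ = rad k x * _
  rcases eq_or_ne (DD k j) 0 with h' | h'
  · have k1 : ∀ θ, cexp (ph k θ * I) = cexp (ph j θ * I) ^ DD k (j + 1) := fun θ => by
      have a1 := congrArg (Int.cast (R := ℂ)) h'
      have a2 := congrArg (Int.cast (R := ℂ)) (DD_succ j)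
      rw [← exp_int_mul]
      simp only [DD, ph] at a1 a2 ⊢
      push_cast at a1 a2 ⊢
      refine congrArg _ ?_
      linear_combination I * (θ.1 * (nu (j + 1)).2 - θ.2 * (nu (j + 1)).1) * a1 -
        I * ((nu k).1 * θ.2 - (nu k).2 * θ.1) * a2
    rw [k1, k1, e]
  · simp [BetaY_rad_zero h h']

/-- The midpoints of the edges. -/
def BetaYP : Fin 6 → ℝ × ℝ := ![(0, 5 / 2), (1 / 2, 3 / 2), (2, 1 / 2), (7 / 2, 0), (4, 3 / 2), (2, 3)]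

/-- Half the edges. -/
def BetaYQ : Fin 6 → ℝ × ℝ :=
  ![(0, -1 / 2), (1 / 2, -1 / 2), (1, -1 / 2), (1 / 2, 0), (0, 3 / 2), (-2, 0)]

/-- The angles. -/
def BetaYT (j : Fin 6) (t : ℝ) : ℝ × ℝ :=
  (Real.pi * (t + 1)) • (((nu (j + 1)).1, (nu (j + 1)).2) : ℝ × ℝ)

theorem BetaY_ph (j : Fin 6) (t : ℝ) : ph j (BetaYT j t) = Real.pi * (t + 1) := by
  have a2 := congrArg (Int.cast (R := ℝ)) (DD_succ j)
  simp only [DD, ph, BetaYT, Prod.smul_mk, smul_eq_mul] at a2 ⊢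
  push_cast at a2
  linear_combination Real.pi * (t + 1) * a2

theorem BetaY_Q (j : Fin 6) : BetaYQ j ≠ 0 := by fin_cases j <;> simp [BetaYQ]

theorem BetaY_ang {s t : ℝ} (h : |s - t| < 2)
    (e : cexp ((Real.pi * (s + 1) : ℝ) * I) = cexp ((Real.pi * (t + 1) : ℝ) * I)) : s = t := by
  obtain ⟨n, e⟩ := exp_eq_exp_iff_exists_int.1 e
  have e1 : s - t = 2 * n := mul_left_cancel₀ Real.pi_ne_zero (by
    have := congrArg im e
    simp at this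
    linarith)
  rw [e1, abs_mul, abs_two, mul_lt_iff_lt_one_right two_pos, ← Int.cast_abs, ← Int.cast_one,
    Int.cast_lt, Int.abs_lt_one_iff] at h
  simpa [h, sub_eq_zero] using e1

theorem BetaY_edge (j : Fin 6) (s : ℝ) : ell j (BetaYP j + s • BetaYQ j) = 0 ∧
    (|s| ≤ 1 → BetaYP j + s • BetaYQ j ∈ Hex) ∧
    (|s| < 1 → ∀ k, k ≠ j → 0 < ell k (BetaYP j + s • BetaYQ j)) ∧
    (|s| = 1 → ∃ i, ell i (BetaYP j + s • BetaYQ j) = 0 ∧ ∀ k, DD k j ≠ 0 ∨ DD k i ≠ 0) := by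
  refine ⟨?_, fun h k => ?_, fun h k hk => ?_, fun h => ?_⟩
  · fin_cases j <;> simp [ell, nu, cc, BetaYP, BetaYQ] <;> ring
  · rw [abs_le] at h
    fin_cases j <;> fin_cases k <;> simp [ell, nu, cc, BetaYP, BetaYQ] <;> linarith
  · rw [abs_lt] at h
    fin_cases j <;> fin_cases k <;> simp [ell, nu, cc, BetaYP, BetaYQ] at hk ⊢ <;> linarith
  · rcases (abs_eq zero_le_one).1 h with rfl | rfl
    · exact ⟨j + 1, by fin_cases j <;> simp [ell, nu, cc, BetaYP, BetaYQ] <;> norm_num,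
        by revert j; decide⟩
    · exact ⟨j + 5, by fin_cases j <;> simp [ell, nu, cc, BetaYP, BetaYQ] <;> norm_num,
        by revert j; decide⟩

theorem BetaY_surj {j : Fin 6} {x : ℝ × ℝ} (hx : x ∈ Hex) (h : ell j x = 0) :
    ∃ s : ℝ, |s| ≤ 1 ∧ x = BetaYP j + s • BetaYQ j := by
  refine ⟨![5 - 2 * x.2, 2 * x.1 - 1, x.1 - 2, 2 * x.1 - 7, 2 * x.2 / 3 - 1, 1 - x.1 / 2] j, ?_⟩
  simp only [Hex, mem_ofPred_eq, Fin.forall_fin_succ] at hx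
  simp [ell, nu, cc] at hx
  obtain ⟨h0, h1, h2, h3, h4, h5⟩ := hx
  rw [abs_le, Prod.ext_iff]
  fin_cases j <;> refine ⟨⟨?_, ?_⟩, ?_, ?_⟩ <;> simp [ell, nu, cc, BetaYP, BetaYQ] at h ⊢ <;>
    linarith

/-- The two-cells over the edges. -/
def BetaYG (j : Fin 6) (w : ℝ × ℝ) : AY := PiY (BetaYP j + w.1 • BetaYQ j) (BetaYT j w.2)

theorem BetaY_G0 : Continuous fun p : ℕ × ℝ × ℝ => BetaYG (Fin.ofNat 6 p.1) p.2 :=
  continuous_prod_of_discrete_left.2 fun _ =>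
    BetaY_cont (by fun_prop) (by unfold BetaYT; fun_prop)

theorem BetaY_G1 (j : Fin 6) {w : ℝ × ℝ} (hw : ‖w‖ ≤ 1) : BetaYG j w ∈ Yb :=
  ⟨PiY_mem ((BetaY_edge j w.1).2.1 (norm_prod_le_iff.1 hw).1) _, j, (BetaY_edge j w.1).1⟩

theorem BetaY_G2 (j : Fin 6) {w : ℝ × ℝ} (hw : ‖w‖ = 1) : BetaYG j w ∈ Yc := by
  refine ⟨(BetaY_G1 j hw.le).1.1, (BetaY_G1 j hw.le).2, ?_⟩
  rcases max_eq_iff.1 hw with h | h
  · obtain ⟨i, hi, e⟩ := (BetaY_edge j w.1).2.2.2 h.1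
    refine Prod.ext rfl (funext fun k => ?_)
    show (rad k _ : ℂ) * _ = rad k (BetaYP j + w.1 • BetaYQ j) * _
    rcases e k with e | e
    exacts [by simp [BetaY_rad_zero (BetaY_edge j w.1).1 e], by simp [BetaY_rad_zero hi e]]
  · refine BetaY_Pi (BetaY_edge j w.1).1 ?_
    rcases (abs_eq zero_le_one).1 h.1 with h | h <;> simp [BetaY_ph, h, ph.eq_1 j 0]
    simpa [mul_comm, mul_left_comm, one_add_one_eq_two] using exp_two_pi_mul_I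

theorem BetaY_G3 (j : Fin 6) {w : ℝ × ℝ} (hw : |w.1| < 1 ∧ |w.2| < 1) : BetaYG j w ∉ Yc := by
  intro h
  have := mul_left_cancel₀ (BetaY_rad _ ((BetaY_edge _ _).2.2.1 hw.1)) (congrArg (·.2 j) h.2.2)
  rw [BetaY_ph] at this
  exact (abs_lt.1 hw.2).1.ne' (BetaY_ang (t := -1) (abs_lt.2 (by grind)) (by simpa [ph] using this))

theorem BetaY_G4 {i j : Fin 6} {v w : ℝ × ℝ} (hv : |v.1| < 1 ∧ |v.2| < 1)
    (hw : |w.1| < 1 ∧ |w.2| < 1) (e : BetaYG i v = BetaYG j w) : i = j ∧ v = w := by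
  obtain ⟨s, t⟩ := v
  obtain ⟨s', t'⟩ := w
  have e1 : BetaYP i + s • BetaYQ i = BetaYP j + s' • BetaYQ j := congrArg Prod.fst e
  obtain rfl : j = i := by
    by_contra h
    exact ((BetaY_edge i s).2.2.1 hv.1 j h).ne' (e1 ▸ (BetaY_edge j s').1)
  obtain rfl : s = s' := smul_left_injective ℝ (BetaY_Q _) (add_left_cancel e1)
  have := mul_left_cancel₀ (BetaY_rad _ ((BetaY_edge _ _).2.2.1 hv.1)) (congrArg (·.2 j) e)
  rw [BetaY_ph, BetaY_ph] at this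
  rw [show t = t' from BetaY_ang (abs_lt.2 (by grind)) this]
  exact ⟨rfl, rfl⟩

theorem BetaY_G5 {y : AY} (h : y ∈ Yb) : ∃ j w, ‖w‖ ≤ 1 ∧ y = BetaYG j w := by
  obtain ⟨⟨hx, θ, e⟩, j, hj⟩ := h
  obtain ⟨s, hs, e1⟩ := BetaY_surj hx hj
  have hπ := Real.pi_pos
  refine ⟨j, (s, arg (-cexp (ph j θ * I)) / Real.pi), norm_prod_le_iff.2 ⟨hs, ?_⟩, e.trans ?_⟩
  · rw [Real.norm_eq_abs, abs_div, abs_of_pos hπ, div_le_one hπ]
    exact abs_arg_le_pi _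
  rw [e1]
  refine BetaY_Pi (BetaY_edge j s).1 ?_
  have := norm_mul_exp_arg_mul_I (-cexp (ph j θ * I))
  rw [norm_neg, norm_exp_ofReal_mul_I, ofReal_one, one_mul] at this
  rw [BetaY_ph, mul_add, mul_div_cancel₀ _ hπ.ne', ofReal_add, add_mul, Complex.exp_add, this,
    mul_one, exp_pi_mul_I, mul_neg_one, neg_neg]

/-- `beta_rel` for `((z, j), (s, φ)) ↦ (z, PiY (e j s) (π (φ + 1) • nu (j + 1)))` on
`(Z × Iio 6) × [-1, 1] ^ 2`, where `e j s = ((1 - s) • vert (j - 1) + (1 + s) • vert j) / 2` runs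
through the edge `j`; then `beta_ball` for the sup norm and `beta_fin`. On the open edge `j` only
the monomials `k` with `DD k j = 0` are nonzero, and at the vertices all monomials vanish. -/
theorem beta_Y_bd {a : Act X} {l : K} (hl : Good l) {Z : Set X} (hZ : a.Inv Z) (n : ℕ) :
    beta (a.prod AY) l (Z ×ˢ Yb) (Z ×ˢ Yc) n = 6 * sh 2 (beta a l Z ∅) n := by
  have hT := hZ.prod (finite_Iio 6).isCompact
  have h1 := hT.prod (gauge_norm (V := ℝ × ℝ)).ball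
  have h2 := hT.prod (gauge_norm (V := ℝ × ℝ)).sphere
  have h3 := hZ.prod Yb_cpt
  have h4 := hZ.prod Yc_cpt
  have g3 : ∀ w : ℝ × ℝ, ‖w‖ ≤ 1 → ‖w‖ ≠ 1 → |w.1| < 1 ∧ |w.2| < 1 := fun w h h' =>
    max_lt_iff.1 (lt_of_le_of_ne h h')
  rw [← beta_rel hl (f := fun p : (X × ℕ) × ℝ × ℝ => (p.1.1, BetaYG (Fin.ofNat 6 p.1.2) p.2))
    h1.maps h2.maps h3.maps h4.maps ⟨h1.cpt, h2.cpt, h3.cpt, h4.cpt,
      prod_mono_right fun _ h => h.le, prod_mono_right BetaY_sub,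
      (continuous_fst.fst.prodMk (BetaY_G0.comp (continuous_fst.snd.prodMk
        continuous_snd))).continuousOn, fun p hp => ⟨hp.1.1, BetaY_G2 _ hp.2⟩,
      fun p hp => ⟨⟨hp.1.1.1, BetaY_G1 _ hp.1.2⟩, fun h =>
        BetaY_G3 _ (g3 _ hp.1.2 fun h => hp.2 ⟨hp.1.1, h⟩) h.2⟩, ?_, ?_⟩ (fun _ _ => rfl),
    beta_ball hl hT gauge_norm]
  · simp [sh, beta_fin hl hZ]
  · rintro ⟨⟨z, i⟩, w⟩ hp ⟨⟨z', i'⟩, w'⟩ hq e
    obtain ⟨e1, e2⟩ := BetaY_G4 (g3 _ hp.1.2 fun h => hp.2 ⟨hp.1.1, h⟩)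
      (g3 _ hq.1.2 fun h => hq.2 ⟨hq.1.1, h⟩) (Prod.ext_iff.1 e).2
    refine Prod.ext (Prod.ext (Prod.ext_iff.1 e).1 ?_) e2
    simpa [Nat.mod_eq_of_lt hp.1.1.2, Nat.mod_eq_of_lt hq.1.1.2] using congrArg Fin.val e1
  · rintro ⟨z, y⟩ ⟨⟨hz, hy⟩, hn⟩
    obtain ⟨j, w, hw, rfl⟩ := BetaY_G5 hy
    exact ⟨((z, j), w), ⟨⟨⟨hz, j.2⟩, hw⟩, fun h => hn ⟨hz, BetaY_G2 _ h.2⟩⟩, by simp⟩

/-- `beta_rel` for `(z, v) ↦ (z, PiY ((2, 2) + v) 0)` and `beta_sphere`. -/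
theorem beta_Y_cyc {a : Act X} {l : K} (hl : Good l) {Z : Set X} (hZ : a.Inv Z) (n : ℕ) :
    beta (a.prod AY) l (Z ×ˢ Yc) ∅ n = beta a l Z ∅ n + sh 1 (beta a l Z ∅) n := by
  have h1 := hZ.prod gH_gauge.sphere
  have h2 := hZ.prod Yc_cpt
  rw [← beta_rel hl (f := fun p : X × ℝ × ℝ => (p.1, PiY ((2, 2) + p.2) 0)) h1.maps
    (mapsTo_empty _ _) h2.maps (mapsTo_empty _ _) ⟨h1.cpt, isCompact_empty, h2.cpt, isCompact_empty,
      empty_subset _, empty_subset _, (continuous_fst.prodMk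
        (BetaY_cont (by fun_prop) continuous_const)).continuousOn, mapsTo_empty _ _,
      fun p hp => ⟨⟨hp.1.1, ((BetaY_eq _).1 hp.1.2).1, ((BetaY_eq _).1 hp.1.2).2, rfl⟩, id⟩,
      fun p _ q _ e => Prod.ext (Prod.ext_iff.1 e).1 (add_left_cancel (congrArg (·.2.1) e)),
      fun p hp => ?_⟩ (fun _ _ => rfl), beta_sphere hl hZ gH_gauge (d := 1) (by simp)]
  have e1 : (2, 2) + (p.2.1 - (2, 2)) = p.2.1 := add_sub_cancel _ _
  exact ⟨(p.1, p.2.1 - (2, 2)), ⟨⟨hp.1.1, (BetaY_eq _).2 (e1.symm ▸ ⟨hp.1.2.1, hp.1.2.2.1⟩)⟩, id⟩,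
    Prod.ext rfl ((congrArg (PiY · 0) e1).trans hp.1.2.2.2.symm)⟩

/-- `beta_split` with the retraction `(z, y) ↦ (z, PiY y.1 0)`, and `beta_les`. -/
theorem beta_Y {a : Act X} {l : K} (hl : Good l) {Z : Set X} (hZ : a.Inv Z) (n : ℕ) :
    6 * sh 2 (beta a l Z ∅) n + beta a l Z ∅ n + sh 1 (beta a l Z ∅) n ≤
      beta (a.prod AY) l (Z ×ˢ YS) ∅ n +
        (sh 1 (beta a l Z ∅) n + 2 * sh 2 (beta a l Z ∅) n + sh 3 (beta a l Z ∅) n) := by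
  obtain ⟨i, j, r, -, hx, hy, hz⟩ := beta_les (a.prod AY) l (empty_subset (Z ×ˢ Yb))
    (prod_mono_right (show Yb ⊆ YS from fun _ h => h.1))
  have e1 := beta_split hl (hZ.prod Yb_cpt) (hZ.prod Yc_cpt) (.empty _) (empty_subset _)
    (prod_mono_right BetaY_sub) (ρ := fun p => (p.1, PiY p.2.1 0)) (continuous_fst.prodMk
      (BetaY_cont (by fun_prop) continuous_const)).continuousOn
    (fun p hp => ⟨hp.1, hp.2.1.1, hp.2.2, rfl⟩) (fun p hp => Prod.ext rfl hp.2.2.2.symm) n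
  have e2 := hz (n + 1)
  rw [beta_Y_int hl hZ, funext (beta_S1 hl (hZ.prod S1_cpt)), funext (beta_S1 hl hZ)] at e2
  rw [add_assoc, ← beta_Y_bd hl hZ, ← beta_Y_cyc hl hZ, ← e1, hx, hy]
  refine add_le_add le_self_add (le_add_self.trans (e2.symm.trans ?_).le)
  rcases n with _ | _ | _ | n <;> simp [sh, two_mul, add_assoc]

end Vale.Agent.P265
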