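import Vale.Agent.P265.Defs

/-!
Embedded submanifolds of normed spaces, described by parametrisations with smooth left inverses.
Tangent vectors, smooth functions, critical points and Hessian kernels are defined through curves.
-/

open scoped ContDiff Topology
open Set Filter

noncomputable section

namespace Vale.Agent.P265

variable {A A' E E' F : Type} [NormedAddCommGroup A] [NormedSpace ℝ A] [NormedAddCommGroup A']
  [NormedSpace ℝ A'] [NormedAddCommGroup E] [NormedSpace ℝ E] [NormedAddCommGroup E']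
  [NormedSpace ℝ E'] [NormedAddCommGroup F] [NormedSpace ℝ F]

/-- A parametrisation `ψ : U → S ∩ O` with a left inverse `χ` that is smooth on the open set `O`
of the ambient space. -/
structure PChart (S : Set A) (E : Type) [NormedAddCommGroup E] [NormedSpace ℝ E] where
  ψ : E → A
  χ : A → E
  U : Set E
  O : Set A
  oU : IsOpen U
  oO : IsOpen O
  sψ : ContDiffOn ℝ ∞ ψ U
  sχ : ContDiffOn ℝ ∞ χ O
  mψ : MapsTo ψ U (S ∩ O)
  mχ : MapsTo χ (S ∩ O) U
  li : ∀ η ∈ U, χ (ψ η) = η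
  ri : ∀ s ∈ S ∩ O, ψ (χ s) = s

/-- `γ` is a curve in `S` through `s` with velocity `v`. -/
structure Curve (S : Set A) (s v : A) (γ : ℝ → A) : Prop where
  zero : γ 0 = s
  deriv : HasDerivAt γ v 0
  mem : ∀ᶠ t in 𝓝 (0 : ℝ), γ t ∈ S

/-- Tangent vectors. -/
def Tan (S : Set A) (s v : A) : Prop := ∃ γ, Curve S s v γ

/-- Functions that are smooth on `S`. -/
def Sm (S : Set A) (f : A → F) : Prop :=
  ∀ s ∈ S, ∃ O, IsOpen O ∧ s ∈ O ∧ ∃ g : A → F, ContDiffOn ℝ ∞ g O ∧ EqOn f g (S ∩ O)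

/-- Critical points of the restriction of `f` to `S`. -/
def Crit (S : Set A) (f : A → ℝ) (s : A) : Prop :=
  ∀ v γ, Curve S s v γ → HasDerivAt (fun t => f (γ t)) 0 0

/-- `v` is in the kernel of the Hessian at `s`: for every tangent field `ξ`, the derivative `e` of
`f` along `ξ` has derivative zero in the direction `v`. -/
def HK (S : Set A) (f : A → ℝ) (s v : A) : Prop :=
  ∀ (ξ : A → A) (e : A → ℝ), DifferentiableAt ℝ ξ s → DifferentiableAt ℝ e s →
    (∀ᶠ x in 𝓝[S] s, ∃ γ, Curve S x (ξ x) γ ∧ HasDerivAt (fun t => f (γ t)) (e x) 0) →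
    fderiv ℝ e s v = 0

theorem Curve.chart_tendsto {S : Set A} {s v : A} {γ : ℝ → A} (h : Curve S s v γ) :
    Tendsto γ (𝓝 0) (𝓝[S] s) :=
  tendsto_nhdsWithin_iff.2 ⟨h.zero ▸ h.deriv.continuousAt.tendsto, h.mem⟩

theorem Curve.chart_comp {S : Set A} {s v : A} {γ : ℝ → A} (h : Curve S s v γ) {f : A → F}
    (hf : DifferentiableAt ℝ f s) : HasDerivAt (fun t => f (γ t)) (fderiv ℝ f s v) 0 :=
  hf.hasFDerivAt.comp_hasDerivAt_of_eq 0 h.deriv h.zero.symm

theorem Tan.fderiv_eq {S : Set A} {s v : A} (h : Tan S s v) {f g : A → F}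
    (hf : DifferentiableAt ℝ f s) (hg : DifferentiableAt ℝ g s) (he : f =ᶠ[𝓝[S] s] g) :
    fderiv ℝ f s v = fderiv ℝ g s v := by
  obtain ⟨γ, h⟩ := h
  exact (h.chart_comp hf).unique
    ((h.chart_comp hg).congr_of_eventuallyEq (h.chart_tendsto.eventually he))

theorem Tan.mono {S S' : Set A} {s v : A} (h : Tan S s v) (hs : S ⊆ S') : Tan S' s v :=   let ⟨γ, h⟩ := h; ⟨γ, h.zero, h.deriv, h.mem.mono fun _ k => hs k⟩

theorem Tan.prod {S : Set A} {S' : Set A'} {s v : A × A'} :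
    Tan (S ×ˢ S') s v ↔ Tan S s.1 v.1 ∧ Tan S' s.2 v.2 := by
  refine ⟨fun ⟨γ, h⟩ => ⟨⟨fun t => (γ t).1, congrArg _ h.zero, h.deriv.fst, h.mem.mono fun _ k => k.1⟩,
    ⟨fun t => (γ t).2, congrArg _ h.zero, h.deriv.snd, h.mem.mono fun _ k => k.2⟩⟩,
    fun ⟨⟨γ, h⟩, γ', h'⟩ => ⟨fun t => (γ t, γ' t), Prod.ext h.zero h'.zero,
      h.deriv.prodMk h'.deriv, h.mem.and h'.mem⟩⟩

theorem Tan.map {S : Set A} {S' : Set A'} {s v : A} (h : Tan S s v) {f : A → A'}
    (hf : DifferentiableAt ℝ f s) (hm : MapsTo f S S') : Tan S' (f s) (fderiv ℝ f s v) :=   let ⟨γ, h⟩ := h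
  ⟨fun t => f (γ t), congrArg f h.zero, h.chart_comp hf, h.mem.mono fun _ k => hm k⟩

theorem Sm.continuousOn {S : Set A} {f : A → F} (h : Sm S f) : ContinuousOn f S := by
  intro s hs
  obtain ⟨O, hO, hsO, g, hg, e⟩ := h s hs
  refine (hg.continuousOn.continuousAt (hO.mem_nhds hsO)).continuousWithinAt.congr_of_eventuallyEq
    ?_ (e ⟨hs, hsO⟩)
  filter_upwards [inter_mem_nhdsWithin S (hO.mem_nhds hsO)] with x hx using e hx

theorem sm_of_contDiffOn {S O : Set A} {f : A → F} (hO : IsOpen O) (hS : S ⊆ O)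
    (hf : ContDiffOn ℝ ∞ f O) : Sm S f := fun _ hs => ⟨O, hO, hS hs, f, hf, fun _ _ => rfl⟩

theorem Sm.comp {S : Set A} {S' : Set A'} {f : A' → F} {g : A → A'} (hf : Sm S' f) (hg : Sm S g)
    (hm : MapsTo g S S') : Sm S (fun x => f (g x)) := by
  intro s hs
  obtain ⟨O, hO, hsO, g', hg', e⟩ := hg s hs
  obtain ⟨O', hO', hsO', f', hf', e'⟩ := hf _ (hm hs)
  refine ⟨O ∩ g' ⁻¹' O', hg'.continuousOn.isOpen_inter_preimage hO hO',
    ⟨hsO, by rwa [mem_preimage, ← e ⟨hs, hsO⟩]⟩, fun x => f' (g' x),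
    hf'.comp (hg'.mono inter_subset_left) fun _ h => h.2, fun x hx => ?_⟩
  have k := e ⟨hx.1, hx.2.1⟩
  exact (e' ⟨hm hx.1, k ▸ hx.2.2⟩).trans (congrArg f' k)

theorem Crit.congr {S : Set A} {f g : A → ℝ} {s : A} (h : Crit S f s) (he : f =ᶠ[𝓝[S] s] g)
    (hs : s ∈ S) : Crit S g s := fun v γ k =>
  have _ := hs
  (h v γ k).congr_of_eventuallyEq (k.chart_tendsto.eventually he.symm)

theorem Crit.fderiv {S : Set A} {f : A → ℝ} {s v : A} (h : Crit S f s)
    (hf : DifferentiableAt ℝ f s) (hv : Tan S s v) : fderiv ℝ f s v = 0 :=   let ⟨γ, k⟩ := hv; (k.chart_comp hf).unique (h v γ k)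

/-- Critical points of an invariant function are carried to critical points. -/
theorem Crit.of_map {S : Set A} {f : A → ℝ} {s : A} (L : A →L[ℝ] A) (hm : MapsTo L S S)
    (hf : ∀ x ∈ S, f (L x) = f x) (hs : s ∈ S) (h : Crit S f (L s)) : Crit S f s := fun _ γ k =>
  have _ := hs
  (h _ (fun t => L (γ t)) ⟨congrArg L k.zero, k.chart_comp L.differentiableAt,
    k.mem.mono fun _ l => hm l⟩).congr_of_eventuallyEq (k.mem.mono fun _ l => (hf _ l).symm)

/-- The version of `HK` for a family of curves `t ↦ R (t, x)`; take `ξ x = ∂_t R (0, x)`. -/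
theorem HK.family {S : Set A} {f : A → ℝ} {s v : A} (h : HK S f s v) {R : ℝ × A → A}
    (hR : ContDiffAt ℝ 2 R (0, s)) {e : A → ℝ} (he : DifferentiableAt ℝ e s)
    (h1 : ∀ᶠ x in 𝓝[S] s, R (0, x) = x ∧ (∀ᶠ t in 𝓝 (0 : ℝ), R (t, x) ∈ S) ∧
      HasDerivAt (fun t => f (R (t, x))) (e x) 0) : fderiv ℝ e s v = 0 := by
  have h2 : DifferentiableAt ℝ (fun x => fderiv ℝ R (0, x) (1, 0)) s :=
    (((hR.fderiv_right (m := 1) le_rfl).differentiableAt one_ne_zero).comp s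
      (f := fun x => ((0 : ℝ), x)) (by fun_prop)).clm_apply (differentiableAt_const _)
  have h3 : ∀ᶠ x in 𝓝 s, ContDiffAt ℝ 2 R (0, x) :=
    (show ContinuousAt (fun x : A => ((0 : ℝ), x)) s by fun_prop).eventually
      (hR.eventually (by simp))
  refine h _ e h2 he ?_
  filter_upwards [h1, nhdsWithin_le_nhds h3] with x hx k
  exact ⟨fun t => R (t, x), ⟨hx.1, (k.differentiableAt two_ne_zero).hasFDerivAt.comp_hasDerivAt 0
    ((hasDerivAt_id 0).prodMk (hasDerivAt_const 0 x)), hx.2.1⟩, hx.2.2⟩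

namespace PChart

variable {S : Set A} (c : PChart S E)

theorem chart_dψ {η : E} (h : η ∈ c.U) : DifferentiableAt ℝ c.ψ η :=
  (c.sψ.contDiffAt (c.oU.mem_nhds h)).differentiableAt (by simp)

theorem chart_dχ {s : A} (h : s ∈ c.O) : DifferentiableAt ℝ c.χ s :=
  (c.sχ.contDiffAt (c.oO.mem_nhds h)).differentiableAt (by simp)

theorem chart_curve {η : E} (h : η ∈ c.U) (a : E) :
    Curve S (c.ψ η) (fderiv ℝ c.ψ η a) fun t => c.ψ (η + t • a) := by
  have k : Curve c.U η a fun t : ℝ => η + t • a :=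
    ⟨by simp, by simpa using ((hasDerivAt_id (0 : ℝ)).smul_const a).const_add η,
      (show ContinuousAt (fun t : ℝ => η + t • a) 0 by fun_prop).eventually_mem
        (by simpa using c.oU.mem_nhds h)⟩
  exact ⟨by simp, k.chart_comp (c.chart_dψ h), k.mem.mono fun _ l => (c.mψ l).1⟩

omit [NormedAddCommGroup F] [NormedSpace ℝ F] in
theorem chart_ev {s : A} (hs : s ∈ c.O) {f : A → F} :
    f =ᶠ[𝓝[S] s] fun x => f (c.ψ (c.χ x)) := by
  filter_upwards [inter_mem_nhdsWithin S (c.oO.mem_nhds hs)] with x hx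
  rw [c.ri x hx]

theorem chart_deriv {s v : A} (hs : s ∈ c.O) {γ : ℝ → A} (h : Curve S s v γ) {f : A → F}
    (hf : DifferentiableAt ℝ (fun η => f (c.ψ η)) (c.χ s)) : HasDerivAt (fun t => f (γ t))
      (fderiv ℝ (fun η => f (c.ψ η)) (c.χ s) (fderiv ℝ c.χ s v)) 0 :=
  (hf.hasFDerivAt.comp_hasDerivAt_of_eq 0 (h.chart_comp (c.chart_dχ hs))
    (congrArg _ h.zero.symm)).congr_of_eventuallyEq (h.chart_tendsto.eventually (c.chart_ev hs))

theorem dχ_dψ {η : E} (h : η ∈ c.U) (a : E) :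
    fderiv ℝ c.χ (c.ψ η) (fderiv ℝ c.ψ η a) = a := by
  have e : (fun η => c.χ (c.ψ η)) =ᶠ[𝓝 η] id := (c.oU.eventually_mem h).mono c.li
  have := e.fderiv_eq (𝕜 := ℝ)
  rw [fderiv_id, fderiv_fun_comp η (c.chart_dχ (c.mψ h).2) (c.chart_dψ h)] at this
  exact congrArg (fun L : E →L[ℝ] E => L a) this

theorem tan {η : E} (h : η ∈ c.U) (a : E) : Tan S (c.ψ η) (fderiv ℝ c.ψ η a) := ⟨_, c.chart_curve h a⟩

theorem dψ_dχ {s v : A} (hs : s ∈ S ∩ c.O) (hv : Tan S s v) :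
    fderiv ℝ c.ψ (c.χ s) (fderiv ℝ c.χ s v) = v :=   let ⟨_, h⟩ := hv; (c.chart_deriv hs.2 h (f := id) (c.chart_dψ (c.mχ hs))).unique h.deriv

theorem sm {f : A → F} (h : Sm S f) : ContDiffOn ℝ ∞ (fun η => f (c.ψ η)) c.U := by
  intro η hη
  obtain ⟨O, hO, hsO, g, hg, e⟩ := h _ (c.mψ hη).1
  have k := c.sψ.contDiffAt (c.oU.mem_nhds hη)
  refine (((hg.contDiffAt (hO.mem_nhds hsO)).comp η k).congr_of_eventuallyEq ?_).contDiffWithinAt
  filter_upwards [c.oU.mem_nhds hη, k.continuousAt.eventually_mem (hO.mem_nhds hsO)] with x h1 h2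
  exact e ⟨(c.mψ h1).1, h2⟩

theorem crit_iff {f : A → ℝ} {η : E} (h : η ∈ c.U)
    (hf : DifferentiableAt ℝ (fun η => f (c.ψ η)) η) :
    Crit S f (c.ψ η) ↔ fderiv ℝ (fun η => f (c.ψ η)) η = 0 := by
  have k : ∀ {v γ}, Curve S (c.ψ η) v γ → HasDerivAt (fun t => f (γ t))
      (fderiv ℝ (fun η => f (c.ψ η)) η (fderiv ℝ c.χ (c.ψ η) v)) 0 := fun l => by
    simpa only [c.li η h] using c.chart_deriv (c.mψ h).2 l (by rwa [c.li η h])
  refine ⟨fun l => ContinuousLinearMap.ext fun a => ?_, fun l v γ hγ => by simpa [l] using k hγ⟩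
  simpa only [c.dχ_dψ h, zero_apply] using (k (c.chart_curve h a)).unique (l _ _ (c.chart_curve h a))

/-- In the chart, `e (ψ η) = D (f ∘ ψ) η (Dχ (ψ η) (ξ (ψ η)))`; differentiate in the direction `a`. -/
theorem hk {f : A → ℝ} {η : E} (h : η ∈ c.U) (hf : ContDiffOn ℝ ∞ (fun η => f (c.ψ η)) c.U)
    (h0 : fderiv ℝ (fun η => f (c.ψ η)) η = 0) {a : E}
    (ha : ∀ w, fderiv ℝ (fderiv ℝ (fun η => f (c.ψ η))) η a w = 0) :
    HK S f (c.ψ η) (fderiv ℝ c.ψ η a) := by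
  intro ξ e hξ he hev
  have hψ := c.sψ.contDiffAt (c.oU.mem_nhds h)
  have hg := hf.contDiffAt (c.oU.mem_nhds h)
  have t : Tendsto c.ψ (𝓝 η) (𝓝[S] c.ψ η) := tendsto_nhdsWithin_iff.2
    ⟨hψ.continuousAt, (c.oU.eventually_mem h).mono fun _ k => (c.mψ k).1⟩
  have e1 : (fun η' => e (c.ψ η')) =ᶠ[𝓝 η] fun η' => fderiv ℝ (fun η => f (c.ψ η)) η'
      (fderiv ℝ c.χ (c.ψ η') (ξ (c.ψ η'))) := by
    filter_upwards [t.eventually hev, c.oU.mem_nhds h] with η' ⟨γ, h1, h2⟩ h3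
    have := c.chart_deriv (c.mψ h3).2 h1 (f := f) (by
      rw [c.li _ h3]
      exact (hf.contDiffAt (c.oU.mem_nhds h3)).differentiableAt (by simp))
    rw [c.li _ h3] at this
    exact h2.unique this
  have d1 : DifferentiableAt ℝ (fderiv ℝ fun η => f (c.ψ η)) η :=
    (hg.fderiv_right (m := 1) (by norm_cast)).differentiableAt one_ne_zero
  have d2 : DifferentiableAt ℝ (fun η' => fderiv ℝ c.χ (c.ψ η') (ξ (c.ψ η'))) η :=
    (((((c.sχ.contDiffAt (c.oO.mem_nhds (c.mψ h).2)).fderiv_right (m := 1)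
      (by norm_cast)).differentiableAt one_ne_zero).clm_apply hξ).comp η (c.chart_dψ h) :)
  have := congrArg (fun L : E →L[ℝ] ℝ => L a) (e1.fderiv_eq (𝕜 := ℝ))
  rw [fderiv_fun_comp η he (c.chart_dψ h), fderiv_clm_apply d1 d2] at this
  simpa [h0, ha] using this

/-- The product of two charts. -/
def prod {S' : Set A'} (c' : PChart S' E') : PChart (S ×ˢ S') (E × E') where
  ψ p := (c.ψ p.1, c'.ψ p.2)
  χ p := (c.χ p.1, c'.χ p.2)
  U := c.U ×ˢ c'.U
  O := c.O ×ˢ c'.O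
  oU := c.oU.prod c'.oU
  oO := c.oO.prod c'.oO
  sψ := (c.sψ.comp contDiffOn_fst fun _ h => h.1).prodMk (c'.sψ.comp contDiffOn_snd fun _ h => h.2)
  sχ := (c.sχ.comp contDiffOn_fst fun _ h => h.1).prodMk (c'.sχ.comp contDiffOn_snd fun _ h => h.2)
  mψ _ h := ⟨⟨(c.mψ h.1).1, (c'.mψ h.2).1⟩, (c.mψ h.1).2, (c'.mψ h.2).2⟩
  mχ _ h := ⟨c.mχ ⟨h.1.1, h.2.1⟩, c'.mχ ⟨h.1.2, h.2.2⟩⟩
  li _ h := Prod.ext (c.li _ h.1) (c'.li _ h.2)
  ri _ h := Prod.ext (c.ri _ ⟨h.1.1, h.2.1⟩) (c'.ri _ ⟨h.1.2, h.2.2⟩)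

variable (A) in
/-- The identity chart of the whole space. -/
def whole : PChart (univ : Set A) A where
  ψ := id
  χ := id
  U := univ
  O := univ
  oU := isOpen_univ
  oO := isOpen_univ
  sψ := contDiffOn_id
  sχ := contDiffOn_id
  mψ _ _ := ⟨trivial, trivial⟩
  mχ _ _ := trivial
  li _ _ := rfl
  ri _ _ := rfl

/-- Composition with a local diffeomorphism of model spaces. -/
def comp (k : PChart (univ : Set E) E') : PChart S E' where
  ψ η := c.ψ (k.ψ η)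
  χ s := k.χ (c.χ s)
  U := k.U ∩ k.ψ ⁻¹' c.U
  O := c.O ∩ c.χ ⁻¹' k.O
  oU := k.sψ.continuousOn.isOpen_inter_preimage k.oU c.oU
  oO := c.sχ.continuousOn.isOpen_inter_preimage c.oO k.oO
  sψ := c.sψ.comp (k.sψ.mono inter_subset_left) fun _ h => h.2
  sχ := k.sχ.comp (c.sχ.mono inter_subset_left) fun _ h => h.2
  mψ η h := ⟨(c.mψ h.2).1, (c.mψ h.2).2, by
    rw [mem_preimage, c.li _ h.2]; exact (k.mψ h.1).2⟩
  mχ s h := ⟨k.mχ ⟨trivial, h.2.2⟩, by
    rw [mem_preimage, k.ri _ ⟨trivial, h.2.2⟩]; exact c.mχ ⟨h.1, h.2.1⟩⟩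
  li η h := by rw [c.li _ h.2, k.li _ h.1]
  ri s h := by rw [k.ri _ ⟨trivial, h.2.2⟩, c.ri _ ⟨h.1, h.2.1⟩]

/-- Transport along a linear equivalence of ambient spaces. -/
def move {S' : Set A'} (L : A ≃L[ℝ] A') (h : ∀ x, L x ∈ S' ↔ x ∈ S) : PChart S' E where
  ψ η := L (c.ψ η)
  χ s := c.χ (L.symm s)
  U := c.U
  O := L.symm ⁻¹' c.O
  oU := c.oU
  oO := c.oO.preimage L.symm.continuous
  sψ := L.contDiff.comp_contDiffOn c.sψ
  sχ := c.sχ.comp L.symm.contDiff.contDiffOn fun _ h => h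
  mψ η hη := ⟨(h _).2 (c.mψ hη).1, by simpa using (c.mψ hη).2⟩
  mχ s hs := c.mχ ⟨(h _).1 (by simpa using hs.1), hs.2⟩
  li η hη := by simpa using c.li η hη
  ri s hs := by rw [c.ri _ ⟨(h _).1 (by simpa using hs.1), hs.2⟩]; simp

end PChart

theorem sm_of_charts {S : Set A} {f : A → F}
    (h : ∀ s ∈ S, ∃ c : PChart S E, s ∈ c.O ∧ ContDiffOn ℝ ∞ (fun η => f (c.ψ η)) c.U) :
    Sm S f := by
  intro s hs
  obtain ⟨c, hc, hf⟩ := h s hs
  refine ⟨c.O ∩ c.χ ⁻¹' c.U, c.sχ.continuousOn.isOpen_inter_preimage c.oO c.oU,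
    ⟨hc, c.mχ ⟨hs, hc⟩⟩, fun x => f (c.ψ (c.χ x)),
    hf.comp (c.sχ.mono inter_subset_left) fun _ k => k.2, fun x hx => ?_⟩
  exact congrArg f (c.ri x ⟨hx.1, hx.2.1⟩).symm

/-- Charts of regular level sets, from the inverse function theorem applied to `(Φ, L)`, where `L`
is a linear map onto `E` that is injective on the kernel of the derivative of `Φ`. -/
theorem exists_pchart [FiniteDimensional ℝ A] [FiniteDimensional ℝ E] [FiniteDimensional ℝ F]
    {Φ : A → F} (hΦ : ContDiff ℝ ∞ Φ) {s : A} (hs : Φ s = 0)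
    (hsurj : Function.Surjective (fderiv ℝ Φ s))
    (hd : Module.finrank ℝ A = Module.finrank ℝ F + Module.finrank ℝ E) :
    ∃ c : PChart {x | Φ x = 0} E, s ∈ c.O := by
  obtain ⟨L, hL⟩ : ∃ L : A →L[ℝ] E, ∀ v, fderiv ℝ Φ s v = 0 → L v = 0 → v = 0 := by
    set K := LinearMap.ker (fderiv ℝ Φ s : A →ₗ[ℝ] F) with hK
    obtain ⟨K', hK'⟩ := K.exists_isCompl
    have h1 := (fderiv ℝ Φ s : A →ₗ[ℝ] F).finrank_range_add_finrank_ker
    rw [LinearMap.range_eq_top.2 hsurj, finrank_top, ← hK] at h1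
    let e := LinearEquiv.ofFinrankEq (R := ℝ) K E (by omega)
    refine ⟨LinearMap.toContinuousLinearMap (e ∘ₗ K.projectionOnto K' hK'), fun v h2 h3 => ?_⟩
    replace h2 : v ∈ K := h2
    have h4 : e (K.projectionOnto K' hK' (⟨v, h2⟩ : K)) = 0 := h3
    rw [Submodule.projectionOnto_apply_left, e.map_eq_zero_iff] at h4
    exact congrArg Subtype.val h4
  have := FiniteDimensional.complete ℝ A
  have hΨ : ContDiff ℝ ∞ fun x => (Φ x, L x) := hΦ.prodMk L.contDiff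
  have hD : ∀ x, HasFDerivAt (fun x => (Φ x, L x)) ((fderiv ℝ Φ x).prod L) x := fun x =>
    (hΦ.differentiable (by simp) x).hasFDerivAt.prodMk L.hasFDerivAt
  have hinj : Function.Injective ((fderiv ℝ Φ s).prod L) :=
    (injective_iff_map_eq_zero _).2 fun v h => hL v (congrArg Prod.fst h) (congrArg Prod.snd h)
  let D : A ≃L[ℝ] F × E := (LinearMap.linearEquivOfInjective
    ((fderiv ℝ Φ s).prod L : A →ₗ[ℝ] F × E) hinj
      (by rw [Module.finrank_prod, hd])).toContinuousLinearEquiv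
  have hD' : HasFDerivAt (fun x => (Φ x, L x)) (D : A →L[ℝ] F × E) s := hD s
  have hW : IsOpen {x | (fderiv ℝ Φ x).prod L ∈ range ((↑) : (A ≃L[ℝ] F × E) → A →L[ℝ] F × E)} :=
    ContinuousLinearEquiv.isOpen.preimage (by
      simp only [← fun x => (hD x).fderiv]
      exact hΨ.continuous_fderiv (by simp))
  set e := (hΨ.contDiffAt.toOpenPartialHomeomorph _ hD' (by simp)).restrOpen _ hW with he
  have he' : ∀ x, e x = (Φ x, L x) := fun _ => rfl
  have hsm : ContDiffOn ℝ ∞ e.symm e.target := fun y hy => by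
    obtain ⟨D', hD'⟩ := (e.map_target hy).2
    exact (e.contDiffAt_symm hy (f₀' := D') (hD' ▸ hD _) hΨ.contDiffAt).contDiffWithinAt
  have h0 : ∀ x ∈ {x | Φ x = 0} ∩ e.source, e x = (0, L x) := fun x hx => Prod.ext hx.1 rfl
  exact ⟨⟨fun η => e.symm (0, η), L, {η | (0, η) ∈ e.target}, e.source,
    e.open_target.preimage (by fun_prop), e.open_source,
    hsm.comp (contDiff_const.prodMk contDiff_id).contDiffOn fun _ h => h, L.contDiff.contDiffOn,
    fun η h => ⟨congrArg Prod.fst (e.right_inv h), e.map_target h⟩,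
    fun x hx => (h0 x hx ▸ e.map_source hx.2 : (0, L x) ∈ e.target),
    fun η h => congrArg Prod.snd (e.right_inv h), fun x hx => by rw [← h0 x hx, e.left_inv hx.2]⟩,
    hΨ.contDiffAt.mem_toOpenPartialHomeomorph_source hD' (by simp), D, rfl⟩

end Vale.Agent.P265
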