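import Vale.Agent.P265.Chart

/-!
Critical points of `G (x, y) = ⟪F x, u y⟫` over the fixed set of the involution.
-/

open scoped ContDiff Topology RealInnerProductSpace
open Set Filter

noncomputable section

namespace Vale.Agent.P265

variable {A B : Type} [NormedAddCommGroup A] [NormedSpace ℝ A] [NormedAddCommGroup B]
  [NormedSpace ℝ B]

/-- The data on the first factor. -/
structure FData (X : Set A) (F : A → Eu 3) : Prop where
  sm : Sm X F
  zero : ∀ x ∈ X, F x = 0 → ∀ w : Eu 3, Crit X (fun x => ⟪F x, w⟫) x → w = 0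
  fin : {x ∈ X | F x ≠ 0 ∧ Crit X (fun x => ‖F x‖ ^ 2) x}.encard ≤ 10
  nd : ∀ x ∈ X, F x ≠ 0 → Crit X (fun x => ‖F x‖ ^ 2) x → ∀ v, Tan X x v →
    HK X (fun x => ‖F x‖ ^ 2) x v → v = 0

/-- The fixed set. -/
def Fx (Y : Set B) (ι : B → B) : Set B := {y ∈ Y | ι y = y}

/-- The data on the second factor. -/
structure UData (Y : Set B) (ι : B → B) (u : B → Eu 3) : Prop where
  sm : ∃ O, IsOpen O ∧ Y ⊆ O ∧ ContDiffOn ℝ ∞ u O
  inv : ∀ y ∈ Y, u (ι y) = u y
  unit : ∀ y ∈ Fx Y ι, ‖u y‖ = 1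
  fib : ∀ w, {y ∈ Fx Y ι | u y = w}.encard ≤ 3
  tan : ∀ y ∈ Fx Y ι, ∀ v, Tan Y y v → ι v = v → Tan (Fx Y ι) y v
  inj : ∀ y ∈ Fx Y ι, ∀ v, Tan (Fx Y ι) y v → fderiv ℝ u y v = 0 → v = 0
  span : ∀ y ∈ Fx Y ι, ∀ w : Eu 3, w ≠ 0 → ⟪w, u y⟫ = 0 → ∃ ξ : B → B, DifferentiableAt ℝ ξ y ∧
    (∀ᶠ y' in 𝓝[Y] y, Tan Y y' (ξ y')) ∧ (∀ᶠ y' in 𝓝[Fx Y ι] y, Tan (Fx Y ι) y' (ξ y')) ∧
    ⟪w, fderiv ℝ u y (ξ y)⟫ ≠ 0

/-- The perturbing Hamiltonian. -/
def GG (F : A → Eu 3) (u : B → Eu 3) (s : A × B) : ℝ := ⟪F s.1, u s.2⟫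

variable {X : Set A} {F : A → Eu 3} {Y : Set B} {ι : B → B} {u : B → Eu 3}

theorem GG_sm (hF : FData X F) (hu : UData Y ι u) : Sm (X ×ˢ Y) (GG F u) := by
  intro s hs
  obtain ⟨O, hO, hx, g, hg, e⟩ := hF.sm _ hs.1
  obtain ⟨O', hO', hY, h⟩ := hu.sm
  exact ⟨O ×ˢ O', hO.prod hO', ⟨hx, hY hs.2⟩, fun s => ⟪g s.1, u s.2⟫,
    (hg.comp contDiffOn_fst fun _ k => k.1).inner ℝ (h.comp contDiffOn_snd fun _ k => k.2),
    fun _ k => congrArg (fun z => ⟪z, u _⟫) (e ⟨k.1.1, k.2.1⟩)⟩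

theorem count_ext (h : Sm X F) {x : A} (hx : x ∈ X) :
    ∃ g : A → Eu 3, ContDiffAt ℝ ∞ g x ∧ F =ᶠ[𝓝[X] x] g :=
  let ⟨_, hO, hs, g, hg, e⟩ := h x hx
  ⟨g, hg.contDiffAt (hO.mem_nhds hs), mem_of_superset (inter_mem_nhdsWithin X (hO.mem_nhds hs)) e⟩

theorem count_deriv {x v : A} {γ : ℝ → A} (h : Curve X x v γ) {g : A → Eu 3}
    (hg : DifferentiableAt ℝ g x) (e : F =ᶠ[𝓝[X] x] g) :
    HasDerivAt (fun t => F (γ t)) (fderiv ℝ g x v) 0 :=
  (h.chart_comp hg).congr_of_eventuallyEq (h.chart_tendsto.eventually e)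

theorem count_fst {x v : A} {γ : ℝ → A} (h : Curve X x v γ) {y : B} (hy : y ∈ Y) :
    Curve (X ×ˢ Y) (x, y) (v, 0) fun t => (γ t, y) :=
  ⟨Prod.ext h.zero rfl, h.deriv.prodMk (hasDerivAt_const _ _), h.mem.mono fun _ k => ⟨k, hy⟩⟩

theorem count_snd {x : A} (hx : x ∈ X) {y v : B} {γ : ℝ → B} (h : Curve Y y v γ) :
    Curve (X ×ˢ Y) (x, y) (0, v) fun t => (x, γ t) :=
  ⟨Prod.ext rfl h.zero, (hasDerivAt_const _ _).prodMk h.deriv, h.mem.mono fun _ k => ⟨hx, k⟩⟩

theorem count_crit {s : A × B} (h : s.2 ∈ Y) (hc : Crit (X ×ˢ Y) (GG F u) s) :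
    Crit X (fun x => ⟪F x, u s.2⟫) s.1 := fun _ _ hγ => hc _ _ (count_fst hγ h)

theorem UData.count_sm (hu : UData Y ι u) {y : B} (hy : y ∈ Y) : ContDiffAt ℝ ∞ u y :=
  let ⟨_, hO, hY, h⟩ := hu.sm
  h.contDiffAt (hO.mem_nhds (hY hy))

theorem UData.count_perp (hu : UData Y ι u) {y v : B} (hy : y ∈ Fx Y ι) (hv : Tan (Fx Y ι) y v) :
    ⟪u y, fderiv ℝ u y v⟫ = 0 := by
  obtain ⟨γ, hγ⟩ := hv
  have := (hγ.chart_comp ((hu.count_sm hy.1).differentiableAt (by simp))).norm_sq.unique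
    ((hasDerivAt_const (0 : ℝ) (1 : ℝ)).congr_of_eventuallyEq
      (hγ.mem.mono fun t k => by simp [hu.unit _ k]))
  simpa [hγ.zero] using this

/-- At a critical point `F x` is a nonzero multiple of `u y` (apply `span` to
`w = F x - ⟪F x, u y⟫ • u y`; note `⟪u y, Du ξ⟫ = 0` for `ξ` tangent to the fixed set), and `x` is
critical for `‖F‖ ^ 2`. -/
theorem GG_crit (hF : FData X F) (hu : UData Y ι u) {s : A × B} (h1 : s.1 ∈ X) (h2 : s.2 ∈ Fx Y ι)
    (hc : Crit (X ×ˢ Y) (GG F u) s) :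
    ∃ μ : ℝ, μ ≠ 0 ∧ F s.1 = μ • u s.2 ∧ Crit X (fun x => ‖F x‖ ^ 2) s.1 := by
  obtain ⟨g, hg, e⟩ := count_ext hF.sm h1
  have dg := hg.differentiableAt (by simp)
  have c1 := count_crit h2.1 hc
  have h0 : F s.1 ≠ 0 := fun k => by simpa [hF.zero _ h1 k _ c1] using hu.unit _ h2
  have h3 : F s.1 = ⟪F s.1, u s.2⟫ • u s.2 := by
    by_contra k
    obtain ⟨ξ, -, k1, k2, k3⟩ := hu.span _ h2 _ (sub_ne_zero.2 k) (by
      rw [inner_sub_left, real_inner_smul_left, real_inner_self_eq_norm_sq, hu.unit _ h2]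
      ring)
    obtain ⟨γ, hγ⟩ := k1.self_of_nhdsWithin h2.1
    have := (hc _ _ (count_snd h1 hγ)).unique ((hasDerivAt_const _ (F s.1)).inner ℝ
      (hγ.chart_comp ((hu.count_sm h2.1).differentiableAt (by simp))))
    rw [inner_zero_left, add_zero] at this
    rw [inner_sub_left, real_inner_smul_left, ← this,
      hu.count_perp h2 (k2.self_of_nhdsWithin h2)] at k3
    simp at k3
  refine ⟨_, fun k => h0 (by rw [h3, k, zero_smul]), h3, fun v γ hγ => ?_⟩
  have d := count_deriv hγ dg e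
  have := (c1 v γ hγ).unique (d.inner ℝ (hasDerivAt_const _ (u s.2)))
  rw [inner_zero_right, zero_add] at this
  refine d.norm_sq.congr_deriv ?_
  rw [hγ.zero, h3, real_inner_smul_left, real_inner_comm _ (u s.2), ← this]
  simp

/-- At most `10 * 2 * 3` points. -/
theorem GG_card (hF : FData X F) (hu : UData Y ι u) :
    {s : A × B | s.1 ∈ X ∧ s.2 ∈ Fx Y ι ∧ Crit (X ×ˢ Y) (GG F u) s}.encard ≤ 60 := by
  have key : ∀ C : Set A, C.Finite → ∀ T : A → Set (A × B), (∀ x, (T x).encard ≤ 6) →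
      (⋃ x ∈ C, T x).encard ≤ C.encard * 6 := fun C hC T hT => by
    induction C, hC using Set.Finite.induction_on with
    | empty => simp
    | insert h _ ih =>
      rw [biUnion_insert, encard_insert_of_notMem h, add_mul, one_mul, add_comm]
      exact (encard_union_le _ _).trans (add_le_add (hT _) ih)
  refine (encard_le_encard fun s hs => ?_).trans ((key _ (finite_of_encard_le_coe (k := 10) hF.fin)
    (fun x => Prod.mk x '' ({y ∈ Fx Y ι | u y = ‖F x‖⁻¹ • F x} ∪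
      {y ∈ Fx Y ι | u y = -‖F x‖⁻¹ • F x})) fun x => (encard_image_le _ _).trans
        ((encard_union_le _ _).trans ((add_le_add (hu.fib _) (hu.fib _)).trans (by norm_num)))).trans
          ((mul_le_mul_left hF.fin 6).trans (by norm_num)))
  obtain ⟨μ, h0, h1, h2⟩ := GG_crit hF hu hs.1 hs.2.1 hs.2.2
  have h3 := hu.unit _ hs.2.1
  refine mem_biUnion (x := s.1) ⟨hs.1, fun k => ?_, h2⟩ ⟨s.2, ?_, rfl⟩
  · simp [(smul_eq_zero.1 (h1 ▸ k)).resolve_left h0] at h3
  · simp only [h1, norm_smul, h3, mul_one, Real.norm_eq_abs, smul_smul]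
    rcases abs_choice μ with k | k
    · exact Or.inl ⟨hs.2.1, by simp [k, h0]⟩
    · exact Or.inr ⟨hs.2.1, by simp [k, h0]⟩

/-- Let `g` be a smooth local extension of `F`, `δF = Dg v.1`, `δu = Du v.2`, `w = δF - μ • δu`.
Then `⟪w, u y⟫ = 0`. For `ξ` as in `span`, `HK` for the field `(0, ξ)` and the derivative along
`v.2` of the identity `⟪u y', Du y' (ξ y')⟫ = 0` on the fixed set give `⟪w, Du ξ⟫ = 0`. So `w = 0`.
Now `HK` for the fields `(η, 0)` gives `HK X (‖F‖ ^ 2) x v.1` (use `Tan.fderiv_eq` and uniqueness of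
derivatives), hence `v.1 = 0`, `δu = 0`, `v.2 = 0`. -/
theorem GG_nd (hF : FData X F) (hu : UData Y ι u) {s : A × B} (h1 : s.1 ∈ X) (h2 : s.2 ∈ Fx Y ι)
    (hc : Crit (X ×ˢ Y) (GG F u) s) {v : A × B} (hv : Tan (X ×ˢ Y) s v) (hi : ι v.2 = v.2)
    (hk : HK (X ×ˢ Y) (GG F u) s v) : v = 0 := by
  obtain ⟨x, y⟩ := s
  obtain ⟨v, v'⟩ := v
  obtain ⟨hv, hv'⟩ := Tan.prod.1 hv
  obtain ⟨μ, h0, h3, h4⟩ := GG_crit hF hu h1 h2 hc
  obtain ⟨g, hg, e⟩ := count_ext hF.sm h1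
  simp only at h1 h2 h3 h4 hv hv' hi hg e
  have dg := hg.differentiableAt (by simp)
  have su := hu.count_sm h2.1
  have du := su.differentiableAt (by simp)
  have hg' : ∀ᶠ z in 𝓝[X] x, DifferentiableAt ℝ g z ∧ F =ᶠ[𝓝[X] z] g :=
    ((((hg.of_le (m := 1) (by simp)).eventually (by simp)).mono fun _ k => k.differentiableAt
      one_ne_zero).filter_mono nhdsWithin_le_nhds).and (eventually_eventually_nhdsWithin.2 e)
  have ex : g x = μ • u y := (e.self_of_nhdsWithin h1).symm.trans h3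
  have tv := hu.tan y h2 v' hv' hi
  have hw : fderiv ℝ g x v = μ • fderiv ℝ u y v' := by
    by_contra k
    obtain ⟨ξ, dξ, k1, k2, k3⟩ := hu.span _ h2 _ (sub_ne_zero.2 k) (by
      obtain ⟨γ, hγ⟩ := hv
      have := (count_crit h2.1 hc v γ hγ).unique
        ((count_deriv hγ dg e).inner ℝ (hasDerivAt_const _ (u y)))
      rw [inner_zero_right, zero_add] at this
      rw [inner_sub_left, ← this, real_inner_smul_left, real_inner_comm, hu.count_perp h2 tv]
      simp)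
    have dη : DifferentiableAt ℝ (fun z => fderiv ℝ u z (ξ z)) y :=
      ((su.fderiv_right (m := ∞) le_rfl).differentiableAt (by simp)).clm_apply dξ
    have d1 := (dg.hasFDerivAt.comp (x, y) hasFDerivAt_fst).inner ℝ
      (dη.hasFDerivAt.comp (x, y) hasFDerivAt_snd)
    have k4 := hk (fun s => (0, ξ s.2)) _ ((differentiableAt_const _).prodMk
      (dξ.comp (x, y) differentiableAt_snd)) d1.differentiableAt (by
        rw [nhdsWithin_prod_eq]
        filter_upwards [prod_mem_prod (inter_mem e self_mem_nhdsWithin)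
          (inter_mem k1 self_mem_nhdsWithin)] with z hz
        obtain ⟨γ, hγ⟩ := hz.2.1
        refine ⟨_, count_snd hz.1.2 hγ, ((hasDerivAt_const _ (F z.1)).inner ℝ (hγ.chart_comp
          ((hu.count_sm hz.2.2).differentiableAt (by simp)))).congr_deriv ?_⟩
        rw [inner_zero_left, add_zero, hz.1.1]
        rfl)
    have d2 := du.hasFDerivAt.inner ℝ dη.hasFDerivAt
    have k5 := tv.fderiv_eq d2.differentiableAt (differentiableAt_const (0 : ℝ)) (by
      filter_upwards [k2, self_mem_nhdsWithin] with z hz hz' using hu.count_perp hz' hz)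
    rw [d1.fderiv] at k4
    rw [d2.fderiv] at k5
    simp [ex, real_inner_smul_left] at k4 k5
    rw [inner_sub_left, real_inner_smul_left] at k3
    exact k3 (by linear_combination k4 - μ * k5)
  have h5 : v = 0 := hF.nd x h1 (fun k => by
    simpa [(smul_eq_zero.1 (h3 ▸ k)).resolve_left h0] using hu.unit _ h2) h4 v hv (by
      intro η f dη df hf
      have dζ : DifferentiableAt ℝ (fun z => fderiv ℝ g z (η z)) x :=
        ((hg.fderiv_right (m := ∞) le_rfl).differentiableAt (by simp)).clm_apply dη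
      have d1 := (dζ.hasFDerivAt.comp (x, y) hasFDerivAt_fst).inner ℝ
        (du.hasFDerivAt.comp (x, y) hasFDerivAt_snd)
      have k4 := hk (fun s => (η s.1, 0)) _ ((dη.comp (x, y) differentiableAt_fst).prodMk
        (differentiableAt_const _)) d1.differentiableAt (by
          rw [nhdsWithin_prod_eq]
          filter_upwards [prod_mem_prod (inter_mem hf hg') self_mem_nhdsWithin] with z hz
          obtain ⟨γ, hγ, -⟩ := hz.1.1
          refine ⟨_, count_fst hγ hz.2, ((count_deriv hγ hz.1.2.1 hz.1.2.2).inner ℝ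
            (hasDerivAt_const _ (u z.2))).congr_deriv ?_⟩
          rw [inner_zero_right, zero_add]
          rfl)
      have d2 := (dg.hasFDerivAt.inner ℝ dζ.hasFDerivAt).const_mul 2
      rw [hv.fderiv_eq df d2.differentiableAt (by
        filter_upwards [hf, hg', e] with z hz hz' hz''
        obtain ⟨γ, hγ, k⟩ := hz
        rw [k.unique (count_deriv hγ hz'.1 hz'.2).norm_sq, hγ.zero, hz'']), d2.fderiv]
      rw [d1.fderiv] at k4
      simp [ex, hw, real_inner_smul_left] at k4 ⊢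
      rw [real_inner_comm, real_inner_comm (u y)] at k4
      linear_combination μ * k4)
  rw [h5, map_zero, eq_comm, smul_eq_zero] at hw
  exact Prod.ext h5 (hu.inj y h2 v' tv (hw.resolve_left h0))

end Vale.Agent.P265
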