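import Vale.Agent.P265.Flow
import Vale.Agent.P265.Susp

/-!
Sublevel sets of invariant functions that are quadratic at infinity: the deformation lemma.
-/

open scoped ContDiff Topology
open Set Filter

noncomputable section

namespace Vale.Agent.P265

/-- The auxiliary vector space. The norm is the sup norm of the two Euclidean norms. -/
abbrev Fib (k k' : ℕ) : Type := Eu k × Eu k'

/-- The standard quadratic form. -/
def Qf {k k' : ℕ} (z : Fib k k') : ℝ := ‖z.2‖ ^ 2 - ‖z.1‖ ^ 2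

section aux

variable {A E : Type} [NormedAddCommGroup A] [NormedSpace ℝ A] [NormedAddCommGroup E]
  [NormedSpace ℝ E] {S : Set A} {f : A → ℝ}

theorem deform_bound {w w' : ℝ → ℝ} (hw : ∀ t, HasDerivAt w (w' t) t) {s : ℝ} (h0 : w 0 ≤ s)
    (h : ∀ t, s ≤ w t → w' t ≤ 0) {t : ℝ} (ht : 0 ≤ t) : w t ≤ s := by
  refine le_of_forall_pos_le_add fun ε hε => ?_
  have h1 : 0 < ε / (t + 1) := by positivity
  have h2 := image_le_of_deriv_right_lt_deriv_boundary (f := w) (f' := w') (a := 0) (b := t)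
    (fun x _ => (hw x).continuousAt.continuousWithinAt) (fun x _ => (hw x).hasDerivWithinAt)
    (B := fun x => s + ε / (t + 1) * x) (B' := fun _ => ε / (t + 1)) (by simpa using h0)
    (fun x => by simpa using ((hasDerivAt_id x).const_mul (ε / (t + 1))).const_add s)
    (fun x hx e => (h x (by rw [e]; nlinarith [hx.1])).trans_lt h1) (right_mem_Icc.2 ht)
  have h3 : ε / (t + 1) * t ≤ ε := by
    rw [div_mul_eq_mul_div, div_le_iff₀ (by positivity)]
    nlinarith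
  exact h2.trans (by linarith)

theorem deform_dif (hc : ∀ s ∈ S, ∃ c : PChart S E, s ∈ c.O) (hf : Sm S f) :
    ∃ d : A → A →L[ℝ] ℝ, ∀ y ∈ S, ∀ v γ, Curve S y v γ →
      HasDerivAt (fun t => f (γ t)) (d y v) 0 := by
  have h : ∀ y, ∃ d : A →L[ℝ] ℝ, y ∈ S → ∀ v γ, Curve S y v γ →
      HasDerivAt (fun t => f (γ t)) (d v) 0 := fun y => by
    by_cases hy : y ∈ S
    · obtain ⟨c, hO⟩ := hc y hy
      exact ⟨(fderiv ℝ (fun η => f (c.ψ η)) (c.χ y)).comp (fderiv ℝ c.χ y), fun _ v γ hγ =>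
        c.chart_deriv hO hγ (((c.sm hf).contDiffAt
          (c.oU.mem_nhds (c.mχ ⟨hy, hO⟩))).differentiableAt (by simp))⟩
    · exact ⟨0, fun h => absurd h hy⟩
  choose d hd using h
  exact ⟨d, hd⟩

theorem deform_tan (hc : ∀ s ∈ S, ∃ c : PChart S E, s ∈ c.O) {y u v : A} (hy : y ∈ S)
    (hu : Tan S y u) (hv : Tan S y v) (p q : ℝ) : Tan S y (p • u + q • v) := by
  obtain ⟨c, hO⟩ := hc y hy
  have := c.tan (c.mχ ⟨hy, hO⟩) (p • fderiv ℝ c.χ y u + q • fderiv ℝ c.χ y v)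
  rwa [map_add, map_smul, map_smul, c.dψ_dχ ⟨hy, hO⟩ hu, c.dψ_dχ ⟨hy, hO⟩ hv,
    c.ri _ ⟨hy, hO⟩] at this

theorem deform_loc (hc : ∀ s ∈ S, ∃ c : PChart S E, s ∈ c.O) (hf : Sm S f)
    {d : A → A →L[ℝ] ℝ} (hd : ∀ y ∈ S, ∀ v γ, Curve S y v γ →
      HasDerivAt (fun t => f (γ t)) (d y v) 0) {x : A} (hx : x ∈ S) (h : ¬ Crit S f x) :
    ∃ O, IsOpen O ∧ x ∈ O ∧ ∃ g : A → A, ContDiffOn ℝ ∞ g O ∧
      ∀ y ∈ O, y ∈ S → Tan S y (g y) ∧ d y (g y) = -1 := by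
  obtain ⟨c, hO⟩ := hc x hx
  have hU := c.mχ ⟨hx, hO⟩
  have hF := c.sm hf
  have hdF : ∀ η ∈ c.U, DifferentiableAt ℝ (fun η => f (c.ψ η)) η := fun η hη =>
    (hF.contDiffAt (c.oU.mem_nhds hη)).differentiableAt (by simp)
  have h1 := c.crit_iff hU (hdF _ hU)
  rw [c.ri _ ⟨hx, hO⟩] at h1
  obtain ⟨e, he⟩ : ∃ e, fderiv ℝ (fun η => f (c.ψ η)) (c.χ x) e ≠ 0 := by
    by_contra h2
    push Not at h2
    exact h (h1.2 (ContinuousLinearMap.ext h2))
  have o1 : IsOpen (c.O ∩ c.χ ⁻¹' c.U) := c.sχ.continuousOn.isOpen_inter_preimage c.oO c.oU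
  have s0 : ContDiffOn ℝ ∞ c.χ (c.O ∩ c.χ ⁻¹' c.U) := c.sχ.mono inter_subset_left
  have s1 : ContDiffOn ℝ ∞ (fun y => fderiv ℝ (fun η => f (c.ψ η)) (c.χ y) e)
      (c.O ∩ c.χ ⁻¹' c.U) :=
    ((hF.fderiv_of_isOpen (m := ∞) c.oU le_rfl).clm_apply contDiffOn_const).comp s0 fun _ h => h.2
  have s2 : ContDiffOn ℝ ∞ (fun y => fderiv ℝ c.ψ (c.χ y) e) (c.O ∩ c.χ ⁻¹' c.U) :=
    ((c.sψ.fderiv_of_isOpen (m := ∞) c.oU le_rfl).clm_apply contDiffOn_const).comp s0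
      fun _ h => h.2
  refine ⟨_, s1.continuousOn.isOpen_inter_preimage o1 (isOpen_ne (x := 0)), ⟨⟨hO, hU⟩, he⟩,
    fun y => (-(fderiv ℝ (fun η => f (c.ψ η)) (c.χ y) e)⁻¹) • fderiv ℝ c.ψ (c.χ y) e,
    ((s1.mono inter_subset_left).inv fun _ h => h.2).neg.smul (s2.mono inter_subset_left),
    fun y hy hS => ?_⟩
  have k1 := c.tan hy.1.2 e
  have k2 := c.dχ_dψ hy.1.2 e
  rw [c.ri _ ⟨hS, hy.1.1⟩] at k1 k2
  refine ⟨by simpa only [zero_smul, add_zero] using deform_tan hc hS k1 k1 _ 0, ?_⟩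
  obtain ⟨γ, hγ⟩ := k1
  have k3 := (hd y hS _ γ hγ).unique (c.chart_deriv hy.1.1 hγ (hdF _ hy.1.2))
  rw [map_smul, k3, k2, smul_eq_mul, neg_mul, inv_mul_cancel₀ hy.2]

end aux

/-- A compact submanifold with a linear action of the cyclic group of order six. -/
structure MS (A E : Type) [NormedAddCommGroup A] [NormedSpace ℝ A] [NormedAddCommGroup E]
    [NormedSpace ℝ E] where
  S0 : Set A
  cpt : IsCompact S0
  T : A →L[ℝ] A
  per : ∀ x, T^[6] x = x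
  maps : MapsTo T S0 S0
  cov : ∀ x ∈ S0, ∃ c : PChart S0 E, x ∈ c.O

namespace MS

variable {A E : Type} [NormedAddCommGroup A] [NormedSpace ℝ A] [FiniteDimensional ℝ A]
  [NormedAddCommGroup E] [NormedSpace ℝ E] [FiniteDimensional ℝ E] (M : MS A E) {k k' : ℕ}
  {K : Type} [Field K]

/-- The action. -/
def act0 : Act A := ⟨M.T, M.T.continuous, M.per⟩

variable (k k') in
/-- The action on the product with the auxiliary space. -/
def act : Act (A × Fib k k') := M.act0.prod (Fib k k')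

variable (k k') in
/-- The total space. -/
def S : Set (A × Fib k k') := M.S0 ×ˢ univ

variable (k k') in
/-- The compact block. -/
def D (s : ℝ) : Set (A × Fib k k') := M.S0 ×ˢ {z | ‖z.2‖ ^ 2 ≤ s ∧ -s ≤ Qf z}

/-- Sublevel sets in the block. -/
def B (s : ℝ) (f : A × Fib k k' → ℝ) (c : ℝ) : Set (A × Fib k k') := M.D k k' s ∩ {x | f x ≤ c}

/-- Admissible functions. -/
structure Adm (R : ℝ) (f : A × Fib k k' → ℝ) : Prop where
  sm : Sm (M.S k k') f
  inv : ∀ x ∈ M.S k k', f ((M.act k k').T x) = f x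
  quad : ∀ x ∈ M.S k k', R ≤ ‖x.2‖ → f x = Qf x.2

omit [FiniteDimensional ℝ A] [FiniteDimensional ℝ E] in
theorem inv0 : M.act0.Inv M.S0 := ⟨M.cpt, M.maps⟩

theorem D_inv (s : ℝ) : (M.act k k').Inv (M.D k k' s) := by
  refine M.inv0.prod (Metric.isCompact_of_isClosed_isBounded ?_
    ((Metric.isBounded_closedBall (x := 0) (r := 1 + 2 * s)).subset fun z hz => ?_))
  · unfold Qf
    refine IsClosed.and ?_ ?_ <;> exact isClosed_le (by fun_prop) (by fun_prop)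
  · obtain ⟨h1, h2⟩ := hz
    unfold Qf at h2
    rw [mem_closedBall_zero_iff, Prod.norm_def, max_le_iff]
    constructor <;> nlinarith [sq_nonneg (‖z.1‖ - 1), sq_nonneg (‖z.2‖ - 1), sq_nonneg ‖z.2‖]

theorem B_inv {R : ℝ} {f : A × Fib k k' → ℝ} (hf : M.Adm R f) (s c : ℝ) :
    (M.act k k').Inv (M.B s f c) := by
  have hD := M.D_inv (k := k) (k' := k') s
  have hs : M.D k k' s ⊆ M.S k k' := fun x hx => ⟨hx.1, trivial⟩
  refine ⟨hD.cpt.of_isClosed_subset ((hf.sm.continuousOn.mono hs).preimage_isClosed_of_isClosed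
    hD.cpt.isClosed isClosed_Iic) inter_subset_left, fun x hx => ⟨hD.maps hx.1, ?_⟩⟩
  exact (hf.inv x (hs hx.1)).trans_le hx.2

/-- Use the curve `t ↦ (y, (1 - t) • z.1, (1 + t) • z.2)`. -/
theorem crit_norm {R : ℝ} (hR : 0 ≤ R) {f : A × Fib k k' → ℝ} (hf : M.Adm R f) {x : A × Fib k k'}
    (hx : x ∈ M.S k k') (hc : Crit (M.S k k') f x) : ‖x.2‖ ≤ R := by
  by_contra h
  rw [not_le] at h
  have l1 : HasDerivAt (fun t : ℝ => 1 - t) (-1) 0 := (hasDerivAt_id (0 : ℝ)).const_sub 1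
  have l2 : HasDerivAt (fun t : ℝ => 1 + t) 1 0 := (hasDerivAt_id (0 : ℝ)).const_add 1
  have h1 : Curve (M.S k k') x _ (fun t => (x.1, (1 - t) • x.2.1, (1 + t) • x.2.2)) :=
    ⟨by simp, (hasDerivAt_const _ _).prodMk ((l1.smul_const _).prodMk (l2.smul_const _)),
      Eventually.of_forall fun _ => ⟨hx.1, trivial⟩⟩
  have h2 : HasDerivAt (fun t : ℝ => (1 + t) ^ 2 * ‖x.2.2‖ ^ 2 - (1 - t) ^ 2 * ‖x.2.1‖ ^ 2) _ 0 :=
    ((l2.fun_pow 2).mul_const _).fun_sub ((l1.fun_pow 2).mul_const _)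
  have h3 := h2.unique ((hc _ _ h1).congr_of_eventuallyEq (by
    filter_upwards [h1.deriv.continuousAt.snd.norm.eventually (lt_mem_nhds (a := R) (by
      simpa using h))] with t ht
    rw [hf.quad (x.1, (1 - t) • x.2.1, (1 + t) • x.2.2) ⟨hx.1, trivial⟩ ht.le]
    simp [Qf, norm_smul, mul_pow]))
  rw [Prod.norm_def, lt_max_iff] at h
  norm_num at h3
  rcases h with h | h <;> nlinarith [sq_nonneg ‖x.2.1‖, sq_nonneg ‖x.2.2‖]

omit [FiniteDimensional ℝ A] [FiniteDimensional ℝ E] in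
theorem deform_cov : ∀ x ∈ M.S k k', ∃ c : PChart (M.S k k') (E × Fib k k'), x ∈ c.O := by
  intro x hx
  obtain ⟨c, hc⟩ := M.cov x.1 hx.1
  exact ⟨c.prod (PChart.whole _), hc, trivial⟩

omit [FiniteDimensional ℝ A] [FiniteDimensional ℝ E] in
theorem deform_out {R : ℝ} (hR : 0 ≤ R) {f : A × Fib k k' → ℝ} (hf : M.Adm R f)
    {d : A × Fib k k' → A × Fib k k' →L[ℝ] ℝ} (hd : ∀ y ∈ M.S k k', ∀ v γ,
      Curve (M.S k k') y v γ → HasDerivAt (fun t => f (γ t)) (d y v) 0) {y : A × Fib k k'}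
    (hy : y ∈ M.S k k') (h : R < ‖y.2.2‖) :
    Tan (M.S k k') y (0, 0, (-(2 * ‖y.2.2‖ ^ 2)⁻¹) • y.2.2) ∧
      d y (0, 0, (-(2 * ‖y.2.2‖ ^ 2)⁻¹) • y.2.2) = -1 := by
  have h0 : 0 < ‖y.2.2‖ := hR.trans_lt h
  set c := -(2 * ‖y.2.2‖ ^ 2)⁻¹ with hc
  have l : HasDerivAt (fun t : ℝ => 1 + t * c) c 0 := by
    simpa using ((hasDerivAt_id (0 : ℝ)).mul_const c).const_add 1
  have h1 : Curve (M.S k k') y (0, 0, c • y.2.2) (fun t => (y.1, y.2.1, (1 + t * c) • y.2.2)) :=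
    ⟨by simp, (hasDerivAt_const _ _).prodMk ((hasDerivAt_const _ _).prodMk (l.smul_const _)),
      Eventually.of_forall fun _ => ⟨hy.1, trivial⟩⟩
  refine ⟨⟨_, h1⟩, ?_⟩
  have h2 : HasDerivAt (fun t : ℝ => (1 + t * c) ^ 2 * ‖y.2.2‖ ^ 2 - ‖y.2.1‖ ^ 2) _ 0 :=
    ((l.fun_pow 2).mul_const _).sub_const _
  rw [← h2.unique ((hd y hy _ _ h1).congr_of_eventuallyEq (by
    filter_upwards [h1.deriv.continuousAt.snd.snd.norm.eventually (lt_mem_nhds (a := R) (by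
      simpa using h))] with t ht
    rw [hf.quad (y.1, y.2.1, (1 + t * c) • y.2.2) ⟨hy.1, trivial⟩
      (ht.le.trans (norm_snd_le (y.2.1, (1 + t * c) • y.2.2)))]
    simp [Qf, norm_smul, mul_pow])), hc]
  norm_num
  field_simp

omit [FiniteDimensional ℝ E] in
theorem deform_field {R s : ℝ} (hR : 0 ≤ R) (hs : R ^ 2 < s) {f : A × Fib k k' → ℝ}
    (hf : M.Adm R f) {d : A × Fib k k' → A × Fib k k' →L[ℝ] ℝ} (hd : ∀ y ∈ M.S k k', ∀ v γ,
      Curve (M.S k k') y v γ → HasDerivAt (fun t => f (γ t)) (d y v) 0)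
    {K₀ : Set (A × Fib k k')} (hK : IsCompact K₀) (hS : K₀ ⊆ M.S k k')
    (hc : ∀ x ∈ K₀, ¬ Crit (M.S k k') f x) :
    ∃ V : A × Fib k k' → A × Fib k k', ContDiff ℝ ∞ V ∧ HasCompactSupport V ∧
      ∀ x ∈ M.S k k', Tan (M.S k k') x (V x) ∧ -1 ≤ d x (V x) ∧ d x (V x) ≤ 0 ∧
        (x ∈ K₀ → d x (V x) = -1) ∧ (s ≤ ‖x.2.2‖ ^ 2 → inner ℝ x.2.2 (V x).2.2 ≤ 0) := by
  refine exists_field (t := fun x => {v | x ∈ M.S k k' → Tan (M.S k k') x v ∧ -1 ≤ d x v ∧
    d x v ≤ 0 ∧ (x ∈ K₀ → d x v = -1) ∧ (s ≤ ‖x.2.2‖ ^ 2 → inner ℝ x.2.2 v.2.2 ≤ 0)})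
    (fun x u hu v hv p q hp hq hpq hx => ?_) hK (fun x hx => ?_) (fun x hx hS => ?_)
  · obtain ⟨u1, u2, u3, u4, u5⟩ := hu hx
    obtain ⟨v1, v2, v3, v4, v5⟩ := hv hx
    simp only [map_add, map_smul, smul_eq_mul, Prod.snd_add, Prod.smul_snd, inner_add_right,
      real_inner_smul_right]
    refine ⟨deform_tan M.deform_cov hx u1 v1 p q, by nlinarith, by nlinarith, fun h => ?_,
      fun h => by nlinarith [u5 h, v5 h]⟩
    rw [u4 h, v4 h]
    linarith
  · by_cases h : R < ‖x.2.2‖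
    · refine ⟨{y | R < ‖y.2.2‖}, isOpen_lt continuous_const (by fun_prop), h,
        fun y => (0, 0, (-(2 * ‖y.2.2‖ ^ 2)⁻¹) • y.2.2), contDiffOn_const.prodMk
          (contDiffOn_const.prodMk (((contDiff_const.mul
            (contDiff_snd.snd.norm_sq ℝ)).contDiffOn.inv fun y hy => ?_).neg.smul
              contDiff_snd.snd.contDiffOn)), fun y hy hS => ?_⟩
      · have : 0 < ‖y.2.2‖ := hR.trans_lt hy
        positivity
      · obtain ⟨h1, h2⟩ := M.deform_out hR hf hd hS hy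
        refine ⟨h1, h2.ge, by rw [h2]; norm_num, fun _ => h2, fun _ => ?_⟩
        rw [real_inner_smul_right, real_inner_self_eq_norm_sq, neg_mul, neg_nonpos]
        positivity
    · obtain ⟨O, hO, hxO, g, hg, hg'⟩ := deform_loc M.deform_cov hf.sm hd (hS hx) (hc x hx)
      refine ⟨O ∩ {y | ‖y.2.2‖ ^ 2 < s}, hO.inter (isOpen_lt (by fun_prop) continuous_const),
        ⟨hxO, ?_⟩, g, hg.mono inter_subset_left, fun y hy hS => ?_⟩
      · exact (pow_le_pow_left₀ (norm_nonneg _) (not_lt.1 h) 2).trans_lt hs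
      · obtain ⟨h1, h2⟩ := hg' y hy.1 hS
        exact ⟨h1, h2.ge, by rw [h2]; norm_num, fun _ => h2, fun h => absurd hy.2 (not_lt.2 h)⟩
  · exact ⟨⟨fun _ => x, rfl, hasDerivAt_const _ _, Eventually.of_forall fun _ => hS⟩, by simp,
      by simp, fun h => absurd h hx, fun _ => by simp⟩

/-- The deformation lemma. Let `K₀ = D ∩ {a ≤ f ≤ b}` and `h x = ‖x.2.2‖ ^ 2`. With `exists_field`
find a smooth compactly supported `V` such that at points `x` of `S`: `V x` is tangent to `S`,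
`df (V x) ∈ [-1, 0]`, `df (V x) = -1` on `K₀`, and `dh (V x) ≤ 0` if `s ≤ h x`. (Near a point of
`K₀` with `h = s` one has `f = Qf` and takes `-(0, 0, z.2) / (2 h)`; near the other points push
forward a constant vector of a product chart `c.prod (PChart.whole _)` and normalise. It may help to
replace `f` first by a globally smooth function that agrees with it on a large compact part of `S`,
again by `exists_field`.) Then use `beta_acyc` with `H (τ, x) = Φ (τ * max 0 (f x - a), x)`. Along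
the flow `f` stays `≥ a ≥ -s` up to that time, which gives `-s ≤ Qf` (either `f = Qf`, or
`‖z‖ ≤ R`). -/
theorem deform {l : K} (hl : Good l) {R s : ℝ} (hR : 0 ≤ R) (hs : R ^ 2 < s)
    {f : A × Fib k k' → ℝ} (hf : M.Adm R f) {a b : ℝ} (ha : -s ≤ a) (hab : a ≤ b)
    (hc : ∀ x ∈ M.D k k' s, a ≤ f x → f x ≤ b → ¬ Crit (M.S k k') f x) (n : ℕ) :
    beta (M.act k k') l (M.B s f b) (M.B s f a) n = 0 := by
  obtain ⟨d, hd⟩ := deform_dif M.deform_cov hf.sm
  have hDS : M.D k k' s ⊆ M.S k k' := fun x hx => ⟨hx.1, trivial⟩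
  have hB := M.B_inv hf s b
  have hfc : ContinuousOn f (M.B s f b) := hf.sm.continuousOn.mono fun x hx => hDS hx.1
  obtain ⟨V, hV, hVc, hV'⟩ := M.deform_field hR hs hf hd (K₀ := M.B s f b ∩ f ⁻¹' Ici a)
    (hB.cpt.of_isClosed_subset (hfc.preimage_isClosed_of_isClosed hB.cpt.isClosed isClosed_Ici)
      inter_subset_left) (fun x hx => hDS hx.1.1) (fun x hx => hc x hx.1.1 hx.2 hx.1.2)
  obtain ⟨Φ, hΦ⟩ := exists_flow hV hVc
  have key : ∀ x ∈ M.B s f b, ∀ t, 0 ≤ t → t ≤ f x - a →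
      Φ (t, x) ∈ M.D k k' s ∧ f (Φ (t, x)) = f x - t := by
    intro x hx
    have hm : ∀ t, Φ (t, x) ∈ M.S k k' := hΦ.mem hV (M.cpt.isClosed.prod isClosed_univ)
      M.deform_cov (fun y hy => (hV' y hy).1) (hDS hx.1)
    have hu : ∀ t, HasDerivAt (fun t => f (Φ (t, x))) (d (Φ (t, x)) (V (Φ (t, x)))) t := by
      intro t
      have h1 := hd _ (hm t) _ (fun r => Φ (t + r, x)) ⟨by simp,
        HasDerivAt.comp_const_add (f := fun s => Φ (s, x)) t 0 (by simpa using hΦ.deriv t x),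
        Eventually.of_forall fun r => hm _⟩
      have h2 := HasDerivAt.comp_sub_const (f := fun r => f (Φ (t + r, x))) t t
        (by simpa using h1)
      simpa using h2
    have hu' : ∀ t, HasDerivAt (fun t => f (Φ (t, x)) + t)
        (d (Φ (t, x)) (V (Φ (t, x))) + 1) t := fun t => (hu t).add (hasDerivAt_id t)
    have h1 : Antitone fun t => f (Φ (t, x)) :=
      antitone_of_hasDerivAt_nonpos hu fun t => (hV' _ (hm t)).2.2.1
    have h2 : Monotone fun t => f (Φ (t, x)) + t :=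
      monotone_of_hasDerivAt_nonneg hu' fun t => by
        have := (hV' _ (hm t)).2.1
        show (0 : ℝ) ≤ _
        linarith
    have h3 : ∀ t, 0 ≤ t → t ≤ f x - a → Φ (t, x) ∈ M.B s f b ∩ f ⁻¹' Ici a := by
      intro t t0 t1
      have k1 := h1 t0
      have k2 := h2 t0
      simp only [hΦ.zero, add_zero] at k1 k2
      have k3 : a ≤ f (Φ (t, x)) := by linarith
      refine ⟨⟨⟨(hm t).1, ?_, ?_⟩, k1.trans hx.2⟩, k3⟩
      · refine deform_bound (w := fun t => ‖(Φ (t, x)).2.2‖ ^ 2) (fun t => ((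
          (ContinuousLinearMap.snd ℝ _ _).comp (ContinuousLinearMap.snd ℝ A (Fib k k'))
          ).hasFDerivAt.comp_hasDerivAt t (hΦ.deriv t x)).norm_sq) (by
            simpa only [hΦ.zero] using hx.1.2.1) (fun t ht => ?_) t0
        exact mul_nonpos_of_nonneg_of_nonpos zero_le_two ((hV' _ (hm t)).2.2.2.2 ht)
      · rcases le_total R ‖(Φ (t, x)).2‖ with h | h
        · rw [← hf.quad _ (hm t) h]
          exact ha.trans k3
        · have := pow_le_pow_left₀ (norm_nonneg _) ((norm_fst_le _).trans h) 2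
          unfold Qf
          nlinarith [sq_nonneg ‖(Φ (t, x)).2.2‖]
    intro t t0 t1
    refine ⟨(h3 t t0 t1).1.1, ?_⟩
    have h4 := constant_of_has_deriv_right_zero (f := fun t => f (Φ (t, x)) + t) (a := 0) (b := t)
      (fun r _ => (hu' r).continuousAt.continuousWithinAt) (fun r hr => by
        have := (hu' r).hasDerivWithinAt (s := Ici r)
        rwa [(hV' _ (hm r)).2.2.2.1 (h3 r hr.1 (hr.2.le.trans t1)), neg_add_cancel] at this)
      t (right_mem_Icc.2 t0)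
    simp only [hΦ.zero, add_zero] at h4
    linarith
  refine beta_acyc hl hB (M.B_inv hf s a) (fun x hx => ⟨hx.1, hx.2.trans hab⟩)
    (H := fun p => Φ (p.1 * max 0 (f p.2 - a), p.2)) (hΦ.smooth.continuous.comp_continuousOn
      ((continuousOn_fst.mul ((continuous_const.max continuous_id).comp_continuousOn
        ((hfc.comp continuousOn_snd fun _ h => h.2).sub continuousOn_const))).prodMk continuousOn_snd))
    (fun p hp => ?_) (fun p hp => ?_) (fun x _ => by simp [hΦ.zero]) (fun x hx => ?_) n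
  · rcases le_total (f p.2 - a) 0 with h | h
    · simpa only [max_eq_left h, mul_zero, hΦ.zero] using hp.2
    · have t0 := mul_nonneg hp.1.1 h
      obtain ⟨k1, k2⟩ := key _ hp.2 _ t0 (mul_le_of_le_one_left h hp.1.2)
      simp only [max_eq_right h]
      exact ⟨k1, k2.trans_le ((sub_le_self _ t0).trans hp.2.2)⟩
  · simpa only [max_eq_left (sub_nonpos.2 (show f p.2 ≤ a from hp.2.2)), mul_zero, hΦ.zero]
      using hp.2
  · rcases le_total (f x - a) 0 with h | h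
    · simp only [max_eq_left h, mul_zero, hΦ.zero]
      exact ⟨hx.1, sub_nonpos.1 h⟩
    · obtain ⟨k1, k2⟩ := key _ hx _ h le_rfl
      simp only [max_eq_right h, one_mul]
      exact ⟨k1, k2.trans_le (by linarith)⟩

/-- The bottom sublevel set is `S0 × {‖z.2‖ ^ 2 ≤ s, Qf z = -s}`. The map
`(y, z) ↦ ((y, z.2), (s + ‖z.2‖ ^ 2)^(-1/2) • z.1)` is a homeomorphism of the pair onto
`(Z × ball, Z × sphere)` with `Z = S0 × {‖w‖ ^ 2 ≤ s}` (`beta_rel`, `beta_ball`), and `Z` deforms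
to `S0 × {0}` (`beta_acyc`, `beta_left`). -/
theorem top {l : K} (hl : Good l) {R s : ℝ} (hR : 0 ≤ R) (hs : R ^ 2 < s)
    {f : A × Fib k k' → ℝ} (hf : M.Adm R f) (hb : ∀ x ∈ M.S k k', ‖x.2‖ ≤ R → -s < f x) (n : ℕ) :
    beta (M.act k k') l (M.D k k' s) (M.B s f (-s)) n = sh k (beta M.act0 l M.S0 ∅) n := by
  have s0 : 0 < s := (sq_nonneg R).trans_lt hs
  have hW : IsCompact {w : Eu k' | ‖w‖ ^ 2 ≤ s} := Metric.isCompact_of_isClosed_isBounded
    (isClosed_le (by fun_prop) continuous_const)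
    ((Metric.isBounded_closedBall (x := 0) (r := 1 + s)).subset fun w hw => by
      rw [mem_closedBall_zero_iff]
      nlinarith [sq_nonneg (‖w‖ - 1), show ‖w‖ ^ 2 ≤ s from hw])
  have hZ := M.inv0.prod hW
  have r0 : ∀ w : Eu k', 0 < √(s + ‖w‖ ^ 2) := fun w => by positivity
  have e0 : ∀ z : Fib k k', ‖(√(s + ‖z.2‖ ^ 2))⁻¹ • z.1‖ = ‖z.1‖ / √(s + ‖z.2‖ ^ 2) := fun z => by
    rw [norm_smul, Real.norm_of_nonneg (inv_pos.2 (r0 _)).le, div_eq_inv_mul]
  have e1 : ∀ z : Fib k k', -s ≤ Qf z ↔ ‖(√(s + ‖z.2‖ ^ 2))⁻¹ • z.1‖ ≤ 1 := fun z => by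
    rw [e0, div_le_one (r0 _), Real.le_sqrt (norm_nonneg _) (by positivity), Qf]
    constructor <;> intro h <;> linarith
  have e2 : ∀ z : Fib k k', Qf z = -s ↔ ‖(√(s + ‖z.2‖ ^ 2))⁻¹ • z.1‖ = 1 := fun z => by
    rw [e0, div_eq_one_iff_eq (r0 _).ne', eq_comm (a := ‖z.1‖),
      Real.sqrt_eq_iff_eq_sq (by positivity) (norm_nonneg _), Qf]
    constructor <;> intro h <;> linarith
  rw [Susp_bij (b := (M.act0.prod (Eu k')).prod (Eu k)) hl
    (f := fun x => ((x.1, x.2.2), (√(s + ‖x.2.2‖ ^ 2))⁻¹ • x.2.1))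
    ((continuous_fst.prodMk continuous_snd.snd).prodMk
      ((Continuous.inv₀ (by fun_prop) fun x => (r0 _).ne').smul continuous_snd.fst))
    (Function.bijective_iff_has_inverse.2 ⟨fun p => (p.1.1, √(s + ‖p.1.2‖ ^ 2) • p.2, p.1.2),
      fun x => by simp [smul_smul, mul_inv_cancel₀ (r0 _).ne'],
      fun x => by simp [smul_smul, inv_mul_cancel₀ (r0 _).ne']⟩) (fun _ => rfl) (M.D_inv s)
    (M.B_inv hf s (-s)) (hZ.prod gauge_norm.ball) (hZ.prod gauge_norm.sphere) inter_subset_left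
    (fun x => ⟨fun h => ⟨⟨h.1, h.2.1⟩, (e1 _).1 h.2.2⟩, fun h => ⟨h.1.1, h.1.2, (e1 _).2 h.2⟩⟩)
    (fun x => ⟨fun h => ⟨⟨h.1.1, h.1.2.1⟩, (e2 _).1 ?_⟩, fun h => ?_⟩),
    beta_ball hl hZ gauge_norm, finrank_euclideanSpace_fin]
  · congr 1
    funext m
    rw [← Susp_pt hl M.inv0 (0 : Eu k')]
    have h0 : M.S0 ×ˢ ({0} : Set (Eu k')) ⊆ M.S0 ×ˢ {w : Eu k' | ‖w‖ ^ 2 ≤ s} :=
      prod_mono_right (by simpa using s0.le)
    refine beta_left (empty_subset _) h0 (fun n => beta_acyc hl hZ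
      (M.inv0.prod isCompact_singleton) h0 (H := fun p => (p.2.1, (1 - p.1) • p.2.2))
      (by fun_prop) (fun p hp => ⟨hp.2.1, ?_⟩) (fun p hp => ⟨hp.2.1, ?_⟩) (fun x _ => by simp)
      (fun x hx => ⟨hx.1, by simp⟩) n) m
    · refine le_trans (show ‖(1 - p.1) • p.2.2‖ ^ 2 ≤ _ from ?_) (show ‖p.2.2‖ ^ 2 ≤ s from hp.2.2)
      rw [norm_smul, Real.norm_of_nonneg (sub_nonneg.2 hp.1.2)]
      exact pow_le_pow_left₀ (mul_nonneg (sub_nonneg.2 hp.1.2) (norm_nonneg _))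
        (mul_le_of_le_one_left (norm_nonneg _) (sub_le_self _ hp.1.1)) 2
    · simp [show p.2.2 = 0 from hp.2.2]
  · have h1 : f x ≤ -s := h.2
    have h2 : R ≤ ‖x.2‖ := le_of_not_ge fun h2 => (hb x ⟨h.1.1, trivial⟩ h2).not_ge h1
    rw [hf.quad x ⟨h.1.1, trivial⟩ h2] at h1
    exact le_antisymm h1 h.1.2.2
  · have h1 := (e2 _).2 h.2
    refine ⟨⟨h.1.1, h.1.2, h1.ge⟩, ?_⟩
    have h2 : R ≤ ‖x.2.1‖ := by
      refine (pow_le_pow_iff_left₀ hR (norm_nonneg _) two_ne_zero).1 ?_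
      unfold Qf at h1
      nlinarith [sq_nonneg ‖x.2.2‖]
    exact ((hf.quad x ⟨h.1.1, trivial⟩ (h2.trans (norm_fst_le _))).trans h1).le

end MS

end Vale.Agent.P265
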