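import Vale.Agent.P265.Rho

/-!
A smooth map from `X` to three-space that vanishes only on the circle `KK`: the difference of the
stereographic projections of two maps to the three-sphere.
-/

open scoped ContDiff Topology
open Set Filter Complex

noncomputable section

namespace Vale.Agent.P265

/-- The numerator of the stereographic projection. -/
def st (x : ℂ × ℂ) : Eu 3 := !₂[x.1.re, x.1.im, x.2.im]

/-- The denominator of the stereographic projection. -/
def ht (x : ℂ × ℂ) : ℝ := √(‖x.1‖ ^ 2 + ‖x.2‖ ^ 2) - x.2.re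

theorem ht_pos {x : ℂ × ℂ} (h : ¬ (x.1 = 0 ∧ x.2.im = 0 ∧ 0 ≤ x.2.re)) : 0 < ht x := by
  by_contra h0
  rw [ht, sub_pos, not_lt, Real.sqrt_le_iff, Complex.sq_norm x.2, normSq_apply] at h0
  refine h ⟨norm_eq_zero.1 ?_, ?_, h0.1⟩ <;>
    nlinarith [sq_nonneg ‖x.1‖, sq_nonneg x.2.im, h0.2]

theorem dir_sq (x : ℂ × ℂ) :
    x.1.re ^ 2 + x.1.im ^ 2 + x.2.im ^ 2 = ht x * (ht x + 2 * x.2.re) := by
  have := Real.sq_sqrt (by positivity : 0 ≤ ‖x.1‖ ^ 2 + ‖x.2‖ ^ 2)
  rw [ht]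
  generalize √(‖x.1‖ ^ 2 + ‖x.2‖ ^ 2) = N at this
  rw [Complex.sq_norm, Complex.sq_norm, normSq_apply, normSq_apply] at this
  linear_combination -this

/-- With `s = st x / ht x` one has `re x.2 = ht x * (‖s‖ ^ 2 - 1) / 2`. -/
theorem st_inj {x y : ℂ × ℂ} (hx : 0 < ht x) (hy : 0 < ht y) (h : ht y • st x = ht x • st y) :
    ∃ r : ℝ, 0 < r ∧ x.1 = r * y.1 ∧ x.2 = r * y.2 := by
  have h0 : ht y * x.1.re = ht x * y.1.re := by simpa [st] using congrArg (· 0) h
  have h1 : ht y * x.1.im = ht x * y.1.im := by simpa [st] using congrArg (· 1) h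
  have h2 : ht y * x.2.im = ht x * y.2.im := by simpa [st] using congrArg (· 2) h
  have e1 := dir_sq x
  have e2 := dir_sq y
  have h3 : ht y * x.2.re = ht x * y.2.re := by
    refine mul_left_cancel₀ (mul_pos (mul_pos hx hy) two_pos).ne' ?_
    linear_combination -(ht y) ^ 2 * e1 + (ht x) ^ 2 * e2 +
      (ht y * x.1.re + ht x * y.1.re) * h0 + (ht y * x.1.im + ht x * y.1.im) * h1 +
        (ht y * x.2.im + ht x * y.2.im) * h2
  refine ⟨ht x / ht y, div_pos hx hy, Complex.ext ?_ ?_, Complex.ext ?_ ?_⟩ <;>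
    simp only [re_ofReal_mul, im_ofReal_mul] <;> field_simp <;> linarith

/-- Short name for the transition function. -/
abbrev sg (t : ℝ) : ℝ := Real.smoothTransition t

/-- The negative of the phase. -/
def hat (a : ℂ) : ℂ := -a / (‖a‖ : ℝ)

theorem sg0 {t : ℝ} (h : t ≤ 0) : sg t = 0 := Real.smoothTransition.zero_of_nonpos h
theorem sg1 {t : ℝ} (h : 1 ≤ t) : sg t = 1 := Real.smoothTransition.one_of_one_le h
theorem sg_pos {t : ℝ} (h : 0 < t) : 0 < sg t := Real.smoothTransition.pos_of_pos h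
theorem sg_lt {t : ℝ} (h : t < 1) : sg t < 1 := Real.smoothTransition.lt_one_of_lt_one h

theorem hat_norm {a : ℂ} (h : a ≠ 0) : ‖hat a‖ = 1 := by
  simp [hat, h]

theorem hat_mul {a : ℂ} (h : a ≠ 0) : a = -(‖a‖ : ℝ) * hat a := by
  have : ((‖a‖ : ℝ) : ℂ) ≠ 0 := by simpa using h
  rw [hat]; field_simp

theorem hat_smooth {a : ℂ} (h : a ≠ 0) : ContDiffAt ℝ ∞ hat a :=
  contDiffAt_id.neg.mul ((ofRealCLM.contDiff.contDiffAt.comp a (contDiffAt_norm ℝ h)).inv
    (by simpa using h))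

theorem hat_one {a : ℂ} (h : a ≠ 0) (h1 : hat a = 1) : a.im = 0 ∧ a.re < 0 := by
  have := hat_mul h
  rw [h1, mul_one] at this
  rw [this]
  simpa using h

/-- The first map. -/
def vx (x : AX) : ℂ × ℂ :=
  (sg (5 / 2 - 5 * x.1.2.2) * x.2.1.1 + sg (x.1.2.2 - 2 / 5),
    (1 - sg (5 / 2 - 5 * x.1.2.2)) * x.2.1.2)

/-- An auxiliary function. -/
def YY (x : AX) : ℂ :=
  (1 - sg (-1 - 5 * x.1.2.2)) * (hat x.2.2.1 ^ 2 *
    (sg (1 - 10 * x.1.2.2) * hat x.2.2.1 - sg (1 + 10 * x.1.2.2))) +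
      sg (-1 - 5 * x.1.2.2) * x.2.2.2

/-- The second map. -/
def vy (x : AX) : ℂ × ℂ :=
  ((1 - sg (7 / 4 - 5 * x.1.2.2)) * x.2.2.1 - sg (1 / 4 - x.1.2.2), sg (7 / 4 - 5 * x.1.2.2) * YY x)

/-- The direction field. -/
def dir (x : AX) : Eu 3 := ht (vy x) • st (vx x) - ht (vx x) • st (vy x)

/-- Suppose `vx.1 = 0` and `vx.2` is real and nonnegative. For `h ≤ 3 / 10`: `a = 0`, impossible.
Otherwise `A = 1`; for `h ≥ 1 / 2`, `vx.1 > 0`; for `h < 1 / 2`, `a` is real, so `fa p = a ^ 2` is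
real and `h = 3 / 5`. -/
theorem ht_vx {x : AX} (h : x ∈ XS) : 0 < ht (vx x) := by
  refine ht_pos fun ⟨h1, h2, h3⟩ => ?_
  simp only [vx] at h1 h2 h3
  rcases le_or_gt x.1.2.2 (3 / 10) with hh | hh
  · rw [sg1 (by linarith), sg0 (by linarith)] at h1
    exact a_ne h (by linarith) (by simpa using h1)
  rcases le_or_gt (1 / 2) x.1.2.2 with hh' | hh'
  · rw [sg0 (by linarith)] at h1
    exact (sg_pos (t := x.1.2.2 - 2 / 5) (by linarith)).ne' (by simpa using h1)
  have s0 := sg_pos (t := 5 / 2 - 5 * x.1.2.2) (by linarith)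
  have s1 := sg_lt (t := 5 / 2 - 5 * x.1.2.2) (by linarith)
  have a1 : x.2.1.1.im = 0 := by simpa [s0.ne'] using congrArg im h1
  have a2 : x.2.1.2.im = 0 := by simpa [sub_eq_zero, s1.ne'] using h2
  have a3 : x.2.1.2.re ≠ 0 := fun h0 => by
    simpa [(Complex.ext h0 a2 : x.2.1.2 = 0)] using h.2.1
  have := congrArg im h.2.2.2.1
  simp only [sq, mul_im, a1, a2, fa_im, mul_zero, zero_mul, zero_add] at this
  exact mul_ne_zero (by linarith) a3 this.symm

/-- For `h ≥ 7 / 20`, `vy.1 = c ≠ 0`. For `h ≤ 3 / 20`, `vy.1 < 0`. In between `vy.1 = 0` forces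
`c > 0`, `hat c = -1`, `YY = -1`. -/
theorem ht_vy {x : AX} (h : x ∈ XS) : 0 < ht (vy x) := by
  refine ht_pos fun ⟨h1, _, h3⟩ => ?_
  simp only [vy] at h1 h3
  rcases le_or_gt (7 / 20) x.1.2.2 with hh | hh
  · rw [sg0 (by linarith), sg0 (by linarith)] at h1
    exact c_ne h (by linarith) (by simpa using h1)
  rcases le_or_gt x.1.2.2 (3 / 20) with hh' | hh'
  · rw [sg1 (by linarith)] at h1
    exact (sg_pos (t := 1 / 4 - x.1.2.2) (by linarith)).ne' (by simpa using h1)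
  have s0 := sg_pos (t := 7 / 4 - 5 * x.1.2.2) (by linarith)
  have s1 := sg_lt (t := 7 / 4 - 5 * x.1.2.2) (by linarith)
  have a1 : x.2.2.1.im = 0 := by simpa [sub_eq_zero, s1.ne'] using congrArg im h1
  have a2 := hat_norm (c_ne h (by linarith))
  have a3 : (hat x.2.2.1).im = 0 := by simp [hat, div_ofReal_im, a1]
  have a4 : (hat x.2.2.1).re ≠ 0 := fun h0 => by
    simp [(Complex.ext h0 a3 : hat x.2.2.1 = 0)] at a2
  rw [YY, sg0 (t := -1 - _) (by linarith), sg0 (t := 1 - _) (by linarith),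
    sg1 (t := 1 + _) (by linarith)] at h3
  simp [sq, a3] at h3
  nlinarith [mul_self_pos.2 a4]

theorem sg_smooth {f : AX → ℝ} (h : ContDiff ℝ ∞ f) : ContDiff ℝ ∞ fun x => ((sg (f x) : ℝ) : ℂ) :=
  ofRealCLM.contDiff.comp (Real.smoothTransition.contDiff.comp h)

theorem YY_smooth {x : AX} (h : x.2.2.1 ≠ 0 ∨ x.1.2.2 < -2 / 5) : ContDiffAt ℝ ∞ YY x := by
  have b := (sg_smooth (f := fun x => -1 - 5 * x.1.2.2) (by fun_prop)).contDiffAt (x := x)
  rcases h with h | h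
  · have a := (hat_smooth h).comp x (f := fun x : AX => x.2.2.1) (by fun_prop)
    exact ((contDiffAt_const.sub b).mul ((a.pow 2).mul (((sg_smooth (by fun_prop)).contDiffAt.mul
      a).sub (sg_smooth (by fun_prop)).contDiffAt))).add (b.mul (by fun_prop))
  · refine (by fun_prop : ContDiffAt ℝ ∞ (fun x : AX => x.2.2.2) x).congr_of_eventuallyEq ?_
    filter_upwards [(by fun_prop : Continuous fun x : AX => x.1.2.2).continuousAt.eventually
      (gt_mem_nhds h)] with y hy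
    simp [YY, sg1 (t := -1 - 5 * y.1.2.2) (by linarith)]

theorem st_smooth : ContDiff ℝ ∞ st := by
  refine contDiff_euclidean.2 fun i => ?_
  fin_cases i
  exacts [reCLM.contDiff.comp contDiff_fst, imCLM.contDiff.comp contDiff_fst,
    imCLM.contDiff.comp contDiff_snd]

theorem ht_smooth {x : ℂ × ℂ} (h : 0 < ht x) : ContDiffAt ℝ ∞ ht x :=
  (((contDiff_fst.norm_sq ℝ).add (contDiff_snd.norm_sq ℝ)).contDiffAt.sqrt fun h0 => by
    have h1 : ‖x.2‖ = 0 := by nlinarith [sq_nonneg ‖x.1‖, sq_nonneg ‖x.2‖]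
    rw [ht, h0, norm_eq_zero.1 h1] at h
    simp at h).sub (reCLM.contDiff.comp contDiff_snd).contDiffAt

/-- Smooth on `{(c ≠ 0 ∨ h < -2 / 5) ∧ vx ≠ 0 ∧ vy ≠ 0}`. -/
theorem dir_sm : Sm XS dir := by
  have hx : ContDiff ℝ ∞ vx :=
    (((sg_smooth (by fun_prop)).mul (by fun_prop)).add (sg_smooth (by fun_prop))).prodMk
      ((contDiff_const.sub (sg_smooth (by fun_prop))).mul (by fun_prop))
  have hy : ∀ x : AX, x.2.2.1 ≠ 0 ∨ x.1.2.2 < -2 / 5 → ContDiffAt ℝ ∞ vy x := fun x h =>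
    (((contDiff_const.sub (sg_smooth (by fun_prop))).mul (by fun_prop)).sub
      (sg_smooth (by fun_prop))).contDiffAt.prodMk
        ((sg_smooth (by fun_prop)).contDiffAt.mul (YY_smooth h))
  have hc : Continuous ht := by unfold ht; fun_prop
  have o1 : IsOpen ({x : AX | x.2.2.1 ≠ 0} ∪ {x | x.1.2.2 < -2 / 5}) :=
    (isOpen_ne_fun (by fun_prop) (by fun_prop)).union (isOpen_lt (by fun_prop) (by fun_prop))
  refine sm_of_contDiffOn (O := (({x : AX | x.2.2.1 ≠ 0} ∪ {x | x.1.2.2 < -2 / 5}) ∩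
    vy ⁻¹' {y | 0 < ht y}) ∩ {x | 0 < ht (vx x)}) ((ContinuousOn.isOpen_inter_preimage
      (fun x h => (hy x h).continuousAt.continuousWithinAt) o1 (isOpen_lt continuous_const hc)).inter
        (isOpen_lt continuous_const (hc.comp hx.continuous)))
    (fun x h => ⟨⟨?_, ht_vy h⟩, ht_vx h⟩) fun x h => ?_
  · by_cases h' : x.1.2.2 = -3 / 5
    · exact Or.inr (by rw [mem_ofPred_eq, h']; norm_num)
    · exact Or.inl (c_ne h h')
  · exact ((((ht_smooth h.1.2).comp x (hy x h.1.1)).smul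
      (st_smooth.comp hx).contDiffAt).sub (((ht_smooth h.2).comp x hx.contDiffAt).smul
        (st_smooth.contDiffAt.comp x (hy x h.1.1)))).contDiffWithinAt

theorem YY_zero {x : AX} (h : x ∈ XS) (h0 : YY x = 0) :
    x.1.2.2 = 0 ∧ hat x.2.2.1 = 1 := by
  rw [YY] at h0
  rcases le_or_gt x.1.2.2 (-2 / 5) with h1 | h1
  · rw [sg1 (t := -1 - _) (by linarith)] at h0
    have := h.2.2.1
    simp_all
  have hc := c_ne h (by linarith)
  have hn := hat_norm hc
  have hne : hat x.2.2.1 ≠ 0 := fun h => by simp [h] at hn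
  rcases le_or_gt x.1.2.2 (-1 / 10) with h2 | h2
  · exfalso
    rw [sg1 (t := 1 - _) (by linarith), sg0 (t := 1 + _) (by linarith)] at h0
    have s1 := sg_lt (t := -1 - 5 * x.1.2.2) (by linarith)
    have e := h.2.2.2.2
    rw [hat_mul hc] at e
    have : hat x.2.2.1 ^ 3 * ((1 - sg (-1 - 5 * x.1.2.2)) * fb x.1 -
        sg (-1 - 5 * x.1.2.2) * (‖x.2.2.1‖ ^ 3 : ℝ)) = 0 := by
      push_cast at h0 ⊢
      linear_combination fb x.1 * h0 + sg (-1 - 5 * x.1.2.2) * e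
    have := congrArg im ((mul_eq_zero.1 this).resolve_left (pow_ne_zero _ hne))
    simp only [sub_im, mul_im, sub_re, one_re, ofReal_re, one_im, ofReal_im, fb_im, sub_self,
      zero_mul, mul_zero, add_zero, sub_zero, zero_im] at this
    exact mul_ne_zero (by linarith) (by linarith) this
  rw [sg0 (t := -1 - _) (by linarith)] at h0
  have e : sg (1 - 10 * x.1.2.2) * hat x.2.2.1 = sg (1 + 10 * x.1.2.2) := by
    simpa [hne, sub_eq_zero] using h0
  have e' : sg (1 - 10 * x.1.2.2) = sg (1 + 10 * x.1.2.2) := by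
    simpa [hn, abs_of_nonneg (Real.smoothTransition.nonneg _)] using congrArg norm e
  have hz : x.1.2.2 = 0 := by
    rcases lt_trichotomy x.1.2.2 0 with h3 | h3 | h3
    · rw [sg1 (by linarith)] at e'
      exact absurd e' (sg_lt (by linarith)).ne'
    · exact h3
    · rw [sg1 (t := 1 + _) (by linarith)] at e'
      exact absurd e' (sg_lt (by linarith)).ne
  exact ⟨hz, by simpa [hz] using e⟩

/-- By `st_inj`, `vx = r • vy`. For `h ≥ 7 / 20`, `vy.2 = 0 ≠ vx.2`. For `3 / 10 < h < 7 / 20`,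
`a` is a positive multiple of `c` and `A` is a negative multiple of `c ^ 2`, so `fa p` is real. For
`h ≤ 3 / 10`, `vx.2 = 0`, so `YY = 0`: for `h ≤ -2 / 5`, `YY = C`; for `-2 / 5 < h ≤ -1 / 10`,
`YY * fb p = hat c ^ 3 * ((1 - r) * fb p - r * ‖c‖ ^ 3)` and `im (fb p) > 0`; for `-1 / 10 < h`,
`sg (1 - 10 h) * hat c = sg (1 + 10 h)` forces `h = 0`, `hat c = 1`. -/
theorem dir_zero {x : AX} (h : x ∈ XS) (h0 : dir x = 0) : x ∈ KK := by
  obtain ⟨r, hr, h1, h2⟩ := st_inj (ht_vx h) (ht_vy h) (sub_eq_zero.1 h0)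
  simp only [vx, vy] at h1 h2
  have hA : x.2.1.2 ≠ 0 := fun h' => by simpa [h'] using h.2.1
  rcases le_or_gt x.1.2.2 (3 / 10) with hh | hh
  · rw [sg1 (by linarith)] at h1 h2
    obtain ⟨a, b⟩ := YY_zero h (by
      simpa [hr.ne', (sg_pos (t := 7 / 4 - 5 * x.1.2.2) (by linarith)).ne'] using h2)
    rw [sg0 (by linarith), sg1 (t := 7 / 4 - _) (by linarith)] at h1
    have c := hat_one (c_ne h (by linarith)) b
    have d := mul_pos hr (sg_pos (t := 1 / 4 - x.1.2.2) (by linarith))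
    have e : x.2.1.1 = -(r * sg (1 / 4 - x.1.2.2) : ℝ) := by simpa using h1
    exact ⟨a, by rw [e]; simp, by rw [e, neg_re, ofReal_re]; linarith, c⟩
  exfalso
  have s1 := sg_lt (t := 5 / 2 - 5 * x.1.2.2) (by linarith)
  rcases le_or_gt (7 / 20) x.1.2.2 with hh' | hh'
  · rw [sg0 (t := 7 / 4 - _) (by linarith)] at h2
    simp [hA, sub_eq_zero] at h2
    exact s1.ne' (by exact_mod_cast h2)
  have s0 := sg_pos (t := 5 / 2 - 5 * x.1.2.2) (by linarith)
  have s2 := sg_pos (t := 7 / 4 - 5 * x.1.2.2) (by linarith)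
  have hc := c_ne h (by linarith)
  rw [sg0 (t := _ - 2 / 5) (by linarith), sg0 (t := 1 / 4 - _) (by linarith), hat_mul hc] at h1
  rw [YY, sg0 (t := -1 - _) (by linarith), sg0 (t := 1 - _) (by linarith),
    sg1 (t := 1 + _) (by linarith)] at h2
  have hne : hat x.2.2.1 ≠ 0 := fun h => by simpa [h] using hat_norm hc
  have e := h.2.2.2.1
  generalize sg (5 / 2 - 5 * x.1.2.2) = s at *
  generalize sg (7 / 4 - 5 * x.1.2.2) = t at *
  have : hat x.2.2.1 ^ 2 * (((1 - s) * (r * (1 - t) * ‖x.2.2.1‖) ^ 2 : ℝ) +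
      (s ^ 2 * r * t : ℝ) * fa x.1) = 0 := by
    push_cast at h1 h2 ⊢
    linear_combination (1 - s) * s ^ 2 * e + s ^ 2 * fa x.1 * h2 -
      (1 - s) * (s * x.2.1.1 - r * (1 - t) * ‖x.2.2.1‖ * hat x.2.2.1) * h1
  have := congrArg im ((mul_eq_zero.1 this).resolve_left (pow_ne_zero _ hne))
  rw [add_im, ofReal_im, im_ofReal_mul, fa_im, zero_add, zero_im] at this
  exact mul_ne_zero (by positivity) (by linarith) this

/-- The signs of the components near the circle. Here `vx = (a, 0)`, `vy = (-δ, YY)` with `δ > 0`,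
`dir = (re w, im w, -‖a‖ * im YY)`, `w = ht vy * a + ‖a‖ * δ`, `a = -‖a‖ * hat a`, and
`im YY = im ĉ * (t₁ (4 (re ĉ) ^ 2 - 1) - 2 t₀ re ĉ)` for `ĉ = hat c`, `‖ĉ‖ = 1`. -/
theorem dir_sign {x : AX} (h : x ∈ XS) (h1 : -1 / 10 < x.1.2.2)
    (h2 : 9 / 10 < sg (1 - 10 * x.1.2.2)) (h3 : 19 / 20 < (hat x.2.2.1).re) :
    (∃ r > 0, dir x 1 = -r * (hat x.2.1.1).im) ∧ (∃ r > 0, dir x 2 = -r * (hat x.2.2.1).im) ∧
      (hat x.2.1.1 = 1 → hat x.2.2.1 = 1 → ∃ r ≥ 0, dir x 0 = -r * x.1.2.2) := by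
  have h4 : x.1.2.2 < 1 / 10 := by
    by_contra h4
    rw [sg0 (by linarith)] at h2
    linarith
  have ha := a_ne h (by linarith)
  have hn := norm_pos_iff.2 ha
  have e1 : vx x = (x.2.1.1, 0) := by
    simp [vx, sg1 (t := 5 / 2 - 5 * x.1.2.2) (by linarith), sg0 (t := x.1.2.2 - 2 / 5) (by linarith)]
  have e2 : vy x = (-((sg (1 / 4 - x.1.2.2) : ℝ) : ℂ), YY x) := by
    simp [vy, sg1 (t := 7 / 4 - 5 * x.1.2.2) (by linarith)]
  have e3 : ht (x.2.1.1, 0) = ‖x.2.1.1‖ := by simp [ht]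
  have e4 : YY x = hat x.2.2.1 ^ 2 *
      (sg (1 - 10 * x.1.2.2) * hat x.2.2.1 - sg (1 + 10 * x.1.2.2)) := by
    simp [YY, sg0 (t := -1 - 5 * x.1.2.2) (by linarith)]
  have hy := ht_vy h
  refine ⟨⟨ht (vy x) * ‖x.2.1.1‖, mul_pos hy hn, ?_⟩, ?_, fun b1 b2 => ?_⟩
  · have : x.2.1.1.im = -‖x.2.1.1‖ * (hat x.2.1.1).im := by
      simpa using congrArg im (hat_mul ha)
    rw [dir, e1, e3]
    generalize ht (vy x) = q
    simp [st, e2, this, mul_assoc]
  · have t0 := Real.smoothTransition.le_one (1 + 10 * x.1.2.2)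
    have n := Complex.sq_norm (hat x.2.2.1)
    rw [hat_norm (c_ne h (by linarith)), normSq_apply] at n
    refine ⟨‖x.2.1.1‖ * (sg (1 - 10 * x.1.2.2) * (4 * (hat x.2.2.1).re ^ 2 - 1) -
      2 * sg (1 + 10 * x.1.2.2) * (hat x.2.2.1).re), mul_pos hn ?_, ?_⟩
    · have : (hat x.2.2.1).re ≤ 1 := by nlinarith [sq_nonneg (hat x.2.2.1).im]
      have : 261 / 100 ≤ 4 * (hat x.2.2.1).re ^ 2 - 1 := by nlinarith
      nlinarith
    · rw [dir, e1, e3]
      generalize ht (vy x) = q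
      simp [st, e2, e4, sq]
      linear_combination (‖x.2.1.1‖ * sg (1 - 10 * x.1.2.2) * (hat x.2.2.1).im) * n
  · have a := hat_mul ha
    rw [b1, mul_one] at a
    have e5 : dir x 0 = ‖x.2.1.1‖ * (sg (1 / 4 - x.1.2.2) - ht (vy x)) := by
      rw [dir, e1, e3]
      generalize ht (vy x) = q
      have : x.2.1.1.re = -‖x.2.1.1‖ := by simpa using congrArg re a
      simp [st, e2, this]
      ring
    have d := sg_pos (t := 1 / 4 - x.1.2.2) (by linarith)
    have e6 : sg (1 / 4 - x.1.2.2) ^ 2 =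
        ht (vy x) * (ht (vy x) + 2 * (sg (1 - 10 * x.1.2.2) - sg (1 + 10 * x.1.2.2))) := by
      have := dir_sq (vy x)
      generalize ht (vy x) = q at *
      simpa [e2, e4, b2] using this
    rw [e5]
    generalize ht (vy x) = q at *
    generalize sg (1 / 4 - x.1.2.2) = δ at *
    rcases lt_trichotomy x.1.2.2 0 with h5 | h5 | h5
    · rw [sg1 (t := 1 - _) (by linarith)] at e6
      have := Real.smoothTransition.le_one (1 + 10 * x.1.2.2)
      refine ⟨‖x.2.1.1‖ * (δ - q) / -x.1.2.2,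
        div_nonneg (mul_nonneg hn.le ?_) (by linarith), by field_simp [h5.ne]⟩
      nlinarith
    · refine ⟨0, le_rfl, ?_⟩
      rw [h5, mul_zero, sub_zero, add_zero, sub_self] at e6
      rw [show δ = q by nlinarith]
      simp
    · rw [sg1 (t := 1 + _) (by linarith)] at e6
      have := Real.smoothTransition.le_one (1 - 10 * x.1.2.2)
      refine ⟨‖x.2.1.1‖ * (q - δ) / x.1.2.2,
        div_nonneg (mul_nonneg hn.le ?_) (by linarith), by field_simp; ring⟩
      nlinarith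

end Vale.Agent.P265
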