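import Vale.Agent.P265.Rho

/-!
The critical points of `ρ`.
-/

open scoped ContDiff Topology
open Set Filter Complex

noncomputable section

namespace Vale.Agent.P265

theorem rc_diff {x : AX} (h : x ∈ XS) : DifferentiableAt ℝ rho x := by
  obtain ⟨O, h1, h2, h3⟩ := rho_smooth
  exact (h3.contDiffAt (h1.mem_nhds (h2 h))).differentiableAt (by simp)

theorem rc_branch {p : P3} (hp : p ∈ S2) (h1 : p.2.1 = 0) (h2 : p.2.2 ^ 2 = 9 / 25) (B : ℂ) (n : ℕ) :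
    ∃ q : ℝ → P3, q 0 = p ∧ HasDerivAt q 0 0 ∧ (∀ᶠ t in 𝓝 (0 : ℝ), q t ∈ S2) ∧
      ∀ t, (q t).2.1 = t ^ (n + 2) * B.re ∧ (q t).2.2 = p.2.2 - t ^ (n + 2) * B.im := by
  have hp' : p.1 ^ 2 + p.2.1 ^ 2 + p.2.2 ^ 2 = 1 := hp
  have h3 : p.1 ^ 2 = 16 / 25 := by rw [h1] at hp'; linarith
  let u : ℝ → ℝ := fun s => (1 - (s * B.re) ^ 2 - (p.2.2 - s * B.im) ^ 2) * (25 / 16)
  have u0 : u 0 = 1 := by simp only [u]; linarith
  have hQ : DifferentiableAt ℝ (fun s : ℝ => (p.1 * √(u s), s * B.re, p.2.2 - s * B.im)) 0 := by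
    have : DifferentiableAt ℝ (fun s => √(u s)) 0 :=
      DifferentiableAt.sqrt (by fun_prop) (by rw [u0]; norm_num)
    fun_prop
  have hs : HasDerivAt (fun t : ℝ => t ^ (n + 2)) 0 0 := by simpa using hasDerivAt_pow (n + 2) (0 : ℝ)
  refine ⟨fun t => (p.1 * √(u (t ^ (n + 2))), t ^ (n + 2) * B.re, p.2.2 - t ^ (n + 2) * B.im),
    Prod.ext (by simp [u0]) (Prod.ext (by simp [h1]) (by simp)),
    (hQ.hasDerivAt.scomp_of_eq 0 hs (by simp)).congr_deriv (zero_smul _ _), ?_,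
    fun t => ⟨rfl, rfl⟩⟩
  have hc : Continuous fun t : ℝ => u (t ^ (n + 2)) := by fun_prop
  filter_upwards [hc.continuousAt.eventually (lt_mem_nhds (a := 0) (by simp [u0]))] with t ht
  show (p.1 * √(u (t ^ (n + 2)))) ^ 2 + _ + _ = 1
  rw [mul_pow, Real.sq_sqrt ht.le, h3]
  simp only [u]
  ring

theorem rc_half {P : P3 → ℝ} {f : P3 → ℂ} (hP : Differentiable ℝ P) (hf : Differentiable ℝ f)
    (hfP : ∀ q, ‖f q‖ ^ 2 = P q) {n : ℕ} (hn : n ≠ 0) {a A : ℂ} {p : P3} (ha : a ≠ 0)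
    (hA : ‖A‖ = 1) (h : a ^ n = f p * A) : ∃ G : P3 → ℂ × ℂ, DifferentiableAt ℝ G p ∧
      G p = (a, A) ∧ ∀ᶠ q in 𝓝 p, ‖(G q).2‖ = 1 ∧ (G q).1 ^ n = f q * (G q).2 := by
  have h1 : f p ≠ 0 := fun h0 => ha (pow_eq_zero_iff hn |>.1 (by rw [h, h0, zero_mul]))
  have h2 : ‖a‖ ^ (n * 2) = P p := by rw [pow_mul, ← norm_pow, h, norm_mul, hA, mul_one, hfP]
  have h3 : P p ≠ 0 := by rw [← hfP]; simpa using h1
  have d : DifferentiableAt ℝ (fun q => a * ((P q / P p) ^ ((n * 2 : ℕ) : ℝ)⁻¹ : ℝ)) p :=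
    (ofRealCLM.differentiableAt.comp p (DifferentiableAt.rpow_const (f := fun q => P q / P p)
      (by fun_prop) (Or.inl (div_ne_zero h3 h3)))).const_mul a
  refine ⟨fun q => (a * ((P q / P p) ^ ((n * 2 : ℕ) : ℝ)⁻¹ : ℝ),
    (a * ((P q / P p) ^ ((n * 2 : ℕ) : ℝ)⁻¹ : ℝ)) ^ n / f q),
    d.prodMk ((d.pow n).mul ((hf p).inv h1)), by simp [div_self h3, h, h1], ?_⟩
  filter_upwards [hP.continuous.continuousAt.eventually_ne h3] with q hq
  exact rho_lift hn h2 h3 (hfP q) hq rfl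

theorem rc_line {x v : AX} (h : x ∈ XS) (hc : Crit XS rho x) (hv : Tan XS x v) {b : ℝ}
    (hb : ∀ t : ℝ, rho (x + t • v) = b + 60 * t) : False := by
  have h1 : HasDerivAt (fun t : ℝ => x + t • v) v 0 := by
    simpa using ((hasDerivAt_id (0 : ℝ)).smul_const v).const_add x
  have h2 := (rc_diff h).hasFDerivAt.comp_hasDerivAt_of_eq 0 h1 (by simp)
  rw [hc.fderiv (rc_diff h) hv, Function.comp_def, funext hb] at h2
  have := h2.unique (((hasDerivAt_id (0 : ℝ)).const_mul 60).const_add b)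
  norm_num at this

theorem rc_conj {f B : ℂ} {s : ℝ} (hB : ‖B‖ = 1) (h1 : f.re = s * B.re) (h2 : f.im = -(s * B.im)) :
    (s : ℂ) = f * B := by
  have e := Complex.sq_norm B
  rw [normSq_apply, hB] at e
  refine Complex.ext ?_ ?_
  · rw [mul_re, h1, h2, ofReal_re]; linear_combination s * e
  · rw [mul_im, h1, h2, ofReal_im]; ring

/-- No critical point has `a = 0`. There `p = (± 4 / 5, 0, 3 / 5)`, `c ≠ 0`. Take the curve with
`a = t`, constant `A`, `X₂ + (h - 3 / 5) I = t ^ 2 * conj A`, `X₁ = ± sqrt (1 - X₂ ^ 2 - h ^ 2)`,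
and `(c, C)` as in `liftX`. Along it `ρ = 60 t + g (t ^ 2)` with `g` differentiable at `0`.
Similarly for `c = 0` with `t ^ 3`. -/
theorem rho_crit_ne {x : AX} (h : x ∈ XS) (hc : Crit XS rho x) : x.2.1.1 ≠ 0 ∧ x.2.2.1 ≠ 0 := by
  have hr : HasDerivAt (fun t : ℝ => (t : ℂ)) 1 0 := (hasDerivAt_id (0 : ℝ)).ofReal_comp
  refine ⟨fun h0 => ?_, fun h0 => ?_⟩
  · have h1 : x.1.2.2 = 3 / 5 := by_contra fun h' => a_ne h h' h0
    have h2 : x.1.2.1 = 0 := by simpa [h0, PP, h1] using (rho_a4 h).symm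
    obtain ⟨q, q0, q1, q2, q3⟩ := rc_branch h.1 h2 (by rw [h1]; norm_num) x.2.1.2 0
    obtain ⟨G, g0, g1, g2⟩ := rc_half (P := fun p => PP (flp p)) (by unfold PP flp; fun_prop)
      (fb_smooth.differentiable (by simp)) rho_fb three_ne_zero (c_ne h (by linarith)) h.2.2.1
      h.2.2.2.2
    refine rc_line (v := (0, (1, 0), 0)) h hc ⟨fun t => (q t, (t, x.2.1.2), G (q t)), ?_, ?_, ?_⟩
      (b := rho x) fun t => ?_
    · simp only [q0, g1, ofReal_zero, ← h0]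
    · exact q1.prodMk ((hr.prodMk (hasDerivAt_const _ _)).prodMk
        ((g0.hasFDerivAt.comp_hasDerivAt_of_eq 0 q1 q0.symm).congr_deriv (map_zero _)))
    · filter_upwards [q2, (q0 ▸ q1.continuousAt.tendsto).eventually g2] with t a b
      refine ⟨a, h.2.1, b.1, ?_, b.2⟩
      rw [← ofReal_pow]
      exact rc_conj h.2.1 (by rw [fa_re, (q3 t).1]) (by rw [fa_im, (q3 t).2, h1]; ring)
    · have : kk x.1.2.2 = 1 := Real.smoothTransition.one_of_one_le (by linarith)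
      simp [rho, rr, this, h0]
      ring
  · have h1 : x.1.2.2 = -3 / 5 := by_contra fun h' => c_ne h h' h0
    have h2 : x.1.2.1 = 0 := by
      have := rho_c6 h
      norm_num [h0, PP, flp, h1] at this
      simpa using this.symm
    obtain ⟨q, q0, q1, q2, q3⟩ := rc_branch h.1 h2 (by rw [h1]; norm_num) x.2.2.2 1
    obtain ⟨G, g0, g1, g2⟩ := rc_half (P := PP) (by unfold PP; fun_prop)
      (fa_smooth.differentiable (by simp)) rho_fa two_ne_zero (a_ne h (by linarith)) h.2.1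
      h.2.2.2.1
    refine rc_line (v := (0, 0, (1, 0))) h hc ⟨fun t => (q t, G (q t), (t, x.2.2.2)), ?_, ?_, ?_⟩
      (b := rho x) fun t => ?_
    · simp only [q0, g1, ofReal_zero, ← h0]
    · exact q1.prodMk (((g0.hasFDerivAt.comp_hasDerivAt_of_eq 0 q1 q0.symm).congr_deriv
        (map_zero _)).prodMk (hr.prodMk (hasDerivAt_const _ _)))
    · filter_upwards [q2, (q0 ▸ q1.continuousAt.tendsto).eventually g2] with t a b
      refine ⟨a, b.1, h.2.2.1, b.2, ?_⟩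
      rw [← ofReal_pow]
      exact rc_conj h.2.2.1 (by rw [fb_re, (q3 t).1]) (by rw [fb_im, (q3 t).2, h1]; ring)
    · have : kk (-x.1.2.2) = 1 := Real.smoothTransition.one_of_one_le (by linarith)
      simp [rho, rr, flp, this, h0]

theorem rc_rot (p : P3) (a : ℂ) : HasDerivAt
    (fun t : ℝ => rr p (cexp (t * I) * a) * (cexp (t * I) * a).re) (-(rr p a * a.im)) 0 := by
  have hr : HasDerivAt (fun t : ℝ => (t : ℂ)) 1 0 := (hasDerivAt_id (0 : ℝ)).ofReal_comp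
  have h := reCLM.hasFDerivAt.comp_hasDerivAt 0 (((hr.mul_const I).cexp).mul_const a)
  simp only [rr, norm_mul, norm_exp_ofReal_mul_I, one_mul]
  exact (h.const_mul _).congr_deriv (by simp)

theorem rc_rot1 (x : AX) :
    HasDerivAt (fun t => rho (rotX t 0 x)) (-(rr x.1 x.2.1.1 * x.2.1.1.im)) 0 := by
  simpa [rho, rotX] using rc_rot x.1 x.2.1.1

theorem rc_rot2 (x : AX) :
    HasDerivAt (fun t => rho (rotX 0 t x)) (-(rr (flp x.1) x.2.2.1 * x.2.2.1.im)) 0 := by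
  simpa [rho, rotX] using rc_rot (flp x.1) x.2.2.1

theorem rc_rot_smooth : ContDiff ℝ ∞ fun z : (ℝ × ℝ) × AX => rotX z.1.1 z.1.2 z.2 := by
  have h1 : ContDiff ℝ ∞ fun z : (ℝ × ℝ) × AX => (z.1.1 : ℂ) :=
    ofRealCLM.contDiff.comp (by fun_prop)
  have h2 : ContDiff ℝ ∞ fun z : (ℝ × ℝ) × AX => (z.1.2 : ℂ) :=
    ofRealCLM.contDiff.comp (by fun_prop)
  unfold rotX
  fun_prop

theorem rc_rot0 (x : AX) : rotX 0 0 x = x := by simp [rotX]

theorem rc_pos {α : ℝ} (hα : α = 1 / 4 ∨ α = 1 / 6) {p : P3} (hp : p ∈ S2) {a : ℂ}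
    (h : ‖a‖ = PP p ^ α) (h0 : PP p ≠ 0) : rr p a ≠ 0 := fun h1 => by
  have ha : ‖a‖ ≠ 0 := by rw [h]; exact (Real.rpow_pos_of_pos ((PP_nonneg _).lt_of_ne' h0) _).ne'
  have : WW α p = rr p a * ‖a‖ := by rw [rr, WW, ← h]; field_simp
  exact ((WW_le hα hp).2.2 h0).ne' (by rw [this, h1, zero_mul])

theorem rc_open : IsOpen
    {z : AX × P3 | PP z.1.1 ≠ 0 ∧ PP (flp z.1.1) ≠ 0 ∧ PP z.2 ≠ 0 ∧ PP (flp z.2) ≠ 0} := by
  refine IsOpen.and ?_ (IsOpen.and ?_ (IsOpen.and ?_ ?_)) <;>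
    exact isOpen_ne_fun (by simp only [PP, flp]; fun_prop) continuous_const

theorem rc_lift {x : AX} (h : x ∈ XS) (ha : x.2.1.1 ≠ 0) (hc : x.2.2.1 ≠ 0) :
    ContDiffAt ℝ ∞ (fun z : AX × P3 => liftX z.1 z.2) (x, x.1) :=
  liftX_smooth.contDiffAt (rc_open.mem_nhds ⟨PPa_ne h ha, PPc_ne h hc, PPa_ne h ha, PPc_ne h hc⟩)

theorem rc_curve {x : AX} (h : x ∈ XS) (ha : x.2.1.1 ≠ 0) (hc : x.2.2.1 ≠ 0) {v : P3} {γ : ℝ → P3}
    (hγ : Curve S2 x.1 v γ) : Curve XS x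
      (fderiv ℝ (fun z : AX × P3 => liftX z.1 z.2) (x, x.1) (0, v)) (fun t => liftX x (γ t)) ∧
      (fun t => rho (liftX x (γ t))) =ᶠ[𝓝 0] fun t =>
        Lam (1 / 4) (1 / 6) (x.2.1.1.re / ‖x.2.1.1‖) (x.2.2.1.re / ‖x.2.2.1‖) (γ t) := by
  have c1 : Continuous PP := by unfold PP; fun_prop
  have c2 : Continuous fun p => PP (flp p) := by unfold PP flp; fun_prop
  have t0 : Tendsto γ (𝓝 0) (𝓝 x.1) := hγ.zero ▸ hγ.deriv.continuousAt.tendsto
  have e1 := t0.eventually (c1.continuousAt.eventually_ne (PPa_ne h ha))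
  have e2 := t0.eventually (c2.continuousAt.eventually_ne (PPc_ne h hc))
  refine ⟨⟨by rw [hγ.zero, liftX_self h ha hc], ((rc_lift h ha hc).differentiableAt
    (by simp)).hasFDerivAt.comp_hasDerivAt_of_eq 0 ((hasDerivAt_const _ x).prodMk hγ.deriv)
      (by rw [hγ.zero]), ?_⟩, ?_⟩
  · filter_upwards [hγ.mem, e1, e2] with t a b c using liftX_mem h ha hc a b c
  · filter_upwards [hγ.mem, e1, e2] with t a b c using rho_liftX h ha hc a b c

/-- Use the curves `rotX t 0 x`, `rotX 0 t x`, `liftX x (γ t)`. -/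
theorem rho_crit {x : AX} (h : x ∈ XS) (hc : Crit XS rho x) : x.2.1.1.im = 0 ∧ x.2.2.1.im = 0 ∧
    Crit S2 (Lam (1 / 4) (1 / 6) (x.2.1.1.re / ‖x.2.1.1‖) (x.2.2.1.re / ‖x.2.2.1‖)) x.1 := by
  obtain ⟨ha, hb⟩ := rho_crit_ne h hc
  have d := rc_rot_smooth.differentiable (by simp)
  refine ⟨?_, ?_, fun v γ hγ => ?_⟩
  · have := (rc_rot1 x).unique (hc _ _ ⟨rc_rot0 x, (d.comp (f := fun t : ℝ => ((t, 0), x))
      (by fun_prop) 0).hasDerivAt, Eventually.of_forall fun t => rotX_mem h t 0⟩)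
    simpa [rc_pos (Or.inl rfl) h.1 (norm_a h) (PPa_ne h ha)] using this
  · have := (rc_rot2 x).unique (hc _ _ ⟨rc_rot0 x, (d.comp (f := fun t : ℝ => ((0, t), x))
      (by fun_prop) 0).hasDerivAt, Eventually.of_forall fun t => rotX_mem h 0 t⟩)
    simpa [rc_pos (Or.inr rfl) (flp_mem h.1) (norm_c h) (PPc_ne h hb)] using this
  · obtain ⟨h1, h2⟩ := rc_curve h ha hb hγ
    exact (hc _ _ h1).congr_of_eventuallyEq h2.symm

theorem rc_sign {a : ℂ} (h : a ≠ 0) (h' : a.im = 0) :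
    (a.re / ‖a‖ = 1 ∨ a.re / ‖a‖ = -1) ∧ (a.re / ‖a‖ = -1 → a.re < 0) := by
  have h0 := norm_pos_iff.2 h
  refine ⟨?_, fun e => by rw [div_eq_iff h0.ne'] at e; linarith⟩
  rw [div_eq_iff h0.ne', div_eq_iff h0.ne', ← abs_re_eq_norm.2 h']
  rcases abs_cases a.re with e | e <;> [left; right] <;> linarith [e.1]

theorem rc_class {x : AX} (h : x ∈ XS) (h0 : rho x ≠ 0) (hc : Crit XS rho x) :
    x.1 = (0, 0, 1) ∨ x.1 = (0, 0, -1) ∨ (x.2.1.1.re / ‖x.2.1.1‖ = 1 ∧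
      x.2.2.1.re / ‖x.2.2.1‖ = 1 ∧ (x.1 = (1, 0, 0) ∨ x.1 = (-1, 0, 0))) := by
  obtain ⟨ha, hb⟩ := rho_crit_ne h hc
  obtain ⟨h1, h2, h3⟩ := rho_crit h hc
  refine (lam_crit (Or.inl rfl) (Or.inr rfl) (rc_sign ha h1).1 (rc_sign hb h2).1 h.1 (PPa_ne h ha)
    (PPc_ne h hb) h3).resolve_left fun e => h0 ((rho_nonneg h).2.2 ?_)
  exact ⟨e.2.2, h1, (rc_sign ha h1).2 e.1, h2, (rc_sign hb h2).2 e.2.1⟩

theorem rc_real {a b : ℂ} (h : a ≠ 0) (h1 : a.im = 0) (h2 : b.im = 0) (h3 : ‖a‖ = ‖b‖)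
    (h4 : a.re / ‖a‖ = b.re / ‖b‖) : a = b :=
  Complex.ext ((div_left_inj' (norm_ne_zero_iff.2 h)).1 (by rw [h4, h3])) (h1.trans h2.symm)

/-- A critical point is determined by `p` and the two signs (`lam_crit`): `4 + 4 + 2` cases. -/
theorem rho_card : {x ∈ XS | rho x ≠ 0 ∧ Crit XS rho x}.encard ≤ 10 := by
  let l : List (P3 × ℝ × ℝ) := [((0, 0, 1), 1, 1), ((0, 0, 1), 1, -1), ((0, 0, 1), -1, 1),
    ((0, 0, 1), -1, -1), ((0, 0, -1), 1, 1), ((0, 0, -1), 1, -1), ((0, 0, -1), -1, 1),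
    ((0, 0, -1), -1, -1), ((1, 0, 0), 1, 1), ((-1, 0, 0), 1, 1)]
  classical
  refine (encard_le_encard_of_injOn (t := (l.toFinset : Set _))
    (f := fun x : AX => (x.1, x.2.1.1.re / ‖x.2.1.1‖, x.2.2.1.re / ‖x.2.2.1‖))
    (fun x hx => ?_) fun x hx y hy e => ?_).trans ?_
  · obtain ⟨ha, hb⟩ := rho_crit_ne hx.1 hx.2.2
    obtain ⟨h1, h2, -⟩ := rho_crit hx.1 hx.2.2
    rcases rc_class hx.1 hx.2.1 hx.2.2 with e | e | ⟨e1, e2, e | e⟩
    · rcases (rc_sign ha h1).1 with a | a <;> rcases (rc_sign hb h2).1 with b | b <;>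
        simp [l, e, a, b]
    · rcases (rc_sign ha h1).1 with a | a <;> rcases (rc_sign hb h2).1 with b | b <;>
        simp [l, e, a, b]
    · simp [l, e, e1, e2]
    · simp [l, e, e1, e2]
  · obtain ⟨ha, hb⟩ := rho_crit_ne hx.1 hx.2.2
    obtain ⟨h1, h2, -⟩ := rho_crit hx.1 hx.2.2
    obtain ⟨h1', h2', -⟩ := rho_crit hy.1 hy.2.2
    simp only [Prod.mk.injEq] at e
    have a := rc_real ha h1 h1' (by rw [norm_a hx.1, norm_a hy.1, e.1]) e.2.1
    have b := rc_real hb h2 h2' (by rw [norm_c hx.1, norm_c hy.1, e.1]) e.2.2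
    refine Prod.ext e.1 (Prod.ext (Prod.ext a ?_) (Prod.ext b ?_))
    · refine mul_left_cancel₀ (a := fa x.1) (fun h0 => ha ?_) ?_
      · simpa [h0] using hx.1.2.2.2.1
      · rw [← hx.1.2.2.2.1, e.1, ← hy.1.2.2.2.1, a]
    · refine mul_left_cancel₀ (a := fb x.1) (fun h0 => hb ?_) ?_
      · simpa [h0] using hx.1.2.2.2.2
      · rw [← hx.1.2.2.2.2, e.1, ← hy.1.2.2.2.2, b]
  · rw [encard_coe_eq_coe_finsetCard]
    exact_mod_cast l.toFinset_card_le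

theorem rc_phase {a : ℂ} (h : a ≠ 0) (h' : a.im = 0) :
    HasFDerivAt (fun a : ℂ => a.re / ‖a‖) (0 : ℂ →L[ℝ] ℝ) a := by
  have d : DifferentiableAt ℝ (fun a : ℂ => a.re / ‖a‖) a :=
    ((reCLM.contDiff.contDiffAt.div (contDiffAt_norm (n := 1) ℝ h)
      (norm_ne_zero_iff.2 h))).differentiableAt one_ne_zero
  have b : ∀ z : ℂ, |z.re / ‖z‖| ≤ 1 := fun z => by
    rw [abs_div, abs_norm]; exact div_le_one_of_le₀ (abs_re_le_norm z) (norm_nonneg z)
  rcases (rc_sign h h').1 with e | e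
  · exact IsLocalMax.fderiv_eq_zero (f := fun a : ℂ => a.re / ‖a‖) (a := a)
      (Eventually.of_forall fun z => (abs_le.1 (b z)).2.trans e.ge) ▸ d.hasFDerivAt
  · exact IsLocalMin.fderiv_eq_zero (f := fun a : ℂ => a.re / ‖a‖) (a := a)
      (Eventually.of_forall fun z => e.le.trans (abs_le.1 (b z)).1) ▸ d.hasFDerivAt

theorem rc_dWW (α : ℝ) {f ξ : P3 → P3} {p : P3} (hf : DifferentiableAt ℝ f p)
    (hξ : DifferentiableAt ℝ ξ p) (h : PP (f p) ≠ 0) :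
    DifferentiableAt ℝ (fun q => dtt (f q) (ξ q)) p ∧
      DifferentiableAt ℝ (fun q => dWW α (f q) (ξ q)) p := by
  have s1 : Differentiable ℝ Real.smoothTransition :=
    (Real.smoothTransition.contDiff (n := 1)).differentiable one_ne_zero
  have s2 : Differentiable ℝ (deriv Real.smoothTransition) :=
    (Real.smoothTransition.contDiff (n := 2)).differentiable_deriv_two
  have d1 : DifferentiableAt ℝ (fun q => dtt (f q) (ξ q)) p := by unfold dtt; fun_prop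
  have d2 : ∀ β : ℝ, DifferentiableAt ℝ (fun q => PP (f q) ^ β) p := fun β =>
    DifferentiableAt.rpow_const (by unfold PP; fun_prop) (Or.inl h)
  have d3 := d2 α
  have d4 := d2 (α - 1)
  have d5 := (uu_smooth.differentiable (by simp) _).comp p hf
  exact ⟨d1, by unfold dWW kk; fun_prop⟩

open ContinuousLinearMap in
theorem rc_co (x : AX) :
    HasFDerivAt (fun y : AX => y.2.1.1) ((fst ℝ ℂ ℂ).comp ((fst ℝ _ _).comp (snd ℝ P3 _))) x ∧
    HasFDerivAt (fun y : AX => y.2.1.2) ((snd ℝ ℂ ℂ).comp ((fst ℝ _ _).comp (snd ℝ P3 _))) x ∧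
    HasFDerivAt (fun y : AX => y.2.2.1) ((fst ℝ ℂ ℂ).comp ((snd ℝ _ _).comp (snd ℝ P3 _))) x ∧
    HasFDerivAt (fun y : AX => y.2.2.2) ((snd ℝ ℂ ℂ).comp ((snd ℝ _ _).comp (snd ℝ P3 _))) x :=
  have h : HasFDerivAt (fun y : AX => y.2) (snd ℝ P3 _) x := hasFDerivAt_snd
  have h1 := HasFDerivAt.fst h
  have h2 := HasFDerivAt.snd h
  ⟨HasFDerivAt.fst h1, HasFDerivAt.snd h1, HasFDerivAt.fst h2, HasFDerivAt.snd h2⟩

theorem rc_hk {x : AX} (h : x ∈ XS) (hc : Crit XS rho x) {v : AX}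
    (hv : Tan XS x v) (hk : HK XS rho x v) :
    HK S2 (Lam (1 / 4) (1 / 6) (x.2.1.1.re / ‖x.2.1.1‖) (x.2.2.1.re / ‖x.2.2.1‖)) x.1 v.1 := by
  obtain ⟨ha, hb⟩ := rho_crit_ne h hc
  obtain ⟨h1, h2, -⟩ := rho_crit h hc
  intro ξ e hξ he hev
  obtain ⟨d0, d1⟩ := rc_dWW (1 / 4) differentiableAt_id hξ (PPa_ne h ha)
  obtain ⟨-, d2⟩ := rc_dWW (1 / 6) (f := flp) (ξ := fun q => flp (ξ q)) (p := x.1)
    (by unfold flp; fun_prop) (by unfold flp; fun_prop) (PPc_ne h hb)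
  have d3 : DifferentiableAt ℝ (fun q => dLam (1 / 4) (1 / 6) (x.2.1.1.re / ‖x.2.1.1‖)
      (x.2.2.1.re / ‖x.2.2.1‖) q (ξ q)) x.1 :=
    ((d0.const_mul 2).add (d1.const_mul _)).add (d2.const_mul _)
  have p1 := ((rc_phase ha h1).comp x (rc_co x).1).sub_const
    (x.2.1.1.re / ‖x.2.1.1‖)
  have p2 := ((rc_phase hb h2).comp x (rc_co x).2.2.1).sub_const
    (x.2.2.1.re / ‖x.2.2.1‖)
  have E := ((d3.hasFDerivAt.comp x hasFDerivAt_fst).add
    (p1.mul (d1.hasFDerivAt.comp x hasFDerivAt_fst))).add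
      (p2.mul (d2.hasFDerivAt.comp x hasFDerivAt_fst))
  have c1 : Continuous PP := by unfold PP; fun_prop
  have c2 : Continuous fun p => PP (flp p) := by unfold PP flp; fun_prop
  have t0 : Tendsto (fun y : AX => y.1) (𝓝[XS] x) (𝓝[S2] x.1) :=
    continuous_fst.continuousWithinAt.tendsto_nhdsWithin fun y hy => hy.1
  have := hk (fun y => fderiv ℝ (fun z : AX × P3 => liftX z.1 z.2) (y, y.1) (0, ξ y.1)) _
    (((((rc_lift h ha hb).fderiv_right (m := 1) (by decide)).differentiableAt one_ne_zero).comp x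
      (f := fun y : AX => (y, y.1)) (by fun_prop)).clm_apply (by fun_prop)) E.differentiableAt (by
    filter_upwards [self_mem_nhdsWithin, t0.eventually hev, mem_nhdsWithin_of_mem_nhds
      ((by fun_prop : Continuous fun y : AX => y.2.1.1).continuousAt.eventually_ne ha),
      mem_nhdsWithin_of_mem_nhds
      ((by fun_prop : Continuous fun y : AX => y.2.2.1).continuousAt.eventually_ne hb)]
      with y hy ⟨γ, hγ, _⟩ a b
    obtain ⟨k1, k2⟩ := rc_curve hy a b hγ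
    refine ⟨_, k1, ((lam_d _ _ _ _ hγ.deriv (by rw [hγ.zero]; exact PPa_ne hy a)
      (by rw [hγ.zero]; exact PPc_ne hy b)).congr_of_eventuallyEq k2).congr_deriv ?_⟩
    simp only [hγ.zero, dLam, Pi.add_apply, Pi.mul_apply, Function.comp_apply, id]
    ring)
  rw [E.fderiv] at this
  have tv : Tan S2 x.1 v.1 := by
    simpa [fderiv_fst] using hv.map (f := Prod.fst) differentiableAt_fst fun y hy => hy.1
  rw [tv.fderiv_eq he d3]
  · simpa using this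
  · filter_upwards [hev, mem_nhdsWithin_of_mem_nhds (c1.continuousAt.eventually_ne (PPa_ne h ha)),
      mem_nhdsWithin_of_mem_nhds (c2.continuousAt.eventually_ne (PPc_ne h hb))]
      with q ⟨γ, hγ, k⟩ a b
    simpa [hγ.zero] using k.unique (lam_d _ _ _ _ hγ.deriv (by rwa [hγ.zero]) (by rwa [hγ.zero]))

theorem rc_end {a A f : ℝ → ℂ} {da dA : ℂ} {n : ℕ} (ha : HasDerivAt a da 0)
    (hA : HasDerivAt A dA 0) (hf : HasDerivAt f 0 0)
    (h : ∀ᶠ t in 𝓝 (0 : ℝ), ‖A t‖ = 1 ∧ a t ^ (n + 1) = f t * A t) (h0 : a 0 ≠ 0)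
    (h1 : (a 0).im = 0) (h2 : da.im = 0) : (da, dA) = 0 := by
  obtain ⟨e1, e2⟩ := h.self_of_nhds
  have e3 := (ha.pow (n + 1)).unique ((hf.mul hA).congr_of_eventuallyEq (h.mono fun t h => h.2))
  have e4 := hA.norm_sq.unique ((hasDerivAt_const (0 : ℝ) (1 : ℝ)).congr_of_eventuallyEq
    (h.mono fun t h => by simp [h.1]))
  have e5 : dA = (((n + 1) * (da.re / (a 0).re) : ℝ) : ℂ) • A 0 := by
    have a1 : ((a 0).re : ℂ) = a 0 := Complex.ext rfl (by simp [h1])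
    have a2 : (da.re : ℂ) = da := Complex.ext rfl (by simp [h2])
    push_cast at e3 ⊢
    rw [a1, a2, smul_eq_mul]
    field_simp
    refine mul_left_cancel₀ (pow_ne_zero n h0) ?_
    linear_combination dA * e2 - A 0 * e3
  have a3 : (a 0).re ≠ 0 := fun h => h0 (Complex.ext h h1)
  rw [e5, coe_smul, real_inner_smul_right, real_inner_self_eq_norm_sq, e1] at e4
  have a4 : da.re = 0 := by
    have : (n : ℝ) + 1 ≠ 0 := by positivity
    simpa [a3, this] using e4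
  simp [e5, (Complex.ext a4 h2 : da = 0)]

theorem rc_im {f : AX → ℂ} {g : AX → ℝ} {x v : AX} {L : AX →L[ℝ] ℂ} (hf : HasFDerivAt f L x)
    (hg : DifferentiableAt ℝ g x) (h0 : (f x).im = 0) (h1 : g x ≠ 0) :
    DifferentiableAt ℝ (fun y => -(g y * (f y).im)) x ∧
      (fderiv ℝ (fun y => -(g y * (f y).im)) x v = 0 → (L v).im = 0) := by
  have := (hg.hasFDerivAt.fun_mul (imCLM.hasFDerivAt.comp x hf)).fun_neg
  refine ⟨this.differentiableAt, fun h => ?_⟩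
  have h := this.fderiv.symm ▸ h
  simpa [h0, h1] using h

/-- For a tangent field `ξ` of the sphere use the field
`Ξ x' = fderiv ℝ (fun z => liftX z.1 z.2) (x', x'.1) (0, ξ x'.1)` on `X`; the derivative of `ρ`
along it is `2 D tt ξ + (re a / ‖a‖) D WW ξ + (re c / ‖c‖) D (WW ∘ flp) ξ`, and `re a / ‖a‖` has
derivative zero at a real `a ≠ 0`. This gives `HK S2 (Lam ..) x.1 v.1`, so `v.1 = 0` (`lam_nd`).
The rotations (`HK.family`) give `im δa = 0`, `im δc = 0`; the equations of `X` give the rest. -/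
theorem rho_nd {x : AX} (h : x ∈ XS) (h0 : rho x ≠ 0) (hc : Crit XS rho x) {v : AX}
    (hv : Tan XS x v) (hk : HK XS rho x v) : v = 0 := by
  obtain ⟨ha, hb⟩ := rho_crit_ne h hc
  obtain ⟨h1, h2, -⟩ := rho_crit h hc
  have tv : Tan S2 x.1 v.1 := by
    simpa [fderiv_fst] using hv.map (f := Prod.fst) differentiableAt_fst fun y hy => hy.1
  have v1 := lam_nd (Or.inl rfl) (Or.inr rfl) (rc_sign ha h1).1 (rc_sign hb h2).1
    (rc_class h h0 hc) tv (rc_hk h hc hv hk)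
  obtain ⟨a1, a2⟩ := rc_im (v := v) (rc_co x).1
    (((rr_smooth (z := (x.1, x.2.1.1)) (Or.inl ha)).differentiableAt (by simp)).comp x
      (f := fun y : AX => (y.1, y.2.1.1)) (by fun_prop)) h1
    (rc_pos (Or.inl rfl) h.1 (norm_a h) (PPa_ne h ha))
  obtain ⟨b1, b2⟩ := rc_im (v := v) (rc_co x).2.2.1
    (((rr_smooth (z := (flp x.1, x.2.2.1)) (Or.inl hb)).differentiableAt (by simp)).comp x
      (f := fun y : AX => (flp y.1, y.2.2.1)) (by unfold flp; fun_prop)) h2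
    (rc_pos (Or.inr rfl) (flp_mem h.1) (norm_c h) (PPc_ne h hb))
  have a3 := a2 (hk.family (R := fun z => rotX z.1 0 z.2) ((rc_rot_smooth.comp
    (f := fun z : ℝ × AX => ((z.1, 0), z.2)) (by fun_prop)).of_le
      (by decide)).contDiffAt a1 (by
      filter_upwards [self_mem_nhdsWithin] with y hy
      exact ⟨rc_rot0 y, Eventually.of_forall fun t => rotX_mem hy t 0, rc_rot1 y⟩))
  have b3 := b2 (hk.family (R := fun z => rotX 0 z.1 z.2) ((rc_rot_smooth.comp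
    (f := fun z : ℝ × AX => ((0, z.1), z.2)) (by fun_prop)).of_le
      (by decide)).contDiffAt b1 (by
      filter_upwards [self_mem_nhdsWithin] with y hy
      exact ⟨rc_rot0 y, Eventually.of_forall fun t => rotX_mem hy 0 t, rc_rot2 y⟩))
  obtain ⟨γ, g0, g1, g2⟩ := hv
  have co : ∀ {F : Type} [NormedAddCommGroup F] [NormedSpace ℝ F] {f : AX → F} {L : AX →L[ℝ] F},
      HasFDerivAt f L x → HasDerivAt (fun t => f (γ t)) (L v) 0 := fun hf =>
    hf.comp_hasDerivAt_of_eq 0 g1 g0.symm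
  have f1 := co ((fa_smooth.differentiable (by simp) x.1).hasFDerivAt.comp x hasFDerivAt_fst)
  have f2 := co ((fb_smooth.differentiable (by simp) x.1).hasFDerivAt.comp x hasFDerivAt_fst)
  exact Prod.ext v1 (Prod.ext
    (rc_end (n := 1) (co (rc_co x).1) (co (rc_co x).2.1)
      (f1.congr_deriv (by simp [v1])) (g2.mono fun t h => ⟨h.2.1, h.2.2.2.1⟩) (by rwa [g0])
      (by rwa [g0]) a3)
    (rc_end (n := 2) (co (rc_co x).2.2.1) (co (rc_co x).2.2.2)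
      (f2.congr_deriv (by simp [v1])) (g2.mono fun t h => ⟨h.2.2.1, h.2.2.2.2⟩) (by rwa [g0])
      (by rwa [g0]) b3))

end Vale.Agent.P265
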