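import Vale.Agent.P265.Dir
import Vale.Agent.P265.RhoCrit
import Vale.Agent.P265.Count

/-!
The map `F : X → ℝ³` with `‖F‖ ^ 2 = ρ` that vanishes transversally along the circle `KK`.
-/

open scoped ContDiff Topology RealInnerProductSpace
open Set Filter Complex

noncomputable section

namespace Vale.Agent.P265

/-- The local model near the circle. -/
def Floc (x : AX) : Eu 3 :=
  !₂[-x.1.2.2, -(√(uu x.1) * (hat x.2.1.1).im / √(1 + (hat x.2.1.1).re)),
    -(√(uu (flp x.1)) * (hat x.2.2.1).im / √(1 + (hat x.2.2.1).re))]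

/-- The cut-off function; all four arguments are equal to `2` on the circle. -/
def cut (x : AX) : ℝ :=
  sg (20 * x.1.2.2 + 2) * sg (20 * (sg (1 - 10 * x.1.2.2) - 9 / 10)) *
    sg (40 * ((hat x.2.2.1).re - 19 / 20)) * sg (2 * (hat x.2.1.1).re)

/-- The interpolation. -/
def EE (x : AX) : Eu 3 := cut x • Floc x + (1 - cut x) • dir x

/-- The map. -/
def FF (x : AX) : Eu 3 := (√(rho x) / ‖EE x‖) • EE x

/-- The open set where the local model is smooth. -/
def Oloc : Set AX := {x | |x.1.2.2| < 1 / 4 ∧ 0 < uu x.1 ∧ 0 < uu (flp x.1) ∧ x.2.1.1 ≠ 0 ∧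
  x.2.2.1 ≠ 0 ∧ -1 < (hat x.2.1.1).re ∧ -1 < (hat x.2.2.1).re}

theorem fm_of {f : AX → Eu 3} (h : Sm XS f) {s : AX} (hs : s ∈ XS) :
    ∃ g : AX → Eu 3, (∀ᶠ y in 𝓝 s, ContDiffAt ℝ ∞ g y) ∧ f =ᶠ[𝓝[XS] s] g :=
  let ⟨_, hO, hs, g, hg, e⟩ := h s hs
  ⟨g, (hO.eventually_mem hs).mono fun _ k => hg.contDiffAt (hO.mem_nhds k),
    mem_of_superset (inter_mem_nhdsWithin XS (hO.mem_nhds hs)) e⟩

theorem fm_to {f : AX → Eu 3} (h : ∀ s ∈ XS, ∃ g : AX → Eu 3,
    (∀ᶠ y in 𝓝 s, ContDiffAt ℝ ∞ g y) ∧ f =ᶠ[𝓝[XS] s] g) : Sm XS f := by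
  intro s hs
  obtain ⟨g, h1, h2⟩ := h s hs
  obtain ⟨O, a1, a2, a3⟩ := eventually_nhds_iff.1 (h1.and (eventually_nhdsWithin_iff.1 h2))
  exact ⟨O, a2, a3, g, fun y hy => (a1 y hy).1.contDiffWithinAt, fun y hy => (a1 y hy.2).2 hy.1⟩

theorem fm_a {x : AX} (h : x.2.1.1 ≠ 0) : ContDiffAt ℝ ∞ (fun y : AX => hat y.2.1.1) x :=
  (hat_smooth h).comp x (f := fun y : AX => y.2.1.1) (by fun_prop)

theorem fm_c {x : AX} (h : x.2.2.1 ≠ 0) : ContDiffAt ℝ ∞ (fun y : AX => hat y.2.2.1) x :=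
  (hat_smooth h).comp x (f := fun y : AX => y.2.2.1) (by fun_prop)

theorem fm_re {f : AX → ℂ} {x : AX} (h : ContDiffAt ℝ ∞ f x) :
    ContDiffAt ℝ ∞ (fun y => (f y).re) x := reCLM.contDiff.contDiffAt.comp x h

theorem fm_im {f : AX → ℂ} {x : AX} (h : ContDiffAt ℝ ∞ f x) :
    ContDiffAt ℝ ∞ (fun y => (f y).im) x := imCLM.contDiff.contDiffAt.comp x h

theorem fm_u1 : ContDiff ℝ ∞ fun y : AX => uu y.1 := uu_smooth.comp contDiff_fst

theorem fm_u2 : ContDiff ℝ ∞ fun y : AX => uu (flp y.1) :=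
  uu_smooth.comp (by unfold flp; fun_prop)

theorem fm_sg {f : AX → ℝ} {x : AX} (h : ContDiffAt ℝ ∞ f x) :
    ContDiffAt ℝ ∞ (fun y => sg (f y)) x := Real.smoothTransition.contDiff.contDiffAt.comp x h

theorem Oloc_open : IsOpen Oloc := by
  refine isOpen_iff_mem_nhds.2 fun x ⟨h1, h2, h3, h4, h5, h6, h7⟩ => ?_
  filter_upwards [(by fun_prop : ContinuousAt (fun y : AX => |y.1.2.2|) x).eventually
      (gt_mem_nhds h1), fm_u1.continuous.continuousAt.eventually (lt_mem_nhds h2),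
    fm_u2.continuous.continuousAt.eventually (lt_mem_nhds h3),
    (by fun_prop : ContinuousAt (fun y : AX => y.2.1.1) x).eventually_ne h4,
    (by fun_prop : ContinuousAt (fun y : AX => y.2.2.1) x).eventually_ne h5,
    (fm_re (fm_a h4)).continuousAt.eventually (lt_mem_nhds h6),
    (fm_re (fm_c h5)).continuousAt.eventually (lt_mem_nhds h7)] with y a1 a2 a3 a4 a5 a6 a7
  exact ⟨a1, a2, a3, a4, a5, a6, a7⟩

theorem Floc_smooth : ContDiffOn ℝ ∞ Floc Oloc := by
  rintro x ⟨-, h2, h3, h4, h5, h6, h7⟩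
  refine (contDiffAt_euclidean.2 fun i => ?_).contDiffWithinAt
  fin_cases i
  · exact (by fun_prop : ContDiffAt ℝ ∞ (fun y : AX => -y.1.2.2) x)
  · exact (((fm_u1.contDiffAt.sqrt h2.ne').mul (fm_im (fm_a h4))).div
      ((contDiffAt_const.add (fm_re (fm_a h4))).sqrt (by linarith))
      (Real.sqrt_pos.2 (by linarith)).ne').neg
  · exact (((fm_u2.contDiffAt.sqrt h3.ne').mul (fm_im (fm_c h5))).div
      ((contDiffAt_const.add (fm_re (fm_c h5))).sqrt (by linarith))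
      (Real.sqrt_pos.2 (by linarith)).ne').neg

theorem fm_unit {a : ℂ} (h : a ≠ 0) : (hat a).re ^ 2 + (hat a).im ^ 2 = 1 := by
  have := Complex.sq_norm (hat a)
  rw [hat_norm h, normSq_apply] at this
  linarith

theorem fm_term {a : ℂ} {u : ℝ} (h : a ≠ 0) (hu : 0 < u) (h1 : -1 < (hat a).re) :
    (√u * (hat a).im / √(1 + (hat a).re)) ^ 2 = u + u / ‖a‖ * a.re := by
  have h2 : 0 < 1 + (hat a).re := by linarith
  have h3 : (hat a).re = -a.re / ‖a‖ := by rw [hat, div_ofReal_re, neg_re]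
  rw [div_pow, mul_pow, Real.sq_sqrt hu.le, Real.sq_sqrt h2.le, div_eq_iff h2.ne',
    show u / ‖a‖ * a.re = -u * (hat a).re by rw [h3]; ring]
  linear_combination u * fm_unit h

/-- `(im â) ^ 2 / (1 + re â) = 1 - re â`, `uu_add`. -/
theorem Floc_sq {x : AX} (h : x ∈ Oloc) : ‖Floc x‖ ^ 2 = rho x := by
  obtain ⟨h1, h2, h3, h4, h5, h6, h7⟩ := h
  have k1 : kk x.1.2.2 = 0 := sg0 (by linarith [(abs_lt.1 h1).2])
  have k2 : kk (flp x.1).2.2 = 0 := sg0 (by simp only [flp]; linarith [(abs_lt.1 h1).1])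
  rw [EuclideanSpace.real_norm_sq_eq, Fin.sum_univ_three]
  simp only [Floc, Matrix.cons_val_zero, Matrix.cons_val_one, Matrix.cons_val, neg_sq,
    fm_term h4 h2 h6, fm_term h5 h3 h7, rho, rr, k1, k2]
  linear_combination uu_add x.1

theorem fm_cut {x : AX} (h4 : x.2.1.1 ≠ 0) (h5 : x.2.2.1 ≠ 0) : ContDiffAt ℝ ∞ cut x :=
  (((fm_sg (by fun_prop)).mul (fm_sg (contDiffAt_const.mul ((fm_sg (by fun_prop)).sub
    contDiffAt_const)))).mul (fm_sg (contDiffAt_const.mul ((fm_re (fm_c h5)).sub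
      contDiffAt_const)))).mul (fm_sg (contDiffAt_const.mul (fm_re (fm_a h4))))

theorem fm_cut0 {x : AX} (h : x ∈ XS) (h0 : x ∉ Oloc) : ∀ᶠ y in 𝓝 x, cut y = 0 := by
  have c : ContinuousAt (fun y : AX => y.1.2.2) x := by fun_prop
  rcases lt_or_ge x.1.2.2 (-1 / 10) with h1 | h1
  · filter_upwards [c.eventually (gt_mem_nhds h1)] with y hy
    simp [cut, sg0 (t := 20 * y.1.2.2 + 2) (by linarith)]
  rcases lt_or_ge (1 / 10) x.1.2.2 with h2 | h2
  · filter_upwards [c.eventually (lt_mem_nhds h2)] with y hy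
    rw [cut, sg0 (t := 1 - 10 * y.1.2.2) (by linarith), sg0 (t := 20 * (0 - 9 / 10)) (by norm_num)]
    ring
  have h4 := a_ne h (by linarith)
  have h5 := c_ne h (by linarith)
  rcases lt_or_ge (hat x.2.1.1).re 0 with h6 | h6
  · filter_upwards [(fm_re (fm_a h4)).continuousAt.eventually (gt_mem_nhds h6)] with y hy
    simp [cut, sg0 (t := 2 * (hat y.2.1.1).re) (by linarith)]
  rcases lt_or_ge (hat x.2.2.1).re 0 with h7 | h7
  · filter_upwards [(fm_re (fm_c h5)).continuousAt.eventually (gt_mem_nhds h7)] with y hy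
    simp [cut, sg0 (t := 40 * ((hat y.2.2.1).re - 19 / 20)) (by linarith)]
  exact (h0 ⟨abs_lt.2 ⟨by linarith, by linarith⟩, by linarith [uu_ge h.1],
    by linarith [uu_ge (flp_mem h.1)], h4, h5, by linarith, by linarith⟩).elim

/-- Near a point of `X` outside `Oloc` the cut-off function vanishes. -/
theorem EE_sm : Sm XS EE := by
  refine fm_to fun s hs => ?_
  obtain ⟨g, h1, h2⟩ := fm_of dir_sm hs
  by_cases h : s ∈ Oloc
  · refine ⟨fun y => cut y • Floc y + (1 - cut y) • g y, ?_, h2.mono fun y hy => by rw [EE, hy]⟩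
    filter_upwards [h1, Oloc_open.mem_nhds h] with y a1 a2
    have a3 := fm_cut a2.2.2.2.1 a2.2.2.2.2.1
    exact (a3.smul (Floc_smooth.contDiffAt (Oloc_open.mem_nhds a2))).add
      ((contDiffAt_const.sub a3).smul a1)
  · refine ⟨g, h1, ?_⟩
    filter_upwards [h2, nhdsWithin_le_nhds (fm_cut0 hs h)] with y a1 a2
    simp [EE, a1, a2]

theorem fm_pos {t : ℝ} (h : sg t ≠ 0) : 0 < t := lt_of_not_ge fun k => h (sg0 k)

theorem fm_one {a : ℂ} (h : a ≠ 0) (h1 : 0 < (hat a).re) {c u r : ℝ} (hc : 0 < c) (hc1 : c ≤ 1)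
    (hu : 0 < u) (hr : 0 < r)
    (e : c * -(√u * (hat a).im / √(1 + (hat a).re)) + (1 - c) * (-r * (hat a).im) = 0) :
    hat a = 1 := by
  have h2 : 0 < c * (√u / √(1 + (hat a).re)) + (1 - c) * r :=
    add_pos_of_pos_of_nonneg (by positivity) (mul_nonneg (by linarith) hr.le)
  have h3 : (hat a).im = 0 := (mul_eq_zero.1 (by linear_combination -e :
    (hat a).im * (c * (√u / √(1 + (hat a).re)) + (1 - c) * r) = 0)).resolve_right h2.ne'
  have h4 := fm_unit h
  rw [h3] at h4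
  exact Complex.ext (by simp only [one_re]; nlinarith) h3

/-- `dir_zero` if `cut x = 0`, and `dir_sign` otherwise. -/
theorem EE_zero {x : AX} (h : x ∈ XS) (h0 : EE x = 0) : x ∈ KK := by
  by_cases hc : cut x = 0
  · exact dir_zero h (by simpa [EE, hc] using h0)
  have n := Real.smoothTransition.nonneg
  have l := Real.smoothTransition.le_one
  have c0 : 0 < cut x := lt_of_le_of_ne' (mul_nonneg (mul_nonneg (mul_nonneg (n _) (n _)) (n _))
    (n _)) hc
  have c1 : cut x ≤ 1 := mul_le_one₀ (mul_le_one₀ (mul_le_one₀ (l _) (n _) (l _)) (n _) (l _))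
    (n _) (l _)
  simp only [cut, mul_eq_zero, not_or] at hc
  have h1 := fm_pos hc.1.1.1
  have h2 := fm_pos hc.1.1.2
  have h3 := fm_pos hc.1.2
  have h4 := fm_pos hc.2
  have h5 := fm_pos (t := 1 - 10 * x.1.2.2) (by linarith)
  have ha := a_ne h (by linarith)
  have hb := c_ne h (by linarith)
  obtain ⟨⟨r1, p1, e1⟩, ⟨r2, p2, e2⟩, k⟩ := dir_sign h (by linarith) (by linarith) (by linarith)
  have a1 := fm_one ha (by linarith) c0 c1 (u := uu x.1) (by linarith [uu_ge h.1]) p1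
    (by simpa [EE, Floc, e1] using congrArg (· 1) h0)
  have a2 := fm_one hb (by linarith) c0 c1 (u := uu (flp x.1)) (by linarith [uu_ge (flp_mem h.1)])
    p2 (by simpa [EE, Floc, e2] using congrArg (· 2) h0)
  obtain ⟨r, p, e⟩ := k a1 a2
  have a3 : cut x * -x.1.2.2 + (1 - cut x) * (-r * x.1.2.2) = 0 := by
    simpa [EE, Floc, e] using congrArg (· 0) h0
  have a4 : 0 < cut x + (1 - cut x) * r := add_pos_of_pos_of_nonneg c0 (mul_nonneg (by linarith) p)
  exact ⟨(mul_eq_zero.1 (by linear_combination -a3 :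
    x.1.2.2 * (cut x + (1 - cut x) * r) = 0)).resolve_right a4.ne', (hat_one ha a1).1,
    (hat_one ha a1).2, (hat_one hb a2).1, (hat_one hb a2).2⟩

theorem fm_hat {a : ℂ} (h1 : a.im = 0) (h2 : a.re < 0) : a ≠ 0 ∧ hat a = 1 := by
  refine ⟨fun h => by simp [h] at h2, Complex.ext ?_ ?_⟩
  · rw [hat, div_ofReal_re, neg_re, ← abs_re_eq_norm.2 h1, abs_of_neg h2, one_re]
    exact div_self (neg_pos.2 h2).ne'
  · rw [hat, div_ofReal_im, neg_im, h1, neg_zero, zero_div, one_im]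

theorem FF_loc {x : AX} (h : x ∈ XS) (h0 : x ∈ KK) : x ∈ Oloc ∧ FF =ᶠ[𝓝 x] Floc := by
  obtain ⟨ha, a1⟩ := fm_hat h0.2.1 h0.2.2.1
  obtain ⟨hc, a2⟩ := fm_hat h0.2.2.2.1 h0.2.2.2.2
  have hO : x ∈ Oloc := ⟨by rw [h0.1]; norm_num, by linarith [uu_ge h.1],
    by linarith [uu_ge (flp_mem h.1)], ha, hc, by rw [a1]; norm_num, by rw [a2]; norm_num⟩
  refine ⟨hO, ?_⟩
  filter_upwards [Oloc_open.mem_nhds hO,
    (by fun_prop : ContinuousAt (fun y : AX => 20 * y.1.2.2 + 2) x).eventually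
      (lt_mem_nhds (a := 1) (by simp only [h0.1]; norm_num)),
    (fm_sg (f := fun y : AX => 1 - 10 * y.1.2.2) (by fun_prop)).continuousAt.eventually
      (lt_mem_nhds (a := 19 / 20) (by simp only [h0.1]; rw [sg1 (by norm_num)]; norm_num)),
    (fm_re (fm_c hc)).continuousAt.eventually
      (lt_mem_nhds (a := 39 / 40) (by simp only [a2]; norm_num)),
    (fm_re (fm_a ha)).continuousAt.eventually
      (lt_mem_nhds (a := 1 / 2) (by simp only [a1]; norm_num))] with y b0 b1 b2 b3 b4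
  have c1 : cut y = 1 := by
    rw [cut, sg1 b1.le, sg1 (t := 20 * _) (by linarith), sg1 (t := 40 * _) (by linarith),
      sg1 (t := 2 * _) (by linarith)]
    norm_num
  have c2 : EE y = Floc y := by simp [EE, c1]
  rw [FF, c2, ← Floc_sq b0, Real.sqrt_sq (norm_nonneg _)]
  by_cases c3 : Floc y = 0
  · simp [c3]
  · rw [div_self (norm_ne_zero_iff.2 c3), one_smul]

theorem FF_sq {x : AX} (h : x ∈ XS) : ‖FF x‖ ^ 2 = rho x := by
  by_cases h0 : EE x = 0
  · rw [(rho_nonneg h).2.2 (EE_zero h h0)]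
    simp [FF, h0]
  · rw [FF, norm_smul, Real.norm_of_nonneg (by positivity),
      div_mul_cancel₀ _ (norm_ne_zero_iff.2 h0), Real.sq_sqrt (rho_nonneg h).1]

theorem FF_sm : Sm XS FF := by
  refine fm_to fun s hs => ?_
  by_cases h : s ∈ KK
  · obtain ⟨h1, h2⟩ := FF_loc hs h
    exact ⟨Floc, (Oloc_open.eventually_mem h1).mono fun _ k =>
      Floc_smooth.contDiffAt (Oloc_open.mem_nhds k), nhdsWithin_le_nhds h2⟩
  · obtain ⟨g, h1, h2⟩ := fm_of EE_sm hs
    obtain ⟨O, hO, hs', hr⟩ := rho_smooth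
    have g0 : g s ≠ 0 := fun k => h (EE_zero hs ((h2.self_of_nhdsWithin hs).trans k))
    refine ⟨fun y => (√(rho y) / ‖g y‖) • g y, ?_, h2.mono fun y hy => by rw [FF, hy]⟩
    filter_upwards [h1, hO.mem_nhds (hs' hs), h1.self_of_nhds.continuousAt.eventually_ne g0,
      (rc_diff hs).continuousAt.eventually_ne fun k => h ((rho_nonneg hs).2.1 k)]
      with y a1 a2 a3 a4
    exact (((hr.contDiffAt (hO.mem_nhds a2)).sqrt a4).div (a1.norm ℝ a3)
      (norm_ne_zero_iff.2 a3)).smul a1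

theorem fm_rot (a : ℂ) (t : ℝ) : hat (cexp (t * I) * a) = cexp (t * I) * hat a := by
  rw [hat, hat, norm_mul, norm_exp_ofReal_mul_I, one_mul]
  ring

theorem fm_real {a : ℂ} (h : a.im = 0) (r : ℝ) : (hat (a * r)).im = 0 := by
  rw [hat, div_ofReal_im, neg_im, im_mul_ofReal, h, zero_mul, neg_zero, zero_div]

theorem fm_der {u w : ℝ} (hu : 0 < u)
    (h : HasDerivAt (fun t => -(√u * Real.sin t / √(1 + Real.cos t)) * w) 0 0) : w = 0 := by
  have h2 : (1 : ℝ) + Real.cos 0 ≠ 0 := by norm_num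
  have := (((((Real.hasDerivAt_sin 0).const_mul √u).fun_div
    (((Real.hasDerivAt_cos 0).const_add 1).sqrt h2) (by norm_num)).fun_neg).mul_const w).unique h
  simpa [(Real.sqrt_pos.2 hu).ne'] using this

theorem fm_inner (x : AX) (w : Eu 3) : ⟪Floc x, w⟫ = -x.1.2.2 * w 0 +
    -(√(uu x.1) * (hat x.2.1.1).im / √(1 + (hat x.2.1.1).re)) * w 1 +
      -(√(uu (flp x.1)) * (hat x.2.2.1).im / √(1 + (hat x.2.2.1).re)) * w 2 := by
  simp [PiLp.inner_apply, Fin.sum_univ_three, Floc, mul_comm]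

/-- Use the curves `rotX t 0 x`, `rotX 0 t x` and `liftX x (γ t)` with
`γ t = (cos t * X₁, cos t * X₂, sin t)`; along them `Floc` has derivatives that are nonzero
multiples of the three basis vectors. -/
theorem FF_zero {x : AX} (h : x ∈ XS) (h0 : x ∈ KK) {w : Eu 3}
    (hc : Crit XS (fun x => ⟪FF x, w⟫) x) : w = 0 := by
  obtain ⟨ha, a1⟩ := fm_hat h0.2.1 h0.2.2.1
  obtain ⟨hb, a2⟩ := fm_hat h0.2.2.2.1 h0.2.2.2.2
  obtain ⟨hO, e⟩ := FF_loc h h0
  have hc' : Crit XS (fun x => ⟪Floc x, w⟫) x :=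
    hc.congr (nhdsWithin_le_nhds (e.mono fun y hy => by simp only [hy])) h
  have w1 : w 1 = 0 := fm_der hO.2.1 ((hc' _ (fun t => rotX t 0 x) ⟨rc_rot0 x,
    ((rc_rot_smooth.comp (f := fun t : ℝ => ((t, (0 : ℝ)), x))
      (by fun_prop)).differentiable (by simp) 0).hasDerivAt,
      Eventually.of_forall fun t => rotX_mem h t 0⟩).congr_of_eventuallyEq
        (Eventually.of_forall fun t => by
          simp only [fm_inner, rotX, fm_rot, a1, a2, h0.1]
          simp))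
  have w2 : w 2 = 0 := fm_der hO.2.2.1 ((hc' _ (fun t => rotX 0 t x) ⟨rc_rot0 x,
    ((rc_rot_smooth.comp (f := fun t : ℝ => (((0 : ℝ), t), x))
      (by fun_prop)).differentiable (by simp) 0).hasDerivAt,
      Eventually.of_forall fun t => rotX_mem h 0 t⟩).congr_of_eventuallyEq
        (Eventually.of_forall fun t => by
          simp only [fm_inner, rotX, fm_rot, a1, a2, h0.1]
          simp))
  have hp : x.1.1 ^ 2 + x.1.2.1 ^ 2 + x.1.2.2 ^ 2 = 1 := h.1
  have k : Curve S2 x.1 _ fun t => (Real.cos t * x.1.1, Real.cos t * x.1.2.1, Real.sin t) :=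
    ⟨Prod.ext (by simp) (Prod.ext (by simp) (by simp [h0.1])),
      ((Real.hasDerivAt_cos 0).mul_const _).prodMk (((Real.hasDerivAt_cos 0).mul_const _).prodMk
        (Real.hasDerivAt_sin 0)), Eventually.of_forall fun t => by
          rw [h0.1] at hp
          simp only [S2, mem_ofPred_eq]
          linear_combination Real.cos t ^ 2 * hp + Real.sin_sq_add_cos_sq t⟩
  have w0 := ((Real.hasDerivAt_sin 0).fun_neg.mul_const (w 0)).unique
    ((hc' _ _ (rc_curve h ha hb k).1).congr_of_eventuallyEq (Eventually.of_forall fun t => by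
      simp [fm_inner, liftX, fm_real h0.2.1, fm_real h0.2.2.2.1]))
  ext i
  fin_cases i
  exacts [by simpa using w0, w1, w2]

theorem HK.congr {A : Type} [NormedAddCommGroup A] [NormedSpace ℝ A] {S : Set A} {f g : A → ℝ}
    {s v : A} (h : HK S f s v) (he : EqOn f g S) : HK S g s v := fun ξ e h1 h2 h3 =>
  h ξ e h1 h2 (h3.mono fun _ ⟨γ, k, d⟩ => ⟨γ, k, d.congr_of_eventuallyEq (k.mem.mono fun _ l => he l)⟩)

theorem fdata : FData XS FF := by
  have e : ∀ x ∈ XS, (fun x => ‖FF x‖ ^ 2) =ᶠ[𝓝[XS] x] rho := fun x _ =>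
    eventually_nhdsWithin_of_forall fun _ => FF_sq
  have n : ∀ x ∈ XS, FF x ≠ 0 → rho x ≠ 0 := fun x h h0 => by
    rw [← FF_sq h]; exact pow_ne_zero _ (norm_ne_zero_iff.2 h0)
  exact ⟨FF_sm, fun x h h0 w => FF_zero h ((rho_nonneg h).2.1 (by rw [← FF_sq h, h0]; simp)),
    le_trans (encard_le_encard (t := {x ∈ XS | rho x ≠ 0 ∧ Crit XS rho x}) fun x hx =>
      ⟨hx.1, n x hx.1 hx.2.1, hx.2.2.congr (e x hx.1) hx.1⟩) rho_card, fun x h h0 hc v hv hk => rho_nd h (n x h h0) (hc.congr (e x h) h) hv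
        (hk.congr fun _ => FF_sq)⟩

end Vale.Agent.P265
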