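import Vale.Agent.P265.HamA

/-!
The Hamiltonian diffeomorphism on the manifold.
-/

open scoped Manifold ContDiff Topology
open Set Filter

noncomputable section

namespace Vale.Agent.P265

variable {A E : Type} [NormedAddCommGroup A] [NormedSpace ℝ A] [FiniteDimensional ℝ A]
  [NormedAddCommGroup E] [NormedSpace ℝ E] [FiniteDimensional ℝ E] {S : Set A}

omit [FiniteDimensional ℝ A] in
theorem ham_comp {EN HN N : Type} [NormedAddCommGroup EN] [NormedSpace ℝ EN] [TopologicalSpace HN]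
    {I : ModelWithCorners ℝ EN HN} [TopologicalSpace N] [ChartedSpace HN N] {f : N → A}
    (hf : ContMDiff I 𝓘(ℝ, A) ∞ f) (hm : ∀ y, f y ∈ S) {G : A → ℝ} (hG : Sm S G) :
    ContMDiff I 𝓘(ℝ, ℝ) ∞ (fun y => G (f y)) := fun y => by
  obtain ⟨O, hO, hy, g, hg, e⟩ := hG _ (hm y)
  exact ((hg.contDiffAt (hO.mem_nhds hy)).comp_contMDiffAt (hf y)).congr_of_eventuallyEq
    (((hf y).continuousAt.eventually_mem (hO.mem_nhds hy)).mono fun y k => e ⟨hm y, k⟩)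

omit [FiniteDimensional ℝ A] in
theorem ham_prod {G : A → ℝ} (hG : Sm S G) : Sm S (fun y => (y, G y)) := fun y hy =>
  let ⟨O, hO, hy, g, hg, e⟩ := hG y hy
  ⟨O, hO, hy, fun y => (y, g y), contDiffOn_id.prodMk hg, fun _ k => Prod.ext rfl (e k)⟩

/-- Take `V` from `exists_isHam`, its flow `Φ`, `ε` from `Circ.fixed`, and put
`φ (t, x) = ρ t (Φ (ε t, x))`, `H (t, x) = r.H x + ε * G (ρ (-t) x)`. The velocity of
`t ↦ φ (t, x)` at `y = φ (t, x)` is `X + ε • ρ t (V (Φ (ε t, x)))` with `X = ∂_s ρ s y` at `s = 0`;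
both summands are tangent to `S`. Use `Atl.contMDiff_into`, `Atl.mfderiv_into`,
`Atl.mfderiv_of_sm`, `SAtl.w_eq`, `PChart.tan`, `PChart.dχ_dψ`. For smoothness of `H` write it
near a point through a smooth extension of `G`. -/
theorem exists_ham (a : SAtl S E) (hS : IsCompact S) (r : Circ a) {G : A → ℝ} (hG : Sm S G)
    (hi : ∀ s ∈ S, G (r.ρ 1 s) = G s)
    (hn : ∀ s ∈ S, r.ρ 1 s = s → Crit S G s → ∀ v, Tan S s v → r.ρ 1 v = v → HK S G s v → v = 0) :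
    ∃ (H : ℝ × a.toAtl.M → ℝ) (φ : ℝ × a.toAtl.M → a.toAtl.M), IsHamFlow a.form H φ ∧
      NondegFix E φ ∧ ∀ x, φ (1, x) = x →
        r.ρ 1 (a.toAtl.val x) = a.toAtl.val x ∧ Crit S G (a.toAtl.val x) := by
  obtain ⟨V, hV, hc, h⟩ := a.exists_isHam hS hG
  obtain ⟨Φ, hΦ⟩ := exists_flow hV hc
  obtain ⟨ε, -, hfix⟩ := r.fixed hS.isClosed hi h hV hc hΦ
  have mem : ∀ t, ∀ x ∈ S, Φ (t, x) ∈ S := fun t x hx =>
    hΦ.mem hV hS.isClosed (fun s hs => ⟨a.c s, a.mem s hs⟩) (fun s hs => (h s hs).1) hx t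
  have hval := a.toAtl.contMDiff_val
  let φ : ℝ × a.toAtl.M → a.toAtl.M := fun p => a.toAtl.mk' (r.ρ p.1 (Φ (ε * p.1, a.toAtl.val p.2)))
    (r.maps _ (mem _ _ (a.toAtl.val_mem _)))
  have hφ : ∀ t x, a.toAtl.val (φ (t, x)) = r.ρ t (Φ (ε * t, a.toAtl.val x)) := fun _ _ => rfl
  have hP : ContDiff ℝ ∞ fun p : ℝ × A => r.ρ p.1 (Φ (ε * p.1, p.2)) :=
    r.smooth.comp (contDiff_fst.prodMk (hΦ.smooth.comp
      ((contDiff_const.mul contDiff_fst).prodMk contDiff_snd)))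
  have hfx : ∀ x, φ (1, x) = x → r.ρ 1 (Φ (ε, a.toAtl.val x)) = a.toAtl.val x := fun x hx => by
    simpa only [hφ, mul_one] using congrArg a.toAtl.val hx
  refine ⟨fun p => r.H (a.toAtl.val p.2) + ε * G (r.ρ (-p.1) (a.toAtl.val p.2)), φ,
    ⟨?_, fun t x => ?_, ?_, fun x => a.toAtl.val_inj ?_, fun t x w => ?_⟩, fun x hx u hu => ?_,
    fun x hx => ⟨(hfix _ (a.toAtl.val_mem x) (hfx x hx)).2.1,
      h.crit (a.toAtl.val_mem x) (hfix _ (a.toAtl.val_mem x) (hfx x hx)).1⟩⟩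
  · exact (r.H.contDiff.comp_contMDiff (hval.comp contMDiff_snd)).add (contMDiff_const.mul
      (ham_comp (r.smooth.comp_contMDiff (contMDiff_fst.neg.prodMk_space
        (hval.comp contMDiff_snd))) (fun p => r.maps _ (a.toAtl.val_mem _)) hG))
  · have : r.ρ (-(t + 1)) (a.toAtl.val x) = r.ρ 1 (r.ρ (-t) (a.toAtl.val x)) := by
      rw [← r.two (r.ρ (-(t + 1)) _), ← r.add, ← r.add]
      congr 2
      ring
    simp only [this, hi _ (r.maps _ (a.toAtl.val_mem x))]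
  · exact a.toAtl.contMDiff_into (hP.comp_contMDiff
      (contMDiff_fst.prodMk_space (hval.comp contMDiff_snd)))
  · rw [hφ, mul_zero, hΦ.zero, r.zero]
  · set z := Φ (ε * t, a.toAtl.val x) with hz
    have hzS : z ∈ S := mem _ _ (a.toAtl.val_mem x)
    have hR := (r.smooth.differentiable (by simp) (t, z)).hasFDerivAt
    set R := fderiv ℝ (fun p : ℝ × A => r.ρ p.1 p.2) (t, z)
    have d1 : HasDerivAt (fun σ => r.ρ σ (r.ρ t z)) (R (1, 0)) 0 := by
      have := hR.comp_hasDerivAt_of_eq 0 (f := fun σ : ℝ => (σ + t, z))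
        (((hasDerivAt_id' (0 : ℝ)).add_const t).prodMk (hasDerivAt_const _ z)) (by simp)
      simpa only [Function.comp_def, r.add] using this
    have d2 : ∀ u, R (0, u) = r.ρ t u := fun u => congrArg (fun L : A →L[ℝ] A => L u)
      ((hR.comp z (hasFDerivAt_prodMk_right t z)).unique (r.ρ t).hasFDerivAt)
    have d3 : HasDerivAt (fun σ => a.toAtl.val (φ (σ, x))) (R (1, 0) + ε • r.ρ t (V z)) t := by
      have k := (hΦ.deriv (ε * t) (a.toAtl.val x)).scomp t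
        (h := fun σ => ε * σ) (by simpa using (hasDerivAt_id t).const_mul ε)
      have := hR.comp_hasDerivAt t (f := fun σ : ℝ => (σ, Φ (ε * σ, a.toAtl.val x)))
        ((hasDerivAt_id' t).prodMk k)
      refine this.congr_deriv ?_
      rw [← map_smul, ← d2, ← map_add]
      simp [hz]
    have hs : r.ρ t z ∈ S ∩ (a.c (r.ρ t z)).O := ⟨r.maps t hzS, a.mem _ (r.maps t hzS)⟩
    have hU := (a.c _).mχ hs
    have hγ := (a.c _).chart_curve hU w
    have k3 := (a.c _).dχ_dψ hU w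
    rw [(a.c _).ri _ hs] at hγ k3
    set v := fderiv ℝ (a.c (r.ρ t z)).ψ ((a.c (r.ρ t z)).χ (r.ρ t z)) w
    have inv : ∀ y, r.ρ (-t) (r.ρ t y) = y := fun y => by rw [← r.add, neg_add_cancel, r.zero]
    have inv' : ∀ y, r.ρ t (r.ρ (-t) y) = y := fun y => by rw [← r.add, add_neg_cancel, r.zero]
    have hγ' : Curve S z (r.ρ (-t) v) fun τ => r.ρ (-t) ((a.c (r.ρ t z)).ψ
        ((a.c (r.ρ t z)).χ (r.ρ t z) + τ • w)) :=
      ⟨by rw [hγ.zero, inv], (r.ρ (-t)).hasFDerivAt.comp_hasDerivAt 0 hγ.deriv,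
        hγ.mem.mono fun _ k => r.maps _ k⟩
    have hsm : Sm S fun y => r.H y + ε * G (r.ρ (-t) y) :=
      (sm_of_contDiffOn isOpen_univ (subset_univ _) (f := fun q : A × ℝ => r.H q.1 + ε * q.2)
        (S := univ) (by fun_prop)).comp (ham_prod (hG.comp (sm_of_contDiffOn isOpen_univ
          (subset_univ _) (r.ρ (-t)).contDiff.contDiffOn) (r.maps _))) (mapsTo_univ _ _)
    have e1 := ((a.c _).chart_deriv hs.2 hγ (f := fun y => r.H y + ε * G (r.ρ (-t) y))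
      ((((a.c _).sm hsm).contDiffAt
      ((a.c _).oU.mem_nhds hU)).differentiableAt (by simp))).unique
      ((r.H.hasFDerivAt.comp_hasDerivAt 0 hγ.deriv).add (((h z hzS).2 _ _ hγ').const_mul ε))
    have t1 : Tan S (r.ρ t z) (R (1, 0)) :=
      ⟨_, r.zero _, d1, Eventually.of_forall fun _ => r.maps _ hs.1⟩
    rw [k3] at e1
    refine (congrArg (fun X => a.form (φ (t, x)) X w) (a.toAtl.mfderiv_into
      (f := fun σ => φ (σ, x)) d3.differentiableAt.mdifferentiableAt 1)).trans (Eq.trans ?_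
        ((a.toAtl.mfderiv_of_sm hsm (φ (t, x)) w).trans e1).symm)
    rw [← r.gen _ hs.1 _ _ d1 ⟨_, hγ⟩, ← r.sympl t z hzS _ _ (h z hzS).1 ⟨_, hγ'⟩, inv',
      a.w_eq hs.1 hs t1 ⟨_, hγ⟩, a.w_eq hs.1 hs (r.hamA_tan (h z hzS).1 t) ⟨_, hγ⟩, k3]
    refine (congrArg (fun X => a.Ω (r.ρ t z) ((a.c (r.ρ t z)).χ (r.ρ t z))
      (fderiv ℝ (a.c (r.ρ t z)).χ (r.ρ t z) X) w) ((congrArg (fun L : ℝ →L[ℝ] A => L 1)
        mfderiv_eq_fderiv).trans d3.deriv)).trans ?_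
    simp
  · have hs : a.toAtl.val x ∈ S ∩ (a.c (a.toAtl.val x)).O :=
      ⟨a.toAtl.val_mem x, a.mem _ (a.toAtl.val_mem x)⟩
    obtain ⟨f1, f2, f3⟩ := hfix _ hs.1 (hfx x hx)
    have hU := (a.c _).mχ hs
    have k1 := (a.c _).tan hU u
    have k3 := (a.c _).dχ_dψ hU u
    rw [(a.c _).ri _ hs] at k1 k3
    have hΦ' : ContDiff ℝ ∞ fun y => Φ (ε, y) := hΦ.smooth.comp (contDiff_const.prodMk contDiff_id)
    have hQ : ContDiff ℝ ∞ fun y => r.ρ 1 (Φ (ε, y)) := (r.ρ 1).contDiff.comp hΦ'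
    have hsm : Sm S fun y => r.ρ 1 (Φ (ε, y)) :=
      sm_of_contDiffOn isOpen_univ (subset_univ _) hQ.contDiffOn
    have e : (fun y => a.toAtl.val (φ (1, y))) = fun y => r.ρ 1 (Φ (ε, a.toAtl.val y)) := by
      simp only [hφ, mul_one]
    have k4 := a.toAtl.mfderiv_into (f := fun y => φ (1, y)) (y := x)
      (e ▸ (a.toAtl.contMDiff_of_sm hsm x).mdifferentiableAt (by simp)) u
    have dQ := hQ.differentiable (by simp) (a.toAtl.val x)
    have k6 := (congrArg (fun f : a.toAtl.M → A =>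
      (show E →L[ℝ] A from mfderiv 𝓘(ℝ, E) 𝓘(ℝ, A) f x) u) e).trans (a.toAtl.mfderiv_of_sm hsm x u)
    rw [fderiv_fun_comp (g := fun y => r.ρ 1 (Φ (ε, y))) _ (by rwa [(a.c _).ri _ hs])
      ((a.c _).chart_dψ hU),
      (a.c _).ri _ hs, ContinuousLinearMap.comp_apply] at k6
    replace k4 := k4.trans (congrArg _ k6)
    rw [congrArg a.toAtl.val hx] at k4
    have k5 := (a.c _).dψ_dχ hs (hfx x hx ▸ k1.map dQ fun y hy => r.maps 1 (mem _ _ hy))
    rw [show fderiv ℝ (a.c (a.toAtl.val x)).χ (a.toAtl.val x) _ = u from k4.symm.trans hu,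
      show fderiv ℝ (fun y => r.ρ 1 (Φ (ε, y))) _ = _ from ((r.ρ 1).hasFDerivAt.comp _
        (hΦ'.differentiable (by simp) _).hasFDerivAt).fderiv] at k5
    obtain ⟨g1, g2⟩ := f3 _ k1 k5.symm
    rw [← k3, hn _ hs.1 f2 (h.crit hs.1 f1) _ k1 g1 (h.hk hV hs.1 f1 k1 g2), map_zero]

end Vale.Agent.P265
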