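import Vale.Agent.P265.Flow
import Vale.Agent.P265.Atl

/-!
A Hamiltonian involution composed with a short Hamiltonian flow: the ambient picture.
-/

open scoped ContDiff Topology
open Set Filter

noncomputable section

namespace Vale.Agent.P265

variable {A A' E E' : Type} [NormedAddCommGroup A] [NormedSpace ℝ A] [NormedAddCommGroup A']
  [NormedSpace ℝ A'] [NormedAddCommGroup E] [NormedSpace ℝ E] [NormedAddCommGroup E']
  [NormedSpace ℝ E'] {S : Set A}

/-- A linear Hamiltonian circle action of period two. -/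
structure Circ (a : SAtl S E) where
  ρ : ℝ → A →L[ℝ] A
  smooth : ContDiff ℝ ∞ (fun p : ℝ × A => ρ p.1 p.2)
  zero : ∀ x, ρ 0 x = x
  add : ∀ s t x, ρ (s + t) x = ρ s (ρ t x)
  two : ∀ x, ρ 2 x = x
  maps : ∀ t, MapsTo (ρ t) S S
  sympl : ∀ t, ∀ s ∈ S, ∀ u v, Tan S s u → Tan S s v → a.w (ρ t s) (ρ t u) (ρ t v) = a.w s u v
  H : A →L[ℝ] ℝ
  gen : ∀ s ∈ S, ∀ X v, HasDerivAt (fun t => ρ t s) X 0 → Tan S s v → a.w s X v = H v

namespace SAtl

variable (a : SAtl S E)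

/-- On tangent vectors `w` is given by `Ω` (`compat`, `PChart.dψ_dχ`). -/
theorem w_eq {x s u v : A} (hx : x ∈ S) (hs : s ∈ S ∩ (a.c x).O) (hu : Tan S s u) (hv : Tan S s v) :
    a.w s u v = a.Ω x ((a.c x).χ s) (fderiv ℝ (a.c x).χ s u) (fderiv ℝ (a.c x).χ s v) := by
  rw [← a.compat x hx _ ((a.c x).mχ hs), (a.c x).ri _ hs, (a.c x).dψ_dχ hs hu,
    (a.c x).dψ_dχ hs hv]

theorem w_inj {s u u' : A} (hs : s ∈ S) (hu : Tan S s u) (hu' : Tan S s u')
    (h : ∀ v, Tan S s v → a.w s u v = a.w s u' v) : u = u' := by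
  have hm : s ∈ S ∩ (a.c s).O := ⟨hs, a.mem s hs⟩
  have hU := (a.c s).mχ hm
  have h1 := a.nondeg s hs _ hU (fderiv ℝ (a.c s).χ s u - fderiv ℝ (a.c s).χ s u') (fun e => by
    have h2 := (a.c s).tan hU e
    have h3 := (a.c s).dχ_dψ hU e
    rw [(a.c s).ri _ hm] at h2 h3
    have h4 := h _ h2
    rw [a.w_eq hs hm hu h2, a.w_eq hs hm hu' h2, h3] at h4
    rw [map_sub, sub_apply, h4, sub_self])
  rw [← (a.c s).dψ_dχ hm hu, ← (a.c s).dψ_dχ hm hu', sub_eq_zero.1 h1]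

theorem hamA_zero {s v : A} (hs : s ∈ S) (hv : Tan S s v) : a.w s 0 v = 0 := by
  rw [a.w_eq hs ⟨hs, a.mem s hs⟩ ⟨fun _ => s, rfl, hasDerivAt_const _ _,
    Eventually.of_forall fun _ => hs⟩ hv]
  simp

theorem hamA_inv [CompleteSpace E] {D : Type} [NormedAddCommGroup D] [NormedSpace ℝ D]
    {Ω : E → E →L[ℝ] D} {g : E → D} {U : Set E} (hΩ : ContDiffOn ℝ ∞ Ω U)
    (hg : ContDiffOn ℝ ∞ g U) (h : ∀ η ∈ U, ∃ e : E ≃L[ℝ] D, (e : E →L[ℝ] D) = Ω η) :
    ∃ X : E → E, ContDiffOn ℝ ∞ X U ∧ ∀ η ∈ U, Ω η (X η) = g η := by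
  refine ⟨fun η => (Ω η).inverse (g η), ContDiffOn.clm_apply (fun η hη => ?_) hg,
    fun η hη => ?_⟩
  · obtain ⟨e, he⟩ := h η hη
    exact ContDiffAt.comp_contDiffWithinAt η (he ▸ contDiffAt_map_inverse e) (hΩ η hη)
  · obtain ⟨e, he⟩ := h η hη
    simp [← he]

/-- `V` is a Hamiltonian vector field of `G`. -/
def IsHam (G : A → ℝ) (V : A → A) : Prop :=
  ∀ s ∈ S, Tan S s (V s) ∧
    ∀ v γ, Curve S s v γ → HasDerivAt (fun t => G (γ t)) (a.w s (V s) v) 0

/-- In the chart at `x` the field is `Dψ η ((Ω x η)⁻¹ (D (G ∘ ψ) η))`, where `Ω x η : E →L E →L ℝ`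
is invertible (injective, equal dimensions; `contDiffAt_map_inverse`). Glue with `exists_field`:
the set of admissible values at `s ∈ S` has at most one point (`w_inj`). -/
theorem exists_isHam [FiniteDimensional ℝ A] [FiniteDimensional ℝ E] (hS : IsCompact S)
    {G : A → ℝ} (hG : Sm S G) :
    ∃ V : A → A, ContDiff ℝ ∞ V ∧ HasCompactSupport V ∧ a.IsHam G V := by
  have := FiniteDimensional.complete ℝ E
  have hd : Module.finrank ℝ E = Module.finrank ℝ (E →L[ℝ] ℝ) := by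
    rw [← LinearEquiv.finrank_eq LinearMap.toContinuousLinearMap, Subspace.dual_finrank_eq]
  obtain ⟨V, h1, h2, h3⟩ := exists_field (t := fun s => {X | s ∈ S → Tan S s X ∧
      ∀ v γ, Curve S s v γ → HasDerivAt (fun t => G (γ t)) (a.w s X v) 0})
    (fun s => by
      by_cases hs : s ∈ S
      · refine Set.Subsingleton.convex fun X hX Y hY => a.w_inj hs (hX hs).1 (hY hs).1 ?_
        rintro v ⟨γ, hγ⟩
        exact ((hX hs).2 v γ hγ).unique ((hY hs).2 v γ hγ)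
      · exact fun _ _ _ _ _ _ _ _ _ h => absurd h hs) hS
    (fun x hx => by
      have hG' := (a.c x).sm hG
      obtain ⟨X, hX, hX'⟩ := hamA_inv (a.smooth x hx)
        (hG'.fderiv_of_isOpen (m := ∞) (a.c x).oU le_rfl) (fun η hη => by
          have hi : Function.Injective (a.Ω x η).toLinearMap :=
            (injective_iff_map_eq_zero _).2 fun v hv => a.nondeg x hx η hη v fun w =>
              DFunLike.congr_fun hv w
          exact ⟨(LinearMap.linearEquivOfInjective _ hi hd).toContinuousLinearEquiv,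
            ContinuousLinearMap.ext fun _ => rfl⟩)
      have hm : x ∈ S ∩ (a.c x).O := ⟨hx, a.mem x hx⟩
      refine ⟨(a.c x).O ∩ (a.c x).χ ⁻¹' (a.c x).U,
        (a.c x).sχ.continuousOn.isOpen_inter_preimage (a.c x).oO (a.c x).oU,
        ⟨hm.2, (a.c x).mχ hm⟩, fun y => fderiv ℝ (a.c x).ψ ((a.c x).χ y) (X ((a.c x).χ y)),
        (((a.c x).sψ.fderiv_of_isOpen (m := ∞) (a.c x).oU le_rfl).clm_apply hX).comp
          ((a.c x).sχ.mono inter_subset_left) fun _ h => h.2, fun y hy hS => ?_⟩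
      have hy' : y ∈ S ∩ (a.c x).O := ⟨hS, hy.1⟩
      have k1 := (a.c x).tan hy.2 (X ((a.c x).χ y))
      have k2 := (a.c x).dχ_dψ hy.2 (X ((a.c x).χ y))
      rw [(a.c x).ri _ hy'] at k1 k2
      refine ⟨k1, fun v γ hγ => ?_⟩
      rw [a.w_eq hx hy' k1 ⟨γ, hγ⟩, k2, hX' _ hy.2]
      have k3 := (((a.c x).sχ.contDiffAt ((a.c x).oO.mem_nhds hy.1)).differentiableAt
        (by simp)).hasFDerivAt
      have k4 := ((hG'.contDiffAt ((a.c x).oU.mem_nhds hy.2)).differentiableAt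
        (by simp)).hasFDerivAt
      have k5 := (k4.comp y k3).comp_hasDerivAt_of_eq 0 hγ.deriv hγ.zero.symm
      refine k5.congr_of_eventuallyEq ?_
      filter_upwards [hγ.mem, hγ.deriv.continuousAt.eventually
        ((a.c x).oO.mem_nhds (hγ.zero.symm ▸ hy.1))] with t h1 h2
      simp only [Function.comp_apply]
      rw [(a.c x).ri _ ⟨h1, h2⟩])
    (fun x hx h => absurd h hx)
  exact ⟨V, h1, h2, fun s hs => h3 s hs⟩

/-- If `V x = 0` and `DV x v = 0`, differentiate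
`e (ψ η) = Ω η (Dχ (ψ η) (V (ψ η))) (Dχ (ψ η) (ξ (ψ η)))`. -/
theorem IsHam.hk {a : SAtl S E} {G : A → ℝ} {V : A → A} (h : a.IsHam G V) (hV : ContDiff ℝ ∞ V)
    {x v : A} (hx : x ∈ S) (h0 : V x = 0) (hv : Tan S x v) (h1 : fderiv ℝ V x v = 0) :
    HK S G x v := by
  intro ξ e hξ he hev
  have hm : x ∈ S ∩ (a.c x).O := ⟨hx, a.mem x hx⟩
  have k1 := (a.c x).sχ.contDiffAt ((a.c x).oO.mem_nhds hm.2)
  have k2 := ((k1.fderiv_right (m := ∞) le_rfl).differentiableAt (by simp)).hasFDerivAt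
  have k3 : DifferentiableAt ℝ (fun y => a.Ω x ((a.c x).χ y)) x :=
    (((a.smooth x hx).contDiffAt ((a.c x).oU.mem_nhds ((a.c x).mχ hm))).comp x
      k1).differentiableAt (by simp)
  have k4 := (k3.hasFDerivAt.clm_apply (k2.clm_apply
    (hV.differentiable (by simp) x).hasFDerivAt)).clm_apply (k2.clm_apply hξ.hasFDerivAt)
  rw [hv.fderiv_eq he k4.differentiableAt, k4.fderiv]
  · simp [h0, h1]
  · filter_upwards [hev, self_mem_nhdsWithin,
      mem_nhdsWithin_of_mem_nhds ((a.c x).oO.mem_nhds hm.2)] with y hy hS hO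
    obtain ⟨γ, hγ, hd⟩ := hy
    rw [hd.unique ((h y hS).2 _ γ hγ), a.w_eq hx ⟨hS, hO⟩ (h y hS).1 ⟨γ, hγ⟩]

theorem IsHam.crit {a : SAtl S E} {G : A → ℝ} {V : A → A} (h : a.IsHam G V) {x : A} (hx : x ∈ S)
    (h0 : V x = 0) : Crit S G x := by
  intro v γ hγ
  have := (h x hx).2 v γ hγ
  rwa [h0, a.hamA_zero hx ⟨γ, hγ⟩] at this

end SAtl

namespace Circ

variable {a : SAtl S E} (r : Circ a)

theorem hamA_two (x : A) : r.ρ 1 (r.ρ 1 x) = x := by
  rw [← r.add, one_add_one_eq_two, r.two]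

theorem hamA_tan {s v : A} (h : Tan S s v) (t : ℝ) : Tan S (r.ρ t s) (r.ρ t v) := by
  have := h.map (r.ρ t).differentiableAt (r.maps t)
  rwa [ContinuousLinearMap.fderiv] at this

theorem equiv {G : A → ℝ} (hG : ∀ s ∈ S, G (r.ρ 1 s) = G s) {V : A → A} (h : a.IsHam G V) {s : A}
    (hs : s ∈ S) : V (r.ρ 1 s) = r.ρ 1 (V s) := by
  have h1 := r.maps 1 hs
  refine a.w_inj h1 (h _ h1).1 (r.hamA_tan (h s hs).1 1) ?_
  rintro v ⟨γ, hγ⟩
  have h2 : Curve S s (r.ρ 1 v) (fun t => r.ρ 1 (γ t)) :=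
    ⟨by rw [hγ.zero, r.hamA_two], (r.ρ 1).hasFDerivAt.comp_hasDerivAt 0 hγ.deriv,
      hγ.mem.mono fun t ht => r.maps 1 ht⟩
  have h3 := r.sympl 1 s hs _ _ (h s hs).1 ⟨_, h2⟩
  rw [r.hamA_two] at h3
  rw [h3]
  refine ((h _ h1).2 v γ hγ).unique (((h s hs).2 _ _ h2).congr_of_eventuallyEq ?_)
  filter_upwards [hγ.mem] with t ht
  exact (hG _ ht).symm

/-- Fixed points of `ρ 1 ∘ Φ ε`. The flow commutes with `ρ 1` on `S` (`equiv`, `IsFlow.mem`,
`IsFlow.uniq`), so a fixed point has `Φ (2 ε, x) = x` and `yorke` applies if `2 ε L < 1`. The same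
argument applies to the variational equation (`IsFlow.lin`, `yorke` for the linear field
`fderiv ℝ V x`, whose norm is at most `L`; `Tan.fderiv_eq`). -/
theorem fixed [FiniteDimensional ℝ A] [FiniteDimensional ℝ E] (hS : IsClosed S) {G : A → ℝ}
    (hG : ∀ s ∈ S, G (r.ρ 1 s) = G s) {V : A → A} (h : a.IsHam G V) (hV : ContDiff ℝ ∞ V)
    (hc : HasCompactSupport V) {Φ : ℝ × A → A} (hΦ : IsFlow V Φ) :
    ∃ ε > 0, ∀ x ∈ S, r.ρ 1 (Φ (ε, x)) = x → V x = 0 ∧ r.ρ 1 x = x ∧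
      ∀ v, Tan S x v → r.ρ 1 (fderiv ℝ (fun y => Φ (ε, y)) x v) = v →
        r.ρ 1 v = v ∧ fderiv ℝ V x v = 0 := by
  have := FiniteDimensional.complete ℝ A
  obtain ⟨K, hK⟩ := hV.lipschitzWith_of_hasCompactSupport hc (by simp)
  have K0 : (0 : ℝ) ≤ K := K.2
  set ε : ℝ := 1 / (2 * (K + 1)) with hε
  have ε0 : 0 < ε := by positivity
  have ε1 : K * (ε + ε) < 1 := by
    rw [hε, ← two_mul, mul_one_div, ← mul_div_assoc, div_lt_one (by positivity)]
    linarith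
  have com : ∀ s ∈ S, ∀ t, r.ρ 1 (Φ (t, s)) = Φ (t, r.ρ 1 s) := fun s hs t => by
    have := hΦ.uniq (fun t => r.ρ 1 (Φ (t, s))) (fun t => by
      rw [r.equiv hG h (hΦ.mem hV hS (fun s hs => ⟨a.c s, a.mem s hs⟩)
        (fun s hs => (h s hs).1) hs t)]
      exact (r.ρ 1).hasFDerivAt.comp_hasDerivAt t (hΦ.deriv t s)) t
    simpa only [hΦ.zero] using this
  refine ⟨ε, ε0, fun x hx hfix => ?_⟩
  have h1 : Φ (ε, x) = r.ρ 1 x := by rw [← r.hamA_two (Φ (ε, x)), hfix]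
  have h2 : V x = 0 := by
    have := yorke hK (fun t => hΦ.deriv t x) (add_pos ε0 ε0) ε1
      (by rw [hΦ.add, h1, ← com x hx, hfix, hΦ.zero])
    rwa [hΦ.zero] at this
  have h3 : ∀ t, Φ (t, x) = x := fun t => (hΦ.uniq (fun _ => x) (fun s => by
    rw [h2]
    exact hasDerivAt_const _ _) t).symm
  have h4 : r.ρ 1 x = x := by rw [← h1, h3]
  refine ⟨h2, h4, fun v hv hfv => ?_⟩
  have hd : ∀ t, HasFDerivAt (fun y => Φ (t, y)) (fderiv ℝ (fun y => Φ (t, y)) x) x := fun t =>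
    ((hΦ.smooth.comp (contDiff_const.prodMk contDiff_id)).differentiable (by simp) x).hasFDerivAt
  have hW : LipschitzWith K (fderiv ℝ V x) := (fderiv ℝ V x).lipschitz.weaken
    (norm_fderiv_le_of_lipschitz ℝ hK)
  have d0 : fderiv ℝ (fun y => Φ (0, y)) x v = v := by simp [hΦ.zero]
  have d1 : fderiv ℝ (fun y => Φ (ε, y)) x v = r.ρ 1 v := by
    rw [← r.hamA_two (fderiv ℝ (fun y => Φ (ε, y)) x v), hfv]
  have d2 : fderiv ℝ (fun y => Φ (ε, y)) x (r.ρ 1 v) = v := by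
    have k1 : HasFDerivAt (fun y => Φ (ε, r.ρ 1 y)) _ x :=
      HasFDerivAt.comp (g := fun y => Φ (ε, y)) x (h4.symm ▸ hd ε) (r.ρ 1).hasFDerivAt
    have k2 : HasFDerivAt (fun y => r.ρ 1 (Φ (ε, y))) _ x := (r.ρ 1).hasFDerivAt.comp x (hd ε)
    have k3 := hv.fderiv_eq k1.differentiableAt k2.differentiableAt
      (eventually_nhdsWithin_of_forall fun s hs => (com s hs ε).symm)
    rw [k1.fderiv, k2.fderiv, h4] at k3
    exact k3.trans hfv
  have d3 : fderiv ℝ (fun y => Φ (ε + ε, y)) x v = v := by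
    have k1 : HasFDerivAt (fun y => Φ (ε, Φ (ε, y))) _ x :=
      HasFDerivAt.comp (g := fun y => Φ (ε, y)) x ((h3 ε).symm ▸ hd ε) (hd ε)
    simp only [hΦ.add]
    rw [k1.fderiv, ContinuousLinearMap.comp_apply, d1, h3, d2]
  have d4 : fderiv ℝ V x v = 0 := by
    have := yorke hW (fun t => hΦ.lin hV h2 v t) (add_pos ε0 ε0) ε1 (d3.trans d0.symm)
    rwa [d0] at this
  refine ⟨?_, d4⟩
  rw [← d1]
  exact flow_uniq hW (β := fun _ => v) (add_pos ε0 ε0) (fun t _ => hΦ.lin hV h2 v t)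
    (fun t _ => by
      rw [d4]
      exact hasDerivAt_const _ _) d0 ⟨by linarith, by linarith⟩

/-- The action on a product that is trivial on the first factor. -/
theorem exists_prod {S' : Set A'} (b : SAtl S' E') (p : SAtl (S' ×ˢ S) (E' × E))
    (h : ∀ s u v, p.w s u v = b.w s.1 u.1 v.1 + a.w s.2 u.2 v.2) :
    ∃ q : Circ p, ∀ t x, q.ρ t x = (x.1, r.ρ t x.2) := by
  refine ⟨{ ρ := fun t => (ContinuousLinearMap.id ℝ A').prodMap (r.ρ t)
            smooth := contDiff_snd.fst.prodMk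
              (r.smooth.comp (contDiff_fst.prodMk contDiff_snd.snd))
            zero := fun x => Prod.ext rfl (r.zero _)
            add := fun s t x => Prod.ext rfl (r.add _ _ _)
            two := fun x => Prod.ext rfl (r.two _)
            maps := fun t x hx => ⟨hx.1, r.maps t hx.2⟩
            sympl := fun t s hs u v hu hv => ?_
            H := r.H.comp (ContinuousLinearMap.snd ℝ A' A)
            gen := fun s hs X v hX hv => ?_ }, fun _ _ => rfl⟩
  · rw [h, h, ← r.sympl t s.2 hs.2 _ _ (Tan.prod.1 hu).2 (Tan.prod.1 hv).2]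
    rfl
  · have h1 : X.1 = 0 := ((ContinuousLinearMap.fst ℝ A' A).hasFDerivAt.comp_hasDerivAt (0 : ℝ)
      hX).unique
      (hasDerivAt_const (0 : ℝ) s.1)
    rw [h, h1, b.hamA_zero hs.1 (Tan.prod.1 hv).1, zero_add]
    exact r.gen s.2 hs.2 _ _ ((ContinuousLinearMap.snd ℝ A' A).hasFDerivAt.comp_hasDerivAt (0 : ℝ)
      hX) (Tan.prod.1 hv).2

/-- Change of the atlas. -/
def change (p : SAtl S E') (h : p.w = a.w) : Circ p where
  ρ := r.ρ
  smooth := r.smooth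
  zero := r.zero
  add := r.add
  two := r.two
  maps := r.maps
  sympl := by rw [h]; exact r.sympl
  H := r.H
  gen := by rw [h]; exact r.gen

end Circ

end Vale.Agent.P265
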