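import Vale.Agent.P265.Model

/-!
Equivariant Morse inequalities.
-/

open scoped ContDiff Topology
open Set Filter

noncomputable section

namespace Vale.Agent.P265

section aux

variable {X F : Type} [NormedAddCommGroup X] [NormedSpace ℝ X] [NormedAddCommGroup F]
  [NormedSpace ℝ F]

theorem HandleSm_sub {S : Set X} {f g : X → F} (hf : Sm S f) (hg : Sm S g) :
    Sm S (fun x => f x - g x) := by
  intro s hs
  obtain ⟨O, hO, hsO, f', hf', e⟩ := hf s hs
  obtain ⟨O', hO', hsO', g', hg', e'⟩ := hg s hs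
  refine ⟨O ∩ O', hO.inter hO', ⟨hsO, hsO'⟩, fun x => f' x - g' x,
    (hf'.mono inter_subset_left).sub (hg'.mono inter_subset_right), fun x hx => ?_⟩
  show f x - g x = f' x - g' x
  rw [e ⟨hx.1, hx.2.1⟩, e' ⟨hx.1, hx.2.2⟩]

theorem HandleSm_sum {S : Set X} {g : ℕ → X → F} (hg : ∀ i, Sm S (g i)) (n : ℕ) :
    Sm S (fun x => ∑ i ∈ Finset.range n, g i x) := by
  induction n with
  | zero => simpa using sm_of_contDiffOn isOpen_univ (subset_univ S) contDiffOn_const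
  | succ n ih =>
    intro s hs
    obtain ⟨O, hO, hsO, f', hf', e⟩ := ih s hs
    obtain ⟨O', hO', hsO', g', hg', e'⟩ := hg n s hs
    refine ⟨O ∩ O', hO.inter hO', ⟨hsO, hsO'⟩, fun x => f' x + g' x,
      (hf'.mono inter_subset_left).add (hg'.mono inter_subset_right), fun x hx => ?_⟩
    show ∑ i ∈ Finset.range (n + 1), g i x = f' x + g' x
    rw [Finset.sum_range_succ, ← e ⟨hx.1, hx.2.1⟩, e' ⟨hx.1, hx.2.2⟩]

theorem HandleQf_smooth {j j' : ℕ} : ContDiff ℝ ∞ (Qf : Fib j j' → ℝ) :=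
  ((contDiff_norm_sq ℝ).comp contDiff_snd).sub ((contDiff_norm_sq ℝ).comp contDiff_fst)

theorem HandleQf_deriv {j j' : ℕ} : HasFDerivAt (Qf : Fib j j' → ℝ) (0 : Fib j j' →L[ℝ] ℝ) 0 := by
  have h := ((hasFDerivAt_snd (𝕜 := ℝ) (p := (0 : Fib j j'))).norm_sq).sub
    ((hasFDerivAt_fst (𝕜 := ℝ) (p := (0 : Fib j j'))).norm_sq)
  refine h.congr_fderiv ?_
  ext <;> simp

theorem HandleqE_le {j j' : ℕ} {η : Fib j j'} {ρ : ℝ} (hρ : 0 < ρ) (h : qE η < ρ ^ 2) :
    η ∈ Metric.ball (0 : Fib j j') ρ := by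
  rw [mem_ball_zero_iff, Prod.norm_def, max_lt_iff]
  have h1 := sq_nonneg ‖η.1‖
  have h2 := sq_nonneg ‖η.2‖
  unfold qE at h
  exact ⟨lt_of_pow_lt_pow_left₀ 2 hρ.le (by linarith), lt_of_pow_lt_pow_left₀ 2 hρ.le (by linarith)⟩

theorem HandleqE_cpt {j j' : ℕ} (t : ℝ) : IsCompact {η : Fib j j' | qE η ≤ t} := by
  refine Metric.isCompact_of_isClosed_isBounded (isClosed_le (by unfold qE; fun_prop) continuous_const)
    (Metric.isBounded_ball (x := 0) (r := |t| + 1) |>.subset fun η hη => ?_)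
  refine HandleqE_le (by positivity) (lt_of_le_of_lt hη ?_)
  nlinarith [le_abs_self t, abs_nonneg t]

theorem Handle_inj {Y : Type} [MetricSpace Y] (a : Act Y) (i : ℕ) : Function.Injective a.T^[i] := by
  refine Function.Injective.iterate (fun x y h => ?_) i
  exact (a.per x).symm.trans ((congrArg a.T^[5] h).trans (a.per y))

theorem Handle_back {Y : Type} [MetricSpace Y] (a : Act Y) {i : ℕ} (hi : i < 6) (x : Y) :
    ∃ n < 6, x = a.T^[n] (a.T^[i] x) := by
  rcases Nat.eq_zero_or_pos i with rfl | h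
  · exact ⟨0, hi, rfl⟩
  · exact ⟨6 - i, by omega, by rw [← Function.iterate_add_apply, Nat.sub_add_cancel hi.le, a.per]⟩

end aux

namespace MS

variable {A E : Type} [NormedAddCommGroup A] [NormedSpace ℝ A] [FiniteDimensional ℝ A]
  [NormedAddCommGroup E] [NormedSpace ℝ E] [FiniteDimensional ℝ E] (M : MS A E) {k k' : ℕ}
  {K : Type} [Field K]

variable (k k') in
/-- A Morse chart at a point with a free orbit. -/
structure Orb where
  j : ℕ
  j' : ℕ
  c : PChart (M.S k k') (Fib j j')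
  zero : 0 ∈ c.U
  free : ∀ i, 0 < i → i < 6 → (M.act k k').T^[i] (c.ψ 0) ≠ c.ψ 0

variable {M}

omit [FiniteDimensional ℝ A] [FiniteDimensional ℝ E] in
theorem Handle_maps (i : ℕ) : MapsTo (M.act k k').T^[i] (M.S k k') (M.S k k') :=
  MapsTo.iterate (f := (M.act k k').T) (s := M.S k k') (fun _ hx => ⟨M.maps hx.1, trivial⟩) i

omit [FiniteDimensional ℝ A] [FiniteDimensional ℝ E] in
theorem Handle_snd (i : ℕ) (x : A × Fib k k') : ((M.act k k').T^[i] x).2 = x.2 := by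
  induction i with
  | zero => rfl
  | succ i ih => rw [Function.iterate_succ_apply']; exact ih

omit [FiniteDimensional ℝ A] [FiniteDimensional ℝ E] in
theorem Handle_inv {f : A × Fib k k' → ℝ} (hf : ∀ x ∈ M.S k k', f ((M.act k k').T x) = f x) (i : ℕ)
    {x : A × Fib k k'} (hx : x ∈ M.S k k') : f ((M.act k k').T^[i] x) = f x := by
  induction i with
  | zero => rfl
  | succ i ih => rw [Function.iterate_succ_apply', hf _ (Handle_maps i hx), ih]

omit [FiniteDimensional ℝ A] [FiniteDimensional ℝ E] in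
theorem Handle_smooth (i : ℕ) : ContDiff ℝ ∞ (M.act k k').T^[i] := by
  have h : ContDiff ℝ ∞ (M.act k k').T := (M.T.contDiff.comp contDiff_fst).prodMk contDiff_snd
  induction i with
  | zero => exact contDiff_id
  | succ i ih => rw [Function.iterate_succ']; exact h.comp ih

omit [FiniteDimensional ℝ A] [FiniteDimensional ℝ E] in
theorem Handle_crit {f : A × Fib k k' → ℝ} (hf : ∀ x ∈ M.S k k', f ((M.act k k').T x) = f x)
    (i : ℕ) {x : A × Fib k k'} (hx : x ∈ M.S k k')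
    (h : Crit (M.S k k') f ((M.act k k').T^[i] x)) : Crit (M.S k k') f x := by
  induction i generalizing x with
  | zero => exact h
  | succ i ih =>
    exact Crit.of_map (M.T.prodMap (ContinuousLinearMap.id ℝ (Fib k k'))) (Handle_maps 1) hf hx
      (ih (Handle_maps 1 hx) h)

omit [FiniteDimensional ℝ A] [FiniteDimensional ℝ E] in
theorem Handle_DS (s : ℝ) : M.D k k' s ⊆ M.S k k' := fun _ hx => ⟨hx.1, trivial⟩

omit [FiniteDimensional ℝ A] [FiniteDimensional ℝ E] in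
theorem Handle_memD {R s : ℝ} (hs : R ^ 2 < s) {x : A × Fib k k'}
    (hx : x ∈ M.S k k') (h : ‖x.2‖ < R) : x ∈ M.D k k' s := by
  have h1 : ‖x.2.1‖ ^ 2 ≤ R ^ 2 := pow_le_pow_left₀ (norm_nonneg _) ((norm_fst_le _).trans h.le) 2
  have h2 : ‖x.2.2‖ ^ 2 ≤ R ^ 2 := pow_le_pow_left₀ (norm_nonneg _) ((norm_snd_le _).trans h.le) 2
  refine ⟨hx.1, by linarith, ?_⟩
  have := sq_nonneg ‖x.2.2‖
  unfold Qf
  linarith

omit [FiniteDimensional ℝ A] [FiniteDimensional ℝ E] in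
/-- Agreement off the translates of a closed set is a local property. -/
theorem Handle_near {f f' : A × Fib k k' → ℝ} {Kε : Set (A × Fib k k')} (hK : IsClosed Kε)
    (h : ∀ x ∈ M.S k k', (∀ i < 6, (M.act k k').T^[i] x ∉ Kε) → f' x = f x) {x : A × Fib k k'}
    (hx : ∀ i < 6, (M.act k k').T^[i] x ∉ Kε) : f' =ᶠ[𝓝[M.S k k'] x] f := by
  have e : ∀ᶠ y in 𝓝 x, ∀ i ∈ Finset.range 6, (M.act k k').T^[i] y ∉ Kε :=
    (eventually_all_finset _).2 fun i hi =>
      ((M.act k k').cont.iterate i).continuousAt.eventually_mem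
        (hK.isOpen_compl.mem_nhds (hx i (Finset.mem_range.1 hi)))
  filter_upwards [nhdsWithin_le_nhds e, self_mem_nhdsWithin] with y h1 h2
  exact h y h2 fun i hi => h1 i (Finset.mem_range.2 hi)


/-- The centre of the chart. -/
def Orb.pt (o : M.Orb k k') : A × Fib k k' := o.c.ψ 0

/-- The function has the standard form in the chart. -/
def Orb.Model (o : M.Orb k k') (f : A × Fib k k' → ℝ) : Prop :=
  ∀ᶠ η in 𝓝 (0 : Fib o.j o.j'), f (o.c.ψ η) = f o.pt + Qf η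

omit [FiniteDimensional ℝ A] [FiniteDimensional ℝ E] in
theorem Orb.mem (o : M.Orb k k') : o.pt ∈ M.S k k' := (o.c.mψ o.zero).1

theorem Orb.Model.crit {o : M.Orb k k'} {f : A × Fib k k' → ℝ} (h : o.Model f) :
    Crit (M.S k k') f o.pt := by
  have d : HasFDerivAt (fun η => f (o.c.ψ η)) (0 : Fib o.j o.j' →L[ℝ] ℝ) 0 :=
    (HandleQf_deriv.const_add (f o.pt)).congr_of_eventuallyEq h
  exact (o.c.crit_iff o.zero d.differentiableAt).2 d.fderiv

omit [FiniteDimensional ℝ A] [FiniteDimensional ℝ E] in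
theorem Handle_tendsto (o : M.Orb k k') : Tendsto o.c.ψ (𝓝 0) (𝓝[M.S k k'] o.pt) :=
  tendsto_nhdsWithin_iff.2 ⟨(o.c.chart_dψ o.zero).continuousAt,
    (o.c.oU.eventually_mem o.zero).mono fun _ h => (o.c.mψ h).1⟩

omit [FiniteDimensional ℝ A] [FiniteDimensional ℝ E] in
/-- A small ball in the chart. -/
theorem Handle_ball {R : ℝ} {f : A × Fib k k' → ℝ} (o : M.Orb k k') (hm : o.Model f)
    (hp : ‖o.pt.2‖ < R) {N : Set (A × Fib k k')} (hN : N ∈ 𝓝 o.pt) :
    ∃ ρ > 0, (∀ η ∈ Metric.ball (0 : Fib o.j o.j') ρ, η ∈ o.c.U ∧ f (o.c.ψ η) = f o.pt + Qf η ∧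
      o.c.ψ η ∈ N ∧ ‖(o.c.ψ η).2‖ < R) ∧ ∀ η ∈ Metric.ball (0 : Fib o.j o.j') ρ,
      ∀ η' ∈ Metric.ball (0 : Fib o.j o.j') ρ, ∀ i, 0 < i → i < 6 →
        (M.act k k').T^[i] (o.c.ψ η) ≠ o.c.ψ η' := by
  have hc : ContinuousAt o.c.ψ 0 := (o.c.chart_dψ o.zero).continuousAt
  have e1 : ∀ᶠ η in 𝓝 (0 : Fib o.j o.j'), η ∈ o.c.U ∧ f (o.c.ψ η) = f o.pt + Qf η ∧
      o.c.ψ η ∈ N ∧ ‖(o.c.ψ η).2‖ < R :=
    (o.c.oU.eventually_mem o.zero).and (hm.and ((hc.eventually_mem hN).and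
      (hc.snd.norm.eventually_lt continuousAt_const hp)))
  have e2 : ∀ᶠ p in 𝓝 ((0, 0) : Fib o.j o.j' × Fib o.j o.j'), ∀ i ∈ Finset.Ioo 0 6,
      (M.act k k').T^[i] (o.c.ψ p.1) ≠ o.c.ψ p.2 :=
    (eventually_all_finset _).2 fun i hi => by
      have h1 : ContinuousAt (fun p : Fib o.j o.j' × Fib o.j o.j' =>
          (M.act k k').T^[i] (o.c.ψ p.1)) (0, 0) :=
        ((M.act k k').cont.iterate i).continuousAt.comp (hc.comp_of_eq continuousAt_fst rfl)
      have h2 : ContinuousAt (fun p : Fib o.j o.j' × Fib o.j o.j' => o.c.ψ p.2) (0, 0) :=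
        hc.comp_of_eq continuousAt_snd rfl
      exact (h1.ne_iff_eventually_ne h2).1 (o.free i (Finset.mem_Ioo.1 hi).1 (Finset.mem_Ioo.1 hi).2)
  obtain ⟨r1, h1, e1⟩ := Metric.eventually_nhds_iff_ball.1 e1
  obtain ⟨r2, h2, e2⟩ := Metric.eventually_nhds_iff_ball.1 e2
  refine ⟨min r1 r2, lt_min h1 h2, fun η hη => e1 η (Metric.ball_subset_ball (min_le_left _ _) hη),
    fun η hη η' hη' i h3 h4 => e2 (η, η') ?_ i (Finset.mem_Ioo.2 ⟨h3, h4⟩)⟩
  rw [← ball_prod_same]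
  exact ⟨Metric.ball_subset_ball (min_le_right _ _) hη, Metric.ball_subset_ball (min_le_right _ _) hη'⟩

/-- Passing one critical orbit. Take a profile `μ, C` and `ε > 0` so small that the compact set
`Kε = ψ {qE ≤ C ε}` lies in the region where the model holds, in `N`, in `‖z‖ < R`, and its six
translates are pairwise disjoint. Put `m x = corr μ ε (χ x)` for `x ∈ c.O`, `m x = 0` otherwise
(so `m` is `Sm` and vanishes on `S \ Kε`), and `f' x = f x - ∑ i < 6, m (T^[i] x)`. The last claim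
is `beta_orbit` with `Φ = ψ`, `L1`, `L0`, and `beta_model`. For the critical points use
`Crit.of_map`, `Crit.congr`, `PChart.crit_iff`, `corr_crit`. -/
theorem Orb.step {l : K} (hl : Good l) {R s : ℝ} (hR : 0 ≤ R) (hs : R ^ 2 < s)
    {f : A × Fib k k' → ℝ} (hf : M.Adm R f) (o : M.Orb k k') (hm : o.Model f) (hp : ‖o.pt.2‖ < R)
    {N : Set (A × Fib k k')} (hN : N ∈ 𝓝 o.pt) {δ : ℝ} (hδ : 0 < δ) :
    ∃ (ε : ℝ) (f' : A × Fib k k' → ℝ) (Kε : Set (A × Fib k k')), 0 < ε ∧ ε < δ ∧ M.Adm R f' ∧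
      IsClosed Kε ∧ Kε ⊆ N ∧ (∀ x ∈ M.S k k', f' x ≤ f x) ∧
      (∀ x ∈ M.S k k', (∀ i < 6, (M.act k k').T^[i] x ∉ Kε) → f' x = f x) ∧
      (∀ x ∈ M.S k k', Crit (M.S k k') f' x → Crit (M.S k k') f x) ∧
      f' o.pt < f o.pt - ε ∧
      ∀ n, beta (M.act k k') l (M.B s f' (f o.pt - ε)) (M.B s f (f o.pt - ε)) n =
        if n = o.j then 1 else 0 := by
  have _ := hR
  obtain ⟨μ, C, hμ⟩ := exists_prof
  obtain ⟨ρ, hρ, hb, hfree⟩ := Handle_ball o hm hp hN
  obtain ⟨ε, hε, hεδ, hερ⟩ : ∃ ε > 0, ε < δ ∧ C * ε < ρ ^ 2 := by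
    have hC := hμ.pos
    refine ⟨min (δ / 2) (ρ ^ 2 / (2 * C)), by positivity, (min_le_left _ _).trans_lt (by linarith),
      (mul_le_mul_of_nonneg_left (min_le_right _ _) hC.le).trans_lt ?_⟩
    rw [show C * (ρ ^ 2 / (2 * C)) = ρ ^ 2 / 2 by field_simp]
    have : 0 < ρ ^ 2 := by positivity
    linarith
  have hQ : ∀ η : Fib o.j o.j', qE η ≤ C * ε → η ∈ Metric.ball (0 : Fib o.j o.j') ρ :=
    fun η h => HandleqE_le hρ (h.trans_lt hερ)
  obtain ⟨Kε, hK⟩ : ∃ Kε, Kε = o.c.ψ '' {η | qE η ≤ C * ε} := ⟨_, rfl⟩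
  have hKc : IsClosed Kε := hK ▸ ((HandleqE_cpt _).image_of_continuousOn
    (o.c.sψ.continuousOn.mono fun η h => (hb η (hQ η h)).1)).isClosed
  have hKO : Kε ⊆ o.c.O := by
    rw [hK]
    rintro _ ⟨η, h, rfl⟩
    exact (o.c.mψ (hb η (hQ η h)).1).2
  obtain ⟨m, hmm⟩ : ∃ m : A × Fib k k' → ℝ, m = o.c.O.indicator fun x => corr μ ε (o.c.χ x) :=
    ⟨_, rfl⟩
  have m0 : ∀ x ∈ M.S k k', x ∉ Kε → m x = 0 := fun x hx h => by
    rw [hmm, indicator_apply_eq_zero]
    intro hO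
    have : C * ε < qE (o.c.χ x) := not_le.1 fun e => h (hK ▸ ⟨_, e, o.c.ri x ⟨hx, hO⟩⟩)
    rw [corr, hμ.supp _ ((le_div_iff₀ hε).2 this.le), mul_zero]
  have m1 : ∀ η ∈ o.c.U, m (o.c.ψ η) = corr μ ε η := fun η h => by
    rw [hmm, indicator_of_mem (o.c.mψ h).2, o.c.li η h]
  have m2 : ∀ x, 0 ≤ m x := fun x => by
    rw [hmm]
    exact indicator_nonneg (fun y _ => mul_nonneg hε.le (hμ.nonneg _)) x
  have m3 : Sm (M.S k k') m := fun x hx => by
    by_cases hO : x ∈ o.c.O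
    · exact ⟨o.c.O, o.c.oO, hO, _, (corr_smooth hμ ε).comp_contDiffOn o.c.sχ,
        fun y hy => by rw [hmm, indicator_of_mem hy.2]; rfl⟩
    · exact ⟨Kεᶜ, hKc.isOpen_compl, fun e => hO (hKO e), fun _ => 0, contDiffOn_const,
        fun y hy => m0 y hy.1 hy.2⟩
  obtain ⟨f', hf'⟩ : ∃ f' : A × Fib k k' → ℝ,
      f' = fun x => f x - ∑ i ∈ Finset.range 6, m ((M.act k k').T^[i] x) := ⟨_, rfl⟩
  have a1 : ∀ x ∈ M.S k k', (∀ i < 6, (M.act k k').T^[i] x ∉ Kε) → f' x = f x := fun x hx h => by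
    rw [hf']
    exact sub_eq_self.2 (Finset.sum_eq_zero fun i hi =>
      m0 _ (Handle_maps i hx) (h i (Finset.mem_range.1 hi)))
  have a2 : ∀ x ∈ M.S k k', f' x ≤ f x := fun x _ => by
    rw [hf']
    exact sub_le_self _ (Finset.sum_nonneg fun i _ => m2 _)
  have a3 : M.Adm R f' := by
    refine ⟨hf' ▸ HandleSm_sub hf.sm (HandleSm_sum (fun i => m3.comp (sm_of_contDiffOn isOpen_univ
      (subset_univ _) (Handle_smooth i).contDiffOn) (Handle_maps i)) 6), fun x hx => ?_,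
      fun x hx h => (a1 x hx fun i _ e => ?_).trans (hf.quad x hx h)⟩
    · rw [hf']
      show f _ - _ = f x - _
      rw [hf.inv x hx, Finset.sum_range_succ, Finset.sum_range_succ' _ 5,
        show (M.act k k').T^[5] ((M.act k k').T x) = x from (M.act k k').per x]
      rfl
    · rw [hK] at e
      obtain ⟨η, h1, h2⟩ := e
      have := (hb η (hQ η h1)).2.2.2
      rw [h2, Handle_snd] at this
      linarith
  have a4 : ∀ η ∈ Metric.ball (0 : Fib o.j o.j') ρ,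
      f' (o.c.ψ η) = f o.pt + (Qf η - corr μ ε η) := fun η h => by
    rw [hf']
    show f _ - _ = _
    rw [(hb η h).2.1, Finset.sum_range_succ', Finset.sum_eq_zero, zero_add, Function.iterate_zero,
      id, m1 η (hb η h).1, add_sub_assoc]
    intro i hi
    refine m0 _ (Handle_maps _ (o.c.mψ (hb η h).1).1) fun e => ?_
    rw [hK] at e
    obtain ⟨η', h1, h2⟩ := e
    exact hfree η h η' (hQ _ h1) (i + 1) i.succ_pos (by have := Finset.mem_range.1 hi; omega) h2.symm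
  have b0 : (0 : Fib o.j o.j') ∈ Metric.ball (0 : Fib o.j o.j') ρ := Metric.mem_ball_self hρ
  refine ⟨ε, f', Kε, hε, hεδ, a3, hKc, ?_, a2, a1, fun x hx h => ?_, ?_, fun n => ?_⟩
  · rw [hK]
    rintro _ ⟨η, h, rfl⟩
    exact (hb η (hQ η h)).2.2.1
  · by_cases e : ∀ i < 6, (M.act k k').T^[i] x ∉ Kε
    · exact h.congr (Handle_near hKc a1 e) hx
    push Not at e
    obtain ⟨i, hi, e⟩ := e
    rw [hK] at e
    obtain ⟨η, h1, h2⟩ := e
    obtain ⟨n, -, h3⟩ := Handle_back (M.act k k') hi x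
    have h4 := hb η (hQ η h1)
    have h5 : Crit (M.S k k') f' (o.c.ψ η) :=
      Handle_crit a3.inv n (o.c.mψ h4.1).1 (by rwa [h2, ← h3])
    have h6 : (fun η => f' (o.c.ψ η)) =ᶠ[𝓝 η] fun η => f o.pt + (Qf η - corr μ ε η) :=
      (Metric.isOpen_ball.eventually_mem (hQ η h1)).mono a4
    rw [o.c.crit_iff h4.1 (((o.c.sm a3.sm).contDiffAt (o.c.oU.mem_nhds h4.1)).differentiableAt
      (by simp)), h6.fderiv_eq, fderiv_const_add] at h5
    rw [corr_crit hμ hε h5] at h2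
    exact Handle_crit hf.inv i hx (h2 ▸ hm.crit)
  · have := a4 0 b0
    rw [show Qf (0 : Fib o.j o.j') - corr μ ε (0 : Fib o.j o.j') = -(ε * 2) by
      simp [Qf, corr, qE, hμ.zero]] at this
    exact this.trans_lt (by linarith)
  have hL : ∀ η ∈ L1 o.j o.j' μ C ε, η ∈ Metric.ball (0 : Fib o.j o.j') ρ := fun η h => hQ η h.1
  have hD : ∀ η ∈ L1 o.j o.j' μ C ε, o.c.ψ η ∈ M.D k k' s := fun η h =>
    Handle_memD hs (o.c.mψ (hb η (hL η h)).1).1 (hb η (hL η h)).2.2.2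
  rw [beta_orbit hl (M.B_inv hf s _) (M.B_inv a3 s _)
    (fun x hx => ⟨hx.1, (a2 x (Handle_DS s hx.1)).trans hx.2⟩) dvd_rfl (L1_cpt hμ) (L0_cpt hμ)
    inter_subset_left (o.c.sψ.continuousOn.mono fun η h => (hb η (hL η h)).1)
    (fun _ _ => (M.act k k').per _) (fun η h => ⟨hD η h, ?_⟩) (fun η h => ⟨hD η h.1, ?_⟩)
    (fun η h e => h.2 ⟨h.1, ?_⟩) (fun x hx => ?_) (fun i hi j hj v hv w hw e => ?_),
    beta_model hl hμ hε]
  · show f' _ ≤ _
    rw [a4 η (hL η h)]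
    linarith [h.2.2]
  · show f _ ≤ _
    rw [(hb η (hL η h.1)).2.1, show Qf η = -ε from h.2]
    rfl
  · have e2 : f _ ≤ _ := e.2
    rw [(hb η (hL η h.1)).2.1] at e2
    exact le_antisymm (by linarith) h.1.2.1
  · have hS := Handle_DS s hx.1.1
    have e1 : f' x ≤ _ := hx.1.2
    have e2 : f o.pt - ε < f x := not_le.1 fun e => hx.2 ⟨hx.1.1, e⟩
    obtain ⟨i, hi, e⟩ : ∃ i < 6, (M.act k k').T^[i] x ∈ Kε := by
      by_contra! e
      linarith [a1 x hS e]
    rw [hK] at e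
    obtain ⟨η, h1, h2⟩ := e
    obtain ⟨n, hn, h3⟩ := Handle_back (M.act k k') hi x
    refine ⟨n, hn, η, ⟨h1, ?_, ?_⟩, by rwa [h2]⟩
    · have := (hb η (hQ η h1)).2.1
      rw [h2, Handle_inv hf.inv i hS] at this
      linarith
    · have := a4 η (hQ η h1)
      rw [h2, Handle_inv a3.inv i hS] at this
      linarith
  · have key : ∀ i j, i < j → j < 6 → ∀ v ∈ L1 o.j o.j' μ C ε, ∀ w ∈ L1 o.j o.j' μ C ε,
        (M.act k k').T^[i] (o.c.ψ v) ≠ (M.act k k').T^[j] (o.c.ψ w) := fun i j h1 h2 v hv w hw e => by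
      rw [show j = i + (j - i) by omega, Function.iterate_add_apply] at e
      exact hfree w (hL w hw) v (hL v hv) (j - i) (by omega) (by omega) (Handle_inj _ i e).symm
    rcases lt_trichotomy i j with h | rfl | h
    · exact absurd e (key i j h hj v hv.1 w hw.1)
    · refine ⟨rfl, ?_⟩
      rw [← o.c.li v (hb v (hL v hv.1)).1, Handle_inj _ i e, o.c.li w (hb w (hL w hw.1)).1]
    · exact absurd e.symm (key j i h hi w hw.1 v hv.1)

theorem Handle_morse {l : K} (hl : Good l) {R s : ℝ} (hR : 0 ≤ R) (hs : R ^ 2 < s) {ι : Type}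
    (o : ι → M.Orb k k') (n : ℕ) : ∀ (P : Finset ι) {f : A × Fib k k' → ℝ} {a : ℝ}, P.card = n →
    M.Adm R f → -s ≤ a → (∀ p ∈ P, (o p).Model f) → (∀ p ∈ P, ‖(o p).pt.2‖ < R) →
    (∀ p ∈ P, a < f (o p).pt) →
    (∀ p ∈ P, ∀ q ∈ P, ∀ i < 6, (M.act k k').T^[i] (o p).pt = (o q).pt → p = q) →
    (∀ x ∈ M.S k k', a ≤ f x → Crit (M.S k k') f x →
      ∃ p ∈ P, ∃ i < 6, x = (M.act k k').T^[i] (o p).pt) →
    Dom (beta (M.act k k') l (M.D k k' s) (M.B s f a))
      (fun n => (P.filter fun p => (o p).j = n).card) := by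
  classical
  induction n with
  | zero =>
    intro P f a hP hf ha _ _ _ _ hc
    obtain rfl := Finset.card_eq_zero.1 hP
    obtain ⟨b, hb⟩ := (M.D_inv (k := k) (k' := k') s).cpt.bddAbove_image
      (hf.sm.continuousOn.mono (Handle_DS s))
    have e : M.B s f (max a b) = M.D k k' s :=
      inter_eq_left.2 fun x hx => (hb ⟨x, hx, rfl⟩).trans (le_max_right _ _)
    have e2 := funext (M.deform hl hR hs hf ha (le_max_left a b) fun x hx h1 _ h2 => by
      simpa using hc x (Handle_DS s hx) h1 h2)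
    rw [e] at e2
    rw [e2]
    simpa using Dom.zero
  | succ n ih =>
    intro P f a hP hf ha hm hp hv hd hc
    obtain ⟨p, hpP, hmin⟩ := P.exists_min_image (fun p => f (o p).pt) (Finset.card_pos.1 (by omega))
    have hN : (↑((P.erase p ×ˢ Finset.range 6).image fun q => (M.act k k').T^[q.2] (o q.1).pt) :
        Set (A × Fib k k'))ᶜ ∈ 𝓝 (o p).pt := by
      refine (Finset.finite_toSet _).isClosed.isOpen_compl.mem_nhds fun e => ?_
      obtain ⟨q, h1, h2⟩ := Finset.mem_image.1 e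
      rw [Finset.mem_product, Finset.mem_erase, Finset.mem_range] at h1
      exact h1.1.1 (hd _ h1.1.2 _ hpP _ h1.2 h2)
    obtain ⟨ε, f', Kε, h1, h2, h3, h4, h5, h6, h7, h8, h9, h10⟩ :=
      Orb.step hl hR hs hf (o p) (hm p hpP) (hp p hpP) hN (sub_pos.2 (hv p hpP))
    have hq : ∀ q ∈ P.erase p, f' =ᶠ[𝓝[M.S k k'] (o q).pt] f := fun q hq =>
      Handle_near h4 h7 fun i hi e => h5 e (Finset.mem_image.2 ⟨(q, i),
        Finset.mem_product.2 ⟨hq, Finset.mem_range.2 hi⟩, rfl⟩)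
    have hq' : ∀ q ∈ P.erase p, f' (o q).pt = f (o q).pt := fun q h =>
      (hq q h).eq_of_nhdsWithin (o q).mem
    have ih := ih (P.erase p) (f := f') (a := f (o p).pt - ε)
      (by rw [Finset.card_erase_of_mem hpP, hP]; rfl) h3 (by linarith)
      (fun q h => by
        filter_upwards [(Handle_tendsto (o q)).eventually (hq q h),
          hm q (Finset.mem_of_mem_erase h)] with η e1 e2
        rw [e1, e2, hq' q h])
      (fun q h => hp q (Finset.mem_of_mem_erase h))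
      (fun q h => by
        have := hmin q (Finset.mem_of_mem_erase h)
        rw [hq' q h]
        linarith)
      (fun q h r h' => hd q (Finset.mem_of_mem_erase h) r (Finset.mem_of_mem_erase h'))
      (fun x hx e1 e2 => by
        obtain ⟨q, h, i, hi, rfl⟩ := hc x hx (by linarith [h6 x hx]) (h8 x hx e2)
        refine ⟨q, Finset.mem_erase.2 ⟨?_, h⟩, i, hi, rfl⟩
        rintro rfl
        rw [Handle_inv h3.inv i (o q).mem] at e1
        linarith)
    have s1 : M.B s f a ⊆ M.B s f (f (o p).pt - ε) := fun x hx =>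
      ⟨hx.1, le_trans (b := a) hx.2 (by linarith)⟩
    have s2 : M.B s f (f (o p).pt - ε) ⊆ M.B s f' (f (o p).pt - ε) := fun x hx =>
      ⟨hx.1, (h6 x (Handle_DS s hx.1)).trans hx.2⟩
    have e := beta_right s1 s2 (M.deform hl hR hs hf ha (by linarith) fun x hx e1 e2 e3 => by
      obtain ⟨q, h, i, -, rfl⟩ := hc x (Handle_DS s hx) e1 e3
      rw [Handle_inv hf.inv i (o q).mem] at e2
      linarith [hmin q h])
    obtain ⟨i, j, r, r0, hx, hy, hz⟩ := beta_les (M.act k k') l (s1.trans s2)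
      (inter_subset_left : M.B s f' (f (o p).pt - ε) ⊆ M.D k k' s)
    have := Dom.les r0 hx hy hz (by
      rw [funext fun n => (e n).trans (h10 n)]
      exact Dom.single _) ih
    refine (congrArg (Dom _) (funext fun n => ?_)).mp this
    conv_rhs => rw [← Finset.insert_erase hpP, Finset.filter_insert]
    rw [Pi.add_apply]
    by_cases h : n = (o p).j
    · rw [if_pos h, if_pos h.symm, Finset.card_insert_of_notMem (by simp), add_comm]
    · rw [if_neg h, if_neg (Ne.symm h), zero_add]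

/-- Induction on the number of orbits; remove an orbit with the lowest critical value `c`. With
`a < c - ε` use the chain `B f a ⊆ B f (c - ε) ⊆ B f' (c - ε) ⊆ D` (`deform`, `Orb.step`,
`beta_les`, `beta_right`, `Dom.les`, `Dom.single`). If there is no orbit, take `b` larger than the
maximum of `f` on `D`, so that `B f b = D`. -/
theorem morse {l : K} (hl : Good l) {R s : ℝ} (hR : 0 ≤ R) (hs : R ^ 2 < s) {ι : Type}
    (o : ι → M.Orb k k') (P : Finset ι) {f : A × Fib k k' → ℝ} (hf : M.Adm R f) {a : ℝ}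
    (ha : -s ≤ a) (hm : ∀ p ∈ P, (o p).Model f) (hp : ∀ p ∈ P, ‖(o p).pt.2‖ < R)
    (hv : ∀ p ∈ P, a < f (o p).pt)
    (hd : ∀ p ∈ P, ∀ q ∈ P, ∀ i < 6, (M.act k k').T^[i] (o p).pt = (o q).pt → p = q)
    (hc : ∀ x ∈ M.S k k', a ≤ f x → Crit (M.S k k') f x →
      ∃ p ∈ P, ∃ i < 6, x = (M.act k k').T^[i] (o p).pt) :
    Dom (beta (M.act k k') l (M.D k k' s) (M.B s f a))
      (fun n => (P.filter fun p => (o p).j = n).card) := by
  exact Handle_morse hl hR hs o _ P rfl hf ha hm hp hv hd hc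

/-- The strong Morse inequalities. Use `morse` with `R + 1` (`crit_norm`), `s` large, `a = -s`, and
`top`. -/
theorem morse_ineq {l : K} (hl : Good l) {R : ℝ} (hR : 0 ≤ R) {ι : Type}
    (o : ι → M.Orb k k') (P : Finset ι) {f : A × Fib k k' → ℝ} (hf : M.Adm R f)
    (hm : ∀ p ∈ P, (o p).Model f)
    (hd : ∀ p ∈ P, ∀ q ∈ P, ∀ i < 6, (M.act k k').T^[i] (o p).pt = (o q).pt → p = q)
    (hc : ∀ x ∈ M.S k k', Crit (M.S k k') f x →
      ∃ p ∈ P, ∃ i < 6, x = (M.act k k').T^[i] (o p).pt) :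
    Dom (sh k (beta M.act0 l M.S0 ∅)) (fun n => (P.filter fun p => (o p).j = n).card) := by
  have hf' : M.Adm (R + 1) f := ⟨hf.sm, hf.inv, fun x hx h => hf.quad x hx (by linarith)⟩
  obtain ⟨b, hb⟩ := (M.cpt.prod (isCompact_closedBall (0 : Fib k k') (R + 1))).bddBelow_image
    (hf.sm.continuousOn.mono fun x hx => ⟨hx.1, trivial⟩)
  have hs : (R + 1) ^ 2 < max ((R + 1) ^ 2) (-b) + 1 := (le_max_left _ _).trans_lt (lt_add_one _)
  have hb' : ∀ x ∈ M.S k k', ‖x.2‖ ≤ R + 1 → -(max ((R + 1) ^ 2) (-b) + 1) < f x := fun x hx h => by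
    linarith [hb ⟨x, ⟨hx.1, mem_closedBall_zero_iff.2 h⟩, rfl⟩, le_max_right ((R + 1) ^ 2) (-b)]
  have hp : ∀ p ∈ P, ‖(o p).pt.2‖ < R + 1 := fun p h =>
    (M.crit_norm hR hf (o p).mem (hm p h).crit).trans_lt (lt_add_one _)
  rw [← funext (M.top hl (by linarith) hs hf' hb')]
  exact morse hl (by linarith) hs o P hf' le_rfl hm hp (fun p h => hb' _ (o p).mem (hp p h).le) hd
    fun x hx _ => hc x hx

end MS

end Vale.Agent.P265
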