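import Vale.Agent.P265.Sig

/-!
The reduced functions on the sphere and their critical points.
-/

open scoped ContDiff Topology
open Set Filter Real

noncomputable section

namespace Vale.Agent.P265

theorem lam_d0 {x : ℝ} (h : x ≤ 0) : deriv smoothTransition x = 0 :=
  IsLocalMin.deriv_eq_zero (Eventually.of_forall fun y => by
    rw [smoothTransition.zero_of_nonpos h]; exact smoothTransition.nonneg y)

theorem lam_d1 {x : ℝ} (h : 1 ≤ x) : deriv smoothTransition x = 0 :=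
  IsLocalMax.deriv_eq_zero (Eventually.of_forall fun y => by
    rw [smoothTransition.one_of_one_le h]; exact smoothTransition.le_one y)

theorem exists_bd : ∃ B : ℝ, 0 ≤ B ∧ ∀ x, 0 ≤ deriv smoothTransition x ∧
    deriv smoothTransition x ≤ B := by
  obtain ⟨B, hB⟩ := (isCompact_Icc (a := (0 : ℝ)) (b := 1)).bddAbove_image
    ((smoothTransition.contDiff (n := 1)).continuous_deriv le_rfl).continuousOn
  have h0 : 0 ≤ B := (lam_d0 le_rfl).ge.trans (hB ⟨0, by simp, rfl⟩)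
  refine ⟨B, h0, fun x => ⟨smoothTransition.monotone.deriv_nonneg, ?_⟩⟩
  rcases le_total x 0 with h | h
  · rw [lam_d0 h]; exact h0
  rcases le_total 1 x with h' | h'
  · rw [lam_d1 h']; exact h0
  exact hB ⟨x, ⟨h, h'⟩, rfl⟩

/-- A bound for the derivative of the transition function. -/
def bd : ℝ := exists_bd.choose

/-- The small parameter. -/
def tau : ℝ := 1 / (1000 * (bd + 1))

theorem tau_pos : 0 < tau := by
  have := exists_bd.choose_spec.1
  unfold tau bd; positivity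

theorem tau_le : tau ≤ 1 / 1000 := by
  have := exists_bd.choose_spec.1
  unfold tau bd
  exact one_div_le_one_div_of_le (by norm_num) (by linarith)

/-- Vanishes for `h ≤ 1 / 4`, equals one for `h ≥ 1 / 2`. -/
def kk (h : ℝ) : ℝ := smoothTransition (4 * h - 1)

/-- The perturbation, supported in `|h| ≤ 1 / 4`. -/
def tt (p : P3) : ℝ := tau * (p.1 * smoothTransition (2 - 32 * p.2.2 ^ 2))

/-- The main term. -/
def uu (p : P3) : ℝ := 100 - (1 + p.2.2) ^ 2 / 2 + tt p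

/-- The reflection in the equator. -/
def flp (p : P3) : P3 := (p.1, p.2.1, -p.2.2)

/-- The squared modulus of `fa`. -/
def PP (p : P3) : ℝ := p.2.1 ^ 2 + (p.2.2 - 3 / 5) ^ 2

/-- The amplitude. -/
def WW (α : ℝ) (p : P3) : ℝ := (1 - kk p.2.2) * uu p + kk p.2.2 * (60 * PP p ^ α)

/-- The reduced function. It satisfies `Lam α β e e' (flp p) = Lam β α e' e p`. -/
def Lam (α β e e' : ℝ) (p : P3) : ℝ := 199 + 2 * tt p + e * WW α p + e' * WW β (flp p)

theorem tt_smooth : ContDiff ℝ ∞ tt :=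
  contDiff_const.mul (contDiff_fst.mul (smoothTransition.contDiff.comp (by fun_prop)))

theorem uu_smooth : ContDiff ℝ ∞ uu := ContDiff.add (by fun_prop) tt_smooth

theorem WW_smooth (α : ℝ) : ContDiffOn ℝ ∞ (WW α) {p | PP p ≠ 0} := by
  have hk : ContDiff ℝ ∞ fun p : P3 => kk p.2.2 := smoothTransition.contDiff.comp (by fun_prop)
  have hP : ContDiff ℝ ∞ PP := by unfold PP; fun_prop
  exact ((contDiff_const.sub hk).mul uu_smooth).contDiffOn.add (hk.contDiffOn.mul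
    (contDiffOn_const.mul (hP.contDiffOn.rpow_const_of_ne fun _ h => h)))

theorem uu_ge {p : P3} (hp : p ∈ S2) : 97 ≤ uu p := by
  have hp' : p.1 ^ 2 + p.2.1 ^ 2 + p.2.2 ^ 2 = 1 := hp
  have h1 := smoothTransition.nonneg (2 - 32 * p.2.2 ^ 2)
  have h2 := smoothTransition.le_one (2 - 32 * p.2.2 ^ 2)
  have h3 : -1 ≤ p.1 := by nlinarith [sq_nonneg p.2.1, sq_nonneg p.2.2]
  have h4 : -1 ≤ p.1 * smoothTransition (2 - 32 * p.2.2 ^ 2) := by nlinarith
  have h5 := mul_le_mul_of_nonneg_left h4 tau_pos.le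
  have := tau_le
  unfold uu tt
  nlinarith [sq_nonneg p.1, sq_nonneg p.2.1, sq_nonneg (1 - p.2.2)]

theorem lam_PP {p : P3} (hp : p ∈ S2) : 0 ≤ PP p ∧ PP p ≤ 34 / 25 - 6 / 5 * p.2.2 ∧
    -1 ≤ p.2.2 ∧ p.2.2 ≤ 1 := by
  have hp' : p.1 ^ 2 + p.2.1 ^ 2 + p.2.2 ^ 2 = 1 := hp
  unfold PP
  refine ⟨by positivity, ?_, ?_, ?_⟩ <;> nlinarith [sq_nonneg p.1, sq_nonneg p.2.1]

/-- On the sphere `PP p ≤ 64 / 25`. -/
theorem WW_le {α : ℝ} (hα : α = 1 / 4 ∨ α = 1 / 6) {p : P3} (hp : p ∈ S2) :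
    60 * PP p ^ α ≤ 80 ∧ WW α p ≤ uu p ∧ (PP p ≠ 0 → 0 < WW α p) := by
  obtain ⟨h0, h1, h2, -⟩ := lam_PP hp
  have h3 : PP p ^ α ≤ 4 / 3 := by
    have e : ((4 / 3 : ℝ) ^ 4) ^ (1 / 4 : ℝ) = 4 / 3 := by
      rw [← Real.rpow_natCast, ← Real.rpow_mul (by norm_num)]; norm_num
    calc PP p ^ α ≤ ((4 / 3 : ℝ) ^ 4) ^ α :=
          Real.rpow_le_rpow h0 (by linarith) (by rcases hα with h | h <;> rw [h] <;> norm_num)
      _ ≤ ((4 / 3 : ℝ) ^ 4) ^ (1 / 4 : ℝ) := Real.rpow_le_rpow_of_exponent_le (by norm_num)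
          (by rcases hα with h | h <;> rw [h] <;> norm_num)
      _ = 4 / 3 := e
  have h4 := uu_ge hp
  have h5 : 0 ≤ kk p.2.2 := smoothTransition.nonneg _
  have h6 : kk p.2.2 ≤ 1 := smoothTransition.le_one _
  refine ⟨by linarith, by unfold WW; nlinarith, fun h => ?_⟩
  have h7 := Real.rpow_pos_of_pos (h0.lt_of_ne' h) α
  unfold WW
  rcases h6.eq_or_lt with h8 | h8
  · rw [h8]; linarith
  · have := mul_nonneg h5 h7.le
    nlinarith

theorem uu_add (p : P3) : uu p + uu (flp p) + p.2.2 ^ 2 = 199 + 2 * tt p := by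
  have : tt (flp p) = tt p := by simp [tt, flp]
  simp only [uu, this]; simp only [flp]; ring

/-- The derivative of `tt`. -/
def dtt (p v : P3) : ℝ := tau * (v.1 * smoothTransition (2 - 32 * p.2.2 ^ 2) +
  p.1 * (deriv smoothTransition (2 - 32 * p.2.2 ^ 2) * (-(64 * p.2.2 * v.2.2))))

/-- The derivative of `WW`. -/
def dWW (α : ℝ) (p v : P3) : ℝ :=
  4 * deriv smoothTransition (4 * p.2.2 - 1) * v.2.2 * (60 * PP p ^ α - uu p) +
    (1 - kk p.2.2) * (dtt p v - (1 + p.2.2) * v.2.2) +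
    kk p.2.2 * (120 * α * PP p ^ (α - 1)) * (p.2.1 * v.2.1 + (p.2.2 - 3 / 5) * v.2.2)

/-- The derivative of `Lam`. -/
def dLam (α β e e' : ℝ) (p v : P3) : ℝ :=
  2 * dtt p v + e * dWW α p v + e' * dWW β (flp p) (flp v)

theorem lam_sg {z : ℝ → ℝ} {z' : ℝ} (h : HasDerivAt z z' 0) :
    HasDerivAt (fun t => smoothTransition (z t)) (deriv smoothTransition (z 0) * z') 0 :=
  ((smoothTransition.contDiff (n := 1)).differentiable one_ne_zero _).hasDerivAt.comp 0 h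

theorem lam_co {γ : ℝ → P3} {v : P3} {t : ℝ} (h : HasDerivAt γ v t) :
    HasDerivAt (fun t => (γ t).1) v.1 t ∧ HasDerivAt (fun t => (γ t).2.1) v.2.1 t ∧
      HasDerivAt (fun t => (γ t).2.2) v.2.2 t :=
  ⟨by simpa using h.hasFDerivAt.fst.hasDerivAt, by simpa using h.hasFDerivAt.snd.fst.hasDerivAt,
    by simpa using h.hasFDerivAt.snd.snd.hasDerivAt⟩

theorem lam_dtt {γ : ℝ → P3} {v : P3} (h : HasDerivAt γ v 0) :
    HasDerivAt (fun t => tt (γ t)) (dtt (γ 0) v) 0 := by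
  obtain ⟨h1, -, h3⟩ := lam_co h
  exact ((h1.mul (lam_sg (((h3.pow 2).const_mul 32).const_sub 2))).const_mul tau).congr_deriv
    (by simp only [dtt, Pi.pow_apply]; ring)

theorem lam_dWW (α : ℝ) {γ : ℝ → P3} {v : P3} (h : HasDerivAt γ v 0) (hP : PP (γ 0) ≠ 0) :
    HasDerivAt (fun t => WW α (γ t)) (dWW α (γ 0) v) 0 := by
  obtain ⟨-, h2, h3⟩ := lam_co h
  have hk := lam_sg ((h3.const_mul 4).sub_const 1)
  have hu := ((((h3.const_add 1).pow 2).div_const 2).const_sub 100).add (lam_dtt h)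
  have hp := (((h2.pow 2).add ((h3.sub_const (3 / 5)).pow 2)).rpow_const (p := α) (Or.inl hP))
  exact (((hk.const_sub 1).mul hu).add (hk.mul (hp.const_mul 60))).congr_deriv
    (by simp only [dWW, uu, kk, PP, Pi.pow_apply, Pi.add_apply]; ring)

theorem lam_d (α β e e' : ℝ) {γ : ℝ → P3} {v : P3} (h : HasDerivAt γ v 0) (h1 : PP (γ 0) ≠ 0)
    (h2 : PP (flp (γ 0)) ≠ 0) :
    HasDerivAt (fun t => Lam α β e e' (γ t)) (dLam α β e e' (γ 0) v) 0 :=
  ((((lam_dtt h).const_mul 2).const_add 199).add ((lam_dWW α h h1).const_mul e)).add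
    ((lam_dWW β (γ := fun t => flp (γ t))
      ((lam_co h).1.prodMk ((lam_co h).2.1.prodMk (lam_co h).2.2.neg)) h2).const_mul e')

theorem lam_flp (α β e e' : ℝ) (p v : P3) :
    dLam α β e e' (flp p) (flp v) = dLam β α e' e p v := by
  have : dtt (flp p) (flp v) = dtt p v := by simp [dtt, flp]
  rw [dLam, dLam, this]
  simp only [flp, neg_neg]
  ring

theorem lam_up (α β e e' : ℝ) {p : P3} (h : 1 / 4 ≤ p.2.2) (v : P3) : dLam α β e e' p v =
    e * (4 * deriv smoothTransition (4 * p.2.2 - 1) * v.2.2 * (60 * PP p ^ α - uu p) -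
      (1 - kk p.2.2) * ((1 + p.2.2) * v.2.2) + kk p.2.2 * (120 * α * PP p ^ (α - 1)) *
        (p.2.1 * v.2.1 + (p.2.2 - 3 / 5) * v.2.2)) + e' * ((1 - p.2.2) * v.2.2) := by
  have h1 : 2 - 32 * p.2.2 ^ 2 ≤ 0 := by nlinarith
  have h2 : 4 * -p.2.2 - 1 ≤ 0 := by linarith
  simp only [dLam, dWW, dtt, flp, kk, neg_sq, smoothTransition.zero_of_nonpos h1, lam_d0 h1,
    smoothTransition.zero_of_nonpos h2, lam_d0 h2]
  ring

theorem lam_mid (α β e e' : ℝ) {p : P3} (h : -1 / 4 ≤ p.2.2) (h' : p.2.2 ≤ 1 / 4) (v : P3) :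
    dLam α β e e' p v = (2 + e + e') * dtt p v - e * ((1 + p.2.2) * v.2.2) +
      e' * ((1 - p.2.2) * v.2.2) := by
  have h1 : 4 * p.2.2 - 1 ≤ 0 := by linarith
  have h2 : 4 * -p.2.2 - 1 ≤ 0 := by linarith
  simp only [dLam, dWW, dtt, flp, kk, neg_sq, smoothTransition.zero_of_nonpos h1, lam_d0 h1,
    smoothTransition.zero_of_nonpos h2, lam_d0 h2]
  ring

theorem lam_q {α P : ℝ} (hα : α = 1 / 4 ∨ α = 1 / 6) (h0 : 0 < P) (h1 : P ≤ 34 / 25) :
    14 ≤ 120 * α * P ^ (α - 1) := by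
  have h2 : 25 / 34 ≤ P ^ (α - 1) := by
    rcases le_total P 1 with h | h
    · exact le_trans (by norm_num) (Real.one_le_rpow_of_pos_of_le_one_of_nonpos h0 h
        (by rcases hα with h | h <;> rw [h] <;> norm_num))
    · refine le_trans ?_ (Real.rpow_le_rpow_of_exponent_le (y := -1) h
        (by rcases hα with h | h <;> rw [h] <;> norm_num))
      rw [Real.rpow_neg_one, le_inv_comm₀ (by norm_num) h0]
      linarith
  rcases hα with h | h <;> rw [h] at h2 ⊢ <;> linarith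

theorem lam_alg1 {x y z s w k q e e' : ℝ} (hp : x ^ 2 + y ^ 2 + z ^ 2 = 1) (h : 1 / 4 ≤ z)
    (hz : z ≤ 1 / 2) (hs : 0 ≤ s) (hw : w ≤ 0) (hk0 : 0 ≤ k) (hk1 : k ≤ 1) (hq : 14 ≤ q)
    (hee : e * e = 1) (hle : e * e' * (1 - z) ≤ 1 - z)
    (e2 : e * (4 * s * -x * w - (1 - k) * ((1 + z) * -x) + k * q * (y * 0 + (z - 3 / 5) * -x)) +
      e' * ((1 - z) * -x) = 0)
    (e3 : e * (4 * s * -y * w - (1 - k) * ((1 + z) * -y) + k * q * (y * z + (z - 3 / 5) * -y)) +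
      e' * ((1 - z) * -y) = 0) : False := by
  have a1 : 4 * s * w ≤ 0 := by nlinarith
  have a2 : k * q * (z - 3 / 5) ≤ k * (-7 / 5) := by
    rw [mul_assoc]; exact mul_le_mul_of_nonneg_left (by nlinarith) hk0
  have a3 : 4 * s * w - (1 - k) * (1 + z) + k * q * (z - 3 / 5) + e * e' * (1 - z) < 0 := by
    nlinarith
  have b2 : x * (4 * s * w - (1 - k) * (1 + z) + k * q * (z - 3 / 5) + e * e' * (1 - z)) = 0 := by
    linear_combination (-e) * e2 - x * (4 * s * w - (1 - k) * (1 + z) + k * q * (z - 3 / 5)) * hee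
  have b3 : y * (4 * s * w - (1 - k) * (1 + z) + k * q * (z - 3 / 5) +
      e * e' * (1 - z) - k * q * z) = 0 := by
    linear_combination (-e) * e3 -
      y * (4 * s * w - (1 - k) * (1 + z) + k * q * (z - 3 / 5) - k * q * z) * hee
  have a4 : 0 ≤ k * q * z := by positivity
  have hx := (mul_eq_zero.1 b2).resolve_right a3.ne
  have hy := (mul_eq_zero.1 b3).resolve_right (by linarith)
  rw [hx, hy] at hp
  nlinarith

theorem lam_q2 {α x z : ℝ} (hα : α = 1 / 4 ∨ α = 1 / 6) (h1 : PP (x, 0, z) ≠ 0) (hz : 0 ≤ z)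
    (hz' : z ≤ 1) : 20 ≤ 120 * α * PP (x, 0, z) ^ (α - 1) * |z - 3 / 5| := by
  have hP : PP (x, 0, z) = |z - 3 / 5| ^ 2 := by simp [PP]
  have ha : 0 < |z - 3 / 5| := abs_pos.2 fun h => h1 (by rw [hP, h]; simp)
  have ha1 : |z - 3 / 5| ≤ 1 := abs_le.2 ⟨by linarith, by linarith⟩
  have hb : |z - 3 / 5|⁻¹ ≤ PP (x, 0, z) ^ (α - 1) := by
    rw [hP, ← Real.rpow_natCast, ← Real.rpow_mul ha.le, ← Real.rpow_neg_one]
    exact Real.rpow_le_rpow_of_exponent_ge ha ha1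
      (by rcases hα with h | h <;> rw [h] <;> norm_num)
  rw [inv_le_iff_one_le_mul₀ ha] at hb
  rw [mul_assoc]
  generalize PP (x, 0, z) ^ (α - 1) * |z - 3 / 5| = r at hb
  rcases hα with h | h <;> rw [h] <;> linarith

theorem lam_top {α β e e' : ℝ} (hα : α = 1 / 4 ∨ α = 1 / 6) (he : e = 1 ∨ e = -1)
    (he' : e' = 1 ∨ e' = -1) {p : P3} (hp : p ∈ S2) (h1 : PP p ≠ 0) (h : 1 / 4 ≤ p.2.2)
    (hc : ∀ v : P3, p.1 * v.1 + p.2.1 * v.2.1 + p.2.2 * v.2.2 = 0 → dLam α β e e' p v = 0) :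
    p = (0, 0, 1) := by
  obtain ⟨h0, h2, -, h3⟩ := lam_PP hp
  have hq := lam_q hα (h0.lt_of_ne' h1) (by linarith)
  have e1 := hc (p.2.1, -p.1, 0) (by ring)
  have e2 := hc (p.2.2, 0, -p.1) (by ring)
  have e3 := hc (0, p.2.2, -p.2.1) (by ring)
  rw [lam_up _ _ _ _ h] at e1 e2 e3
  have hp' : p.1 ^ 2 + p.2.1 ^ 2 + p.2.2 ^ 2 = 1 := hp
  have hee : e * e = 1 := by rcases he with h | h <;> rw [h] <;> norm_num
  have hle : e * e' * (1 - p.2.2) ≤ 1 - p.2.2 ∧ -(1 - p.2.2) ≤ e * e' * (1 - p.2.2) := by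
    rcases he with h | h <;> rcases he' with h' | h' <;> rw [h, h'] <;> constructor <;> linarith
  rcases le_total p.2.2 (1 / 2) with hz | hz
  · exact (lam_alg1 hp' h hz (exists_bd.choose_spec.2 _).1
      (by linarith [(WW_le hα hp).1, uu_ge hp]) (smoothTransition.nonneg _)
      (smoothTransition.le_one _) hq hee hle.1 e2 e3).elim
  have k1 : kk p.2.2 = 1 := smoothTransition.one_of_one_le (by linarith)
  rw [k1, lam_d1 (by linarith)] at e1 e2 e3
  obtain ⟨x, y, z⟩ := p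
  dsimp only at *
  have hx : x = 0 := by
    by_contra hx
    have hy : y = 0 := by
      generalize 120 * α * PP (x, y, z) ^ (α - 1) = q at *
      have : x * q * y = 0 := by linear_combination (-e) * e1 - x * q * y * hee
      exact (mul_eq_zero.1 this).resolve_left (mul_ne_zero hx (by linarith))
    subst hy
    have hb := lam_q2 hα h1 (by linarith) h3
    generalize 120 * α * PP (x, 0, z) ^ (α - 1) = q at *
    have b : x * (q * (z - 3 / 5) + e * e' * (1 - z)) = 0 := by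
      linear_combination (-e) * e2 - x * (q * (z - 3 / 5)) * hee
    have b' := (mul_eq_zero.1 b).resolve_left hx
    rcases abs_cases (z - 3 / 5) with h' | h' <;> rw [h'.1] at hb <;> linarith [hle.1, hle.2]
  subst hx
  have hy : y = 0 := by
    generalize 120 * α * PP (0, y, z) ^ (α - 1) = q at *
    have b : y * (e * e' * (1 - z) - q * (3 / 5)) = 0 := by
      linear_combination (-e) * e3 + y * (q * (3 / 5)) * hee
    exact (mul_eq_zero.1 b).resolve_right (by linarith [hle.1])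
  subst hy
  have : z = 1 := by nlinarith
  rw [this]

theorem lam_small (x : ℝ) : 0 ≤ tau * deriv smoothTransition x ∧
    tau * deriv smoothTransition x ≤ 1 / 1000 := by
  have h := exists_bd.choose_spec.2 x
  have h0 := exists_bd.choose_spec.1
  refine ⟨mul_nonneg tau_pos.le h.1, ?_⟩
  unfold tau bd
  rw [div_mul_eq_mul_div, div_le_div_iff₀ (by positivity) (by norm_num)]
  linarith [h.2]

theorem lam_alg2 {x y z j m e e' : ℝ} (hp : x ^ 2 + y ^ 2 + z ^ 2 = 1) (h : -1 / 4 ≤ z)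
    (hz : z ≤ 1 / 4) (hj : 0 ≤ j) (hj' : j ≤ 1 / 1000) (hj0 : z = 0 → 0 < j) (hm : 0 ≤ m)
    (hm' : m ≤ 1 / 1000) (he : e = 1 ∨ e = -1) (he' : e' = 1 ∨ e' = -1)
    (e1 : (2 + e + e') * (y * j) = 0)
    (e2 : (2 + e + e') * (z * j + 64 * m * z * x ^ 2) + e * (1 + z) * x - e' * (1 - z) * x = 0)
    (e3 : (2 + e + e') * (64 * m * z * x * y) + e * (1 + z) * y - e' * (1 - z) * y = 0) :
    (e = -1 ∧ e' = -1 ∧ z = 0) ∨ (e = 1 ∧ e' = 1 ∧ y = 0 ∧ z = 0 ∧ (x = 1 ∨ x = -1)) := by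
  have hx1 : -1 ≤ x := by nlinarith [sq_nonneg y, sq_nonneg z]
  have hx2 : x ≤ 1 := by nlinarith [sq_nonneg y, sq_nonneg z]
  have hmx : -1 / 1000 ≤ m * x ∧ m * x ≤ 1 / 1000 := by constructor <;> nlinarith
  have hw : -1 / 1000 ≤ m * x * z ∧ m * x * z ≤ 1 / 1000 := by constructor <;> nlinarith
  have hzj : -1 / 1000 ≤ z * j ∧ z * j ≤ 1 / 1000 := by constructor <;> nlinarith
  have big : y = 0 → 1 / 2 ≤ x ∨ x ≤ -1 / 2 := fun hy => by
    by_contra hc
    rw [not_or, not_le, not_le] at hc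
    rw [hy] at hp
    nlinarith [hc.1, hc.2]
  rcases he with rfl | rfl <;> rcases he' with rfl | rfl
  · have hy : y = 0 := by
      by_contra hy
      have b : y * (z * (128 * (m * x) + 1)) = 0 := by linear_combination e3 / 2
      have hz0 := (mul_eq_zero.1 ((mul_eq_zero.1 b).resolve_left hy)).resolve_right
        (by linarith [hmx.1])
      have : y * j = 0 := by linarith
      exact hy ((mul_eq_zero.1 this).resolve_right (hj0 hz0).ne')
    have b : z * (2 * j + x * (128 * (m * x) + 1)) = 0 := by linear_combination e2 / 2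
    have hz0 := (mul_eq_zero.1 b).resolve_right (by
      rcases big hy with h | h
      · nlinarith [hmx.1]
      · nlinarith [hmx.1])
    rw [hy, hz0] at hp
    exact Or.inr ⟨rfl, rfl, hy, hz0, sq_eq_one_iff.1 (by linarith)⟩
  · exfalso
    have b : y * (64 * (m * x * z) + 1) = 0 := by linear_combination e3 / 2
    have hy := (mul_eq_zero.1 b).resolve_right (by linarith [hw.1])
    have b' : z * j + x * (64 * (m * x * z) + 1) = 0 := by linear_combination e2 / 2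
    rcases big hy with h | h <;> nlinarith [hw.1, hzj.1, hzj.2]
  · exfalso
    have b : y * (64 * (m * x * z) - 1) = 0 := by linear_combination e3 / 2
    have hy := (mul_eq_zero.1 b).resolve_right (by linarith [hw.2])
    have b' : z * j + x * (64 * (m * x * z) - 1) = 0 := by linear_combination e2 / 2
    rcases big hy with h | h <;> nlinarith [hw.2, hzj.1, hzj.2]
  · refine Or.inl ⟨rfl, rfl, ?_⟩
    by_contra hz0
    have hx : x = 0 := (mul_eq_zero.1 (by linear_combination e2 / (-2) : z * x = 0)).resolve_left hz0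
    have hy : y = 0 := (mul_eq_zero.1 (by linear_combination e3 / (-2) : z * y = 0)).resolve_left hz0
    rw [hx, hy] at hp
    nlinarith

/-- Classification of the critical points. Write `Λ₁, Λ₂, Λ₃` for the derivatives in the three
coordinate directions; by `tan_S2` and `Crit.fderiv`: `X₁ Λ₂ = X₂ Λ₁`, `h Λ₁ = X₁ Λ₃`,
`X₂ Λ₃ = h Λ₂`. Let `k = kk h`, `P = PP p`, `q = 120 α P ^ (α - 1)`, so `q ≥ 14` for `h ≥ 0`
(there `P ≤ 34 / 25`, and `P ^ (α - 1) ≥ 1 / max 1 P`).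
* `h ≥ 1 / 4`: `tt` and its derivative vanish, `Λ₁ = 0`, `Λ₂ = e k q X₂`,
`Λ₃ = e (k' (60 P ^ α - uu) - (1 - k) (1 + h) + k q (h - 3 / 5)) + e' (1 - h)`. For `h ≤ 1 / 2`,
`e Λ₃ < 0`, which contradicts the equations. For `h ≥ 1 / 2` (`k = 1`, `k' = 0`): if `X₁ ≠ 0` then
`X₂ = 0`, `P = (h - 3 / 5) ^ 2` and `q |h - 3 / 5| > 1 - h` (since `P ≤ 1`, `P ^ (α - 1) ≥ P ^ (-1/2)`);
if `X₁ = 0` then `X₂ (e' (1 - h) - e q 3 / 5) = 0`, so `X₂ = 0`, `h = 1`.
* `h ≤ -1 / 4`: symmetric.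
* `|h| ≤ 1 / 4`: `kk` and its derivative vanish at `± h`, `Λ₂ = 0`, `Λ₁ = (2 + e + e') τ j` with
`j = σ (2 - 32 h ^ 2)`, `Λ₃ = -64 (2 + e + e') τ X₁ h σ' - e (1 + h) + e' (1 - h)`. -/
theorem lam_crit {α β e e' : ℝ} (hα : α = 1 / 4 ∨ α = 1 / 6) (hβ : β = 1 / 4 ∨ β = 1 / 6)
    (he : e = 1 ∨ e = -1) (he' : e' = 1 ∨ e' = -1) {p : P3} (hp : p ∈ S2) (h1 : PP p ≠ 0)
    (h2 : PP (flp p) ≠ 0) (hc : Crit S2 (Lam α β e e') p) :
    (e = -1 ∧ e' = -1 ∧ p.2.2 = 0) ∨ p = (0, 0, 1) ∨ p = (0, 0, -1) ∨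
      (e = 1 ∧ e' = 1 ∧ (p = (1, 0, 0) ∨ p = (-1, 0, 0))) := by
  have hd : ∀ v : P3, p.1 * v.1 + p.2.1 * v.2.1 + p.2.2 * v.2.2 = 0 → dLam α β e e' p v = 0 :=
    fun v hv => by
      obtain ⟨γ, hγ⟩ := (tan_S2 hp).2 hv
      have := lam_d α β e e' hγ.deriv (by rwa [hγ.zero]) (by rwa [hγ.zero])
      rw [hγ.zero] at this
      exact this.unique (hc v γ hγ)
  rcases le_total (1 / 4) p.2.2 with h | h
  · exact Or.inr (Or.inl (lam_top hα he he' hp h1 h hd))
  rcases le_total p.2.2 (-1 / 4) with h' | h'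
  · have := lam_top (β := α) (p := flp p) hβ he' he (by simpa [S2, flp] using hp) h2
      (by simp only [flp]; linarith) fun v hv => by
        have := hd (flp v) (by simp only [flp] at hv ⊢; linarith)
        rw [← lam_flp] at this
        simpa only [flp, neg_neg] using this
    simp only [flp, Prod.mk.injEq] at this
    exact Or.inr (Or.inr (Or.inl (Prod.ext this.1 (Prod.ext this.2.1 (by linarith [this.2.2])))))
  have e1 := hd (p.2.1, -p.1, 0) (by ring)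
  have e2 := hd (p.2.2, 0, -p.1) (by ring)
  have e3 := hd (0, p.2.2, -p.2.1) (by ring)
  rw [lam_mid _ _ _ _ h' h, dtt] at e1 e2 e3
  dsimp only at e1 e2 e3
  have hj := smoothTransition.le_one (2 - 32 * p.2.2 ^ 2)
  rcases lam_alg2 (j := tau * smoothTransition (2 - 32 * p.2.2 ^ 2)) hp h' h
    (mul_nonneg tau_pos.le (smoothTransition.nonneg _)) (by nlinarith [tau_pos, tau_le])
    (fun h => mul_pos tau_pos (smoothTransition.pos_of_pos (by rw [h]; norm_num)))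
    (lam_small (2 - 32 * p.2.2 ^ 2)).1 (lam_small _).2 he he' (by linear_combination e1)
    (by linear_combination e2) (by linear_combination e3) with h | ⟨a, b, c, d, f⟩
  · exact Or.inl h
  · exact Or.inr (Or.inr (Or.inr ⟨a, b, f.imp (fun f => Prod.ext f (Prod.ext c d))
      fun f => Prod.ext f (Prod.ext c d)⟩))

theorem lam_hk {α β e e' : ℝ} {p v : P3} (hk : HK S2 (Lam α β e e') p v) (h1 : PP p ≠ 0)
    (h2 : PP (flp p) ≠ 0) {ξ : P3 → P3} (hξ : DifferentiableAt ℝ ξ p)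
    (ht : ∀ x : P3, x.1 * (ξ x).1 + x.2.1 * (ξ x).2.1 + x.2.2 * (ξ x).2.2 = 0) (L : P3 →L[ℝ] ℝ)
    (hL : L p = 0) {g : P3 → ℝ} (hg : DifferentiableAt ℝ g p) (h0 : g p ≠ 0)
    (he : ∀ᶠ x in 𝓝 p, dLam α β e e' x (ξ x) = L x * g x) : L v = 0 := by
  have c1 : Continuous PP := by unfold PP; fun_prop
  have c2 : Continuous fun p => PP (flp p) := by unfold PP flp; fun_prop
  have := hk ξ (fun x => L x * g x) hξ (L.differentiableAt.mul hg) (by
    filter_upwards [self_mem_nhdsWithin, mem_nhdsWithin_of_mem_nhds he,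
      mem_nhdsWithin_of_mem_nhds (c1.continuousAt.eventually_ne h1),
      mem_nhdsWithin_of_mem_nhds (c2.continuousAt.eventually_ne h2)] with x hx a1 a2 a3
    obtain ⟨γ, hγ⟩ := (tan_S2 hx).2 (ht x)
    have := lam_d α β e e' hγ.deriv (by rwa [hγ.zero]) (by rwa [hγ.zero])
    rw [hγ.zero, a1] at this
    exact ⟨γ, hγ, this⟩)
  rw [(L.hasFDerivAt.fun_mul hg.hasFDerivAt).fderiv] at this
  simpa [hL, h0] using this

theorem lam_up' (α β e e' : ℝ) {p : P3} (h : 1 / 2 ≤ p.2.2) (v : P3) : dLam α β e e' p v =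
    e * (120 * α * PP p ^ (α - 1)) * (p.2.1 * v.2.1 + (p.2.2 - 3 / 5) * v.2.2) +
      e' * ((1 - p.2.2) * v.2.2) := by
  have k1 : kk p.2.2 = 1 := smoothTransition.one_of_one_le (by linarith)
  rw [lam_up _ _ _ _ (by linarith), k1, lam_d1 (by linarith)]
  ring

theorem lam_dn' (α β e e' : ℝ) {p : P3} (h : p.2.2 ≤ -1 / 2) (v : P3) : dLam α β e e' p v =
    e' * (120 * β * PP (flp p) ^ (β - 1)) * (p.2.1 * v.2.1 + (p.2.2 + 3 / 5) * v.2.2) -
      e * ((1 + p.2.2) * v.2.2) := by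
  rw [← lam_flp, lam_up' _ _ _ _ (by simp only [flp]; linarith)]
  simp only [flp]
  ring

theorem lam_eq' (α β : ℝ) {p : P3} (h : -1 / 8 ≤ p.2.2) (h' : p.2.2 ≤ 1 / 8) (v : P3) :
    dLam α β 1 1 p v = 4 * tau * v.1 - 2 * p.2.2 * v.2.2 := by
  have h1 : 1 ≤ 2 - 32 * p.2.2 ^ 2 := by nlinarith
  rw [lam_mid _ _ _ _ (by linarith) (by linarith), dtt, smoothTransition.one_of_one_le h1, lam_d1 h1]
  ring

/-- Nondegeneracy. Apply `HK` to the rotation fields `ξ p = (h, 0, -X₁)`, `(0, h, -X₂)`,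
`(X₂, -X₁, 0)` with `e p = fderiv ℝ Λ p (ξ p)`. Near the north pole
`Λ = const + 60 e P ^ α - e' (1 - h) ^ 2 / 2`; near `(± 1, 0, 0)`, `Λ = const - h ^ 2 + 4 τ X₁`. -/
theorem lam_nd {α β e e' : ℝ} (hα : α = 1 / 4 ∨ α = 1 / 6) (hβ : β = 1 / 4 ∨ β = 1 / 6)
    (he : e = 1 ∨ e = -1) (he' : e' = 1 ∨ e' = -1) {p : P3}
    (hp : p = (0, 0, 1) ∨ p = (0, 0, -1) ∨ (e = 1 ∧ e' = 1 ∧ (p = (1, 0, 0) ∨ p = (-1, 0, 0))))
    {v : P3} (hv : Tan S2 p v) (hk : HK S2 (Lam α β e e') p v) : v = 0 := by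
  let L1 : P3 →L[ℝ] ℝ := ContinuousLinearMap.fst ℝ ℝ (ℝ × ℝ)
  let L2 : P3 →L[ℝ] ℝ := (ContinuousLinearMap.fst ℝ ℝ ℝ).comp (ContinuousLinearMap.snd ℝ ℝ (ℝ × ℝ))
  let L3 : P3 →L[ℝ] ℝ := (ContinuousLinearMap.snd ℝ ℝ ℝ).comp (ContinuousLinearMap.snd ℝ ℝ (ℝ × ℝ))
  have c3 : Continuous fun p : P3 => p.2.2 := by fun_prop
  have hα0 : α ≠ 0 := by rcases hα with h | h <;> rw [h] <;> norm_num
  have hβ0 : β ≠ 0 := by rcases hβ with h | h <;> rw [h] <;> norm_num
  have he0 : e ≠ 0 := by rcases he with h | h <;> rw [h] <;> norm_num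
  have he1 : e' ≠ 0 := by rcases he' with h | h <;> rw [h] <;> norm_num
  rcases hp with rfl | rfl | ⟨rfl, rfl, hp⟩
  · have p1 : 0 < PP (0, 0, 1) := by norm_num [PP]
    have p2 : PP (flp (0, 0, 1)) ≠ 0 := by norm_num [PP, flp]
    have dq : DifferentiableAt ℝ (fun p : P3 => PP p ^ (α - 1)) (0, 0, 1) :=
      DifferentiableAt.rpow_const (by unfold PP; fun_prop) (Or.inl p1.ne')
    have q0 := (Real.rpow_pos_of_pos p1 (α - 1)).ne'
    have ev : ∀ᶠ x in 𝓝 ((0, 0, 1) : P3), 1 / 2 ≤ x.2.2 :=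
      c3.continuousAt.eventually (le_mem_nhds (by norm_num))
    have a1 : v.1 = 0 := lam_hk hk p1.ne' p2 (ξ := fun x => (x.2.2, 0, -x.1)) (by fun_prop)
      (fun x => by ring) L1 rfl
      (g := fun x => -(e * (120 * α * PP x ^ (α - 1)) * (x.2.2 - 3 / 5) + e' * (1 - x.2.2)))
      (by fun_prop) (by norm_num [he0, hα0, q0])
      (ev.mono fun x hx => by rw [lam_up' _ _ _ _ hx]; simp only [L1]; simp; ring)
    have a2 : v.2.1 = 0 := lam_hk hk p1.ne' p2 (ξ := fun x => (0, x.2.2, -x.2.1)) (by fun_prop)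
      (fun x => by ring) L2 rfl
      (g := fun x => e * (120 * α * PP x ^ (α - 1)) * (3 / 5) - e' * (1 - x.2.2))
      (by fun_prop) (by norm_num [he0, hα0, q0])
      (ev.mono fun x hx => by rw [lam_up' _ _ _ _ hx]; simp only [L2]; simp; ring)
    have a3 := (tan_S2 (by simp [S2])).1 hv
    exact Prod.ext a1 (Prod.ext a2 (by simpa using a3))
  · have p1 : PP (0, 0, -1) ≠ 0 := by norm_num [PP]
    have p2 : 0 < PP (flp (0, 0, -1)) := by norm_num [PP, flp]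
    have dq : DifferentiableAt ℝ (fun p : P3 => PP (flp p) ^ (β - 1)) (0, 0, -1) :=
      DifferentiableAt.rpow_const (by unfold PP flp; fun_prop) (Or.inl p2.ne')
    have q0 := (Real.rpow_pos_of_pos p2 (β - 1)).ne'
    have ev : ∀ᶠ x in 𝓝 ((0, 0, -1) : P3), x.2.2 ≤ -1 / 2 :=
      c3.continuousAt.eventually (ge_mem_nhds (by norm_num))
    have a1 : v.1 = 0 := lam_hk hk p1 p2.ne' (ξ := fun x => (x.2.2, 0, -x.1)) (by fun_prop)
      (fun x => by ring) L1 rfl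
      (g := fun x => e * (1 + x.2.2) - e' * (120 * β * PP (flp x) ^ (β - 1)) * (x.2.2 + 3 / 5))
      (by fun_prop) (by norm_num [he1, hβ0, q0])
      (ev.mono fun x hx => by rw [lam_dn' _ _ _ _ hx]; simp only [L1]; simp; ring)
    have a2 : v.2.1 = 0 := lam_hk hk p1 p2.ne' (ξ := fun x => (0, x.2.2, -x.2.1)) (by fun_prop)
      (fun x => by ring) L2 rfl
      (g := fun x => e * (1 + x.2.2) - e' * (120 * β * PP (flp x) ^ (β - 1)) * (3 / 5))
      (by fun_prop) (by norm_num [he1, hβ0, q0])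
      (ev.mono fun x hx => by rw [lam_dn' _ _ _ _ hx]; simp only [L2]; simp; ring)
    have a3 := (tan_S2 (by simp [S2])).1 hv
    exact Prod.ext a1 (Prod.ext a2 (by simpa using a3))
  · have h23 : p.2.1 = 0 ∧ p.2.2 = 0 := by rcases hp with rfl | rfl <;> exact ⟨rfl, rfl⟩
    have p1 : PP p ≠ 0 := by norm_num [PP, h23.1, h23.2]
    have p2 : PP (flp p) ≠ 0 := by norm_num [PP, flp, h23.1, h23.2]
    have ev : ∀ᶠ x in 𝓝 p, -1 / 8 ≤ x.2.2 ∧ x.2.2 ≤ 1 / 8 :=
      (c3.continuousAt.eventually (le_mem_nhds (by norm_num [h23.2]))).and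
        (c3.continuousAt.eventually (ge_mem_nhds (by norm_num [h23.2])))
    have := tau_pos
    have := tau_le
    have a2 : v.2.1 = 0 := lam_hk hk p1 p2 (ξ := fun x => (x.2.1, -x.1, 0)) (by fun_prop)
      (fun x => by ring) L2 h23.1 (g := fun _ => 4 * tau) (by fun_prop) (by positivity)
      (ev.mono fun x hx => by rw [lam_eq' _ _ hx.1 hx.2]; simp only [L2]; simp; ring)
    have a3 : v.2.2 = 0 := lam_hk hk p1 p2 (ξ := fun x => (x.2.2, 0, -x.1)) (by fun_prop)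
      (fun x => by ring) L3 h23.2 (g := fun x => 4 * tau + 2 * x.1) (by fun_prop)
      (by rcases hp with rfl | rfl <;> dsimp only <;> intro h <;> linarith)
      (ev.mono fun x hx => by rw [lam_eq' _ _ hx.1 hx.2]; simp only [L3]; simp; ring)
    refine Prod.ext ?_ (Prod.ext a2 a3)
    rcases hp with rfl | rfl <;> simpa using (tan_S2 (by simp [S2])).1 hv

end Vale.Agent.P265
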