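import Mathlib

/-!
Relative dimensions of subspaces, and subquotient complexes of one space with a differential.
-/

noncomputable section

namespace Vale.Agent.P265

section rd
variable {K : Type} [Field K] {F G : Type} [AddCommGroup F] [Module K F] [AddCommGroup G]
  [Module K G]

/-- The dimension of the image of `U` in the quotient by `W`. -/
def rd (U W : Submodule K F) : ℕ∞ := (Module.rank K (U.map W.mkQ)).toENat

theorem Lin_rank {A B : Type} [AddCommGroup A] [Module K A] [AddCommGroup B] [Module K B]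
    (f : F →ₗ[K] A) (g : F →ₗ[K] B) (U : Submodule K F) (h : ∀ z ∈ U, f z = 0 → g z = 0) :
    Module.rank K (U.map g) ≤ Module.rank K (U.map f) := by
  rw [← LinearMap.range_domRestrict, ← LinearMap.range_domRestrict,
    ← (f.domRestrict U).quotKerEquivRange.rank_eq,
    ← Submodule.range_liftQ (LinearMap.ker (f.domRestrict U)) (g.domRestrict U)
      fun z hz => h z z.2 hz]
  exact rank_range_le _

theorem Lin_anti {U W W' : Submodule K F} (h : ∀ z ∈ U, z ∈ W → z ∈ W') : rd U W' ≤ rd U W :=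
  OrderHomClass.mono Cardinal.toENat (Lin_rank _ _ U fun z hz => by simpa using h z hz)

theorem Lin_mono {U U' : Submodule K F} (h : U ≤ U') (W : Submodule K F) : rd U W ≤ rd U' W :=
  OrderHomClass.mono Cardinal.toENat (Submodule.rank_mono (Submodule.map_mono h))

theorem rd_eq_zero {U W : Submodule K F} : rd U W = 0 ↔ U ≤ W := by
  rw [rd, Cardinal.toENat_eq_zero, Submodule.rank_eq_zero, ← LinearMap.le_ker_iff_map,
    Submodule.ker_mkQ]

theorem rd_sup (U W : Submodule K F) : rd (U ⊔ W) W = rd U W := by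
  rw [rd, Submodule.map_sup, Submodule.mkQ_map_self, sup_bot_eq, rd]

theorem rd_inf (U W : Submodule K F) : rd U (U ⊓ W) = rd U W := by
  exact le_antisymm (Lin_anti fun z h h' => ⟨h, h'⟩) (Lin_anti fun z _ h => h.2)

theorem rd_map (φ : F →ₗ[K] G) (U : Submodule K F) (W : Submodule K G) :
    rd (U.map φ) W = rd U (W.comap φ) := by
  rw [rd, rd, ← Submodule.map_comp]
  exact congrArg _ (le_antisymm (Lin_rank _ _ U fun z _ => by simp)
    (Lin_rank _ _ U fun z _ => by simp))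

/-- Additivity in chains (rank-nullity for the map between the two quotients). -/
theorem rd_add {U V W : Submodule K F} (h1 : W ≤ V) (h2 : V ≤ U) : rd U W = rd U V + rd V W := by
  have h := ((Submodule.factor h1).domRestrict (U.map W.mkQ)).rank_range_add_rank_ker
  rw [LinearMap.range_domRestrict, ← Submodule.map_comp, Submodule.factor_comp_mk,
    LinearMap.ker_domRestrict, Submodule.factor, Submodule.mapQ, Submodule.ker_liftQ,
    LinearMap.comp_id, Submodule.ker_mkQ,
    (Submodule.comapSubtypeEquivOfLe (Submodule.map_mono h2)).rank_eq] at h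
  rw [rd, ← h, map_add, rd, rd]

theorem rd_le_of_inj (φ : F →ₗ[K] G) {U W : Submodule K F} {U' W' : Submodule K G}
    (h1 : ∀ z ∈ U, φ z ∈ U') (h2 : ∀ z ∈ U, φ z ∈ W' → z ∈ W) : rd U W ≤ rd U' W' := by
  refine (Lin_anti (W := W'.comap φ) h2).trans ?_
  rw [← rd_map]
  exact Lin_mono (Submodule.map_le_iff_le_comap.2 h1) _

theorem rd_le_of_surj (φ : G →ₗ[K] F) {U W : Submodule K F} {U' W' : Submodule K G}
    (h1 : ∀ z ∈ U, ∃ z' ∈ U', z - φ z' ∈ W) (h2 : ∀ z ∈ W', φ z ∈ W) : rd U W ≤ rd U' W' := by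
  refine (Lin_mono (U' := U'.map φ ⊔ W) (fun z hz => ?_) W).trans ?_
  · obtain ⟨z', h3, h4⟩ := h1 z hz
    exact Submodule.mem_sup.2 ⟨_, ⟨z', h3, rfl⟩, _, h4, add_sub_cancel _ _⟩
  · rw [rd_sup, rd_map]
    exact Lin_anti fun z _ => h2 z

theorem one_le_rd {U W : Submodule K F} {z : F} (h1 : z ∈ U) (h2 : z ∉ W) : 1 ≤ rd U W := by
  exact Order.one_le_iff_ne_zero.2 fun h => h2 (rd_eq_zero.1 h h1)

theorem rd_le_one {U W : Submodule K F} (z : F) (h : ∀ u ∈ U, ∃ c : K, u - c • z ∈ W) :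
    rd U W ≤ 1 := by
  refine (rd_le_of_surj LinearMap.id (U' := Submodule.span K {z}) (W' := W) (fun u hu => ?_)
    fun _ h => h).trans ?_
  · obtain ⟨c, hc⟩ := h u hu
    exact ⟨_, Submodule.smul_mem _ c (Submodule.mem_span_singleton_self z), hc⟩
  · rw [← map_one Cardinal.toENat, ← Cardinal.mk_singleton z]
    exact OrderHomClass.mono Cardinal.toENat ((rank_map_le _ _).trans (rank_span_le _))

/-- A graded family stable under `d`. -/
def IsSub (d : F →ₗ[K] F) (P : ℕ → Submodule K F) : Prop := ∀ n, ∀ z ∈ P n, d z ∈ P (n + 1)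

/-- Cocycles of degree `n` of the subquotient `P / Q` (degree `n` sits at level `n + 1`). -/
def Zc (d : F →ₗ[K] F) (P Q : ℕ → Submodule K F) (n : ℕ) : Submodule K F :=
  P (n + 1) ⊓ (Q (n + 2)).comap d

/-- Coboundaries of degree `n` of the subquotient `P / Q`. -/
def Bc (d : F →ₗ[K] F) (P Q : ℕ → Submodule K F) (n : ℕ) : Submodule K F :=
  (P n).map d ⊔ Q (n + 1)

/-- Betti numbers of the subquotient `P / Q`. -/
def bet (d : F →ₗ[K] F) (P Q : ℕ → Submodule K F) (n : ℕ) : ℕ∞ := rd (Zc d P Q n) (Bc d P Q n)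

theorem Lin_BZ {d : F →ₗ[K] F} (hd : ∀ z, d (d z) = 0) {P Q : ℕ → Submodule K F}
    (hP : IsSub d P) (hQ : IsSub d Q) (hQP : ∀ n, Q n ≤ P n) (n : ℕ) :
    Bc d P Q n ≤ Zc d P Q n := by
  refine sup_le ?_ fun z hz => ⟨hQP _ hz, hQ _ z hz⟩
  rintro _ ⟨z, hz, rfl⟩
  exact ⟨hP n z hz, by simp [hd]⟩

/-- The long exact sequence of `Q ≤ R ≤ P`, in terms of ranks. Take
`i n = rd (Zc P Q n) (Zc R Q n ⊔ Bc P Q n)`, `j n = rd (Zc R Q n) (Bc P Q n)`,
`r (n + 1) = rd (Zc P R n) (Zc P Q n ⊔ R (n + 1))`; use the modular law, `rd_add`, `rd_map`. -/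
theorem les_rank {d : F →ₗ[K] F} (hd : ∀ z, d (d z) = 0) {P Q R : ℕ → Submodule K F}
    (hP : IsSub d P) (hQ : IsSub d Q) (hR : IsSub d R) (hQR : ∀ n, Q n ≤ R n)
    (hRP : ∀ n, R n ≤ P n) (h0 : ∀ z ∈ P 0, d z ∈ Q 1) :
    ∃ i j r : ℕ → ℕ∞, r 0 = 0 ∧ (∀ n, bet d P Q n = i n + j n) ∧
      (∀ n, bet d P R n = i n + r (n + 1)) ∧ (∀ n, bet d R Q n = j n + r n) ∧
      (∀ n, (∀ z ∈ Zc d P R n, ∃ z' ∈ Zc d P Q n, z - z' ∈ R (n + 1)) → r (n + 1) = 0) := by
  have hQP := fun n => (hQR n).trans (hRP n)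
  refine ⟨fun n => rd (Zc d P Q n) (Zc d R Q n ⊔ Bc d P Q n), fun n => rd (Zc d R Q n) (Bc d P Q n),
    fun n => n.casesOn 0 fun n => rd (Zc d P R n) (Zc d P Q n ⊔ R (n + 1)), rfl, fun n => ?_,
    fun n => ?_, fun n => ?_, fun n h => rd_eq_zero.2 fun z hz => ?_⟩
  · rw [bet, rd_add (U := Zc d P Q n) (V := Zc d R Q n ⊔ Bc d P Q n) le_sup_right
      (sup_le (inf_le_inf_right _ (hRP _)) (Lin_BZ hd hP hQ hQP n)), rd_sup]
  · have h1 : Zc d P Q n ⊔ R (n + 1) = Zc d P Q n ⊔ Bc d P R n :=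
      le_antisymm (sup_le_sup_left le_sup_right _) (sup_le le_sup_left (sup_le_sup_right
        (le_sup_left.trans (Lin_BZ hd hP hQ hQP n)) _))
    rw [bet, rd_add (U := Zc d P R n) (V := Zc d P Q n ⊔ Bc d P R n) le_sup_right
      (sup_le (inf_le_inf_left _ (Submodule.comap_mono (hQR _))) (Lin_BZ hd hP hR hRP n)),
      rd_sup, add_comm, ← h1]
    refine congrArg (· + _) (le_antisymm (Lin_anti fun z _ hz => ?_) (Lin_anti fun z hz h => ?_))
    · exact sup_le (inf_le_left.trans le_sup_right) (sup_le_sup_left (hQR _) _) hz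
    · obtain ⟨_, ⟨p, hp, rfl⟩, y, hy, rfl⟩ := Submodule.mem_sup.1 h
      refine Submodule.mem_sup.2 ⟨y, ⟨hy, ?_⟩, _,
        Submodule.mem_sup_left ⟨p, hp, rfl⟩, add_comm _ _⟩
      simpa [hd] using hz.2
  · rw [bet, rd_add (V := Zc d R Q n ⊓ Bc d P Q n) (le_inf (Lin_BZ hd hR hQ hQR n)
      (sup_le_sup_right (Submodule.map_mono (hRP n)) _)) inf_le_left, rd_inf]
    refine congrArg (_ + ·) ?_
    rcases n with _ | n
    · exact rd_eq_zero.2 (inf_le_right.trans (sup_le
        ((Submodule.map_le_iff_le_comap.2 h0).trans le_sup_right) le_sup_right))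
    refine le_antisymm (rd_le_of_surj d (fun z hz => ?_) ?_)
      (rd_le_of_inj d (fun z hz => ?_) fun z hz h => ?_)
    · obtain ⟨_, ⟨p, hp, rfl⟩, y, hy, e⟩ := Submodule.mem_sup.1 hz.2
      refine ⟨p, ⟨hp, ?_⟩, Submodule.mem_sup_right (by rwa [← e, add_sub_cancel_left])⟩
      have := Submodule.sub_mem _ hz.1.1 (hQR _ hy)
      rwa [← e, add_sub_cancel_right] at this
    · exact (sup_le (fun z hz => Submodule.mem_sup_right hz.2)
        fun z hz => Submodule.mem_sup_left ⟨z, hz, rfl⟩ :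
        Zc d P Q n ⊔ R (n + 1) ≤ (Bc d R Q (n + 1)).comap d)
    · exact ⟨⟨hz.2, by simp [hd]⟩, Submodule.mem_sup_left ⟨z, hz.1, rfl⟩⟩
    · obtain ⟨_, ⟨p, hp, rfl⟩, y, hy, e⟩ := Submodule.mem_sup.1 h
      refine Submodule.mem_sup.2 ⟨z - p, ⟨Submodule.sub_mem _ hz.1 (hRP _ hp), ?_⟩, p, hp,
        sub_add_cancel _ _⟩
      rwa [SetLike.mem_coe, Submodule.mem_comap, map_sub, ← e, add_sub_cancel_left]
  · obtain ⟨z', h1, h2⟩ := h z hz
    exact Submodule.mem_sup.2 ⟨z', h1, _, h2, add_sub_cancel _ _⟩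

end rd

/-- The truncated alternating sum `b n - b (n - 1) + b (n - 2) - ⋯`. -/
def alt (b : ℕ → ℕ) : ℕ → ℤ
  | 0 => b 0
  | n + 1 => b (n + 1) - alt b n

/-- Shift of a sequence by `d` places to the right. -/
def sh (d : ℕ) (b : ℕ → ℕ∞) (n : ℕ) : ℕ∞ := if d ≤ n then b (n - d) else 0

/-- `b` is finite and its truncated alternating sums are at most those of `c`. -/
def Dom (b : ℕ → ℕ∞) (c : ℕ → ℕ) : Prop :=
  ∃ b' : ℕ → ℕ, (∀ n, b n = b' n) ∧ ∀ n, alt b' n ≤ alt c n

/-- Subadditivity along a long exact sequence: the defect at `n` is `r (n + 1)`. -/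
theorem Dom.les {x y z i j r : ℕ → ℕ∞} {c c' : ℕ → ℕ} (h0 : r 0 = 0) (hx : ∀ n, x n = i n + j n)
    (hy : ∀ n, y n = i n + r (n + 1)) (hz : ∀ n, z n = j n + r n) (h1 : Dom y c) (h2 : Dom z c') :
    Dom x (c + c') := by
  obtain ⟨y', hy', h1⟩ := h1
  obtain ⟨z', hz', h2⟩ := h2
  have hi : ∀ n, i n ≠ ⊤ := fun n h => by simpa [h, hy'] using hy n
  have hj : ∀ n, j n ≠ ⊤ := fun n h => by simpa [h, hz'] using hz n
  have hr : ∀ n, r n ≠ ⊤ := fun n h => by simpa [h, hz'] using hz n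
  lift i to ℕ → ℕ using hi
  lift j to ℕ → ℕ using hj
  lift r to ℕ → ℕ using hr
  beta_reduce at h0 hx hy hz
  have e1 : ∀ n, y' n = i n + r (n + 1) := fun n => by exact_mod_cast (hy' n).symm.trans (hy n)
  have e2 : ∀ n, z' n = j n + r n := fun n => by exact_mod_cast (hz' n).symm.trans (hz n)
  have e0 : r 0 = 0 := by exact_mod_cast h0
  have e3 : ∀ n, alt (fun n => i n + j n) n + r (n + 1) = alt y' n + alt z' n := fun n => by
    induction n with
    | zero => simp only [alt, e1, e2]; omega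
    | succ n ih => simp only [alt, e1, e2]; omega
  have e4 : ∀ n, alt (c + c') n = alt c n + alt c' n := fun n => by
    induction n with
    | zero => simp [alt]
    | succ n ih => simp only [alt, ih, Pi.add_apply]; omega
  refine ⟨fun n => i n + j n, fun n => by rw [hx]; norm_cast, fun n => ?_⟩
  have := e3 n
  have := e4 n
  have := h1 n
  have := h2 n
  omega

theorem Dom.zero : Dom (fun _ => 0) (fun _ => 0) := by
  exact ⟨fun _ => 0, fun _ => rfl, fun _ => le_rfl⟩

theorem Dom.single (j : ℕ) : Dom (fun n => if n = j then 1 else 0) (fun n => if n = j then 1 else 0) := by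
  exact ⟨_, fun n => by by_cases h : n = j <;> simp [h], fun _ => le_rfl⟩

/-- If `x = sh k (b + sh 1 b)` then the truncated sums of `x` are the numbers `sh k b`. -/
theorem Dom.circle {b x : ℕ → ℕ∞} {c : ℕ → ℕ} {k : ℕ}
    (hx : ∀ n, x n = sh k (fun m => b m + sh 1 b m) n) (h : Dom x c) :
    (∀ n, 0 ≤ alt c n) ∧ ∀ (m t : ℕ), (t : ℕ∞) ≤ b m → (t : ℤ) ≤ alt c (k + m) := by
  obtain ⟨x', hx', h⟩ := h
  have e0 : (x' 0 : ℕ∞) = sh k b 0 := by
    rw [← hx', hx]
    simp [sh]
  have e1 : ∀ n, (x' (n + 1) : ℕ∞) = sh k b (n + 1) + sh k b n := fun n => by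
    rw [← hx', hx]
    simp only [sh]
    rcases lt_trichotomy k (n + 1) with h | rfl | h
    · rw [if_pos h.le, if_pos h.le, if_pos (by omega), if_pos (by omega),
        show n + 1 - k - 1 = n - k by omega]
    · simp
    · rw [if_neg (by omega), if_neg (by omega), if_neg (by omega), add_zero]
  have hs : ∀ n, sh k b n ≠ ⊤ := fun n h => by simpa [h] using e1 n
  have hb : ∀ m, sh k b (k + m) = b m := fun m => by simp [sh]
  generalize sh k b = s at *
  lift s to ℕ → ℕ using hs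
  beta_reduce at e0 e1 hb
  have e2 : ∀ n, alt x' n = s n := fun n => by
    induction n with
    | zero => rw [alt]; exact_mod_cast e0
    | succ n ih =>
      have : x' (n + 1) = s (n + 1) + s n := by exact_mod_cast e1 n
      simp only [alt]
      omega
  refine ⟨fun n => le_trans (by rw [e2]; positivity) (h n), fun m t ht => le_trans ?_ (h _)⟩
  rw [← hb] at ht
  rw [e2]
  exact_mod_cast ht

/-- The final count. `c` counts critical points by index, `c'` by coindex. Since `c` vanishes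
beyond `k + k' + 8 = N`, `alt c (N + 1) = - alt c N` forces `alt c N = 0`; then
`alt c' i = alt c (N - 1 - i)` and the total is twice the sum of `alt c i` over `i < N`. -/
theorem count_le {k k' : ℕ} {c c' : ℕ → ℕ} (hc : ∀ n, k + k' + 8 < n → c n = 0)
    (hc' : ∀ n ≤ k + k' + 8, c' n = c (k + k' + 8 - n))
    (h0 : ∀ n, 0 ≤ alt c n) (t : ℕ → ℕ) (h1 : ∀ m < 4, (t m : ℤ) ≤ alt c (k + m))
    (h2 : ∀ m < 4, (t m : ℤ) ≤ alt c' (k' + m)) :
    4 * (t 0 + t 1 + t 2 + t 3) ≤ ∑ n ∈ Finset.range (k + k' + 9), c n := by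
  have e1 : ∀ n, (c (n + 1) : ℤ) = alt c (n + 1) + alt c n := fun n => by simp [alt]
  have e2 : alt c (k + k' + 8) = 0 := by
    have := e1 (k + k' + 8)
    have := hc (k + k' + 8 + 1) (by omega)
    have := h0 (k + k' + 8)
    have := h0 (k + k' + 8 + 1)
    omega
  have e3 : ∀ M, ((∑ n ∈ Finset.range (M + 1), c n : ℕ) : ℤ) =
      alt c M + 2 * ∑ i ∈ Finset.range M, alt c i := fun M => by
    induction M with
    | zero => simp [alt]
    | succ M ih =>
      rw [Finset.sum_range_succ, Nat.cast_add, ih, e1, Finset.sum_range_succ]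
      ring
  have e4 : ∀ i ≤ k + k' + 7, alt c' i = alt c (k + k' + 7 - i) := fun i hi => by
    induction i with
    | zero => rw [alt, hc' 0 (by omega), Nat.sub_zero, e1, e2, zero_add, Nat.sub_zero]
    | succ i ih =>
      obtain ⟨u, hu⟩ : ∃ u, k + k' + 7 - i = u + 1 := ⟨k + k' + 6 - i, by omega⟩
      rw [alt, hc' _ (by omega), ih (by omega), show k + k' + 8 - (i + 1) = u + 1 by omega, hu, e1,
        show k + k' + 7 - (i + 1) = u by omega]
      ring
  have e5 : ∑ i ∈ Finset.range 8, alt c (k + i) ≤ ∑ i ∈ Finset.range (k + k' + 8), alt c i := by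
    rw [show k + k' + 8 = k + (8 + k') by ring, Finset.sum_range_add, Finset.sum_range_add]
    have := Finset.sum_nonneg fun i (_ : i ∈ Finset.range k) => h0 i
    have := Finset.sum_nonneg fun i (_ : i ∈ Finset.range k') => h0 (k + (8 + i))
    linarith
  have e6 : ∀ m < 4, (t m : ℤ) ≤ alt c (k + (7 - m)) := fun m hm => by
    have := h2 m hm
    rwa [e4 _ (by omega), show k + k' + 7 - (k' + m) = k + (7 - m) by omega] at this
  have e7 := e3 (k + k' + 8)
  simp only [Finset.sum_range_succ _ 7, Finset.sum_range_succ _ 6, Finset.sum_range_succ _ 5,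
    Finset.sum_range_succ _ 4, Finset.sum_range_succ _ 3, Finset.sum_range_succ _ 2,
    Finset.sum_range_succ _ 1, Finset.sum_range_one] at e5
  have a0 := h1 0 (by norm_num)
  have a1 := h1 1 (by norm_num)
  have a2 := h1 2 (by norm_num)
  have a3 := h1 3 (by norm_num)
  have a4 : _ ≤ alt c (k + 4) := e6 3 (by norm_num)
  have a5 : _ ≤ alt c (k + 5) := e6 2 (by norm_num)
  have a6 : _ ≤ alt c (k + 6) := e6 1 (by norm_num)
  have a7 : _ ≤ alt c (k + 7) := e6 0 (by norm_num)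
  rw [show k + k' + 9 = k + k' + 8 + 1 from rfl]
  omega

end Vale.Agent.P265
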