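import Vale.Agent.P265.Chart
import Vale.Agent.P265.Flow
import Vale.Agent.P234.Flow

/-!
The Morse lemma and Sylvester's normal form.
-/

open scoped ContDiff Topology
open Set Filter

noncomputable section

namespace Vale.Agent.P265

variable {E : Type} [NormedAddCommGroup E] [NormedSpace ℝ E] [FiniteDimensional ℝ E]

/-- From `QuadraticForm.equivalent_one_neg_one_weighted_sum_squared`. -/
theorem sylvester (Q : QuadraticForm ℝ E) (h : ∀ z, (∀ w, QuadraticMap.polar Q z w = 0) → z = 0) :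
    ∃ (j j' : ℕ) (e : E ≃L[ℝ] Eu j × Eu j'), j + j' = Module.finrank ℝ E ∧
      ∀ z, Q z = ‖(e z).2‖ ^ 2 - ‖(e z).1‖ ^ 2 := by
  classical
  obtain ⟨w, hw, ⟨iso⟩⟩ := Q.equivalent_one_neg_one_weighted_sum_squared (fun z hz => h z fun y => by
    have := hz y
    have h2 := DFunLike.congr_fun (DFunLike.congr_fun (QuadraticMap.two_nsmul_associated ℝ Q) z) y
    rw [LinearMap.smul_apply, LinearMap.smul_apply,
      show QuadraticMap.associatedHom ℝ Q z y = 0 from this, smul_zero] at h2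
    exact h2.symm)
  let σ : Fin (Fintype.card {i // w i = -1}) ⊕ Fin (Fintype.card {i // ¬w i = -1}) ≃
      Fin (Module.finrank ℝ E) := ((Fintype.equivFin _).symm.sumCongr
    (Fintype.equivFin _).symm).trans (Equiv.sumCompl fun i => w i = -1)
  have s1 : ∀ a, w (σ (Sum.inl a)) = -1 := fun a => ((Fintype.equivFin _).symm a :
    {i // w i = -1}).2
  have s2 : ∀ a, w (σ (Sum.inr a)) = 1 := fun a => (hw _).resolve_left
    ((Fintype.equivFin _).symm a : {i // ¬w i = -1}).2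
  let e := ((iso.toLinearEquiv.trans (LinearEquiv.funCongrLeft ℝ ℝ σ)).trans
    (LinearEquiv.sumArrowLequivProdArrow _ _ ℝ ℝ)).trans
    ((WithLp.linearEquiv 2 ℝ _).symm.prodCongr (WithLp.linearEquiv 2 ℝ _).symm)
  refine ⟨_, _, e.toContinuousLinearEquiv, by simpa using Fintype.card_congr σ, fun z => ?_⟩
  rw [← iso.map_app z, QuadraticMap.weightedSumSquares_apply, ← σ.sum_comp,
    Fintype.sum_sum_type, EuclideanSpace.real_norm_sq_eq, EuclideanSpace.real_norm_sq_eq]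
  simp only [s1, s2, smul_eq_mul, neg_mul, one_mul, Finset.sum_neg_distrib, ← sq]
  exact neg_add_eq_sub _ _

theorem morse_chart {X Y : Type} [NormedAddCommGroup X] [NormedSpace ℝ X] [CompleteSpace X]
    [NormedAddCommGroup Y] [NormedSpace ℝ Y] {g : X → Y} {W : Set X} (hW : IsOpen W)
    (hg : ContDiffOn ℝ ∞ g W) {a : X} (ha : a ∈ W) (e : X ≃L[ℝ] Y)
    (he : HasFDerivAt g (e : X →L[ℝ] Y) a) :
    ∃ k : PChart (univ : Set X) Y, a ∈ k.O ∧ k.χ = g ∧ k.O ⊆ W := by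
  have h1 := hg.contDiffAt (hW.mem_nhds ha)
  set f := h1.toOpenPartialHomeomorph g he (by simp) with hf
  have f1 : (f : X → Y) = g := rfl
  have f2 : a ∈ f.source := h1.mem_toOpenPartialHomeomorph_source he _
  let O := f.source ∩ (W ∩ fderiv ℝ g ⁻¹' range ((↑) : (X ≃L[ℝ] Y) → X →L[ℝ] Y))
  have oO : IsOpen O := f.open_source.inter
    ((hg.continuousOn_fderiv_of_isOpen hW (by simp)).isOpen_inter_preimage hW
      ContinuousLinearEquiv.isOpen)
  refine ⟨⟨f.symm, g, f.target ∩ f.symm ⁻¹' O, O, f.isOpen_inter_preimage_symm oO, oO,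
    fun y hy => ?_, hg.mono fun x hx => hx.2.1, fun y hy => ⟨trivial, hy.2⟩,
    fun x hx => ⟨f.map_source hx.2.1, ?_⟩, fun y hy => f.right_inv hy.1,
    fun x hx => f.left_inv hx.2.1⟩, ⟨f2, ha, e, he.fderiv.symm⟩, rfl, fun x hx => hx.2.1⟩
  · obtain ⟨e', he'⟩ := hy.2.2.2
    have h2 := hg.contDiffAt (hW.mem_nhds hy.2.2.1)
    exact (f.contDiffAt_symm (f₀' := e') hy.1
      (he' ▸ (h2.differentiableAt (by simp)).hasFDerivAt) h2).contDiffWithinAt
  · rw [mem_preimage, ← f1, f.left_inv hx.2.1]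
    exact hx.2

theorem morse_param {G : Type} [NormedAddCommGroup G] [NormedSpace ℝ G] {g : ℝ × E → G}
    (hg : ContDiff ℝ ∞ g) : ContDiff ℝ ∞ fun x => ∫ t in (0 : ℝ)..1, g (t, x) := by
  have one : (1 : ℝ) ∈ Icc (-1 : ℝ) 1 := by norm_num
  let g' : C(ℝ × E, G) := ⟨g, hg.continuous⟩
  let c : C(P234.flowK, ℝ × E) := ⟨fun t => (t.1, 0), by fun_prop⟩
  have h1 : ContDiff ℝ ∞ fun γ : C(P234.flowK, ℝ × E) => g'.comp γ :=
    contDiff_infty.2 fun n => P234.contDiff_nemytskii n g' (contDiff_infty.1 hg n)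
  have h2 : ContDiff ℝ ∞ fun x : E =>
      c + ContinuousLinearMap.const ℝ P234.flowK ((0 : ℝ), x) :=
    contDiff_const.add (((ContinuousLinearMap.const ℝ P234.flowK).comp
      (ContinuousLinearMap.inr ℝ ℝ E)).contDiff)
  have h3 := (ContinuousMap.evalCLM ℝ (⟨1, one⟩ : P234.flowK)).contDiff.comp
    ((P234.flowJ G).contDiff.comp (h1.comp h2))
  have e : (fun x => ∫ t in (0 : ℝ)..1, g (t, x)) = fun x => P234.flowJ G (g'.comp
      (c + ContinuousLinearMap.const ℝ P234.flowK ((0 : ℝ), x))) ⟨1, one⟩ := by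
    funext x
    rw [P234.flowJ_apply]
    refine intervalIntegral.integral_congr fun t ht => ?_
    rw [uIcc_of_le zero_le_one] at ht
    rw [P234.flowExt_of_mem _ ⟨by linarith [ht.1], ht.2⟩]
    simp [g', c]
  rw [e]
  exact h3

theorem morse_rem {G : Type} [NormedAddCommGroup G] [NormedSpace ℝ G] [CompleteSpace G]
    {D : E → G} (hD : ContDiff ℝ ∞ D) (a : E) :
    (ContDiff ℝ ∞ fun x => ∫ t in (0 : ℝ)..1, (1 - t) • D (a + t • x)) ∧
      (∫ t in (0 : ℝ)..1, (1 - t) • D (a + t • (0 : E))) = (1 / 2 : ℝ) • D a ∧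
      ∀ x, Continuous fun t : ℝ => (1 - t) • D (a + t • x) := by
  have d3 : ContDiff ℝ ∞ fun p : ℝ × E => (1 - p.1) • D (a + p.1 • p.2) :=
    (contDiff_const.sub contDiff_fst).smul
      (hD.comp (contDiff_const.add (contDiff_fst.smul contDiff_snd)))
  refine ⟨morse_param d3, ?_,
    fun x => d3.continuous.comp (continuous_id.prodMk continuous_const)⟩
  simp only [smul_zero, add_zero]
  rw [intervalIntegral.integral_smul_const, intervalIntegral.integral_sub (by simp) (by simp)]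
  norm_num

theorem morse_taylor {g : E → ℝ} (hg : ContDiff ℝ ∞ g) {a : E} (h1 : fderiv ℝ g a = 0) :
    ∃ B : E → E →L[ℝ] E →L[ℝ] ℝ, ContDiff ℝ ∞ B ∧ B 0 = (1 / 2 : ℝ) • fderiv ℝ (fderiv ℝ g) a ∧
      ∀ x, g (a + x) = g a + B x x x := by
  have := FiniteDimensional.complete ℝ E
  have d1 : ContDiff ℝ ∞ (fderiv ℝ g) := hg.fderiv_right (m := ∞) le_rfl
  have d2 : ContDiff ℝ ∞ (fderiv ℝ (fderiv ℝ g)) := d1.fderiv_right (m := ∞) le_rfl
  obtain ⟨d3, d4, d5⟩ := morse_rem d2 a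
  refine ⟨_, d3, d4, fun x => ?_⟩
  · have c1 := d5 x
    have l : ∀ t : ℝ, HasDerivAt (fun t : ℝ => a + t • x) x t := fun t => by
      simpa using ((hasDerivAt_id t).smul_const x).const_add a
    have k : ∀ t : ℝ, HasDerivAt (fun t : ℝ => g (a + t • x) + (1 - t) * fderiv ℝ g (a + t • x) x)
        (((1 - t) • fderiv ℝ (fderiv ℝ g) (a + t • x)) x x) t := fun t => by
      have k1 : HasDerivAt (fun t : ℝ => g (a + t • x)) _ t :=
        (hg.differentiable (by simp) _).hasFDerivAt.comp_hasDerivAt t (l t)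
      have k2 : HasDerivAt (fun t : ℝ => fderiv ℝ g (a + t • x)) _ t :=
        (d1.differentiable (by simp) _).hasFDerivAt.comp_hasDerivAt t (l t)
      refine (k1.fun_add (((hasDerivAt_id t).const_sub 1).fun_mul
        (k2.clm_apply (hasDerivAt_const t x)))).congr_deriv ?_
      simp
    have k3 := intervalIntegral.integral_eq_sub_of_hasDerivAt (a := 0) (b := 1) (fun t _ => k t)
      (((c1.clm_apply continuous_const).clm_apply continuous_const).intervalIntegrable _ _)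
    rw [ContinuousLinearMap.intervalIntegral_apply (c1.intervalIntegrable _ _),
      ContinuousLinearMap.intervalIntegral_apply
        ((c1.clm_apply continuous_const).intervalIntegrable _ _), k3]
    simp [h1]

theorem morse_aux {D : Type} [NormedAddCommGroup D] [NormedSpace ℝ D]
    (C Fl : (E →L[ℝ] E) →L[ℝ] E →L[ℝ] D) (e0 : E ≃L[ℝ] D)
    (h : ∀ (H : E →L[ℝ] E) v, e0 (H v) = Fl 1 (H v) + C H v) :
    ∃ k : PChart (univ : Set (E →L[ℝ] E)) (E →L[ℝ] D), 1 ∈ k.O ∧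
      ∀ P v, k.χ P v = Fl P (P v) + C P v - Fl P v := by
  have := FiniteDimensional.complete ℝ E
  have h1 : ContDiff ℝ ∞ (fun P => (Fl P).comp P + C P - Fl P) :=
    ((Fl.contDiff.clm_comp contDiff_id).add C.contDiff).sub Fl.contDiff
  have h2 : HasFDerivAt (fun P => (Fl P).comp P + C P - Fl P)
      (((ContinuousLinearEquiv.refl ℝ E).arrowCongr e0 : (E →L[ℝ] E) ≃L[ℝ] E →L[ℝ] D) :
        (E →L[ℝ] E) →L[ℝ] E →L[ℝ] D) 1 := by
    refine (((Fl.hasFDerivAt.clm_comp (hasFDerivAt_id _)).fun_add C.hasFDerivAt).fun_sub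
      Fl.hasFDerivAt).congr_fderiv ?_
    ext H v
    simp [h]
    abel
  obtain ⟨k, k1, k2, -⟩ := morse_chart isOpen_univ h1.contDiffOn (mem_univ 1) _ h2
  exact ⟨k, k1, fun P v => by rw [k2]; rfl⟩

theorem morse_root (B : E →L[ℝ] E →L[ℝ] ℝ) (hs : ∀ v w, B v w = B w v)
    (hn : ∀ v, (∀ w, B v w = 0) → v = 0) :
    ∃ (P : (E →L[ℝ] E →L[ℝ] ℝ) → E →L[ℝ] E) (U : Set (E →L[ℝ] E →L[ℝ] ℝ)), IsOpen U ∧ B ∈ U ∧
      ContDiffOn ℝ ∞ P U ∧ P B = 1 ∧ ∀ b ∈ U, ∀ v, b v v = B (P b v) (P b v) := by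
  have hi : Function.Injective ((2 : ℝ) • B : E →L[ℝ] E →L[ℝ] ℝ).toLinearMap :=
    (injective_iff_map_eq_zero _).2 fun v hv => hn v fun w => by
      simpa using DFunLike.congr_fun hv w
  have hd : Module.finrank ℝ E = Module.finrank ℝ (E →L[ℝ] ℝ) := by
    rw [← LinearEquiv.finrank_eq LinearMap.toContinuousLinearMap, Subspace.dual_finrank_eq]
  obtain ⟨e0, he⟩ : ∃ e0 : E ≃L[ℝ] (E →L[ℝ] ℝ), ∀ v w, e0 v w = 2 * B v w :=
    ⟨(LinearMap.linearEquivOfInjective _ hi hd).toContinuousLinearEquiv, fun _ _ => rfl⟩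
  obtain ⟨C, Fl, hC, hF⟩ : ∃ C Fl : (E →L[ℝ] E) →L[ℝ] E →L[ℝ] E →L[ℝ] ℝ,
      (∀ P v w, C P v w = B (P v) w) ∧ ∀ P v w, Fl P v w = B (P w) v :=
    ⟨ContinuousLinearMap.compL ℝ E E (E →L[ℝ] ℝ) B,
      (ContinuousLinearMap.flipₗᵢ ℝ E E ℝ).toContinuousLinearEquiv.toContinuousLinearMap.comp
        (ContinuousLinearMap.compL ℝ E E (E →L[ℝ] ℝ) B), fun _ _ _ => rfl, fun _ _ _ => rfl⟩
  obtain ⟨k, k1, k2⟩ := morse_aux C Fl e0 (fun H v => by
    ext w
    simp [he, hC, hF, hs w, two_mul])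
  have h3 : k.χ 1 = B := by
    ext v w
    simp [k2, hC]
  refine ⟨k.ψ, k.U, k.oU, h3 ▸ k.mχ ⟨trivial, k1⟩, k.sψ, h3 ▸ k.ri _ ⟨trivial, k1⟩,
    fun b hb v => ?_⟩
  conv_lhs => rw [← k.li b hb, k2]
  simp [hC, hF]

/-- Multiply `f` by a bump function to make it globally smooth and put `η₀ = 0`. Then
`f x = f 0 + B x x x / 2` with `B x = 2 ∫_0^1 (1 - t) D²f (t x) dt` symmetric and smooth in `x`
(`Vale.Agent.P234.contDiff_nemytskii`, integration is a continuous linear map on `C(Icc 0 1, ·)`).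
Write `B x v w = B 0 (A x v) w`, `A 0 = 1`; let `P x` be the square root of `A x` given by the local
inverse of `P ↦ P ∘ P` at `1`. By local uniqueness `P x` is self-adjoint for `B 0`, so
`B x v w = B 0 (P x v) (P x w)`. The map `x ↦ P x x` has derivative `1` at `0`; invert it locally
(`ContDiffAt.toOpenPartialHomeomorph`, `OpenPartialHomeomorph.contDiffAt_symm`) and use
`sylvester` for `B 0 / 2`. -/
theorem morse_lemma {f : E → ℝ} {U : Set E} (hU : IsOpen U) (hf : ContDiffOn ℝ ∞ f U) {η₀ : E}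
    (h0 : η₀ ∈ U) (h1 : fderiv ℝ f η₀ = 0)
    (h2 : ∀ v, (∀ w, fderiv ℝ (fderiv ℝ f) η₀ v w = 0) → v = 0) :
    ∃ (j j' : ℕ) (k : PChart (univ : Set E) (Eu j × Eu j')), j + j' = Module.finrank ℝ E ∧
      0 ∈ k.U ∧ k.ψ 0 = η₀ ∧ ∀ᶠ η in 𝓝 (0 : Eu j × Eu j'),
        f (k.ψ η) = f η₀ - ‖η.1‖ ^ 2 + ‖η.2‖ ^ 2 := by
  have := FiniteDimensional.complete ℝ E
  obtain ⟨r, hr, hrU⟩ := Metric.nhds_basis_closedBall.mem_iff.1 (hU.mem_nhds h0)
  obtain ⟨g, hg, -, hgf⟩ := exists_field (t := fun x => {v | x ∈ Metric.closedBall η₀ r → v = f x})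
    (fun x a ha b hb p q _ _ hpq hx => by
      rw [ha hx, hb hx, ← add_smul, hpq, one_smul]) (isCompact_closedBall η₀ r)
    (fun x hx => ⟨U, hU, hrU hx, f, hf, fun _ _ _ => rfl⟩) (fun x hx h => absurd h hx)
  have e1 : g =ᶠ[𝓝 η₀] f := by
    filter_upwards [Metric.closedBall_mem_nhds η₀ hr] with x hx using hgf x hx
  obtain ⟨B, hB, B0, hT⟩ := morse_taylor hg (e1.fderiv_eq.trans h1)
  have hs : ∀ v w, B 0 v w = B 0 w v := fun v w => by
    have := (hg.contDiffAt (x := η₀)).isSymmSndFDerivAt (by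
      rw [minSmoothness_of_isRCLikeNormedField]
      exact WithTop.coe_le_coe.2 (le_top : (2 : ℕ∞) ≤ ⊤))
    simp [B0, this v w]
  have hn : ∀ v, (∀ w, B 0 v w = 0) → v = 0 := fun v hv => h2 v fun w => by
    have := hv w
    rw [B0, e1.fderiv.fderiv_eq] at this
    simpa using this
  obtain ⟨P, O, oO, hO, hP, P1, hq⟩ := morse_root (B 0) hs hn
  obtain ⟨j, j', e, hj, he⟩ := sylvester (LinearMap.BilinMap.toQuadraticMap (B 0).toBilinForm)
    (fun z hz => hn z fun w => by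
      have := hz w
      rw [LinearMap.BilinMap.polar_toQuadraticMap] at this
      simp only [ContinuousLinearMap.toBilinForm_apply, hs w] at this
      linarith)
  have hb : ContDiff ℝ ∞ fun s => B (s - η₀) := hB.comp (contDiff_id.sub contDiff_const)
  have oW : IsOpen ((fun s => B (s - η₀)) ⁻¹' O) := oO.preimage hb.continuous
  have hW : η₀ ∈ (fun s => B (s - η₀)) ⁻¹' O := by simpa using hO
  have hp : ContDiffOn ℝ ∞ (fun s => P (B (s - η₀))) ((fun s => B (s - η₀)) ⁻¹' O) :=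
    hP.comp hb.contDiffOn fun _ h => h
  have hu : HasFDerivAt (fun s => e (P (B (s - η₀)) (s - η₀))) (e : E →L[ℝ] Eu j × Eu j') η₀ := by
    have k1 := ((hp.contDiffAt (oW.mem_nhds hW)).differentiableAt (by simp)).hasFDerivAt.clm_apply
      ((hasFDerivAt_id η₀).sub_const η₀)
    refine (e.hasFDerivAt.comp η₀ k1).congr_fderiv ?_
    ext1 v
    simp [P1]
  obtain ⟨k, k1, k2, k3⟩ := morse_chart oW (e.contDiff.comp_contDiffOn
    (hp.clm_apply (contDiffOn_id.sub contDiffOn_const))) hW e hu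
  have k4 : k.χ η₀ = 0 := by simp [k2]
  have k5 : 0 ∈ k.U := k4 ▸ k.mχ ⟨trivial, k1⟩
  have k6 : k.ψ 0 = η₀ := k4 ▸ k.ri _ ⟨trivial, k1⟩
  refine ⟨j, j', k, hj, k5, k6, ?_⟩
  have k7 : ContinuousAt k.ψ 0 := k.sψ.continuousOn.continuousAt (k.oU.mem_nhds k5)
  filter_upwards [k.oU.mem_nhds k5,
    k7.eventually (p := fun s => s ∈ Metric.closedBall η₀ r)
      (by rw [k6]; exact Metric.closedBall_mem_nhds η₀ hr)] with η h3 h4
  have h5 := hT (k.ψ η - η₀)
  have h6 := k.li η h3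
  rw [k2] at h6
  have h7 := he (P (B (k.ψ η - η₀)) (k.ψ η - η₀))
  rw [show e (P (B (k.ψ η - η₀)) (k.ψ η - η₀)) = η from h6] at h7
  rw [add_sub_cancel, hq _ (k3 (k.mψ h3).2), hgf _ h4, e1.eq_of_nhds] at h5
  simp only [LinearMap.BilinMap.toQuadraticMap_apply, ContinuousLinearMap.toBilinForm_apply] at h7
  linarith

end Vale.Agent.P265
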