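import Vale.Agent.P265.Handle
import Vale.Agent.P265.Atl
import Vale.Agent.P265.MorseLemma

/-!
The lower bound for the stable Morse number from a free cover of degree six.
-/

open scoped Manifold ContDiff Topology
open Set Filter

noncomputable section

namespace Vale.Agent.P265

variable {A A' E : Type} [NormedAddCommGroup A] [NormedSpace ℝ A] [FiniteDimensional ℝ A]
  [NormedAddCommGroup A'] [NormedSpace ℝ A'] [NormedAddCommGroup E] [NormedSpace ℝ E]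
  [FiniteDimensional ℝ E]

/-- A free action of the cyclic group of order six on `S0` with quotient `S`. -/
structure Cov {S : Set A'} (a : Atl S E) (A : Type) [NormedAddCommGroup A] [NormedSpace ℝ A] where
  S0 : Set A
  cpt : IsCompact S0
  T : A →L[ℝ] A
  per : ∀ x, T^[6] x = x
  maps : MapsTo T S0 S0
  π : A → A'
  mπ : MapsTo π S0 S
  πT : ∀ x ∈ S0, π (T x) = π x
  fib : ∀ x ∈ S0, ∀ y ∈ S0, π x = π y → ∃ i < 6, y = T^[i] x
  free : ∀ x ∈ S0, ∀ i, 0 < i → i < 6 → T^[i] x ≠ x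
  lift : ∀ s ∈ S, ∃ c : PChart S0 E, c.U ⊆ (a.c s).U ∧ (∃ η ∈ c.U, (a.c s).ψ η = s) ∧
    ∀ η ∈ c.U, π (c.ψ η) = (a.c s).ψ η

namespace Cov

variable {S : Set A'} {a : Atl S E} (C : Cov a A)

/-- The action. -/
def act : Act A := ⟨C.T, C.T.continuous, C.per⟩

omit [FiniteDimensional ℝ A] [FiniteDimensional ℝ E] in
theorem Lower_pi {x : A} (hx : x ∈ C.S0) (i : ℕ) : C.π (C.T^[i] x) = C.π x := by
  induction i with
  | zero => rfl
  | succ i ih => rw [Function.iterate_succ_apply', C.πT _ (C.maps.iterate i hx), ih]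

omit [FiniteDimensional ℝ A] [FiniteDimensional ℝ E] in
theorem Lower_move (c : PChart C.S0 E) (i : ℕ) :
    ∃ c' : PChart C.S0 E, c'.U = c.U ∧ ∀ η, c'.ψ η = C.T^[i] (c.ψ η) := by
  have h1 : ∀ x, (C.T ^ 5) x = C.T^[5] x := fun _ => rfl
  have h2 : ∀ x, C.T^[5] (C.T x) = x := C.per
  have h3 : ∀ x, C.T (C.T^[5] x) = x := fun x => by
    rw [← Function.iterate_succ_apply' C.T 5 x]
    exact C.per x
  induction i with
  | zero => exact ⟨c, rfl, fun _ => rfl⟩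
  | succ i ih =>
    obtain ⟨c', e1, e2⟩ := ih
    refine ⟨c'.move (ContinuousLinearEquiv.equivOfInverse C.T (C.T ^ 5) (fun x => (h1 _).trans (h2 x))
      fun x => by rw [h1, h3]) fun x => ⟨fun hx => ?_, fun hx => C.maps hx⟩, e1, fun η => ?_⟩
    · rw [← h2 x]
      exact C.maps.iterate 5 hx
    · rw [Function.iterate_succ_apply', ← e2]
      rfl

/-- Every point has a chart that lifts the chart chosen at its image: move the chart given by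
`lift` by a power of `T` (`PChart.move`). -/
theorem lift' {x : A} (hx : x ∈ C.S0) : ∃ c : PChart C.S0 E, c.U ⊆ (a.c (C.π x)).U ∧
    (∃ η ∈ c.U, c.ψ η = x) ∧ ∀ η ∈ c.U, C.π (c.ψ η) = (a.c (C.π x)).ψ η := by
  obtain ⟨c, h1, ⟨η, h2, h3⟩, h4⟩ := C.lift _ (C.mπ hx)
  obtain ⟨i, -, h5⟩ := C.fib _ (c.mψ h2).1 x hx ((h4 η h2).trans h3)
  obtain ⟨c', e1, e2⟩ := C.Lower_move c i
  refine ⟨c', e1 ▸ h1, ⟨η, e1 ▸ h2, (e2 η).trans h5.symm⟩, fun ζ hζ => ?_⟩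
  rw [e1] at hζ
  rw [e2, C.Lower_pi (c.mψ hζ).1, h4 ζ hζ]

/-- The associated setting for Morse theory. -/
def ms : MS A E where
  S0 := C.S0
  cpt := C.cpt
  T := C.T
  per := C.per
  maps := C.maps
  cov x hx := by
    obtain ⟨c, -, ⟨η, h1, rfl⟩, -⟩ := C.lift' hx
    exact ⟨c, (c.mψ h1).2⟩

open Classical in
/-- The pull-back of a function on `M × ℝ^m`. -/
def up {m k k' : ℕ} (F : a.M × Eu m → ℝ) (e : Eu m ≃L[ℝ] Fib k k') (x : A × Fib k k') : ℝ :=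
  if h : C.π x.1 ∈ S then F (a.mk' _ h, e.symm x.2) else 0

omit [FiniteDimensional ℝ A] [FiniteDimensional ℝ E] in
theorem Lower_up {m k k' : ℕ} (F : a.M × Eu m → ℝ) (e : Eu m ≃L[ℝ] Fib k k')
    {x : A × Fib k k'} {y : a.M} (hy : a.val y = C.π x.1) : C.up F e x = F (y, e.symm x.2) := by
  have h : C.π x.1 ∈ S := hy ▸ a.val_mem y
  rw [up, dif_pos h, a.val_inj (x := a.mk' _ h) (y := y) hy.symm]

theorem Lower_chart {m k k' : ℕ} (e : Eu m ≃L[ℝ] Fib k k') {x : A} (hx : x ∈ C.S0) {y : a.M}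
    (hy : a.val y = C.π x) : ∃ c : PChart (C.ms.S k k') (E × Eu m),
      c.U ⊆ (a.c (a.val y)).U ×ˢ univ ∧
      (∀ z, (chartAt E y y, z) ∈ c.U ∧ c.ψ (chartAt E y y, z) = (x, e z)) ∧
      ∀ F : a.M × Eu m → ℝ, ∀ q ∈ c.U, C.up F e (c.ψ q) = F ((chartAt E y).symm q.1, q.2) := by
  obtain ⟨c, h1, ⟨η, h2, h3⟩, h4⟩ := C.lift' hx
  rw [← hy] at h1 h4
  have h5 : chartAt E y y = η := by
    rw [a.chartAt_apply, ← (a.c (a.val y)).li η (h1 h2), ← h4 η h2, h3, ← hy]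
  refine ⟨(c.prod (PChart.whole (Fib k k'))).comp ((PChart.whole (E × Eu m)).move
    ((ContinuousLinearEquiv.refl ℝ E).prodCongr e) fun _ => Iff.rfl),
    fun q hq => ⟨h1 hq.2.1, trivial⟩, fun z => ?_, fun F q hq => ?_⟩
  · rw [h5]
    exact ⟨⟨trivial, h2, trivial⟩, Prod.ext h3 rfl⟩
  · have h6 : q.1 ∈ c.U := hq.2.1
    have h7 := C.Lower_up F e (x := (c.ψ q.1, e q.2)) ((a.val_symm y (h1 h6)).trans (h4 _ h6).symm)
    rw [ContinuousLinearEquiv.symm_apply_apply] at h7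
    exact h7

/-- In the chart `c.prod (PChart.whole _)`, with `c` from `lift'`, the function is
`q ↦ F ((chartAt E x).symm q.1, e.symm q.2)` (`Atl.contDiffOn_loc`, `Atl.val_symm`). -/
theorem up_adm {m k k' : ℕ} {F : a.M × Eu m → ℝ}
    (hF : ContMDiff (𝓘(ℝ, E).prod 𝓘(ℝ, Eu m)) 𝓘(ℝ, ℝ) ∞ F) (e : Eu m ≃L[ℝ] Fib k k') {R : ℝ}
    (hq : ∀ x z, R ≤ ‖z‖ → F (x, z) = Qf (e z)) : ∃ R', 0 ≤ R' ∧ C.ms.Adm R' (C.up F e) := by
  refine ⟨‖(e : Eu m →L[ℝ] Fib k k')‖ * |R| + 1, by positivity,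
    sm_of_charts (E := E × Eu m) fun s hs => ?_, fun x hx => ?_, fun x hx h => ?_⟩
  · obtain ⟨c, h1, h2, h3⟩ := C.Lower_chart e hs.1 (y := a.mk' _ (C.mπ hs.1)) rfl
    refine ⟨c, ?_, ((a.contDiffOn_loc hF _).mono h1).congr (h3 F)⟩
    have h4 := (c.mψ (h2 (e.symm s.2)).1).2
    rwa [(h2 _).2, ContinuousLinearEquiv.apply_symm_apply] at h4
  · exact (C.Lower_up F e (x := (C.T x.1, x.2)) (y := a.mk' _ (C.mπ hx.1))
      (C.πT _ hx.1).symm).trans (C.Lower_up F e (y := a.mk' _ (C.mπ hx.1)) rfl).symm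
  · rw [C.Lower_up F e (y := a.mk' _ (C.mπ hx.1)) rfl, hq, ContinuousLinearEquiv.apply_symm_apply]
    by_contra h1
    have h2 := (e : Eu m →L[ℝ] Fib k k').le_opNorm (e.symm x.2)
    rw [ContinuousLinearEquiv.coe_coe, ContinuousLinearEquiv.apply_symm_apply] at h2
    have h3 := mul_le_mul_of_nonneg_left ((not_le.1 h1).le.trans (le_abs_self R))
      (norm_nonneg (e : Eu m →L[ℝ] Fib k k'))
    linarith

theorem up_crit {m k k' : ℕ} {F : a.M × Eu m → ℝ}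
    (hF : ContMDiff (𝓘(ℝ, E).prod 𝓘(ℝ, Eu m)) 𝓘(ℝ, ℝ) ∞ F) (e : Eu m ≃L[ℝ] Fib k k')
    {x : A × Fib k k'} (hx : x.1 ∈ C.S0) (hc : Crit (C.ms.S k k') (C.up F e) x) :
    (a.mk' _ (C.mπ hx), e.symm x.2) ∈ critSet E F := by
  obtain ⟨c, h1, h2, h3⟩ := C.Lower_chart e hx (y := a.mk' _ (C.mπ hx)) rfl
  obtain ⟨h4, h5⟩ := h2 (e.symm x.2)
  have hn := c.oU.mem_nhds h4
  have he : (fun q => C.up F e (c.ψ q)) =ᶠ[𝓝 _] _ := eventually_of_mem hn (h3 F)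
  have hd := ((((a.contDiffOn_loc hF _).mono h1).congr (h3 F)).contDiffAt hn).differentiableAt
    (by simp)
  rw [a.mem_critSet hF, ← he.fderiv_eq, ← c.crit_iff h4 hd, h5,
    ContinuousLinearEquiv.apply_symm_apply]
  exact hc

theorem Lower_orb {m k k' j j' : ℕ} (F : a.M × Eu m → ℝ) (e : Eu m ≃L[ℝ] Fib k k')
    (p : a.M × Eu m) (κ : PChart (univ : Set (E × Eu m)) (Fib j j')) (h0 : 0 ∈ κ.U)
    (h1 : κ.ψ 0 = (chartAt E p.1 p.1, p.2))
    (h2 : ∀ᶠ η in 𝓝 (0 : Fib j j'), F ((chartAt E p.1).symm (κ.ψ η).1, (κ.ψ η).2) =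
      F ((chartAt E p.1).symm (κ.ψ 0).1, (κ.ψ 0).2) + Qf η) :
    ∃ o : C.ms.Orb k k', o.j = j ∧ o.Model (C.up F e) ∧ C.π o.pt.1 = a.val p.1 ∧
      o.pt.2 = e p.2 := by
  obtain ⟨c0, -, ⟨η, e1, e2⟩, e3⟩ := C.lift _ (a.val_mem p.1)
  have hx := (c0.mψ e1).1
  have hy := ((e3 η e1).trans e2).symm
  obtain ⟨c, -, h4, h5⟩ := C.Lower_chart e hx hy
  have h6 : (0 : Fib j j') ∈ (c.comp κ).U := ⟨h0, by rw [mem_preimage, h1]; exact (h4 _).1⟩
  have h7 : (c.comp κ).ψ 0 = (c0.ψ η, e p.2) := (congrArg c.ψ h1).trans (h4 _).2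
  refine ⟨⟨j, j', c.comp κ, h6, fun i i0 i6 h => ?_⟩, rfl, ?_, ?_, congrArg Prod.snd h7⟩
  · rw [h7, MS.act, Model_iter] at h
    exact C.free _ hx i i0 i6 (congrArg Prod.fst h)
  · filter_upwards [h2, (c.comp κ).oU.mem_nhds h6] with ζ e4 e5
    exact (h5 F _ e5.2).trans (e4.trans (congrArg (· + Qf ζ) (h5 F _ h6.2).symm))
  · exact (congrArg (fun q => C.π q.1) h7).trans hy.symm

/-- Morse charts for `F` and for `-F`. Apply `morse_lemma` on `E × Eu m` to the local expression of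
`F`, and compose with the product chart and the linear charts given by `e`, `e'` and the swap of the
factors of the model (`PChart.comp`). -/
theorem exists_orb {m k k' : ℕ} {F : a.M × Eu m → ℝ} (hF : IsMorse E F)
    (e : Eu m ≃L[ℝ] Fib k k') (e' : Eu m ≃L[ℝ] Fib k' k) {p : a.M × Eu m} (hp : p ∈ critSet E F) :
    ∃ (o : C.ms.Orb k k') (o' : C.ms.Orb k' k), o.j + o'.j = Module.finrank ℝ E + m ∧
      o.Model (C.up F e) ∧ o'.Model (C.up (fun q => -F q) e') ∧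
      C.π o.pt.1 = a.val p.1 ∧ o.pt.2 = e p.2 ∧ C.π o'.pt.1 = a.val p.1 ∧ o'.pt.2 = e' p.2 := by
  obtain ⟨j, j', κ, h1, h2, h3, h4⟩ := morse_lemma ((a.c _).oU.prod isOpen_univ)
    (a.contDiffOn_loc hF.smooth p.1) (η₀ := (chartAt E p.1 p.1, p.2)) ⟨a.atl_mem p.1, trivial⟩
    ((a.mem_critSet hF.smooth p).1 hp) (hF.nondeg p hp)
  rw [Module.finrank_prod, finrank_euclideanSpace_fin] at h1
  obtain ⟨o, a1, a2, a3, a4⟩ := C.Lower_orb F e p κ h2 h3 (h4.mono fun η h => by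
    rw [h, h3, Qf]
    ring)
  have hs : Tendsto (Prod.swap : Fib j' j → Fib j j') (𝓝 0) (𝓝 0) := continuous_swap.tendsto 0
  obtain ⟨o', b1, b2, b3, b4⟩ := C.Lower_orb (fun q => -F q) e' p
    (κ.comp ((PChart.whole (Fib j' j)).move (ContinuousLinearEquiv.prodComm ℝ _ _) fun _ => Iff.rfl))
    ⟨trivial, h2⟩ h3 ((hs.eventually h4).mono fun η h => by
      show -F ((chartAt E p.1).symm (κ.ψ η.swap).1, (κ.ψ η.swap).2) =
        -F ((chartAt E p.1).symm (κ.ψ 0).1, (κ.ψ 0).2) + Qf η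
      rw [h, h3, Qf, Prod.fst_swap, Prod.snd_swap]
      ring)
  exact ⟨o, o', by rw [a1, b1, h1], a2, b2, a3, a4, b3, b4⟩

theorem Lower_dom {K : Type} [Field K] {l : K} (hl : Good l) {m k k' : ℕ} {F : a.M × Eu m → ℝ}
    (hF : ContMDiff (𝓘(ℝ, E).prod 𝓘(ℝ, Eu m)) 𝓘(ℝ, ℝ) ∞ F) (e : Eu m ≃L[ℝ] Fib k k') {R : ℝ}
    (hq : ∀ x z, R ≤ ‖z‖ → F (x, z) = Qf (e z)) {Z : Set (a.M × Eu m)} [Fintype Z]
    (hZ : critSet E F ⊆ Z) (o : Z → C.ms.Orb k k') (h1 : ∀ p, (o p).Model (C.up F e))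
    (h2 : ∀ p, C.π (o p).pt.1 = a.val p.1.1) (h3 : ∀ p, (o p).pt.2 = e p.1.2) :
    Dom (sh k (beta C.act l C.S0 ∅)) fun n => (Finset.univ.filter fun p => (o p).j = n).card := by
  obtain ⟨R', hR, hA⟩ := C.up_adm hF e hq
  refine MS.morse_ineq hl hR o Finset.univ hA (fun p _ => h1 p) (fun p _ q _ i _ h => ?_)
    fun x hx hc => ?_
  · rw [MS.act, Model_iter] at h
    have e1 : C.T^[i] (o p).pt.1 = (o q).pt.1 := congrArg Prod.fst h
    have e2 : (o p).pt.2 = (o q).pt.2 := (Prod.ext_iff.1 h).2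
    refine Subtype.ext (Prod.ext (a.val_inj ?_) (e.injective ?_))
    · rw [← h2, ← h2, ← e1, C.Lower_pi (o p).mem.1]
    · rw [← h3, ← h3, e2]
  · obtain ⟨p, e1, e2⟩ : ∃ p : Z, a.val p.1.1 = C.π x.1 ∧ p.1.2 = e.symm x.2 :=
      ⟨⟨_, hZ (C.up_crit hF e hx.1 hc)⟩, rfl, rfl⟩
    obtain ⟨i, hi, e3⟩ := C.fib _ (o p).mem.1 _ hx.1 ((h2 p).trans e1)
    refine ⟨p, Finset.mem_univ _, i, hi, ?_⟩
    rw [MS.act, Model_iter]
    exact Prod.ext e3 (by rw [h3, e2, ContinuousLinearEquiv.apply_symm_apply])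

/-- Use `sylvester` (for `m = 0` take `Q = 0`, `R = 1`), `morse_ineq` for `F` and `-F` with index
set the finite set of critical points, `Dom.circle` and `count_le`. -/
theorem lower (hE : Module.finrank ℝ E = 8) (t : ℕ → ℕ)
    (h : ∀ m < 4, ∃ (K : Type) (_ : Field K) (l : K) (b : ℕ → ℕ∞), Good l ∧
      (∀ n, beta C.act l C.S0 ∅ n = b n + sh 1 b n) ∧ (t m : ℕ∞) ≤ b m) :
    ((4 * (t 0 + t 1 + t 2 + t 3) : ℕ) : ℕ∞) ≤ stableMorse E a.M := by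
  refine le_iInf fun m => le_iInf fun F => le_iInf fun hF => le_iInf fun hQ => ?_
  by_cases hfin : (critSet E F).Finite
  swap
  · rw [Set.Infinite.encard_eq hfin]
    exact le_top
  obtain ⟨k, k', e, R, hk, hq⟩ : ∃ (k k' : ℕ) (e : Eu m ≃L[ℝ] Fib k k') (R : ℝ), k + k' = m ∧
      ∀ x z, R ≤ ‖z‖ → F (x, z) = Qf (e z) := by
    rcases Nat.eq_zero_or_pos m with rfl | hm
    · obtain ⟨k, k', e, h1, -⟩ := sylvester (0 : QuadraticForm ℝ (Eu 0))
        fun z _ => Subsingleton.elim _ _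
      refine ⟨k, k', e, 1, h1.trans finrank_euclideanSpace_fin, fun x z hz => ?_⟩
      rw [Subsingleton.elim z 0, norm_zero] at hz
      exact absurd hz (by norm_num)
    · obtain ⟨Q, R, h1, -, h2⟩ := hQ hm
      obtain ⟨k, k', e, h3, h4⟩ := sylvester Q h1
      exact ⟨k, k', e, R, h3.trans finrank_euclideanSpace_fin, fun x z hz =>
        (h2 x z hz).trans (h4 z)⟩
  have hF' : ContMDiff (𝓘(ℝ, E).prod 𝓘(ℝ, Eu m)) 𝓘(ℝ, ℝ) ∞ fun q => -F q := hF.smooth.neg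
  have hZ : critSet E (fun q => -F q) ⊆ critSet E F := fun p hp => by
    rw [a.mem_critSet hF', fderiv_fun_neg, neg_eq_zero] at hp
    exact (a.mem_critSet hF.smooth p).2 hp
  have hq' : ∀ x z, R ≤ ‖z‖ → -F (x, z) =
      Qf ((e.trans (ContinuousLinearEquiv.prodComm ℝ _ _)) z) := fun x z hz => by
    rw [hq x z hz]
    exact neg_sub _ _
  letI := hfin.fintype
  choose o o' h1 h2 h3 h4 h5 h6 h7 using fun p : critSet E F =>
    C.exists_orb hF e (e.trans (ContinuousLinearEquiv.prodComm ℝ _ _)) p.2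
  have H : ∀ n < 4, ((∀ i, 0 ≤ alt (fun n => (Finset.univ.filter fun p => (o p).j = n).card) i) ∧
      (t n : ℤ) ≤ alt (fun n => (Finset.univ.filter fun p => (o p).j = n).card) (k + n)) ∧
      (t n : ℤ) ≤ alt (fun n => (Finset.univ.filter fun p => (o' p).j = n).card) (k' + n) := by
    intro n hn
    obtain ⟨K, _, l, b, hl, e1, e2⟩ := h n hn
    have e3 : beta C.act l C.S0 ∅ = fun i => b i + sh 1 b i := funext e1
    have d1 := Dom.circle (fun i => by rw [e3]) (C.Lower_dom hl hF.smooth e hq Subset.rfl o h2 h4 h5)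
    have d2 := Dom.circle (fun i => by rw [e3]) (C.Lower_dom hl hF' _ hq' hZ o' h3 h6 h7)
    exact ⟨⟨d1.1, d1.2 n _ e2⟩, d2.2 n _ e2⟩
  have hc := count_le (k := k) (k' := k') (fun n hn => ?_) (fun n hn => ?_) (H 0 (by norm_num)).1.1 t
    (fun n hn => (H n hn).1.2) fun n hn => (H n hn).2
  · rw [← Finset.card_eq_sum_card_fiberwise fun p _ => by
      have := h1 p
      simp only [Finset.coe_range, mem_Iio]
      omega] at hc
    rw [encard, ENat.card_eq_coe_fintype_card]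
    exact Nat.cast_le.2 hc
  · rw [Finset.card_eq_zero, Finset.filter_eq_empty_iff]
    intro p _
    have := h1 p
    omega
  · refine congrArg Finset.card (Finset.filter_congr fun p _ => ?_)
    have := h1 p
    omega

/-- Change of the model space. -/
theorem exists_model {E' : Type} [NormedAddCommGroup E'] [NormedSpace ℝ E'] {a' : Atl S E'}
    (L : E' ≃L[ℝ] E) (h : ∀ s, (a'.c s).U = L ⁻¹' (a.c s).U ∧ ∀ η, (a'.c s).ψ η = (a.c s).ψ (L η)) :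
    ∃ C' : Cov a' A, C'.S0 = C.S0 ∧ C'.T = C.T := by
  refine ⟨⟨C.S0, C.cpt, C.T, C.per, C.maps, C.π, C.mπ, C.πT, C.fib, C.free, fun s hs => ?_⟩,
    rfl, rfl⟩
  obtain ⟨c, h1, ⟨η, h2, h3⟩, h4⟩ := C.lift s hs
  refine ⟨c.comp ((PChart.whole E').move L fun _ => Iff.rfl), fun ζ hζ => ?_,
    ⟨L.symm η, ⟨trivial, ?_⟩, ?_⟩, fun ζ hζ => (h4 _ hζ.2).trans ((h s).2 ζ).symm⟩
  · rw [(h s).1]
    exact h1 hζ.2
  · show L (L.symm η) ∈ c.U
    rwa [L.apply_symm_apply]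
  · rw [(h s).2, L.apply_symm_apply, h3]

/-- Product with a manifold on which the group acts trivially. -/
theorem exists_prod {B E' : Type} [NormedAddCommGroup B] [NormedSpace ℝ B] [NormedAddCommGroup E']
    [NormedSpace ℝ E'] {Y : Set B} (hY : IsCompact Y) (b : Atl Y E') (p : Atl (S ×ˢ Y) (E × E'))
    (h : ∀ s, p.c s = (a.c s.1).prod (b.c s.2)) :
    ∃ C' : Cov p (A × B), C'.S0 = C.S0 ×ˢ Y ∧ ∀ x, C'.T x = (C.T x.1, x.2) := by
  have hi : ∀ (i : ℕ) (x : A × B), (C.T.prodMap (ContinuousLinearMap.id ℝ B))^[i] x =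
      (C.T^[i] x.1, x.2) := fun i x => Model_iter C.act i x
  refine ⟨⟨C.S0 ×ˢ Y, C.cpt.prod hY, C.T.prodMap (ContinuousLinearMap.id ℝ B), fun x => ?_,
    fun x hx => ⟨C.maps hx.1, hx.2⟩, fun x => (C.π x.1, x.2), fun x hx => ⟨C.mπ hx.1, hx.2⟩,
    fun x hx => Prod.ext (C.πT _ hx.1) rfl, fun x hx y hy e => ?_, fun x hx i h0 h6 e => ?_,
    fun s hs => ?_⟩, rfl, fun _ => rfl⟩
  · rw [hi, C.per]
  · obtain ⟨i, h1, h2⟩ := C.fib _ hx.1 _ hy.1 (congrArg Prod.fst e)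
    exact ⟨i, h1, by rw [hi]; exact Prod.ext h2 (congrArg Prod.snd e).symm⟩
  · rw [hi] at e
    exact C.free _ hx.1 i h0 h6 (congrArg Prod.fst e)
  · obtain ⟨c, h1, ⟨η, h2, h3⟩, h4⟩ := C.lift s.1 hs.1
    have h5 : s.2 ∈ Y ∩ (b.c s.2).O := ⟨hs.2, b.mem _ hs.2⟩
    rw [h s]
    exact ⟨c.prod (b.c s.2), fun ζ hζ => ⟨h1 hζ.1, hζ.2⟩,
      ⟨(η, (b.c s.2).χ s.2), ⟨h2, (b.c s.2).mχ h5⟩, Prod.ext h3 ((b.c s.2).ri _ h5)⟩,
      fun ζ hζ => Prod.ext (h4 _ hζ.1) rfl⟩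

end Cov

end Vale.Agent.P265
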