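import Vale.Agent.P265.XDef
import Vale.Agent.P265.Lower

/-!
The symplectic atlas of `X` and the covering data.
-/

open scoped ContDiff Topology
open Set Filter Complex

noncomputable section

namespace Vale.Agent.P265

/-- The angle forms. -/
def ang (n : ℝ) (A dA : ℂ) : ℝ := area A dA / n

/-- The symplectic form. -/
def wX (x u v : AX) : ℝ :=
  trip x.1 u.1 v.1 +
    x.1.1 * area (u.2.1.1 - I * x.2.1.1 * ang 2 x.2.1.2 u.2.1.2)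
      (v.2.1.1 - I * x.2.1.1 * ang 2 x.2.1.2 v.2.1.2) +
    x.1.1 * area (u.2.2.1 - I * x.2.2.1 * ang 3 x.2.2.2 u.2.2.2)
      (v.2.2.1 - I * x.2.2.1 * ang 3 x.2.2.2 v.2.2.2) +
    (ang 2 x.2.1.2 u.2.1.2 * ang 3 x.2.2.2 v.2.2.2 - ang 3 x.2.2.2 u.2.2.2 * ang 2 x.2.1.2 v.2.1.2)

/-- The standard area form of the plane. -/
def XAtlW : ℝ × ℝ →L[ℝ] ℝ × ℝ →L[ℝ] ℝ :=
  (ContinuousLinearMap.mul ℝ ℝ).bilinearComp (ContinuousLinearMap.fst ℝ ℝ ℝ)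
    (ContinuousLinearMap.snd ℝ ℝ ℝ) - (ContinuousLinearMap.mul ℝ ℝ).bilinearComp
    (ContinuousLinearMap.snd ℝ ℝ ℝ) (ContinuousLinearMap.fst ℝ ℝ ℝ)

/-- The density of the area form of the surface. -/
def XAtlK (c : PChart Sig (ℝ × ℝ)) (ζ : ℝ × ℝ) : ℝ :=
  sigma (c.ψ ζ) (fderiv ℝ c.ψ ζ (1, 0)) (fderiv ℝ c.ψ ζ (0, 1))

/-- The symplectic form in a chart. -/
def XAtlO (c : PChart Sig (ℝ × ℝ)) (η : (ℝ × ℝ) × ℝ × ℝ) :
    (ℝ × ℝ) × ℝ × ℝ →L[ℝ] (ℝ × ℝ) × ℝ × ℝ →L[ℝ] ℝ :=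
  XAtlK c η.1 • XAtlW.bilinearComp (ContinuousLinearMap.fst ℝ _ _) (ContinuousLinearMap.fst ℝ _ _) +
    XAtlW.bilinearComp (ContinuousLinearMap.snd ℝ _ _) (ContinuousLinearMap.snd ℝ _ _)

theorem XAtlO_apply (c : PChart Sig (ℝ × ℝ)) (η u v : (ℝ × ℝ) × ℝ × ℝ) :
    XAtlO c η u v = XAtlK c η.1 * (u.1.1 * v.1.2 - u.1.2 * v.1.1) +
      (u.2.1 * v.2.2 - u.2.2 * v.2.1) := rfl

theorem XAtlK_smooth (c : PChart Sig (ℝ × ℝ)) : ContDiffOn ℝ ∞ (XAtlK c) c.U := by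
  have hr : ContDiff ℝ ∞ Complex.re := reCLM.contDiff
  have hi : ContDiff ℝ ∞ Complex.im := imCLM.contDiff
  have h1 : ContDiff ℝ ∞ fun q : ASig × ASig × ASig => sigma q.1 q.2.1 q.2.2 := by
    unfold sigma trip area
    fun_prop
  have h2 : ContDiffOn ℝ ∞ (fderiv ℝ c.ψ) c.U := c.sψ.fderiv_of_isOpen c.oU (by simp)
  exact h1.comp_contDiffOn (c.sψ.prodMk ((h2.clm_apply contDiffOn_const).prodMk
    (h2.clm_apply contDiffOn_const)))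

theorem XAtl_lin {F : Type} [NormedAddCommGroup F] [NormedSpace ℝ F] (D : ℝ × ℝ →L[ℝ] F)
    (u : ℝ × ℝ) : D u = u.1 • D (1, 0) + u.2 • D (0, 1) := by
  rw [← map_smul, ← map_smul, ← map_add]
  congr 1
  simp

theorem XAtl_sigma (s e f : ASig) (a b a' b' : ℝ) :
    sigma s (a • e + b • f) (a' • e + b' • f) = sigma s e f * (a * b' - b * a') := by
  simp only [sigma, trip, area, Prod.fst_add, Prod.snd_add, Prod.smul_fst, Prod.smul_snd,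
    smul_eq_mul, add_re, add_im, real_smul, re_ofReal_mul, im_ofReal_mul]
  ring

theorem XAtl_exp (θ u : ℝ) : HasDerivAt (fun t : ℝ => cexp (((θ + t • u : ℝ) : ℂ) * I))
    (cexp (θ * I) * (u * I)) 0 := by
  have h1 : HasDerivAt (fun t : ℝ => θ + t • u) u 0 := by
    simpa using ((hasDerivAt_id (0 : ℝ)).smul_const u).const_add θ
  simpa using (h1.ofReal_comp.mul_const I).cexp

theorem XAtl_split {E F : Type} [NormedAddCommGroup E] [NormedSpace ℝ E] [NormedAddCommGroup F]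
    [NormedSpace ℝ F] {f : ℝ → E × F} {v : E × F} {t : ℝ} (h : HasDerivAt f v t) :
    HasDerivAt (fun t => (f t).1) v.1 t ∧ HasDerivAt (fun t => (f t).2) v.2 t :=
  ⟨(ContinuousLinearMap.fst ℝ E F).hasFDerivAt.comp_hasDerivAt t h,
    (ContinuousLinearMap.snd ℝ E F).hasFDerivAt.comp_hasDerivAt t h⟩

theorem XAtl_fderiv (c : PChart Sig (ℝ × ℝ)) (d : PChart XS ((ℝ × ℝ) × ℝ × ℝ))
    (hd : ∀ η, d.ψ η = piX (upX c η)) {η : (ℝ × ℝ) × ℝ × ℝ} (h1 : η ∈ d.U) (h2 : η.1 ∈ c.U)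
    (u : (ℝ × ℝ) × ℝ × ℝ) : fderiv ℝ d.ψ η u = ((fderiv ℝ c.ψ η.1 u.1).1,
      ((fderiv ℝ c.ψ η.1 u.1).2.1 * cexp (η.2.1 * I) +
        (c.ψ η.1).2.1 * (cexp (η.2.1 * I) * (u.2.1 * I)), 2 * cexp (η.2.1 * I) ^ 2 * (u.2.1 * I)),
      ((fderiv ℝ c.ψ η.1 u.1).2.2 * cexp (η.2.2 * I) +
        (c.ψ η.1).2.2 * (cexp (η.2.2 * I) * (u.2.2 * I)),
        3 * cexp (η.2.2 * I) ^ 3 * (u.2.2 * I))) := by
  have a1 := (c.chart_curve h2 u.1).deriv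
  have a2 := XAtl_exp η.2.1 u.2.1
  have a3 := XAtl_exp η.2.2 u.2.2
  have b1 : HasDerivAt (fun t : ℝ => (c.ψ (η.1 + t • u.1)).1) (fderiv ℝ c.ψ η.1 u.1).1 0 :=
    (XAtl_split a1).1
  have b0 : HasDerivAt (fun t : ℝ => (c.ψ (η.1 + t • u.1)).2) (fderiv ℝ c.ψ η.1 u.1).2 0 :=
    (XAtl_split a1).2
  have b2 : HasDerivAt (fun t : ℝ => (c.ψ (η.1 + t • u.1)).2.1) (fderiv ℝ c.ψ η.1 u.1).2.1 0 :=
    (XAtl_split b0).1
  have b3 : HasDerivAt (fun t : ℝ => (c.ψ (η.1 + t • u.1)).2.2) (fderiv ℝ c.ψ η.1 u.1).2.2 0 :=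
    (XAtl_split b0).2
  have a4 := b1.prodMk (((b2.mul a2).prodMk (a2.pow 2)).prodMk ((b3.mul a3).prodMk (a3.pow 3)))
  have a5 := (d.chart_curve h1 u).deriv
  simp only [hd] at a5
  rw [a5.unique a4]
  simp only [zero_smul, add_zero]
  refine Prod.ext rfl (Prod.ext (Prod.ext rfl ?_) (Prod.ext rfl ?_)) <;> simp <;> ring

theorem XAtl_ang {n : ℝ} (hn : n ≠ 0) {A : ℂ} (hA : ‖A‖ = 1) (u : ℝ) :
    ang n A (n * A * (u * I)) = u := by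
  have h1 : A.re * A.re + A.im * A.im = 1 := by
    rw [← normSq_apply, normSq_eq_norm_sq, hA, one_pow]
  rw [ang, div_eq_iff hn]
  simp only [area, mul_re, mul_im, ofReal_re, ofReal_im, I_re, I_im]
  linear_combination u * n * h1

theorem XAtl_area {μ : ℂ} (h : ‖μ‖ = 1) (a b : ℂ) : area (a * μ) (b * μ) = area a b := by
  have h1 : μ.re * μ.re + μ.im * μ.im = 1 := by
    rw [← normSq_apply, normSq_eq_norm_sq, h, one_pow]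
  simp only [area, mul_re, mul_im]
  linear_combination (a.re * b.im - a.im * b.re) * h1

theorem XAtl_compat (c : PChart Sig (ℝ × ℝ)) (d : PChart XS ((ℝ × ℝ) × ℝ × ℝ))
    (hd : ∀ η, d.ψ η = piX (upX c η)) {η : (ℝ × ℝ) × ℝ × ℝ} (h1 : η ∈ d.U) (h2 : η.1 ∈ c.U)
    (u v : (ℝ × ℝ) × ℝ × ℝ) :
    wX (d.ψ η) (fderiv ℝ d.ψ η u) (fderiv ℝ d.ψ η v) = XAtlO c η u v := by
  have n1 := norm_exp_ofReal_mul_I η.2.1
  have n2 := norm_exp_ofReal_mul_I η.2.2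
  have e1 : ∀ w : ℝ, ang 2 (cexp (η.2.1 * I) ^ 2) (2 * cexp (η.2.1 * I) ^ 2 * (w * I)) = w :=
    fun w => by
      simpa using XAtl_ang two_ne_zero (A := cexp (η.2.1 * I) ^ 2) (by rw [norm_pow, n1, one_pow]) w
  have e2 : ∀ w : ℝ, ang 3 (cexp (η.2.2 * I) ^ 3) (3 * cexp (η.2.2 * I) ^ 3 * (w * I)) = w :=
    fun w => by
      simpa using XAtl_ang three_ne_zero (A := cexp (η.2.2 * I) ^ 3)
        (by rw [norm_pow, n2, one_pow]) w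
  have e3 : ∀ a b μ w : ℂ, a * μ + b * (μ * (w * I)) - I * (b * μ) * w = a * μ := fun a b μ w => by
    ring
  rw [XAtl_fderiv c d hd h1 h2, XAtl_fderiv c d hd h1 h2, hd, XAtlO_apply, XAtlK, ← XAtl_sigma,
    ← XAtl_lin, ← XAtl_lin]
  simp only [wX, piX, upX, e1, e2, e3, XAtl_area n1, XAtl_area n2, sigma]

theorem XAtl_aff {E F : Type} [NormedAddCommGroup E] [NormedSpace ℝ E] [NormedAddCommGroup F]
    [NormedSpace ℝ F] (k : E → ℝ) (a b : F) :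
    (∀ U, ContDiffOn ℝ ∞ k U → ContDiffOn ℝ ∞ (fun η => k η • a + b) U) ∧
      ∀ η (k' : E →L[ℝ] ℝ) u, HasFDerivAt k k' η → fderiv ℝ (fun η => k η • a + b) η u = k' u • a :=
  ⟨fun _ h => (h.smul contDiffOn_const).add contDiffOn_const, fun η k' u h => by
    rw [((h.smul_const a).add_const b).fderiv]
    rfl⟩

theorem XAtlO_smooth (c : PChart Sig (ℝ × ℝ)) :
    ContDiffOn ℝ ∞ (XAtlO c) (Prod.fst ⁻¹' c.U) :=
  (XAtl_aff (F := (ℝ × ℝ) × ℝ × ℝ →L[ℝ] (ℝ × ℝ) × ℝ × ℝ →L[ℝ] ℝ)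
    (fun η : (ℝ × ℝ) × ℝ × ℝ => XAtlK c η.1) _ _).1 _
    ((XAtlK_smooth c).comp contDiffOn_fst fun _ h => h)

theorem XAtlO_fderiv (c : PChart Sig (ℝ × ℝ)) {η : (ℝ × ℝ) × ℝ × ℝ} (h : η.1 ∈ c.U)
    (u v z : (ℝ × ℝ) × ℝ × ℝ) : fderiv ℝ (XAtlO c) η u v z =
      fderiv ℝ (XAtlK c) η.1 u.1 * (v.1.1 * z.1.2 - v.1.2 * z.1.1) := by
  have h1 := (((XAtlK_smooth c).contDiffAt (c.oU.mem_nhds h)).differentiableAt
    (by simp)).hasFDerivAt.comp η hasFDerivAt_fst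
  exact congrArg (fun L : (ℝ × ℝ) × ℝ × ℝ →L[ℝ] (ℝ × ℝ) × ℝ × ℝ →L[ℝ] ℝ => L v z)
    ((XAtl_aff (F := (ℝ × ℝ) × ℝ × ℝ →L[ℝ] (ℝ × ℝ) × ℝ × ℝ →L[ℝ] ℝ)
      (fun η : (ℝ × ℝ) × ℝ × ℝ => XAtlK c η.1) _ _).2 η _ u h1)

theorem XAtl_free {x : AU} (hx : x ∈ XU) {i : ℕ} (h0 : 0 < i) (h6 : i < 6) : TU^[i] x ≠ x := by
  intro h
  rw [TU_iter] at h
  have z1 : x.2.1 ≠ 0 := norm_ne_zero_iff.1 ((show ‖x.2.1‖ = 1 from hx.2.1) ▸ one_ne_zero)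
  have z2 : x.2.2 ≠ 0 := norm_ne_zero_iff.1 ((show ‖x.2.2‖ = 1 from hx.2.2) ▸ one_ne_zero)
  have e1 : (-1 : ℂ) ^ i = 1 := (mul_eq_right₀ z1).1 (congrArg (fun y : AU => y.2.1) h)
  have e2 : (z3 ^ 2) ^ i = 1 := (mul_eq_right₀ z2).1 (congrArg (fun y : AU => y.2.2) h)
  rw [← pow_mul, z3_prim.pow_eq_one_iff_dvd] at e2
  rw [neg_one_pow_eq_one_iff_even (by norm_num), Nat.even_iff] at e1
  omega

theorem XAtl_data (x : AX) : ∃ (c : PChart Sig (ℝ × ℝ)) (d : PChart XS ((ℝ × ℝ) × ℝ × ℝ))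
    (d' : PChart XU ((ℝ × ℝ) × ℝ × ℝ)), d.U ⊆ Prod.fst ⁻¹' c.U ∧ d'.U = d.U ∧
      (∀ η, d.ψ η = piX (upX c η)) ∧ (∀ η, d'.ψ η = upX c η) ∧ (x ∈ XS → ∃ η ∈ d.U, d.ψ η = x) := by
  have H : ∀ x ∈ XS, ∃ (c : PChart Sig (ℝ × ℝ)) (d : PChart XS ((ℝ × ℝ) × ℝ × ℝ))
      (d' : PChart XU ((ℝ × ℝ) × ℝ × ℝ)), d.U ⊆ Prod.fst ⁻¹' c.U ∧ d'.U = d.U ∧
        (∀ η, d.ψ η = piX (upX c η)) ∧ (∀ η, d'.ψ η = upX c η) ∧ ∃ η ∈ d.U, d.ψ η = x := by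
    intro x hx
    obtain ⟨⟨s, μ, ν⟩, ⟨h1, h2, h3⟩, rfl⟩ := piX_image.symm ▸ hx
    obtain ⟨c, hc⟩ := sig_chart h1
    obtain ⟨d, d', e1, e2, e3, e4⟩ := exists_chartX c (arg μ) (arg ν)
    have a1 := norm_mul_exp_arg_mul_I μ
    have a2 := norm_mul_exp_arg_mul_I ν
    rw [show ‖μ‖ = 1 from h2, ofReal_one, one_mul] at a1
    rw [show ‖ν‖ = 1 from h3, ofReal_one, one_mul] at a2
    have hp := Real.pi_pos
    refine ⟨c, d, d', fun η hη => (e1 ▸ hη).1, e2, e3, e4, (c.χ s, arg μ, arg ν), ?_, ?_⟩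
    · rw [e1]
      exact ⟨c.mχ ⟨h1, hc⟩, ⟨by linarith, by linarith⟩, by linarith, by linarith⟩
    · rw [e3, upX, c.ri s ⟨h1, hc⟩, a1, a2]
  by_cases hx : x ∈ XS
  · obtain ⟨c, d, d', h1, h2, h3, h4, h5⟩ := H x hx
    exact ⟨c, d, d', h1, h2, h3, h4, fun _ => h5⟩
  · obtain ⟨y, hy⟩ := XS_conn.nonempty
    obtain ⟨c, d, d', h1, h2, h3, h4, -⟩ := H y hy
    exact ⟨c, d, d', h1, h2, h3, h4, fun h => absurd h hx⟩

/-- In the charts of `exists_chartX` the form `wX` is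
`κ η.1 * (u.1.1 * v.1.2 - u.1.2 * v.1.1) + (u.2.1 * v.2.2 - u.2.2 * v.2.1)` with
`κ ζ = sigma (c.ψ ζ) (Dψ ζ (1, 0)) (Dψ ζ (0, 1)) ≠ 0`. Points of the ambient space outside `X` get
an arbitrary chart. -/
theorem exists_atlX : ∃ (a : SAtl XS ((ℝ × ℝ) × ℝ × ℝ)) (C : Cov a.toAtl AU),
    C.S0 = XU ∧ C.T = TU := by
  choose c d d' h1 h2 h3 h4 h5 using XAtl_data
  refine ⟨⟨⟨d, fun s hs => ?_⟩, wX, fun s => XAtlO (c s),
    fun s _ η hη => XAtl_compat _ _ (h3 s) hη (h1 s hη), fun s _ => (XAtlO_smooth _).mono (h1 s),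
    fun s _ η _ v => ?_, fun s _ η hη v hv => ?_, fun s _ η hη u v z => ?_⟩,
    ⟨XU, XDef_cpt, TU, fun x => ?_, XDef_TU, piX, XDef_maps, fun x _ => XDef_piT x,
      fun x hx y hy => piX_fib hx hy, fun x hx i => XAtl_free hx, fun s hs =>
        ⟨d' s, (h2 s).le, (h2 s).symm ▸ h5 s hs, fun η _ => ?_⟩⟩, rfl, rfl⟩
  · obtain ⟨η, e1, e2⟩ := h5 s hs
    have := ((d s).mψ e1).2
    rwa [e2] at this
  · rw [XAtlO_apply]
    ring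
  · have k : XAtlK (c s) η.1 ≠ 0 := sigma_ne _ (h1 s hη)
    have a1 := hv ((0, 1), 0, 0)
    have a2 := hv ((1, 0), 0, 0)
    have a3 := hv ((0, 0), 0, 1)
    have a4 := hv ((0, 0), 1, 0)
    simp only [XAtlO_apply, mul_one, mul_zero, sub_zero, add_zero, zero_sub, sub_self, zero_add,
      mul_eq_zero, neg_eq_zero, k, false_or] at a1 a2 a3 a4
    exact Prod.ext (Prod.ext a1 a2) (Prod.ext a3 a4)
  · simp only [XAtlO_fderiv _ (h1 s hη)]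
    rw [XAtl_lin _ u.1, XAtl_lin _ v.1, XAtl_lin _ z.1]
    simp only [smul_eq_mul]
    ring
  · have e : (z3 ^ 2) ^ 6 = 1 := by
      rw [← pow_mul, show 2 * 6 = 3 * 4 from rfl, pow_mul, XDef_z3, one_pow]
    rw [TU_iter, e, show TS^[6] x.1 = x.1 from actS.per _]
    norm_num
  · rw [h4]
    exact (h3 s η).symm

end Vale.Agent.P265
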