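import Vale.Agent.P265.YDef
import Vale.Agent.P265.HamA

/-!
The symplectic form of the toric surface and the Hamiltonian circle action.
-/

open scoped ContDiff Topology ComplexConjugate
open Set Filter Complex

noncomputable section

namespace Vale.Agent.P265

/-- The standard form. -/
def om (u v : ℂ × ℂ) : ℝ :=
  u.1.re * v.1.im - u.1.im * v.1.re + (u.2.re * v.2.im - u.2.im * v.2.re)

/-- The chart in action-angle coordinates. -/
def kap (i : Fin 6) (w : (ℝ × ℝ) × ℝ × ℝ) : ℂ × ℂ :=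
  (√(ell i w.1) * cexp ((-ph (i + 1) w.2 : ℝ) * I), √(ell (i + 1) w.1) * cexp (ph i w.2 * I))

/-- The derivative of polar coordinates. -/
def dpol (s φ a b : ℝ) : ℂ := ((a / (2 * √s) : ℝ) + (√s * b : ℝ) * I) * cexp (φ * I)

/-- The derivative of `kap`. -/
def dkap (i : Fin 6) (w a : (ℝ × ℝ) × ℝ × ℝ) : ℂ × ℂ :=
  (dpol (ell i w.1) (-ph (i + 1) w.2) (ell i a.1 - cc i) (-ph (i + 1) a.2),
    dpol (ell (i + 1) w.1) (ph i w.2) (ell (i + 1) a.1 - cc (i + 1)) (ph i a.2))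

theorem ys_pol {s φ : ℝ → ℝ} {a b : ℝ} (hs : HasDerivAt s a 0) (hφ : HasDerivAt φ b 0)
    (h : 0 < s 0) : HasDerivAt (fun t => (√(s t) : ℂ) * cexp (φ t * I)) (dpol (s 0) (φ 0) a b) 0 :=
  ((hs.sqrt h.ne').ofReal_comp.mul (hφ.ofReal_comp.mul_const I).cexp).congr_deriv
    (by simp only [dpol]; push_cast; ring)

theorem ys_area {s : ℝ} (h : 0 < s) (φ a b a' b' : ℝ) :
    (dpol s φ a b).re * (dpol s φ a' b').im - (dpol s φ a b).im * (dpol s φ a' b').re =
      (a * b' - a' * b) / 2 := by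
  have h1 := (Real.sqrt_pos.2 h).ne'
  simp only [dpol, mul_re, mul_im, add_re, add_im, ofReal_re, ofReal_im, I_re, I_im,
    exp_ofReal_mul_I_re, exp_ofReal_mul_I_im]
  field_simp
  linear_combination 2 * √s ^ 2 * (a * b' - a' * b) * Real.cos_sq_add_sin_sq φ

theorem ys_surj {s : ℝ} (h : 0 < s) (φ : ℝ) (u : ℂ) : ∃ a b, dpol s φ a b = u := by
  have h1 := (Real.sqrt_pos.2 h).ne'
  refine ⟨(u / cexp (φ * I)).re * (2 * √s), (u / cexp (φ * I)).im / √s, ?_⟩
  rw [dpol, mul_div_cancel_right₀ _ (by positivity), mul_div_cancel₀ _ h1, re_add_im,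
    div_mul_cancel₀ _ (exp_ne_zero _)]

theorem ys_kap {i : Fin 6} {w : (ℝ × ℝ) × ℝ × ℝ} (h : ∀ k, 0 < ell k w.1) (a : (ℝ × ℝ) × ℝ × ℝ) :
    HasDerivAt (fun t : ℝ => kap i (w + t • a)) (dkap i w a) 0 := by
  have h1 : ∀ k, HasDerivAt (fun t : ℝ => ell k (w + t • a).1) (ell k a.1 - cc k) 0 := fun k =>
    (((hasDerivAt_id (0 : ℝ)).mul_const (ell k a.1 - cc k)).const_add
      (ell k w.1)).congr_of_eventuallyEq (Eventually.of_forall fun t => by simp [ell]; ring)
        |>.congr_deriv (one_mul _)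
  have h2 : ∀ k, HasDerivAt (fun t : ℝ => ph k (w + t • a).2) (ph k a.2) 0 := fun k =>
    (((hasDerivAt_id (0 : ℝ)).mul_const (ph k a.2)).const_add
      (ph k w.2)).congr_of_eventuallyEq (Eventually.of_forall fun t => by simp [ph]; ring)
        |>.congr_deriv (one_mul _)
  exact ((ys_pol (h1 i) (h2 (i + 1)).neg (by simpa using h i)).prodMk
    (ys_pol (h1 (i + 1)) (h2 i) (by simpa using h (i + 1)))).congr_deriv (by simp [dkap])

theorem ys_om {i : Fin 6} {w : (ℝ × ℝ) × ℝ × ℝ} (h : ∀ k, 0 < ell k w.1) (a b : (ℝ × ℝ) × ℝ × ℝ) :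
    om (dkap i w a) (dkap i w b) =
      (a.1.1 * b.2.1 + a.1.2 * b.2.2 - b.1.1 * a.2.1 - b.1.2 * a.2.2) / 2 := by
  simp only [om, dkap, ys_area (h _)]
  simp only [ell, ph]
  linear_combination
    (a.1.1 * b.2.1 + a.1.2 * b.2.2 - b.1.1 * a.2.1 - b.1.2 * a.2.2) / 2 * ydef_det i

theorem ys_onto {i : Fin 6} {w : (ℝ × ℝ) × ℝ × ℝ} (h : ∀ k, 0 < ell k w.1) (u : ℂ × ℂ) :
    ∃ a, dkap i w a = u := by
  obtain ⟨a, b, h1⟩ := ys_surj (h i) (-ph (i + 1) w.2) u.1
  obtain ⟨a', b', h2⟩ := ys_surj (h (i + 1)) (ph i w.2) u.2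
  refine ⟨(xv i (a + cc i) (a' + cc (i + 1)), b * (nu i).1 + b' * (nu (i + 1)).1,
    b * (nu i).2 + b' * (nu (i + 1)).2), ?_⟩
  simp [dkap, ell_xv, ydef_ph, DD_self, DD_succ, DD_pred, h1, h2]

theorem ys_psi (i : Fin 6) {w : (ℝ × ℝ) × ℝ × ℝ} (h : w.1 ∈ Hex) :
    psiY i (kap i w) = PiY w.1 w.2 := by
  rw [kap, psiY_polar i (h _) (h _), xv_ell, ydef_ang]

theorem ys_smooth (i j : Fin 6) {z : ℂ × ℂ} (hi : (psiY i z).1 ∈ OY i) (hj : (psiY i z).1 ∈ OY j) :
    ContDiffAt ℝ ∞ (fun z => chiY j (psiY i z)) z := by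
  obtain ⟨c, h1, -, h2, -⟩ := exists_chY i
  obtain ⟨d, -, h3, -, h4⟩ := exists_chY j
  rw [← h1, ← h3]
  exact (d.sχ.contDiffAt (d.oO.mem_nhds (by rw [h4, h1]; exact hj))).comp z
    (c.sψ.contDiffAt (c.oU.mem_nhds (by rw [h2]; exact hi)))

theorem ys_gen (i j : Fin 6) {z : ℂ × ℂ} (hi : (psiY i z).1 ∈ OY i) (h1 : z.1 ≠ 0) (h2 : z.2 ≠ 0)
    (u v : ℂ × ℂ) :
    om (fderiv ℝ (fun z => chiY j (psiY i z)) z u) (fderiv ℝ (fun z => chiY j (psiY i z)) z v) =
      om u v := by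
  let w : (ℝ × ℝ) × ℝ × ℝ := ((psiY i z).1, arg z.1 * (nu i).1 + arg z.2 * (nu (i + 1)).1,
    arg z.1 * (nu i).2 + arg z.2 * (nu (i + 1)).2)
  have hw : ∀ k, 0 < ell k w.1 := fun k => by
    by_cases k1 : k = i
    · simpa [w, k1, psiY, ell_xv] using pow_pos (norm_pos_iff.2 h1) 2
    by_cases k2 : k = i + 1
    · simpa [w, k2, psiY, ell_xv] using pow_pos (norm_pos_iff.2 h2) 2
    exact hi k k1 k2
  have hz : kap i w = z := by
    simp [kap, w, psiY, ell_xv, ydef_ph, DD_self, DD_succ, DD_pred]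
  have key : ∀ a, fderiv ℝ (fun z => chiY j (psiY i z)) z (dkap i w a) = dkap j w a := fun a => by
    refine (((ys_smooth i j hi fun k _ _ => hw k).differentiableAt
      (by simp)).hasFDerivAt.comp_hasDerivAt_of_eq 0 (ys_kap hw a) (by simp [hz])).unique
        ((ys_kap hw a).congr_of_eventuallyEq ?_)
    have : ∀ᶠ t : ℝ in 𝓝 0, ∀ k, 0 < ell k (w + t • a).1 := eventually_all.2 fun k =>
      (by unfold ell; fun_prop : Continuous fun t : ℝ => ell k (w + t • a).1).continuousAt.eventually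
        (lt_mem_nhds (by simpa using hw k))
    filter_upwards [this] with t ht
    rw [Function.comp_apply, ys_psi i fun k => (ht k).le,
      chiY_PiY j (fun k => (ht k).le) fun k _ _ => ht k, kap, ofReal_neg]
  obtain ⟨a, rfl⟩ := ys_onto (i := i) hw u
  obtain ⟨b, rfl⟩ := ys_onto (i := i) hw v
  rw [key, key, ys_om hw, ys_om hw]

/-- The transition maps are symplectic. Both sides are continuous in `z` on the open set of
admissible `z`, so one may assume `z.1 ≠ 0`, `z.2 ≠ 0`; then `z = κ i (x, θ)` with `x` in the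
interior of the hexagon, where `κ i (x, θ)` is the right side of `chiY_PiY`. Near `(x, θ)` one has
`κ j = chiY j ∘ psiY i ∘ κ i`, the derivative of `κ i` is onto, and
`om (Dκ i a) (Dκ i b) = (a.1.1 * b.2.1 + a.1.2 * b.2.2 - b.1.1 * a.2.1 - b.1.2 * a.2.2) / 2` does not
depend on `i`. -/
theorem om_trans (i j : Fin 6) {z : ℂ × ℂ} (hi : (psiY i z).1 ∈ OY i) (hj : (psiY i z).1 ∈ OY j)
    (u v : ℂ × ℂ) :
    om (fderiv ℝ (fun z => chiY j (psiY i z)) z u) (fderiv ℝ (fun z => chiY j (psiY i z)) z v) =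
      om u v := by
  obtain ⟨c, -, -, h2, -⟩ := exists_chY i
  have hU : IsOpen {z : ℂ × ℂ | (psiY i z).1 ∈ OY i} := by have := c.oU; rwa [h2] at this
  have h := ((ys_smooth i j hi hj).fderiv_right (m := 0) (by simp)).continuousAt
  refine ContinuousWithinAt.eq_const_of_mem_closure (f := fun z => om
    (fderiv ℝ (fun z => chiY j (psiY i z)) z u) (fderiv ℝ (fun z => chiY j (psiY i z)) z v))
    (ContinuousAt.continuousWithinAt ?_) (((dense_compl_singleton (0 : ℂ)).prod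
      (dense_compl_singleton (0 : ℂ))).open_subset_closure_inter hU hi)
    fun y hy => ys_gen i j hy.1 hy.2.1 hy.2.2 u v
  unfold om
  fun_prop

/-- The standard form as a continuous bilinear map. -/
def omL : ℂ × ℂ →L[ℝ] ℂ × ℂ →L[ℝ] ℝ :=
  (LinearMap.mk₂ ℝ om (fun _ _ _ => by simp [om]; ring) (fun _ _ _ => by simp [om]; ring)
    (fun _ _ _ => by simp [om]; ring) (fun _ _ _ => by simp [om]; ring)).toContinuousBilinearMap

theorem chiY_rot (i : Fin 6) (t : ℝ) (y : AY) : chiY i (rotY t y) =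
    (cexp ((-ph (i + 1) (Real.pi * t, 0) : ℝ) * I) * (chiY i y).1,
      cexp (ph i (Real.pi * t, 0) * I) * (chiY i y).2) := by
  simp only [chiY, rotY_apply, map_mul, ← exp_conj, conj_ofReal, conj_I, mul_div_assoc, mul_neg,
    ofReal_neg, neg_mul]

theorem om_rot (α β : ℝ) (u v : ℂ × ℂ) : om (cexp (α * I) * u.1, cexp (β * I) * u.2)
    (cexp (α * I) * v.1, cexp (β * I) * v.2) = om u v := by
  simp only [om, mul_re, mul_im, exp_ofReal_mul_I_re, exp_ofReal_mul_I_im]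
  linear_combination (u.1.re * v.1.im - u.1.im * v.1.re) * Real.cos_sq_add_sin_sq α +
    (u.2.re * v.2.im - u.2.im * v.2.re) * Real.cos_sq_add_sin_sq β

theorem ys_co {γ : ℝ → ℂ × ℂ} {v : ℂ × ℂ} (h : HasDerivAt γ v 0) :
    HasDerivAt (fun t => (γ t).1) v.1 0 ∧ HasDerivAt (fun t => (γ t).2) v.2 0 :=
  ⟨(ContinuousLinearMap.fst ℝ ℂ ℂ).hasFDerivAt.comp_hasDerivAt 0 h,
    (ContinuousLinearMap.snd ℝ ℂ ℂ).hasFDerivAt.comp_hasDerivAt 0 h⟩

/-- Choose `i y` with `y.1 ∈ OY (i y)` for `y ∈ YS`, put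
`w y u v = om (D chiY (i y) y u) (D chiY (i y) y v)` and `Ω = om` (constant). By `om_trans`,
`w y u v = om (D chiY j y u) (D chiY j y v)` for tangent `u, v` and every `j` with `y.1 ∈ OY j`. The
action is a linear isometry of `om` in the chart (`rotY_psiY`), and
`H y = -(π / 2) * y.1.1`. -/
theorem exists_atlY : ∃ (a : SAtl YS (ℂ × ℂ)) (r : Circ a), r.ρ = rotY := by
  classical
  choose c h1 h2 h3 h4 using exists_chY
  have : ∀ y : AY, ∃ i, y ∈ YS → y ∈ (c i).O := fun y => by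
    by_cases h : y ∈ YS
    · obtain ⟨i, hi⟩ := Hex_cover h.1
      exact ⟨i, fun _ => by rw [h4]; exact hi⟩
    · exact ⟨0, fun h' => absurd h' h⟩
  choose ι hι using this
  let w : AY → AY → AY → ℝ := fun y u v =>
    om (fderiv ℝ (c (ι y)).χ y u) (fderiv ℝ (c (ι y)).χ y v)
  have key : ∀ j, ∀ y ∈ YS ∩ (c j).O, ∀ u v, Tan YS y u → Tan YS y v →
      w y u v = om (fderiv ℝ (c j).χ y u) (fderiv ℝ (c j).χ y v) := fun j y hy u v hu hv => by
    have e := (c j).ri y hy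
    have := om_trans j (ι y) (z := (c j).χ y) (by rw [← h1, e]; exact (h4 j).subset hy.2)
      (by rw [← h1, e]; exact (h4 _).subset (hι y hy.1)) (fderiv ℝ (c j).χ y u)
      (fderiv ℝ (c j).χ y v)
    rw [← h1, ← h2, fderiv_fun_comp _ ((c _).chart_dχ (by rw [e]; exact hι y hy.1))
      ((c j).chart_dψ ((c j).mχ hy)), e] at this
    simpa only [ContinuousLinearMap.comp_apply, (c j).dψ_dχ hy hu, (c j).dψ_dχ hy hv] using this
  have mp : ∀ t, MapsTo (rotY t) YS YS := fun t y hy => by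
    obtain ⟨h, θ, e⟩ := hy
    rw [e, rotY_PiY]
    exact PiY_mem h _
  have hO : ∀ t, ∀ y ∈ YS, rotY t y ∈ (c (ι y)).O := fun t y hy => by
    have := hι y hy
    rw [h4] at this ⊢
    exact this
  have hd : ∀ t, ∀ y ∈ YS, ∀ u, fderiv ℝ (c (ι y)).χ (rotY t y) (rotY t u) =
      (cexp ((-ph (ι y + 1) (Real.pi * t, 0) : ℝ) * I) * (fderiv ℝ (c (ι y)).χ y u).1,
        cexp (ph (ι y) (Real.pi * t, 0) * I) * (fderiv ℝ (c (ι y)).χ y u).2) := fun t y hy u => by
    have l : HasDerivAt (fun s : ℝ => y + s • u) u 0 := by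
      simpa using ((hasDerivAt_id (0 : ℝ)).smul_const u).const_add y
    have a := ys_co (((c _).chart_dχ (hι y hy)).hasFDerivAt.comp_hasDerivAt_of_eq 0 l (by simp))
    refine (((c _).chart_dχ (hO t y hy)).hasFDerivAt.comp_hasDerivAt_of_eq 0
      ((rotY t).hasFDerivAt.comp_hasDerivAt 0 l) (by simp)).unique
        (((a.1.const_mul _).prodMk (a.2.const_mul _)).congr_of_eventuallyEq
          (Eventually.of_forall fun s => ?_))
    simp only [Function.comp_apply, h2, chiY_rot]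
  refine ⟨⟨⟨fun y => c (ι y), hι⟩, w, fun _ _ => omL, fun s _ η hη u v => ?_,
    fun _ _ => contDiffOn_const, fun _ _ _ _ v => ?_, fun _ _ _ _ v h => ?_,
    fun _ _ _ _ _ _ _ => by simp⟩, ⟨rotY, ?_, fun y => ?_, fun s t y => ?_, fun y => ?_, mp,
      fun t y hy u v hu hv => ?_, -(Real.pi / 2) • (ContinuousLinearMap.fst ℝ ℝ ℝ).comp
        (ContinuousLinearMap.fst ℝ (ℝ × ℝ) (Fin 6 → ℂ)), fun y hy X v hX hv => ?_⟩, rfl⟩
  · rw [key _ _ ((c _).mψ hη) _ _ ((c _).tan hη u) ((c _).tan hη v), (c _).dχ_dψ hη,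
      (c _).dχ_dψ hη]
    rfl
  · show om v v = 0
    rw [om]; ring
  · have a1 : om v (1, 0) = 0 := h _
    have a2 : om v (I, 0) = 0 := h _
    have a3 : om v (0, 1) = 0 := h _
    have a4 : om v (0, I) = 0 := h _
    simp [om] at a1 a2 a3 a4
    exact Prod.ext (Complex.ext a2 a1) (Complex.ext a4 a3)
  · simp only [rotY_apply]
    refine ContDiff.prodMk (by fun_prop) (contDiff_pi.2 fun k => ContDiff.mul
      (ContDiff.cexp (ContDiff.mul (ofRealCLM.contDiff.comp ?_) contDiff_const)) (by fun_prop))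
    exact ContDiff.sub (by fun_prop) (by fun_prop)
  · simp [rotY_apply, ph]
  · simp only [rotY_apply, ← mul_assoc, ← Complex.exp_add, ph]
    refine Prod.ext rfl (funext fun k => ?_)
    dsimp only
    congr 2
    push_cast
    ring
  · refine Prod.ext rfl (funext fun k => ?_)
    have := exp_int_mul_two_pi_mul_I (-(nu k).2)
    simp only [rotY_apply, ph]
    refine (congrArg (· * y.2 k) (Eq.trans ?_ this)).trans (one_mul _)
    congr 1
    push_cast
    ring
  · have t1 := hu.map (rotY t).differentiableAt (mp t)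
    have t2 := hv.map (rotY t).differentiableAt (mp t)
    rw [ContinuousLinearMap.fderiv] at t1 t2
    exact (key (ι y) _ ⟨mp t hy, hO t y hy⟩ _ _ t1 t2).trans (by rw [hd t y hy, hd t y hy, om_rot])
  · obtain ⟨γ, hγ⟩ := hv
    have d := ((c _).chart_dχ (hι y hy)).hasFDerivAt
    have r : ∀ (m : ℝ) (z : ℂ), HasDerivAt (fun t : ℝ => cexp ((m * t : ℝ) * I) * z) (m * I * z) 0 :=
      fun m z => ((((hasDerivAt_id (0 : ℝ)).const_mul m).ofReal_comp.mul_const I).cexp.mul_const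
        z).congr_deriv (by simp)
    have e1 := (d.comp_hasDerivAt_of_eq 0 hX (by simp [rotY_apply, ph])).unique
      (((r (Real.pi * (nu (ι y + 1)).2) (chiY (ι y) y).1).prodMk
        (r (-(Real.pi * (nu (ι y)).2)) (chiY (ι y) y).2)).congr_of_eventuallyEq
          (Eventually.of_forall fun t => by
            simp only [Function.comp_apply, h2, chiY_rot, ph]
            congr 4 <;> ring_nf))
    have a := ys_co (d.comp_hasDerivAt_of_eq 0 hγ.deriv hγ.zero.symm)
    have e2 := (((ContinuousLinearMap.fst ℝ ℝ ℝ).comp (ContinuousLinearMap.fst ℝ (ℝ × ℝ)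
      (Fin 6 → ℂ))).hasFDerivAt.comp_hasDerivAt 0 hγ.deriv).unique
        ((((a.1.norm_sq.mul_const ((nu (ι y + 1)).2 : ℝ)).const_add (vert (ι y)).1).sub
          (a.2.norm_sq.mul_const ((nu (ι y)).2 : ℝ))).congr_of_eventuallyEq (by
      filter_upwards [hγ.mem, hγ.deriv.continuousAt.eventually
        ((c (ι y)).oO.mem_nhds (by rw [hγ.zero]; exact hι y hy))] with t a b
      have := congrArg (fun y : AY => y.1.1) ((c (ι y)).ri _ ⟨a, b⟩)
      rw [h1] at this
      exact this.symm))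
    show om _ _ = -(Real.pi / 2) * v.1.1
    rw [e1, show v.1.1 = _ from e2]
    simp [om, hγ.zero, h2, Complex.inner]
    ring

end Vale.Agent.P265
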