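import Vale.Agent.P265.YDef
import Vale.Agent.P265.Count

/-!
The fixed set of the involution consists of three spheres; the map `u` identifies each of them with
the unit sphere.
-/

open scoped ContDiff Topology ComplexConjugate RealInnerProductSpace
open Set Filter Complex

noncomputable section

namespace Vale.Agent.P265

/-- The part of the modulus of the monomial `j` that does not vanish along the edge `j`. -/
def side (j : Fin 6) (x : ℝ × ℝ) : ℝ :=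
  ∏ k ∈ (Finset.univ.erase (j - 1)).erase (j + 1), ell k x ^ (DD j k).natAbs

/-- Constant along the edge `j` (equal to `1`, `1`, `3` for `j = 0, 2, 4`). -/
def len (j : Fin 6) (x : ℝ × ℝ) : ℝ := ell (j - 1) x + ell (j + 1) x

/-- The map near the edge `j`. -/
def uj (j : Fin 6) (y : AY) : Eu 3 :=
  !₂[2 * (y.2 j).re / (len j y.1 * √(side j y.1)), 2 * (y.2 j).im / (len j y.1 * √(side j y.1)),
    (ell (j + 1) y.1 - ell (j - 1) y.1) / len j y.1]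

/-- The cut-off function of the edge `j`. -/
def bj (j : Fin 6) (y : AY) : ℝ := Real.smoothTransition (2 - 4 * ell j y.1)

/-- The map `u`. -/
def uY (y : AY) : Eu 3 := bj 0 y • uj 0 y + bj 2 y • uj 2 y + bj 4 y • uj 4 y

theorem yu_exp (k : Fin 6) : cexp (ph k (Real.pi * 1, 0) * I) = (-1) ^ (k : ℕ) := by
  have h : (ph k (Real.pi * 1, 0) : ℂ) * I = ((-(nu k).2 : ℤ) : ℂ) * (Real.pi * I) := by
    simp only [ph]
    push_cast
    ring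
  rw [h, Complex.exp_int_mul, Complex.exp_pi_mul_I]
  fin_cases k <;> norm_num [nu]

theorem yu_exp' (k : Fin 6) : cexp (-(ph k (Real.pi * 1, 0)) * I) = (-1) ^ (k : ℕ) := by
  rw [neg_mul, Complex.exp_neg, yu_exp, ← inv_pow, inv_neg_one]

theorem yu_ell (x : ℝ × ℝ) : ell 0 x = x.1 ∧ ell 1 x = x.1 + x.2 - 2 ∧ ell 2 x = x.1 + 2 * x.2 - 3 ∧
    ell 3 x = x.2 ∧ ell 4 x = 4 - x.1 ∧ ell 5 x = 3 - x.2 := by
  refine ⟨?_, ?_, ?_, ?_, ?_, ?_⟩ <;> simp [ell, nu, cc] <;> ring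

theorem yu_d1 : ∀ j : Fin 6, j = 0 ∨ j = 2 ∨ j = 4 →
    (j + 1 = 1 ∨ j + 1 = 3 ∨ j + 1 = 5) ∧ Odd ((j + 1 : Fin 6) : ℕ) ∧ Even (j : ℕ) := by decide

theorem yu_d2 : ∀ i : Fin 6, i + 1 = 0 ∨ i + 1 = 2 ∨ i + 1 = 4 →
    (i = 1 ∨ i = 3 ∨ i = 5) ∧ Odd (i : ℕ) ∧ Even ((i + 1 : Fin 6) : ℕ) := by decide

theorem yu_d3 : ∀ j : Fin 6, j - 1 ≠ j ∧ j - 1 ≠ j + 1 ∧ j + 1 + 1 ≠ j ∧ j + 1 + 1 ≠ j + 1 := by
  decide

theorem yu_zero {y : AY} (h : y ∈ YS) (k : Fin 6) :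
    y.2 k = 0 ↔ ∃ j, DD k j ≠ 0 ∧ ell j y.1 = 0 := by
  obtain ⟨hx, θ, e⟩ := h
  rw [show y.2 k = rad k y.1 * cexp (ph k θ * I) from congrFun (congrArg Prod.snd e) k,
    mul_eq_zero, or_iff_left (Complex.exp_ne_zero _), Complex.ofReal_eq_zero, rad,
    Real.sqrt_eq_zero (Finset.prod_nonneg fun j _ => pow_nonneg (hx j) _), Finset.prod_eq_zero_iff]
  simp only [Finset.mem_univ, true_and, pow_eq_zero_iff', ne_eq, Int.natAbs_eq_zero, and_comm]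

theorem yu_odd {y : AY} (h : y ∈ YS) {j : Fin 6} (hj : j = 0 ∨ j = 2 ∨ j = 4)
    (h0 : ell j y.1 = 0) {k : Fin 6} (hk : k = 1 ∨ k = 3 ∨ k = 5) : y.2 k = 0 :=
  (yu_zero h k).2 ⟨j, by clear h0; revert j k; decide, h0⟩

/-- The involution changes the sign of the odd monomials and fixes the even ones. -/
theorem rotY_one (y : AY) : rotY 1 y = (y.1, fun k : Fin 6 => (-1) ^ (k : ℕ) * y.2 k) := by
  simp only [rotY_apply, yu_exp]

theorem fx_iff {y : AY} (h : y ∈ YS) :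
    y ∈ Fx YS (rotY 1) ↔ ell 0 y.1 = 0 ∨ ell 2 y.1 = 0 ∨ ell 4 y.1 = 0 := by
  constructor
  · rintro ⟨-, h1⟩
    rw [rotY_one] at h1
    have h2 : ∀ k : Fin 6, Odd (k : ℕ) → y.2 k = 0 := fun k hk => by
      have h3 : (-1) ^ (k : ℕ) * y.2 k = y.2 k := congrFun (congrArg Prod.snd h1) k
      rw [hk.neg_one_pow] at h3
      linear_combination (-1 / 2) * h3
    obtain ⟨a, ha, ha'⟩ := (yu_zero h 1).1 (h2 1 (by decide))
    obtain ⟨b, hb, hb'⟩ := (yu_zero h 3).1 (h2 3 (by decide))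
    have h4 : a = 0 ∨ a = 2 ∨ a = 4 ∨ a = 3 ∨ a = 5 := by clear ha'; revert a; decide
    have h5 : b = 0 ∨ b = 2 ∨ b = 4 ∨ b = 1 := by clear hb'; revert b; decide
    obtain ⟨e0, e1, e2, e3, e4, e5⟩ := yu_ell y.1
    have p0 := h.1 0
    have p2 := h.1 2
    rcases h5 with rfl | rfl | rfl | rfl
    · exact Or.inl hb'
    · exact Or.inr (Or.inl hb')
    · exact Or.inr (Or.inr hb')
    rcases h4 with rfl | rfl | rfl | rfl | rfl
    · exact Or.inl ha'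
    · exact Or.inr (Or.inl ha')
    · exact Or.inr (Or.inr ha')
    · linarith
    · linarith
  · intro h1
    obtain ⟨j, hj, h0⟩ : ∃ j : Fin 6, (j = 0 ∨ j = 2 ∨ j = 4) ∧ ell j y.1 = 0 := by
      rcases h1 with h1 | h1 | h1
      exacts [⟨0, by decide, h1⟩, ⟨2, by decide, h1⟩, ⟨4, by decide, h1⟩]
    refine ⟨h, ?_⟩
    rw [rotY_one]
    refine Prod.ext rfl (funext fun k => ?_)
    show (-1) ^ (k : ℕ) * y.2 k = y.2 k
    rcases (by revert k; decide : Even (k : ℕ) ∨ (k = 1 ∨ k = 3 ∨ k = 5)) with hk | hk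
    · rw [hk.neg_one_pow, one_mul]
    · rw [yu_odd h hj h0 hk, mul_zero]

theorem yu_ell_sm (j : Fin 6) : ContDiff ℝ ∞ fun y : AY => ell j y.1 := by
  unfold ell
  fun_prop

theorem yu_b0 {y : AY} {j : Fin 6} (h : 1 / 2 < ell j y.1) : ∀ᶠ y' in 𝓝 y, bj j y' = 0 :=
  ((yu_ell_sm j).continuous.continuousAt.eventually (lt_mem_nhds h)).mono fun _ h' =>
    Real.smoothTransition.zero_of_nonpos (by linarith)

theorem yu_b1 {y : AY} {j : Fin 6} (h : ell j y.1 = 0) : ∀ᶠ y' in 𝓝 y, bj j y' = 1 :=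
  ((yu_ell_sm j).continuous.continuousAt.eventually
    (gt_mem_nhds (show ell j y.1 < 1 / 4 by linarith))).mono fun _ h' =>
    Real.smoothTransition.one_of_one_le (by linarith)

/-- On the edge `j` the other two even functions `ell` are at least `1`. -/
theorem uY_loc {y : AY} (h : y ∈ YS) {j : Fin 6} (hj : j = 0 ∨ j = 2 ∨ j = 4) (h0 : ell j y.1 = 0) :
    uY =ᶠ[𝓝 y] uj j := by
  obtain ⟨e0, e1, e2, e3, e4, e5⟩ := yu_ell y.1
  have p1 := h.1 1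
  have p3 := h.1 3
  rcases hj with rfl | rfl | rfl
  · filter_upwards [yu_b1 h0, yu_b0 (j := 2) (y := y) (by linarith),
      yu_b0 (j := 4) (y := y) (by linarith)] with y' h1 h2 h3
    simp [uY, h1, h2, h3]
  · filter_upwards [yu_b1 h0, yu_b0 (j := 0) (y := y) (by linarith),
      yu_b0 (j := 4) (y := y) (by linarith)] with y' h1 h2 h3
    simp [uY, h1, h2, h3]
  · filter_upwards [yu_b1 h0, yu_b0 (j := 0) (y := y) (by linarith),
      yu_b0 (j := 2) (y := y) (by linarith)] with y' h1 h2 h3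
    simp [uY, h1, h2, h3]

theorem yu_side_pos {x : ℝ × ℝ} {j : Fin 6}
    (h : ∀ k, k ≠ j - 1 → k ≠ j + 1 → DD j k ≠ 0 → 0 < ell k x) : 0 < side j x := by
  refine Finset.prod_pos fun k hk => ?_
  rw [Finset.mem_erase, Finset.mem_erase] at hk
  by_cases h0 : DD j k = 0
  · rw [h0]
    exact one_pos
  · exact pow_pos (h k hk.2.1 hk.1 h0) _

theorem yu_pos {x : ℝ × ℝ} (h : x ∈ Hex) {j : Fin 6} (hj : j = 0 ∨ j = 2 ∨ j = 4)
    (h0 : ell j x ≤ 1 / 2) : 0 < side j x ∧ 0 < len j x := by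
  obtain ⟨e0, e1, e2, e3, e4, e5⟩ := yu_ell x
  have p0 := h 0
  have p1 := h 1
  have p2 := h 2
  have p3 := h 3
  rcases hj with rfl | rfl | rfl
  · refine ⟨yu_side_pos fun k h1 h2 h3 => ?_, show 0 < ell 5 x + ell 1 x by linarith⟩
    rcases (by revert k; decide : k = 2 ∨ k = 3) with rfl | rfl <;> linarith
  · refine ⟨yu_side_pos fun k h1 h2 h3 => ?_, show 0 < ell 1 x + ell 3 x by linarith⟩
    rcases (by revert k; decide : k = 0 ∨ k = 4 ∨ k = 5) with rfl | rfl | rfl <;> linarith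
  · refine ⟨yu_side_pos fun k h1 h2 h3 => ?_, show 0 < ell 3 x + ell 5 x by linarith⟩
    rcases (by revert k; decide : k = 1 ∨ k = 2) with rfl | rfl <;> linarith

theorem yu_side_sm (j : Fin 6) : ContDiff ℝ ∞ fun y : AY => side j y.1 :=
  contDiff_prod fun k _ => (yu_ell_sm k).pow _

theorem yu_len_sm (j : Fin 6) : ContDiff ℝ ∞ fun y : AY => len j y.1 :=
  (yu_ell_sm _).add (yu_ell_sm _)

theorem yu_term {y : AY} {j : Fin 6}
    (h : 1 / 2 < ell j y.1 ∨ (0 < side j y.1 ∧ 0 < len j y.1)) :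
    ContDiffAt ℝ ∞ (fun y => bj j y • uj j y) y := by
  rcases h with h | ⟨h1, h2⟩
  · refine (contDiffAt_const (c := 0)).congr_of_eventuallyEq ((yu_b0 h).mono fun y' h' => ?_)
    simp only [h', zero_smul]
  have h3 := ((yu_len_sm j).contDiffAt (x := y)).mul ((yu_side_sm j).contDiffAt.sqrt h1.ne')
  have h4 : len j y.1 * √(side j y.1) ≠ 0 := (mul_pos h2 (Real.sqrt_pos.2 h1)).ne'
  have h5 : ContDiff ℝ ∞ fun y : AY => y.2 j := by fun_prop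
  refine (Real.smoothTransition.contDiff.comp (contDiff_const.sub
    (contDiff_const.mul (yu_ell_sm j)))).contDiffAt.smul (contDiffAt_euclidean.2 fun i => ?_)
  fin_cases i
  · exact (contDiff_const.mul (reCLM.contDiff.comp h5)).contDiffAt.div h3 h4
  · exact (contDiff_const.mul (imCLM.contDiff.comp h5)).contDiffAt.div h3 h4
  · exact ((yu_ell_sm _).sub (yu_ell_sm _)).contDiffAt.div (yu_len_sm j).contDiffAt h2.ne'

/-- Take `O = {y | ∀ j ∈ {0, 2, 4}, 1 / 2 < ell j y.1 ∨ (0 < side j y.1 ∧ 0 < len j y.1)}`. -/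
theorem uY_sm : ∃ O, IsOpen O ∧ YS ⊆ O ∧ ContDiffOn ℝ ∞ uY O := by
  have ho : ∀ j, IsOpen {y : AY | 1 / 2 < ell j y.1 ∨ (0 < side j y.1 ∧ 0 < len j y.1)} := fun j =>
    (isOpen_lt continuous_const (yu_ell_sm j).continuous).union
      ((isOpen_lt continuous_const (yu_side_sm j).continuous).inter
        (isOpen_lt continuous_const (yu_len_sm j).continuous))
  have hm : ∀ y ∈ YS, ∀ j, j = 0 ∨ j = 2 ∨ j = 4 →
      1 / 2 < ell j y.1 ∨ (0 < side j y.1 ∧ 0 < len j y.1) := fun y hy j hj =>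
    (lt_or_ge _ _).imp_right (yu_pos hy.1 hj)
  exact ⟨_, ((ho 0).inter (ho 2)).inter (ho 4),
    fun y hy => ⟨⟨hm y hy 0 (by decide), hm y hy 2 (by decide)⟩, hm y hy 4 (by decide)⟩,
    fun y hy => (((yu_term hy.1.1).add (yu_term hy.1.2)).add (yu_term hy.2)).contDiffWithinAt⟩

/-- The model map from the disc of radius `sqrt L` to the sphere. -/
def gL (L : ℝ) (w : ℂ) : Eu 3 :=
  !₂[2 * w.re * √(L - ‖w‖ ^ 2) / L, 2 * w.im * √(L - ‖w‖ ^ 2) / L, 2 * ‖w‖ ^ 2 / L - 1]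

theorem yu_dg {L : ℝ} {w : ℂ} (h : ‖w‖ ^ 2 < L) : DifferentiableAt ℝ (gL L) w ∧ ∀ δ : ℂ,
    fderiv ℝ (gL L) w δ 0 = 2 * (δ.re * √(L - ‖w‖ ^ 2) -
      w.re * (w.re * δ.re + w.im * δ.im) / √(L - ‖w‖ ^ 2)) / L ∧
    fderiv ℝ (gL L) w δ 1 = 2 * (δ.im * √(L - ‖w‖ ^ 2) -
      w.im * (w.re * δ.re + w.im * δ.im) / √(L - ‖w‖ ^ 2)) / L ∧
    fderiv ℝ (gL L) w δ 2 = 4 * (w.re * δ.re + w.im * δ.im) / L := by
  have hn : HasFDerivAt (fun w : ℂ => ‖w‖ ^ 2) (2 • innerSL ℝ w) w :=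
    (hasStrictFDerivAt_norm_sq w).hasFDerivAt
  have hs := (hn.const_sub L).sqrt (sub_pos.2 h).ne'
  have d0 := (((reCLM.hasFDerivAt (x := w)).const_mul 2).mul hs).mul_const L⁻¹
  have d1 := (((imCLM.hasFDerivAt (x := w)).const_mul 2).mul hs).mul_const L⁻¹
  have d2 := ((hn.const_mul 2).mul_const L⁻¹).sub_const 1
  have hd : DifferentiableAt ℝ (gL L) w := differentiableAt_euclidean.2 fun i => by
    fin_cases i
    exacts [d0.differentiableAt, d1.differentiableAt, d2.differentiableAt]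
  have k : ∀ i : Fin 3, HasFDerivAt (fun w => gL L w i)
      ((EuclideanSpace.proj i : Eu 3 →L[ℝ] ℝ).comp (fderiv ℝ (gL L) w)) w := fun i =>
    (EuclideanSpace.proj i : Eu 3 →L[ℝ] ℝ).hasFDerivAt.comp w hd.hasFDerivAt
  have hp := (Real.sqrt_pos.2 (sub_pos.2 h)).ne'
  refine ⟨hd, fun δ => ⟨?_, ?_, ?_⟩⟩
  · refine (congrArg (fun D : ℂ →L[ℝ] ℝ => D δ) ((k 0).unique d0)).trans ?_
    simp [Complex.inner]
    field_simp
    ring
  · refine (congrArg (fun D : ℂ →L[ℝ] ℝ => D δ) ((k 1).unique d1)).trans ?_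
    simp [Complex.inner]
    field_simp
    ring
  · refine (congrArg (fun D : ℂ →L[ℝ] ℝ => D δ) ((k 2).unique d2)).trans ?_
    simp [Complex.inner]
    ring

theorem yu_inner (a b : Eu 3) : ⟪a, b⟫ = a 0 * b 0 + a 1 * b 1 + a 2 * b 2 := by
  simp [PiLp.inner_apply, Fin.sum_univ_three, mul_comm]

theorem yu_nsq (w : ℂ) : ‖w‖ ^ 2 = w.re * w.re + w.im * w.im := by
  rw [Complex.sq_norm, Complex.normSq_apply]

theorem yu_norm {L : ℝ} {w : ℂ} (h : ‖w‖ ^ 2 < L) : ‖gL L w‖ = 1 := by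
  have hL : 0 < L := (sq_nonneg _).trans_lt h
  have hs := Real.mul_self_sqrt (sub_pos.2 h).le
  have hn := yu_nsq w
  rw [← sq_eq_sq₀ (norm_nonneg _) zero_le_one, ← real_inner_self_eq_norm_sq, yu_inner]
  show 2 * w.re * √(L - ‖w‖ ^ 2) / L * (2 * w.re * √(L - ‖w‖ ^ 2) / L) +
    2 * w.im * √(L - ‖w‖ ^ 2) / L * (2 * w.im * √(L - ‖w‖ ^ 2) / L) +
    (2 * ‖w‖ ^ 2 / L - 1) * (2 * ‖w‖ ^ 2 / L - 1) = 1 ^ 2
  generalize √(L - ‖w‖ ^ 2) = s at hs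
  generalize ‖w‖ ^ 2 = N at hs hn
  field_simp
  linear_combination (4 * N) * hs - (4 * s ^ 2) * hn

theorem gL_inj {L : ℝ} {w : ℂ} (h : ‖w‖ ^ 2 < L) {δ : ℂ} (h0 : fderiv ℝ (gL L) w δ = 0) :
    δ = 0 := by
  have hL : L ≠ 0 := ((sq_nonneg _).trans_lt h).ne'
  have hp := (Real.sqrt_pos.2 (sub_pos.2 h)).ne'
  obtain ⟨k0, k1, k2⟩ := (yu_dg h).2 δ
  rw [h0] at k0 k1 k2
  have k3 : w.re * δ.re + w.im * δ.im = 0 := by
    rw [eq_comm, PiLp.zero_apply, div_eq_zero_iff, or_iff_left hL] at k2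
    linarith
  rw [k3] at k0 k1
  rw [eq_comm, PiLp.zero_apply, div_eq_zero_iff, or_iff_left hL, mul_zero, zero_div, sub_zero,
    mul_eq_zero, or_iff_right two_ne_zero, mul_eq_zero, or_iff_left hp] at k0 k1
  exact Complex.ext k0 k1

/-- Test with `δ = w` and use `⟪a, gL L w⟫ = 0`. -/
theorem gL_span {L : ℝ} {w : ℂ} (h : ‖w‖ ^ 2 < L) {a : Eu 3} (h1 : ⟪a, gL L w⟫ = 0)
    (h2 : ∀ δ, ⟪a, fderiv ℝ (gL L) w δ⟫ = 0) : a = 0 := by
  have hL : L ≠ 0 := ((sq_nonneg _).trans_lt h).ne'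
  have hp := (Real.sqrt_pos.2 (sub_pos.2 h)).ne'
  have hs := Real.mul_self_sqrt (sub_pos.2 h).le
  have hn := yu_nsq w
  have k : ∀ δ : ℂ, (a 0 * δ.re + a 1 * δ.im) * (L - ‖w‖ ^ 2) - (a 0 * w.re + a 1 * w.im) *
      (w.re * δ.re + w.im * δ.im) + 2 * a 2 * (w.re * δ.re + w.im * δ.im) * √(L - ‖w‖ ^ 2) = 0 := by
    intro δ
    have k0 := h2 δ
    rw [yu_inner, ((yu_dg h).2 δ).1, ((yu_dg h).2 δ).2.1, ((yu_dg h).2 δ).2.2] at k0
    generalize √(L - ‖w‖ ^ 2) = s at hs hp k0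
    rw [← hs]
    field_simp at k0
    linear_combination (1 / 2) * k0
  have k1 : 2 * (a 0 * w.re + a 1 * w.im) * √(L - ‖w‖ ^ 2) + a 2 * (2 * ‖w‖ ^ 2 - L) = 0 := by
    rw [yu_inner] at h1
    change a 0 * (2 * w.re * √(L - ‖w‖ ^ 2) / L) + a 1 * (2 * w.im * √(L - ‖w‖ ^ 2) / L) +
      a 2 * (2 * ‖w‖ ^ 2 / L - 1) = 0 at h1
    field_simp at h1
    linear_combination h1
  have k2 := k w
  have k3 := k 1
  have k4 := k I
  rw [← hn] at k2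
  have hq : L - ‖w‖ ^ 2 ≠ 0 := (sub_pos.2 h).ne'
  generalize √(L - ‖w‖ ^ 2) = s at hs hp k1 k2 k3 k4
  generalize ‖w‖ ^ 2 = N at hs k1 k2 k3 k4 hq
  have m0 : a 0 * w.re + a 1 * w.im = 0 := by
    refine (mul_eq_zero.1 (?_ : _ * (L * L) = 0)).resolve_right (mul_ne_zero hL hL)
    linear_combination (L - 2 * N) * k2 + 2 * N * s * k1 -
      4 * N * (a 0 * w.re + a 1 * w.im) * hs
  rw [m0] at k1 k2 k3 k4
  have m2 : a 2 = 0 := by
    refine (mul_eq_zero.1 (?_ : _ * (L * s) = 0)).resolve_right (mul_ne_zero hL hp)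
    linear_combination k2 - s * k1
  rw [m2] at k3 k4
  ext i
  fin_cases i
  · simpa [hq] using k3
  · simpa [hq] using k4
  · exact m2

theorem yu_len {j : Fin 6} (hj : j = 0 ∨ j = 2 ∨ j = 4) :
    ∃ L : ℝ, L ≠ 0 ∧ ∀ x, ell j x = 0 → len j x = L := by
  rcases hj with rfl | rfl | rfl
  · refine ⟨1, one_ne_zero, fun x h => ?_⟩
    obtain ⟨e0, e1, e2, e3, e4, e5⟩ := yu_ell x
    show ell 5 x + ell 1 x = 1
    linarith
  · refine ⟨1, one_ne_zero, fun x h => ?_⟩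
    obtain ⟨e0, e1, e2, e3, e4, e5⟩ := yu_ell x
    show ell 1 x + ell 3 x = 1
    linarith
  · refine ⟨3, three_ne_zero, fun x h => ?_⟩
    obtain ⟨e0, e1, e2, e3, e4, e5⟩ := yu_ell x
    show ell 3 x + ell 5 x = 3
    linarith

theorem yu_rest1 (j : Fin 6) (x : ℝ × ℝ) : rest j j x = √(ell (j - 1) x * side j x) := by
  have h := DD_pred (j - 1)
  rw [sub_add_cancel] at h
  have h1 := Finset.mul_prod_erase (Finset.univ.erase (j + 1)) (fun k => ell k x ^ (DD j k).natAbs)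
    (a := j - 1) (by revert j; decide)
  rw [h, show (-1 : ℤ).natAbs = 1 from rfl, pow_one] at h1
  rw [rest, side, Finset.erase_right_comm, Finset.prod_erase _ (by rw [DD_self]; rfl),
    Finset.erase_right_comm, h1]

theorem yu_rest2 (i : Fin 6) (x : ℝ × ℝ) :
    rest i (i + 1) x = √(ell (i + 1 + 1) x * side (i + 1) x) := by
  have h1 := Finset.mul_prod_erase (Finset.univ.erase i)
    (fun k => ell k x ^ (DD (i + 1) k).natAbs) (a := i + 1 + 1) (by revert i; decide)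
  rw [DD_succ, show (1 : ℤ).natAbs = 1 from rfl, pow_one] at h1
  rw [rest, side, Finset.prod_erase _ (by rw [DD_self]; rfl), add_sub_cancel_right, h1]

theorem yu_uj {j : Fin 6} {y : AY} {L s : ℝ} {w : ℂ} (hL : len j y.1 = L) (hs : 0 < side j y.1)
    (h : y.2 j = w * √(s * side j y.1)) : uj j y =
      !₂[2 * w.re * √s / L, 2 * w.im * √s / L, (ell (j + 1) y.1 - ell (j - 1) y.1) / L] := by
  have h1 := (Real.sqrt_pos.2 hs).ne'
  rw [uj, h, hL, Real.sqrt_mul' _ hs.le, Complex.re_mul_ofReal, Complex.im_mul_ofReal,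
    ← mul_assoc, ← mul_assoc, ← mul_assoc, ← mul_assoc, mul_div_mul_right _ _ h1,
    mul_div_mul_right _ _ h1]

theorem yu_edge {y : AY} (h : y ∈ Fx YS (rotY 1)) :
    ∃ j : Fin 6, (j = 0 ∨ j = 2 ∨ j = 4) ∧ ell j y.1 = 0 := by
  rcases (fx_iff h.1).1 h with h1 | h1 | h1
  exacts [⟨0, by decide, h1⟩, ⟨2, by decide, h1⟩, ⟨4, by decide, h1⟩]

theorem yu_idx {x : ℝ × ℝ} {i j : Fin 6} (h : x ∈ OY i) (h0 : ell j x = 0) :
    j = i ∨ j = i + 1 := by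
  by_contra h1
  rw [not_or] at h1
  exact (h j h1.1 h1.2).ne' h0

theorem yu_ev {y : AY} (h : y ∈ YS) {j : Fin 6} (hj : j = 0 ∨ j = 2 ∨ j = 4) (h0 : ell j y.1 = 0)
    (c : PChart YS (ℂ × ℂ)) (e : ℂ →L[ℝ] ℂ × ℂ) {w : ℂ} (hO : y ∈ c.O) (hw : c.χ y = e w) :
    ∀ᶠ w' in 𝓝 w, e w' ∈ c.U ∧ uY (c.ψ (e w')) = uj j (c.ψ (e w')) := by
  have h1 : e w ∈ c.U := hw ▸ c.mχ ⟨h, hO⟩
  have h2 : c.ψ (e w) = y := hw ▸ c.ri y ⟨h, hO⟩
  have h3 : Tendsto (fun w' => c.ψ (e w')) (𝓝 w) (𝓝 y) :=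
    h2 ▸ (c.chart_dψ h1).continuousAt.comp e.continuous.continuousAt
  exact (e.continuous.continuousAt.eventually_mem (c.oU.mem_nhds h1)).and
    (h3.eventually (uY_loc h hj h0))

/-- A uniform description near a fixed point `y` on the edge `j`: in the chart `i = j` the fixed
set is `z.1 = 0` and `uj j (psiY j (0, w)) = gL L w`; in the chart `i = j - 1` it is `z.2 = 0` and
`uj j (psiY i (w, 0))` is `gL L w` with the signs of the last two components changed. -/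
theorem fx_chart {y : AY} (h : y ∈ Fx YS (rotY 1)) :
    ∃ (c : PChart YS (ℂ × ℂ)) (e : ℂ →L[ℝ] ℂ × ℂ) (κ : ℂ × ℂ →L[ℝ] ℂ × ℂ) (R : Eu 3 ≃ₗᵢ[ℝ] Eu 3)
      (L : ℝ) (w : ℂ), y ∈ c.O ∧ c.χ y = e w ∧ ‖w‖ ^ 2 < L ∧
      (∀ z, rotY 1 (c.ψ z) = c.ψ (κ z)) ∧ (∀ z ∈ c.U, κ z ∈ c.U) ∧ (∀ z, κ z = z ↔ ∃ w, z = e w) ∧
      ∀ᶠ w' in 𝓝 w, uY (c.ψ (e w')) = R (gL L w') := by
  obtain ⟨j, hj, h0⟩ := yu_edge h
  obtain ⟨i, hi⟩ := Hex_cover h.1.1
  obtain ⟨c, c1, c2, c3, c4⟩ := exists_chY i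
  obtain ⟨L, hL, hL'⟩ := yu_len hj
  have hO : y ∈ c.O := c4 ▸ hi
  have n0 : ‖(0 : ℂ)‖ ^ 2 = 0 := by simp
  rcases yu_idx hi h0 with rfl | rfl
  · have hw : c.χ y = ContinuousLinearMap.inr ℝ ℂ ℂ (y.2 j / rest j j y.1) := by
      rw [c2, chiY, yu_odd h.1 hj h0 (yu_d1 j hj).1, map_zero, zero_div]
      rfl
    have k : ∀ w' : ℂ, ((0 : ℂ), w') ∈ c.U → ‖w'‖ ^ 2 < L ∧
        uj j (psiY j (0, w')) = gL L w' := fun w' h1 => by
      rw [c3] at h1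
      obtain ⟨e1, e2⟩ := ell_xv j (‖(0 : ℂ)‖ ^ 2) (‖w'‖ ^ 2)
      have e3 := hL' _ (e1.trans n0)
      have e4 : ell (j - 1) (xv j (‖(0 : ℂ)‖ ^ 2) (‖w'‖ ^ 2)) = L - ‖w'‖ ^ 2 := by
        rw [← e3, len, e2, add_sub_cancel_right]
      have e5 := h1 (j - 1) (yu_d3 j).1 (yu_d3 j).2.1
      refine ⟨sub_pos.1 (e4 ▸ e5), ?_⟩
      rw [yu_uj (y := psiY j (0, w')) (w := w') (s := L - ‖w'‖ ^ 2) e3
        (yu_side_pos fun k _ h3 h4 => h1 k (fun h5 => h4 (h5 ▸ DD_self j)) h3) (by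
          simp only [psiY, DD_self, DD_succ, yu_rest1, e4]
          simp [mono]), gL]
      congr 4
      simp only [psiY, e2, e4]
      field_simp
      ring
    have ev := yu_ev h.1 hj h0 c _ hO hw
    refine ⟨c, _, (-ContinuousLinearMap.id ℝ ℂ).prodMap (ContinuousLinearMap.id ℝ ℂ),
      LinearIsometryEquiv.refl ℝ _, L, _, hO, hw, (k _ ev.self_of_nhds.1).1, fun z => ?_,
      fun z hz => ?_, fun z => ⟨fun hz => ⟨z.2, Prod.ext ?_ rfl⟩, ?_⟩,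
      ev.mono fun w' h1 => h1.2.trans (c1 ▸ (k w' h1.1).2)⟩
    · rw [c1, rotY_psiY, yu_exp, yu_exp', (yu_d1 j hj).2.1.neg_one_pow, (yu_d1 j hj).2.2.neg_one_pow,
        neg_one_mul, one_mul]
      rfl
    · rw [c3] at hz ⊢
      simpa using hz
    · have h1 : -z.1 = z.1 := congrArg Prod.fst hz
      show z.1 = 0
      linear_combination (-1 / 2) * h1
    · rintro ⟨w, rfl⟩
      simp
  · have hw : c.χ y = ContinuousLinearMap.inl ℝ ℂ ℂ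
        (conj (y.2 (i + 1)) / rest i (i + 1) y.1) := by
      rw [c2, chiY, yu_odd h.1 hj h0 (yu_d2 i hj).1, zero_div]
      rfl
    let R : Eu 3 ≃ₗᵢ[ℝ] Eu 3 := LinearIsometryEquiv.piLpCongrRight 2
      ![LinearIsometryEquiv.refl ℝ ℝ, LinearIsometryEquiv.neg ℝ, LinearIsometryEquiv.neg ℝ]
    have k : ∀ w' : ℂ, (w', (0 : ℂ)) ∈ c.U → ‖w'‖ ^ 2 < L ∧
        uj (i + 1) (psiY i (w', 0)) = R (gL L w') := fun w' h1 => by
      rw [c3] at h1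
      obtain ⟨e1, e2⟩ := ell_xv i (‖w'‖ ^ 2) (‖(0 : ℂ)‖ ^ 2)
      have e3 := hL' _ (e2.trans n0)
      have e4 : ell (i + 1 + 1) (xv i (‖w'‖ ^ 2) (‖(0 : ℂ)‖ ^ 2)) = L - ‖w'‖ ^ 2 := by
        rw [← e3, len, add_sub_cancel_right, e1, add_sub_cancel_left]
      have e5 := h1 (i + 1 + 1) (yu_d3 i).2.2.1 (yu_d3 i).2.2.2
      refine ⟨sub_pos.1 (e4 ▸ e5), ?_⟩
      rw [yu_uj (y := psiY i (w', 0)) (w := conj w') (s := L - ‖w'‖ ^ 2) e3
        (yu_side_pos fun k h2 _ h4 => h1 k (by rwa [add_sub_cancel_right] at h2)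
          fun h5 => h4 (h5 ▸ DD_self (i + 1))) (by
          simp only [psiY, DD_self, DD_pred, yu_rest2, e4]
          simp [mono])]
      ext l
      fin_cases l
      · rfl
      · show 2 * (conj w').im * √(L - ‖w'‖ ^ 2) / L = -(2 * w'.im * √(L - ‖w'‖ ^ 2) / L)
        rw [Complex.conj_im]
        ring
      · show (ell (i + 1 + 1) (xv i (‖w'‖ ^ 2) (‖(0 : ℂ)‖ ^ 2)) -
          ell (i + 1 - 1) (xv i (‖w'‖ ^ 2) (‖(0 : ℂ)‖ ^ 2))) / L = -(2 * ‖w'‖ ^ 2 / L - 1)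
        rw [add_sub_cancel_right, e1, e4]
        field_simp
        ring
    have ev := yu_ev h.1 hj h0 c _ hO hw
    refine ⟨c, _, (ContinuousLinearMap.id ℝ ℂ).prodMap (-ContinuousLinearMap.id ℝ ℂ),
      R, L, _, hO, hw, (k _ ev.self_of_nhds.1).1, fun z => ?_,
      fun z hz => ?_, fun z => ⟨fun hz => ⟨z.1, Prod.ext rfl ?_⟩, ?_⟩,
      ev.mono fun w' h1 => h1.2.trans (c1 ▸ (k w' h1.1).2)⟩
    · rw [c1, rotY_psiY, yu_exp, yu_exp', (yu_d2 i hj).2.1.neg_one_pow, (yu_d2 i hj).2.2.neg_one_pow,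
        neg_one_mul, one_mul]
      rfl
    · rw [c3] at hz ⊢
      simpa using hz
    · have h1 : -z.2 = z.2 := congrArg Prod.snd hz
      show z.2 = 0
      linear_combination (-1 / 2) * h1
    · rintro ⟨w, rfl⟩
      simp

/-- The last component and `ell j = 0` determine `y.1`; the first two determine `y.2 j`; the odd
monomials vanish. A chart `i` with `y.1 ∈ OY i` has `i = j` or `i + 1 = j`, so `chiY i` takes the
same value at both points. -/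
theorem uj_inj {y y' : AY} (h : y ∈ YS) (h' : y' ∈ YS) {j : Fin 6} (hj : j = 0 ∨ j = 2 ∨ j = 4)
    (h0 : ell j y.1 = 0) (h0' : ell j y'.1 = 0) (he : uj j y = uj j y') : y = y' := by
  obtain ⟨L, hL, hL'⟩ := yu_len hj
  have l1 := hL' _ h0
  have l2 := hL' _ h0'
  have k2 : (ell (j + 1) y.1 - ell (j - 1) y.1) / len j y.1 =
      (ell (j + 1) y'.1 - ell (j - 1) y'.1) / len j y'.1 := congrArg (fun v : Eu 3 => v 2) he
  rw [l1, l2, div_left_inj' hL] at k2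
  have e1 : y.1 = y'.1 := by
    unfold len at l1 l2
    rw [← xv_ell j y.1, ← xv_ell j y'.1, h0, h0',
      show ell (j + 1) y.1 = ell (j + 1) y'.1 by linarith]
  have hp := yu_pos h.1 hj (by rw [h0]; norm_num)
  have hq : len j y.1 * √(side j y.1) ≠ 0 := (mul_pos hp.2 (Real.sqrt_pos.2 hp.1)).ne'
  have k0 : 2 * (y.2 j).re / (len j y.1 * √(side j y.1)) =
      2 * (y'.2 j).re / (len j y'.1 * √(side j y'.1)) := congrArg (fun v : Eu 3 => v 0) he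
  have k1 : 2 * (y.2 j).im / (len j y.1 * √(side j y.1)) =
      2 * (y'.2 j).im / (len j y'.1 * √(side j y'.1)) := congrArg (fun v : Eu 3 => v 1) he
  rw [← e1, div_left_inj' hq] at k0 k1
  have e2 : y.2 j = y'.2 j := Complex.ext (by linarith) (by linarith)
  obtain ⟨i, hi⟩ := Hex_cover h.1
  obtain ⟨c, -, c2, -, c4⟩ := exists_chY i
  have e3 : c.χ y = c.χ y' := by
    rw [c2, chiY, chiY, ← e1]
    rcases yu_idx hi h0 with rfl | rfl
    · rw [e2, yu_odd h hj h0 (yu_d1 j hj).1,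
        yu_odd h' hj h0' (yu_d1 j hj).1]
    · rw [e2, yu_odd h hj h0 (yu_d2 i hj).1,
        yu_odd h' hj h0' (yu_d2 i hj).1]
  rw [← c.ri y ⟨h, c4 ▸ hi⟩, e3, c.ri y' ⟨h', c4 ▸ (e1 ▸ hi : y'.1 ∈ OY i)⟩]

section Gen

variable {c : PChart YS (ℂ × ℂ)} {e : ℂ →L[ℝ] ℂ × ℂ} {κ : ℂ × ℂ →L[ℝ] ℂ × ℂ}

theorem yu_tan (h1 : ∀ z, rotY 1 (c.ψ z) = c.ψ (κ z)) {η a : ℂ × ℂ} (hη : η ∈ c.U) (h2 : κ η = η)
    (h3 : κ a = a) : Tan (Fx YS (rotY 1)) (c.ψ η) (fderiv ℝ c.ψ η a) :=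
  ⟨_, (c.chart_curve hη a).zero, (c.chart_curve hη a).deriv, (c.chart_curve hη a).mem.mono
    fun t ht => ⟨ht, by rw [h1, map_add, map_smul, h2, h3]⟩⟩

theorem yu_fix (h1 : ∀ z, rotY 1 (c.ψ z) = c.ψ (κ z)) {η : ℂ × ℂ} (hη : η ∈ c.U) (h2 : κ η = η)
    {v : AY} (hv : Tan YS (c.ψ η) v) (h3 : rotY 1 v = v) :
    ∃ a, κ a = a ∧ v = fderiv ℝ c.ψ η a := by
  have h4 := c.dψ_dχ (c.mψ hη) hv
  rw [c.li η hη] at h4
  refine ⟨_, ?_, h4.symm⟩
  generalize fderiv ℝ c.χ (c.ψ η) v = a at h4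
  have d1 := (rotY 1).hasFDerivAt.comp η (c.chart_dψ hη).hasFDerivAt
  have d2 := (show HasFDerivAt c.ψ (fderiv ℝ c.ψ η) (κ η) by
    rw [h2]; exact (c.chart_dψ hη).hasFDerivAt).comp η κ.hasFDerivAt
  have h5 : rotY 1 (fderiv ℝ c.ψ η a) = fderiv ℝ c.ψ η (κ a) :=
    congrArg (fun D : ℂ × ℂ →L[ℝ] AY => D a) (d1.unique (d2.congr_of_eventuallyEq
      (Eventually.of_forall h1)))
  rw [h4, h3, ← h4] at h5
  rw [← c.dχ_dψ hη (κ a), ← h5, c.dχ_dψ hη]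

theorem yu_du {R : Eu 3 ≃ₗᵢ[ℝ] Eu 3} {L : ℝ} {w : ℂ} (hη : e w ∈ c.U) (h : ‖w‖ ^ 2 < L)
    (h1 : ∀ᶠ w' in 𝓝 w, uY (c.ψ (e w')) = R (gL L w')) (δ : ℂ) :
    fderiv ℝ uY (c.ψ (e w)) (fderiv ℝ c.ψ (e w) (e δ)) = R (fderiv ℝ (gL L) w δ) := by
  obtain ⟨O, hO, hY, hs⟩ := uY_sm
  have d0 := (hs.contDiffAt (hO.mem_nhds (hY (c.mψ hη).1))).differentiableAt (by simp)
  have d1 := d0.hasFDerivAt.comp w ((c.chart_dψ hη).hasFDerivAt.comp w e.hasFDerivAt)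
  have d2 := R.toContinuousLinearEquiv.hasFDerivAt.comp w (yu_dg h).1.hasFDerivAt
  exact congrArg (fun D : ℂ →L[ℝ] Eu 3 => D δ) (d1.unique (d2.congr_of_eventuallyEq h1))

end Gen

theorem udata : UData YS (rotY 1) uY := by
  refine ⟨uY_sm, fun y _ => ?_, fun y hy => ?_, fun w => ?_, fun y hy v hv hr => ?_,
    fun y hy v hv h0 => ?_, fun y hy b hb h0 => ?_⟩
  · rw [rotY_one]
    simp only [uY, bj, uj]
    norm_num
  · obtain ⟨c, e, κ, R, L, w, hO, hw, hL, -, -, -, ev⟩ := fx_chart hy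
    rw [← c.ri y ⟨hy.1, hO⟩, hw, ev.self_of_nhds, R.norm_map, yu_norm hL]
  · have k : ∀ j : Fin 6, j = 0 ∨ j = 2 ∨ j = 4 →
        {y ∈ YS | ell j y.1 = 0 ∧ uY y = w}.encard ≤ 1 := fun j hj =>
      Set.encard_le_one_iff_subsingleton.2 fun y h y' h' => uj_inj h.1 h'.1 hj h.2.1 h'.2.1 (by
        rw [← (uY_loc h.1 hj h.2.1).self_of_nhds, ← (uY_loc h'.1 hj h'.2.1).self_of_nhds, h.2.2,
          h'.2.2])
    refine (Set.encard_le_encard (t := {y ∈ YS | ell 0 y.1 = 0 ∧ uY y = w} ∪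
      {y ∈ YS | ell 2 y.1 = 0 ∧ uY y = w} ∪ {y ∈ YS | ell 4 y.1 = 0 ∧ uY y = w})
        fun y h => ?_).trans (((Set.encard_union_le _ _).trans (add_le_add
          ((Set.encard_union_le _ _).trans (add_le_add (k 0 (by decide)) (k 2 (by decide))))
          (k 4 (by decide)))).trans (by norm_num))
    rcases (fx_iff h.1.1).1 h.1 with h1 | h1 | h1
    exacts [Or.inl (Or.inl ⟨h.1.1, h1, h.2⟩), Or.inl (Or.inr ⟨h.1.1, h1, h.2⟩),
      Or.inr ⟨h.1.1, h1, h.2⟩]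
  · obtain ⟨c, e, κ, R, L, w, hO, hw, hL, h1, -, h3, -⟩ := fx_chart hy
    have hη : e w ∈ c.U := hw ▸ c.mχ ⟨hy.1, hO⟩
    obtain rfl : c.ψ (e w) = y := hw ▸ c.ri y ⟨hy.1, hO⟩
    obtain ⟨a, ha, rfl⟩ := yu_fix h1 hη ((h3 _).2 ⟨w, rfl⟩) hv hr
    exact yu_tan h1 hη ((h3 _).2 ⟨w, rfl⟩) ha
  · obtain ⟨c, e, κ, R, L, w, hO, hw, hL, h1, -, h3, ev⟩ := fx_chart hy
    have hη : e w ∈ c.U := hw ▸ c.mχ ⟨hy.1, hO⟩
    obtain rfl : c.ψ (e w) = y := hw ▸ c.ri y ⟨hy.1, hO⟩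
    have hr : rotY 1 v = v := by
      obtain ⟨γ, hγ⟩ := hv
      exact ((rotY 1).hasFDerivAt.comp_hasDerivAt 0 hγ.deriv).unique
        (hγ.deriv.congr_of_eventuallyEq (hγ.mem.mono fun _ h => h.2))
    obtain ⟨a, ha, rfl⟩ := yu_fix h1 hη ((h3 _).2 ⟨w, rfl⟩) (hv.mono fun _ h => h.1) hr
    obtain ⟨δ, rfl⟩ := (h3 a).1 ha
    rw [yu_du hη hL ev, R.map_eq_zero_iff] at h0
    rw [gL_inj hL h0, map_zero, map_zero]
  · obtain ⟨c, e, κ, R, L, w, hO, hw, hL, h1, h2, h3, ev⟩ := fx_chart hy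
    have hη : e w ∈ c.U := hw ▸ c.mχ ⟨hy.1, hO⟩
    obtain rfl : c.ψ (e w) = y := hw ▸ c.ri y ⟨hy.1, hO⟩
    obtain ⟨a, rfl⟩ := R.surjective b
    rw [ev.self_of_nhds, R.inner_map_map] at h0
    obtain ⟨δ, hδ⟩ : ∃ δ, ⟪a, fderiv ℝ (gL L) w δ⟫ ≠ 0 := by
      by_contra h4
      exact hb (by rw [gL_span hL h0 fun δ => not_not.1 fun h5 => h4 ⟨δ, h5⟩, map_zero])
    refine ⟨fun y' => fderiv ℝ c.ψ (c.χ y') (e δ), ?_, ?_, ?_, ?_⟩
    · have d1 : DifferentiableAt ℝ (fderiv ℝ c.ψ) (c.χ (c.ψ (e w))) := by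
        rw [hw]
        exact ((c.sψ.contDiffAt (c.oU.mem_nhds hη)).fderiv_right (m := 1)
          (by norm_cast)).differentiableAt one_ne_zero
      exact (d1.comp _ (c.chart_dχ hO)).clm_apply (differentiableAt_const _)
    · filter_upwards [inter_mem_nhdsWithin YS (c.oO.mem_nhds hO)] with y' h
      have h4 := c.tan (c.mχ h) (e δ)
      rwa [c.ri y' h] at h4
    · filter_upwards [inter_mem_nhdsWithin (Fx YS (rotY 1)) (c.oO.mem_nhds hO)] with y' h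
      have h5 : y' ∈ YS ∩ c.O := ⟨h.1.1, h.2⟩
      have h4 := yu_tan h1 (c.mχ h5) (by
        rw [← c.li _ (h2 _ (c.mχ h5)), ← h1, c.ri y' h5, h.1.2]) ((h3 (e δ)).2 ⟨δ, rfl⟩)
      rwa [c.ri y' h5] at h4
    · simp only [hw]
      rwa [yu_du hη hL ev, R.inner_map_map]

end Vale.Agent.P265
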