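import Vale.Agent.P265.BetaSig
import Vale.Agent.P265.BetaY
import Vale.Agent.P265.XAtl
import Vale.Agent.P265.FMap
import Vale.Agent.P265.YSymp
import Vale.Agent.P265.YU
import Vale.Agent.P265.Ham

/-!
The counterexample.
-/

open scoped Manifold ContDiff Topology
open Set Filter Complex

noncomputable section

namespace Vale.Agent.P265

section betti
variable {K : Type} [Field K]

theorem prod_iter {X Y : Type} [MetricSpace X] [MetricSpace Y] (a : Act X) (j : ℕ) (x : X × Y) :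
    (a.prod Y).T^[j] x = (a.T^[j] x.1, x.2) := by
  induction j with
  | zero => rfl
  | succ j ih => rw [Function.iterate_succ_apply', ih, Function.iterate_succ_apply']; rfl

theorem XU_cpt : IsCompact XU := sig_inv.cpt.prod (S1_cpt.prod S1_cpt)

theorem beta_M {l : K} (hl : Good l) (a : Act (AU × AY)) (ha : ∀ x, a.T x = (TU x.1, x.2))
    (hm : MapsTo a.T (XU ×ˢ YS) (XU ×ˢ YS)) (n : ℕ) :
    beta a l (XU ×ˢ YS) ∅ n = beta ((actS.prod ℂ).prod AY) l ((Sig ×ˢ S1) ×ˢ YS) ∅ n +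
      sh 1 (beta ((actS.prod ℂ).prod AY) l ((Sig ×ˢ S1) ×ˢ YS) ∅) n := by
  have hb : ((actS.prod (ℂ × ℂ)).prod AY).Inv (XU ×ˢ YS) :=
    (sig_inv.prod (S1_cpt.prod S1_cpt)).prod YS_cpt
  have hi : ∀ (j : ℕ) (x : AU × AY), a.T^[j] x = (TU^[j] x.1, x.2) := fun j x => by
    induction j with
    | zero => rfl
    | succ j ih => rw [Function.iterate_succ_apply', ih, ha, Function.iterate_succ_apply']
  have hc := (sig_inv.prod S1_cpt).prod YS_cpt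
  rw [← beta_S1 hl hc, beta_two hl ⟨XU_cpt.prod YS_cpt, hm⟩ hb
    (H := fun j z => ((TS^[j] z.2.1.1, cexp (((1 - z.1) * j * Real.pi : ℝ) * I) * z.2.1.2.1,
      cexp (((1 - z.1) * j * (4 * Real.pi / 3) : ℝ) * I) * z.2.1.2.2), z.2.2))
    (fun j => ?_) (fun j z hz => ?_) (fun j x _ => ?_) (fun j x _ => ?_)]
  · refine beta_rel hl (f := fun x => (((x.1.1, x.1.2.1), x.2), x.1.2.2)) hb.maps
      (mapsTo_empty _ _) (hc.prod S1_cpt).maps (mapsTo_empty _ _)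
      ⟨hb.cpt, isCompact_empty, (hc.prod S1_cpt).cpt, isCompact_empty, empty_subset _,
        empty_subset _, by fun_prop, mapsTo_empty _ _, ?_⟩ (fun _ _ => rfl) n
    rw [Set.sdiff_empty, Set.sdiff_empty]
    refine ⟨fun x hx => ⟨⟨⟨hx.1.1, hx.1.2.1⟩, hx.2⟩, hx.1.2.2⟩, fun x _ y _ h => ?_,
      fun y hy => ⟨((y.1.1.1, y.1.1.2, y.2), y.1.2), ⟨⟨hy.1.1.1, hy.1.1.2, hy.2⟩, hy.1.2⟩, rfl⟩⟩
    simp only [Prod.mk.injEq] at h
    exact Prod.ext (Prod.ext h.1.1.1 (Prod.ext h.1.1.2 h.2)) h.1.2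
  · have := TS.continuous.iterate j
    fun_prop
  · refine ⟨⟨sig_inv.maps.iterate j hz.2.1.1, ?_, ?_⟩, hz.2.2⟩
    · have : ‖z.2.1.2.1‖ = 1 := hz.2.1.2.1
      simp only [S1, mem_ofPred_eq, norm_mul, norm_exp_ofReal_mul_I, this, one_mul]
    · have : ‖z.2.1.2.2‖ = 1 := hz.2.1.2.2
      simp only [S1, mem_ofPred_eq, norm_mul, norm_exp_ofReal_mul_I, this, one_mul]
  · rw [hi, TU_iter]
    have e1 : cexp (((1 - (0 : ℝ)) * j * Real.pi : ℝ) * I) = (-1) ^ j := by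
      rw [← exp_pi_mul_I, ← exp_nat_mul]; congr 1; push_cast; ring
    have e2 : cexp (((1 - (0 : ℝ)) * j * (4 * Real.pi / 3) : ℝ) * I) = (z3 ^ 2) ^ j := by
      rw [z3, ← exp_nat_mul, ← exp_nat_mul]; congr 1; push_cast; ring
    simp only [e1, e2]
  · rw [prod_iter, prod_iter]
    simp
    rfl

theorem lift_sh {z : ℕ → ℕ∞} {b : ℕ → ℕ} (h : ∀ n, z n = b n) (d n : ℕ) :
    sh d z n = ((if d ≤ n then b (n - d) else 0 : ℕ) : ℕ∞) := by
  unfold sh; split_ifs <;> simp [h]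

theorem bound_Y {l : K} (hl : Good l) {b : ℕ → ℕ} (h : ∀ n, beta actS l Sig ∅ n = b n) :
    ∃ z : ℕ → ℕ, z 0 = b 0 ∧ (∀ n, z (n + 1) = b (n + 1) + b n) ∧ ∀ n,
      (z n : ℕ∞) ≤ beta ((actS.prod ℂ).prod AY) l ((Sig ×ˢ S1) ×ˢ YS) ∅ n ∧ ∀ t : ℕ,
        t + (if 3 ≤ n then z (n - 3) else 0) ≤ z n + 4 * (if 2 ≤ n then z (n - 2) else 0) →
        (t : ℕ∞) ≤ beta ((actS.prod ℂ).prod AY) l ((Sig ×ˢ S1) ×ˢ YS) ∅ n := by
  have hz : ∀ n, beta (actS.prod ℂ) l (Sig ×ˢ S1) ∅ n =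
      ((b n + if 1 ≤ n then b (n - 1) else 0 : ℕ) : ℕ∞) := fun n => by
    rw [beta_S1 hl sig_inv, lift_sh h, h]; norm_cast
  refine ⟨fun n => b n + if 1 ≤ n then b (n - 1) else 0, by simp, fun n => by simp,
    fun n => ⟨?_, fun t ht => ?_⟩⟩
  · rw [← hz]
    exact beta_le_prod hl (sig_inv.prod S1_cpt) YS_cpt YS_conn.nonempty n
  · have := beta_Y hl (sig_inv.prod S1_cpt) n
    rw [lift_sh hz, lift_sh hz, lift_sh hz, hz] at this
    generalize beta ((actS.prod ℂ).prod AY) l ((Sig ×ˢ S1) ×ˢ YS) ∅ n = x at this ⊢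
    induction x using ENat.recTopCoe with
    | top => exact le_top
    | coe x =>
      norm_cast at this ⊢
      beta_reduce at ht
      omega

end betti

instance fact7 : Fact (Nat.Prime 7) := ⟨by norm_num⟩

theorem betti_bounds (a : Act (AU × AY)) (ha : ∀ x, a.T x = (TU x.1, x.2))
    (hm : MapsTo a.T (XU ×ˢ YS) (XU ×ˢ YS)) : ∀ m < 4, ∃ (K : Type) (_ : Field K) (l : K)
      (b : ℕ → ℕ∞), Good l ∧ (∀ n, beta a l (XU ×ˢ YS) ∅ n = b n + sh 1 b n) ∧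
        (((fun m => if m = 0 then 1 else 3 * m - 1) m : ℕ) : ℕ∞) ≤ b m := by
  have g1 : Good (1 : ZMod 7) := ⟨by decide, by decide⟩
  have g3 : Good (3 : ZMod 7) := ⟨by decide, by decide⟩
  obtain ⟨b, h1, h2, h3⟩ := beta_sig_one g1
  obtain ⟨z, z0, z1, z2⟩ := bound_Y g1 h1
  obtain ⟨b', h1', h2', h3'⟩ := beta_sig_prim g3 (by decide) (by decide)
  obtain ⟨z', z0', z1', z2'⟩ := bound_Y g3 h1'
  have : z 2 = b 2 + b 1 := z1 1
  have : z' 1 = b' 1 + b' 0 := z1' 0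
  intro m hm'
  interval_cases m
  · exact ⟨_, inferInstance, 1, _, g1, beta_M g1 a ha hm, (z2 0).2 _ (by simp; omega)⟩
  · exact ⟨_, inferInstance, 3, _, g3, beta_M g3 a ha hm, (z2' 1).2 _ (by simp; omega)⟩
  · exact ⟨_, inferInstance, 1, _, g1, beta_M g1 a ha hm, (z2 2).2 _ (by simp; omega)⟩
  · exact ⟨_, inferInstance, 3, _, g3, beta_M g3 a ha hm, (z2' 3).2 _ (by simp; omega)⟩

theorem counterexample : ∃ (a : SAtl (XS ×ˢ YS) (Eu 8)) (H : ℝ × a.toAtl.M → ℝ)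
    (φ : ℝ × a.toAtl.M → a.toAtl.M), IsHamFlow a.form H φ ∧ NondegFix (Eu 8) φ ∧
      {x | φ (1, x) = x}.encard ≤ 60 ∧ 64 ≤ stableMorse (Eu 8) a.toAtl.M := by
  obtain ⟨aX, C, hC0, hCT⟩ := exists_atlX
  obtain ⟨aY, r, hr⟩ := exists_atlY
  obtain ⟨p, hp1, hp2⟩ := aX.exists_prod aY
  obtain ⟨C1, h10, h1T⟩ := C.exists_prod YS_cpt aY.toAtl p.toAtl hp1
  obtain ⟨q, hq⟩ := r.exists_prod aX p hp2
  have L : Eu 8 ≃L[ℝ] ((ℝ × ℝ) × ℝ × ℝ) × ℂ × ℂ := ContinuousLinearEquiv.ofFinrankEq (by simp)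
  obtain ⟨a, ha1, ha2⟩ := p.exists_model L
  obtain ⟨C2, h20, h2T⟩ := C1.exists_model L ha2
  have hρ : ∀ s : AX × AY, (q.change a ha1).ρ 1 s = (s.1, rotY 1 s.2) := fun s => by
    rw [← hr]; exact hq 1 s
  obtain ⟨H, φ, h1, h2, h3⟩ := exists_ham a (XS_cpt.prod YS_cpt) (q.change a ha1)
    (GG_sm fdata udata) (fun s hs => by rw [hρ, GG, GG, udata.inv _ hs.2])
    (fun s hs h1 h2 v h3 h4 h5 => GG_nd fdata udata hs.1
      ⟨hs.2, congrArg Prod.snd ((hρ s).symm.trans h1)⟩ h2 h3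
      (congrArg Prod.snd ((hρ v).symm.trans h4)) h5)
  refine ⟨a, H, φ, h1, h2, ?_, ?_⟩
  · refine le_trans ?_ (GG_card fdata udata)
    refine encard_le_encard_of_injOn (f := a.toAtl.val) (fun x hx => ?_)
      fun x _ y _ h => a.toAtl.val_inj h
    have hx' := a.toAtl.val_mem x
    exact ⟨hx'.1, ⟨hx'.2, congrArg Prod.snd ((hρ _).symm.trans (h3 x hx).1)⟩, (h3 x hx).2⟩
  · have e0 : C2.S0 = XU ×ˢ YS := by rw [h20, h10, hC0]
    have := C2.lower (by simp) (fun m => if m = 0 then 1 else 3 * m - 1) (by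
      rw [e0]
      refine betti_bounds C2.act (fun x => ?_) (by rw [← e0]; exact C2.maps)
      show C2.T x = _
      rw [h2T, h1T, hCT])
    simpa using this

end Vale.Agent.P265
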