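import Vale.Agent.P265.Deform

/-!
The local model of a handle attachment (Milnor, Morse theory, Section 3).
-/

open scoped ContDiff Topology
open Set Filter

noncomputable section

namespace Vale.Agent.P265

variable {K : Type} [Field K] {j j' : ℕ}

/-- A profile function. -/
structure Prof (μ : ℝ → ℝ) (C : ℝ) : Prop where
  smooth : ContDiff ℝ ∞ μ
  zero : μ 0 = 2
  lo : ∀ t, -1 < deriv μ t
  hi : ∀ t, deriv μ t ≤ 0
  supp : ∀ t, C ≤ t → μ t = 0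
  pos : 0 < C

/-- For instance `μ t = 2 * smoothTransition (1 - t / C)` with `C` larger than twice a bound for the
derivative of `smoothTransition` (which vanishes outside `[0, 1]`). -/
theorem exists_prof : ∃ μ C, Prof μ C := by
  have hs : ContDiff ℝ ∞ Real.smoothTransition := Real.smoothTransition.contDiff
  have hd : Differentiable ℝ Real.smoothTransition := hs.differentiable (by simp)
  have hc : Continuous (deriv Real.smoothTransition) := hs.continuous_deriv (by simp)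
  obtain ⟨B, hB⟩ := (isCompact_Icc (a := (0 : ℝ)) (b := 1)).exists_bound_of_continuousOn
    hc.continuousOn
  have hB0 : 0 ≤ B := (norm_nonneg _).trans (hB 0 (by simp))
  have hb : ∀ t, deriv Real.smoothTransition t ≤ B := by
    intro t
    by_cases h0 : t < 0
    · have : Real.smoothTransition =ᶠ[𝓝 t] fun _ => 0 := by
        filter_upwards [Iio_mem_nhds h0] with u hu using Real.smoothTransition.zero_of_nonpos hu.le
      rw [this.deriv_eq, deriv_const]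
      exact hB0
    by_cases h1 : 1 < t
    · have : Real.smoothTransition =ᶠ[𝓝 t] fun _ => 1 := by
        filter_upwards [Ioi_mem_nhds h1] with u hu using Real.smoothTransition.one_of_one_le hu.le
      rw [this.deriv_eq, deriv_const]
      exact hB0
    exact (le_abs_self _).trans (hB t ⟨not_lt.1 h0, not_lt.1 h1⟩)
  have hn : ∀ t, 0 ≤ deriv Real.smoothTransition t := fun t =>
    Real.smoothTransition.monotone.deriv_nonneg
  have hC : 0 < 2 * B + 1 := by linarith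
  have hder : ∀ t, deriv (fun t => 2 * Real.smoothTransition (1 - t / (2 * B + 1))) t =
      -(2 * deriv Real.smoothTransition (1 - t / (2 * B + 1)) / (2 * B + 1)) := by
    intro t
    have h1 : HasDerivAt (fun t : ℝ => 1 - t / (2 * B + 1)) (-(1 / (2 * B + 1))) t :=
      ((hasDerivAt_id t).div_const _).const_sub 1
    have h2 := (((hd (1 - t / (2 * B + 1))).hasDerivAt.comp t h1).const_mul 2).deriv
    refine h2.trans ?_
    ring
  refine ⟨fun t => 2 * Real.smoothTransition (1 - t / (2 * B + 1)), 2 * B + 1,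
    contDiff_const.mul (hs.comp (by fun_prop)), by simp, fun t => ?_, fun t => ?_, fun t ht => ?_,
    hC⟩
  · rw [hder, neg_lt_neg_iff, div_lt_one hC]
    linarith [hb (1 - t / (2 * B + 1))]
  · rw [hder, neg_nonpos]
    exact div_nonneg (mul_nonneg zero_le_two (hn _)) hC.le
  · have : 1 ≤ t / (2 * B + 1) := (one_le_div hC).2 ht
    rw [Real.smoothTransition.zero_of_nonpos (by linarith), mul_zero]

/-- The ellipsoidal radius. -/
def qE (η : Fib j j') : ℝ := ‖η.1‖ ^ 2 + 2 * ‖η.2‖ ^ 2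

/-- The correction term. -/
def corr (μ : ℝ → ℝ) (ε : ℝ) (η : Fib j j') : ℝ := ε * μ (qE η / ε)

theorem Model_anti {μ : ℝ → ℝ} {C : ℝ} (h : Prof μ C) : Antitone μ :=
  antitone_of_deriv_nonpos (h.smooth.differentiable (by simp)) h.hi

theorem Model_mono {μ : ℝ → ℝ} {C : ℝ} (h : Prof μ C) : Monotone fun t => μ t + t := by
  have hd := h.smooth.differentiable (by simp)
  refine monotone_of_deriv_nonneg (hd.add differentiable_id) fun t => ?_
  have := ((hd t).hasDerivAt.add (hasDerivAt_id t)).deriv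
  have e : deriv (fun t => μ t + t) t = deriv μ t + 1 := this
  rw [e]
  linarith [h.lo t]

theorem Prof.nonneg {μ : ℝ → ℝ} {C : ℝ} (h : Prof μ C) (t : ℝ) : 0 ≤ μ t := by
  rw [← h.supp (max t C) (le_max_right _ _)]
  exact Model_anti h (le_max_left _ _)

theorem Model_qE_smooth : ContDiff ℝ ∞ (qE : Fib j j' → ℝ) :=
  ((contDiff_norm_sq ℝ).comp contDiff_fst).add
    (contDiff_const.mul ((contDiff_norm_sq ℝ).comp contDiff_snd))

theorem Model_Qf_smooth : ContDiff ℝ ∞ (Qf : Fib j j' → ℝ) :=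
  ((contDiff_norm_sq ℝ).comp contDiff_snd).sub ((contDiff_norm_sq ℝ).comp contDiff_fst)

theorem corr_smooth {μ : ℝ → ℝ} {C : ℝ} (h : Prof μ C) (ε : ℝ) :
    ContDiff ℝ ∞ (corr μ ε : Fib j j' → ℝ) :=
  contDiff_const.mul (h.smooth.comp (Model_qE_smooth.div_const ε))

/-- The modified function has no new critical point. Differentiate along
`t ↦ ((1 - t) • η.1, (1 + t) • η.2)`: the derivative is
`2 (1 + μ') ‖η.1‖ ^ 2 + 2 (1 - 2 μ') ‖η.2‖ ^ 2`. -/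
theorem corr_crit {μ : ℝ → ℝ} {C ε : ℝ} (h : Prof μ C) (hε : 0 < ε) {η : Fib j j'}
    (hc : fderiv ℝ (fun η : Fib j j' => Qf η - corr μ ε η) η = 0) : η = 0 := by
  obtain ⟨a, b⟩ := η
  have hd := h.smooth.differentiable (by simp)
  have hF : DifferentiableAt ℝ (fun η : Fib j j' => Qf η - corr μ ε η) (a, b) :=
    ((Model_Qf_smooth.sub (corr_smooth h ε)).differentiable (by simp)) _
  have hγ : HasDerivAt (fun t : ℝ => (((1 - t) • a, (1 + t) • b) : Fib j j'))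
      ((-1 : ℝ) • a, (1 : ℝ) • b) 0 :=
    (((hasDerivAt_id (0 : ℝ)).const_sub 1).smul_const a).prodMk
      (((hasDerivAt_id (0 : ℝ)).const_add 1).smul_const b)
  have h0 : HasDerivAt (fun t : ℝ => Qf (((1 - t) • a, (1 + t) • b) : Fib j j') -
      corr μ ε (((1 - t) • a, (1 + t) • b) : Fib j j')) 0 0 := by
    have h1 := hF.hasFDerivAt
    rw [hc] at h1
    have h2 : ((a, b) : Fib j j') = ((1 - (0 : ℝ)) • a, (1 + (0 : ℝ)) • b) := by simp
    rw [h2] at h1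
    exact h1.comp_hasDerivAt (0 : ℝ) hγ
  have e : (fun t : ℝ => Qf (((1 - t) • a, (1 + t) • b) : Fib j j') -
      corr μ ε (((1 - t) • a, (1 + t) • b) : Fib j j')) = fun t =>
      (1 + t) ^ 2 * ‖b‖ ^ 2 - (1 - t) ^ 2 * ‖a‖ ^ 2 -
        ε * μ (((1 - t) ^ 2 * ‖a‖ ^ 2 + 2 * ((1 + t) ^ 2 * ‖b‖ ^ 2)) / ε) := by
    funext t
    simp only [Qf, corr, qE, norm_smul, mul_pow, Real.norm_eq_abs, sq_abs]
  rw [e] at h0
  have p1 : HasDerivAt (fun t : ℝ => (1 + t) ^ 2 * ‖b‖ ^ 2) (2 * ‖b‖ ^ 2) 0 := by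
    have := (((hasDerivAt_id (0 : ℝ)).const_add 1).pow 2).mul_const (‖b‖ ^ 2)
    simpa using this
  have p2 : HasDerivAt (fun t : ℝ => (1 - t) ^ 2 * ‖a‖ ^ 2) (-2 * ‖a‖ ^ 2) 0 := by
    have := (((hasDerivAt_id (0 : ℝ)).const_sub 1).pow 2).mul_const (‖a‖ ^ 2)
    simpa using this
  have p3 := (p2.add (p1.const_mul 2)).div_const ε
  obtain ⟨d, l1, l2, p4⟩ : ∃ d : ℝ, -1 < d ∧ d ≤ 0 ∧ 2 * ‖b‖ ^ 2 - -2 * ‖a‖ ^ 2 -
      ε * (d * ((-2 * ‖a‖ ^ 2 + 2 * (2 * ‖b‖ ^ 2)) / ε)) = 0 := ⟨_, h.lo _, h.hi _,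
    ((p1.sub p2).sub (((hd _).hasDerivAt.comp (0 : ℝ) p3).const_mul ε)).unique h0⟩
  have p5 : 2 * (1 + d) * ‖a‖ ^ 2 + 2 * (1 - 2 * d) * ‖b‖ ^ 2 = 0 := by
    rw [← p4]
    field_simp
    ring
  have a1 : 0 ≤ 2 * (1 + d) * ‖a‖ ^ 2 := mul_nonneg (by linarith) (sq_nonneg _)
  have a2 : 0 ≤ 2 * (1 - 2 * d) * ‖b‖ ^ 2 := mul_nonneg (by linarith) (sq_nonneg _)
  have a3 : ‖a‖ ^ 2 = 0 :=
    (mul_eq_zero.1 (show 2 * (1 + d) * ‖a‖ ^ 2 = 0 by linarith)).resolve_left (by linarith)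
  have a4 : ‖b‖ ^ 2 = 0 :=
    (mul_eq_zero.1 (show 2 * (1 - 2 * d) * ‖b‖ ^ 2 = 0 by linarith)).resolve_left (by linarith)
  rw [sq_eq_zero_iff, norm_eq_zero] at a3 a4
  rw [a3, a4]
  rfl

variable (j j') in
/-- The handle. -/
def L1 (μ : ℝ → ℝ) (C ε : ℝ) : Set (Fib j j') :=
  {η | qE η ≤ C * ε ∧ -ε ≤ Qf η ∧ Qf η - corr μ ε η ≤ -ε}

variable (j j') in
/-- The attaching region of the handle. -/
def L0 (μ : ℝ → ℝ) (C ε : ℝ) : Set (Fib j j') := L1 j j' μ C ε ∩ {η | Qf η = -ε}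

theorem L1_cpt {μ : ℝ → ℝ} {C ε : ℝ} (h : Prof μ C) : IsCompact (L1 j j' μ C ε) := by
  have c1 : Continuous (qE : Fib j j' → ℝ) := Model_qE_smooth.continuous
  have c2 : Continuous (Qf : Fib j j' → ℝ) := Model_Qf_smooth.continuous
  have c3 : Continuous (corr μ ε : Fib j j' → ℝ) := (corr_smooth h ε).continuous
  refine Metric.isCompact_of_isClosed_isBounded ((isClosed_le c1 continuous_const).inter
    ((isClosed_le continuous_const c2).inter (isClosed_le (c2.sub c3) continuous_const))) ?_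
  refine (Metric.isBounded_closedBall (x := (0 : Fib j j')) (r := C * ε + 1)).subset fun η hη => ?_
  have h1 : ‖η.1‖ ^ 2 + 2 * ‖η.2‖ ^ 2 ≤ C * ε := hη.1
  rw [mem_closedBall_zero_iff, Prod.norm_def, max_le_iff]
  constructor <;> nlinarith [sq_nonneg ‖η.1‖, sq_nonneg ‖η.2‖, sq_nonneg (‖η.1‖ - 1),
    sq_nonneg (‖η.2‖ - 1)]

theorem L0_cpt {μ : ℝ → ℝ} {C ε : ℝ} (h : Prof μ C) : IsCompact (L0 j j' μ C ε) :=
  (L1_cpt h).inter_right (isClosed_eq Model_Qf_smooth.continuous continuous_const)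

variable (j j') in
/-- The core of the handle. -/
def ModelD (ε : ℝ) : Set (Fib j j') := {η | η.2 = 0 ∧ ‖η.1‖ ^ 2 ≤ ε}

theorem ModelD_sub {μ : ℝ → ℝ} {C ε : ℝ} (h : Prof μ C) (hε : 0 < ε) :
    ModelD j j' ε ⊆ L1 j j' μ C ε := by
  rintro ⟨a, b⟩ ⟨h1, h2⟩
  dsimp only at h1 h2
  subst h1
  have hC : 2 ≤ C := by
    have := Model_mono h h.pos.le
    simp only [h.zero, h.supp C le_rfl] at this
    linarith
  have h3 := Model_mono h (div_nonneg (sq_nonneg ‖a‖) hε.le)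
  simp only [h.zero] at h3
  have h4 : ε * (‖a‖ ^ 2 / ε) = ‖a‖ ^ 2 := by field_simp
  refine ⟨?_, ?_, ?_⟩ <;> simp only [qE, Qf, corr, norm_zero]
  · nlinarith
  · linarith
  · have h5 := mul_le_mul_of_nonneg_left h3 hε.le
    have e : ‖a‖ ^ 2 + 2 * (0 : ℝ) ^ 2 = ‖a‖ ^ 2 := by ring
    rw [e]
    nlinarith

theorem ModelD_cpt {μ : ℝ → ℝ} {C ε : ℝ} (h : Prof μ C) (hε : 0 < ε) :
    IsCompact (ModelD j j' ε) :=
  (L1_cpt h).of_isClosed_subset ((isClosed_eq continuous_snd continuous_const).inter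
    (isClosed_le (continuous_fst.norm.pow 2) continuous_const)) (ModelD_sub h hε)

/-- The scaling factor at the end of the deformation. -/
def ModelR (ε : ℝ) (η : Fib j j') : ℝ := √(‖η.1‖ ^ 2 - ε) / ‖η.2‖

theorem Model_le {μ : ℝ → ℝ} {C ε : ℝ} {η : Fib j j'} (hη : η ∈ L1 j j' μ C ε) :
    √(‖η.1‖ ^ 2 - ε) ≤ ‖η.2‖ := by
  have h1 : -ε ≤ ‖η.2‖ ^ 2 - ‖η.1‖ ^ 2 := hη.2.1
  exact Real.sqrt_le_iff.2 ⟨norm_nonneg _, by linarith⟩

theorem ModelR_mem {μ : ℝ → ℝ} {C ε : ℝ} {η : Fib j j'} (hη : η ∈ L1 j j' μ C ε) :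
    0 ≤ ModelR ε η ∧ ModelR ε η ≤ 1 ∧ ModelR ε η * ‖η.2‖ = √(‖η.1‖ ^ 2 - ε) := by
  have h1 := Model_le hη
  refine ⟨div_nonneg (Real.sqrt_nonneg _) (norm_nonneg _), div_le_one_of_le₀ h1 (norm_nonneg _), ?_⟩
  by_cases h : ‖η.2‖ = 0
  · rw [h] at h1 ⊢
    rw [mul_zero]
    exact le_antisymm (Real.sqrt_nonneg _) h1
  · exact div_mul_cancel₀ _ h

theorem ModelR_cont {μ : ℝ → ℝ} {C ε : ℝ} :
    ContinuousOn (fun η : Fib j j' => ModelR ε η • η.2) (L1 j j' μ C ε) := by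
  intro η hη
  by_cases h : η.2 = 0
  · have h1 : Tendsto (fun η : Fib j j' => ‖η.2‖) (𝓝[L1 j j' μ C ε] η) (𝓝 0) := by
      have : Continuous fun η : Fib j j' => ‖η.2‖ := by fun_prop
      have h2 := (this.tendsto η).mono_left (nhdsWithin_le_nhds (s := L1 j j' μ C ε))
      rwa [h, norm_zero] at h2
    have h3 : Tendsto (fun η : Fib j j' => ModelR ε η • η.2) (𝓝[L1 j j' μ C ε] η) (𝓝 0) := by
      refine squeeze_zero_norm' ?_ h1
      filter_upwards [self_mem_nhdsWithin] with ζ hζ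
      rw [norm_smul, Real.norm_of_nonneg (ModelR_mem hζ).1]
      exact mul_le_of_le_one_left (norm_nonneg _) (ModelR_mem hζ).2.1
    show Tendsto _ _ (𝓝 (ModelR ε η • η.2))
    rwa [h, smul_zero]
  · have h1 : ‖η.2‖ ≠ 0 := norm_ne_zero_iff.2 h
    refine ContinuousAt.continuousWithinAt ?_
    unfold ModelR
    fun_prop (disch := assumption)

/-- Shrinking the second coordinate preserves the handle. -/
theorem Model_shrink {μ : ℝ → ℝ} {C ε : ℝ} (h : Prof μ C) (hε : 0 < ε) {η : Fib j j'}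
    (hη : η ∈ L1 j j' μ C ε) {b : Eu j'} (h1 : ‖b‖ ≤ ‖η.2‖) (h2 : √(‖η.1‖ ^ 2 - ε) ≤ ‖b‖) :
    (η.1, b) ∈ L1 j j' μ C ε := by
  have h3 : ‖b‖ ^ 2 ≤ ‖η.2‖ ^ 2 := pow_le_pow_left₀ (norm_nonneg _) h1 2
  have h4 := (Real.sqrt_le_iff.1 h2).2
  obtain ⟨e1, -, e3⟩ := hη
  have h5 : qE ((η.1, b) : Fib j j') ≤ qE η := by
    simp only [qE]
    linarith
  have h6 := mul_le_mul_of_nonneg_left (Model_anti h (div_le_div_of_nonneg_right h5 hε.le)) hε.le
  refine ⟨h5.trans e1, ?_, ?_⟩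
  · simp only [Qf]
    linarith
  · simp only [Qf, corr] at e3 ⊢
    linarith

theorem Model_iter {X Y : Type} [MetricSpace X] [MetricSpace Y] (a : Act X) (k : ℕ) (p : X × Y) :
    (a.prod Y).T^[k] p = (a.T^[k] p.1, p.2) := by
  induction k with
  | zero => rfl
  | succ k ih => rw [Function.iterate_succ_apply', Function.iterate_succ_apply', ih]; rfl

theorem Model_acyc {l : K} (hl : Good l) {μ : ℝ → ℝ} {C ε : ℝ} (h : Prof μ C) (hε : 0 < ε)
    (n : ℕ) :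
    beta ((Act.cyc 6 dvd_rfl).prod (Fib j j')) l (Iio 6 ×ˢ L1 j j' μ C ε)
      (Iio 6 ×ˢ (L0 j j' μ C ε ∪ ModelD j j' ε)) n = 0 := by
  have hs : L0 j j' μ C ε ∪ ModelD j j' ε ⊆ L1 j j' μ C ε :=
    union_subset inter_subset_left (ModelD_sub h hε)
  have hn : ∀ τ ∈ Icc (0 : ℝ) 1, ∀ η ∈ L1 j j' μ C ε, ‖(1 - τ) • η.2 + τ • ModelR ε η • η.2‖ =
      (1 - τ) * ‖η.2‖ + τ * √(‖η.1‖ ^ 2 - ε) := by
    intro τ hτ η hη
    obtain ⟨r1, r2, r3⟩ := ModelR_mem hη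
    rw [smul_smul, ← add_smul, norm_smul, Real.norm_of_nonneg
      (add_nonneg (sub_nonneg.2 hτ.2) (mul_nonneg hτ.1 r1)), ← r3]
    ring
  have h1 : ∀ τ ∈ Icc (0 : ℝ) 1, ∀ η ∈ L1 j j' μ C ε,
      (η.1, (1 - τ) • η.2 + τ • ModelR ε η • η.2) ∈ L1 j j' μ C ε := by
    intro τ hτ η hη
    have := mul_le_mul_of_nonneg_left (Model_le hη) hτ.1
    have := mul_le_mul_of_nonneg_left (Model_le hη) (sub_nonneg.2 hτ.2)
    refine Model_shrink h hε hη ?_ ?_ <;> rw [hn τ hτ η hη] <;> linarith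
  refine beta_acyc hl ((Susp_cyc _).prod (L1_cpt h))
    ((Susp_cyc _).prod ((L0_cpt h).union (ModelD_cpt h hε))) (prod_mono Subset.rfl hs)
    (H := fun q => (q.2.1, (q.2.2.1, (1 - q.1) • q.2.2.2 + q.1 • ModelR ε q.2.2 • q.2.2.2)))
    ?_ (fun q hq => ⟨hq.2.1, h1 _ hq.1 _ hq.2.2⟩) (fun q hq => ⟨hq.2.1, ?_⟩)
    (fun x _ => by simp) (fun x hx => ⟨hx.1, ?_⟩) n
  · have c1 : ContinuousOn (fun q : ℝ × ℕ × Fib j j' => ModelR ε q.2.2 • q.2.2.2)
        (Icc 0 1 ×ˢ Iio 6 ×ˢ L1 j j' μ C ε) :=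
      ModelR_cont.comp (f := fun q : ℝ × ℕ × Fib j j' => q.2.2) (by fun_prop) fun q hq => hq.2.2
    fun_prop
  · obtain ⟨τ, i, η⟩ := q
    have e : ModelR ε η • η.2 = η.2 := by
      rcases hq.2.2 with hη | hη
      · by_cases h0 : η.2 = 0
        · rw [h0, smul_zero]
        · have h2 : ‖η.2‖ ^ 2 - ‖η.1‖ ^ 2 = -ε := hη.2
          rw [ModelR, show ‖η.1‖ ^ 2 - ε = ‖η.2‖ ^ 2 by linarith, Real.sqrt_sq (norm_nonneg _),
            div_self (norm_ne_zero_iff.2 h0), one_smul]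
      · rw [hη.1, smul_zero]
    dsimp only
    rw [e, ← add_smul, sub_add_cancel, one_smul]
    exact hq.2.2
  · obtain ⟨i, η⟩ := x
    have h2 := h1 1 ⟨zero_le_one, le_rfl⟩ η hx.2
    have h3 := hn 1 ⟨zero_le_one, le_rfl⟩ η hx.2
    rw [sub_self, zero_mul, one_mul, zero_add] at h3
    rcases le_total ε (‖η.1‖ ^ 2) with h4 | h4
    · refine Or.inl ⟨h2, ?_⟩
      show ‖(1 - (1 : ℝ)) • η.2 + (1 : ℝ) • ModelR ε η • η.2‖ ^ 2 - ‖η.1‖ ^ 2 = -ε
      rw [sub_self, h3, Real.sq_sqrt (sub_nonneg.2 h4)]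
      ring
    · refine Or.inr ⟨?_, h4⟩
      show (1 - (1 : ℝ)) • η.2 + (1 : ℝ) • ModelR ε η • η.2 = 0
      rw [← norm_eq_zero, sub_self, h3, Real.sqrt_eq_zero']
      linarith

theorem Model_cell {l : K} (hl : Good l) {μ : ℝ → ℝ} {C ε : ℝ} (h : Prof μ C) (hε : 0 < ε)
    (n : ℕ) :
    beta ((Act.cyc 6 dvd_rfl).prod (Fib j j')) l (Iio 6 ×ˢ (L0 j j' μ C ε ∪ ModelD j j' ε))
      (Iio 6 ×ˢ L0 j j' μ C ε) n = if n = j then 1 else 0 := by
  have hs : 0 < √ε := Real.sqrt_pos.2 hε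
  have hn : ∀ v : Eu j, ‖√ε • v‖ ^ 2 = ε * ‖v‖ ^ 2 := fun v => by
    rw [norm_smul, mul_pow, Real.norm_of_nonneg hs.le, Real.sq_sqrt hε.le]
  have hD : ∀ v : Eu j, ‖v‖ ≤ 1 → ((√ε • v, 0) : Fib j j') ∈ ModelD j j' ε := fun v hv =>
    ⟨rfl, by
      rw [hn]
      exact mul_le_of_le_one_right hε.le (pow_le_one₀ (norm_nonneg _) hv)⟩
  have hi : ∀ i < 6, ∀ η : Fib j j',
      ((Act.cyc 6 dvd_rfl).prod (Fib j j')).T^[i] (0, η) = (i, η) := by
    intro i hi η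
    rw [Model_iter]
    show ((cycT 6)^[i] 0, η) = (i, η)
    rw [Beta_cyc_iter (by norm_num), zero_add, Nat.mod_eq_of_lt hi]
  have := (beta_cell hl ((Susp_cyc dvd_rfl).prod (L0_cpt (j := j) (j' := j') (ε := ε) h))
    ((Susp_cyc _).prod ((L0_cpt h).union (ModelD_cpt h hε)))
    (prod_mono Subset.rfl subset_union_left) (m := 6) dvd_rfl (gauge_norm (V := Eu j))
    (Φ := fun v => (0, (√ε • v, 0))) (by fun_prop) (fun v _ => Act.per _ _)
    (fun v hv => ⟨by simp, Or.inr (hD v hv)⟩)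
    (fun v hv => ⟨by simp, ModelD_sub h hε (hD v hv.le), ?_⟩) (fun v hv hm => ?_) ?_ ?_ n).1 hl.pow
  · rwa [finrank_euclideanSpace_fin] at this
  · show ‖(0 : Eu j')‖ ^ 2 - ‖√ε • v‖ ^ 2 = -ε
    rw [hn, hv, norm_zero]
    ring
  · have h2 : ‖(0 : Eu j')‖ ^ 2 - ‖√ε • v‖ ^ 2 = -ε := hm.2.2
    rw [hn, norm_zero] at h2
    have h3 : ‖v‖ ^ 2 < 1 := pow_lt_one₀ (norm_nonneg _) hv two_ne_zero
    nlinarith
  · rintro ⟨i, a, b⟩ ⟨⟨h1, h2⟩, h3⟩
    have h4 : ((a, b) : Fib j j') ∈ ModelD j j' ε := h2.resolve_left fun h5 => h3 ⟨h1, h5⟩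
    have h5 : b = 0 := h4.1
    have e : √ε • (√ε)⁻¹ • a = a := smul_inv_smul₀ hs.ne' a
    refine ⟨i, h1, (√ε)⁻¹ • a, ?_, by rw [hi i h1, e, h5]⟩
    have h6 : ‖a‖ ^ 2 ≤ ε := h4.2
    have h7 := hn ((√ε)⁻¹ • a)
    rw [e] at h7
    have h8 : ‖(√ε)⁻¹ • a‖ ^ 2 ≤ 1 := by
      by_contra h9
      nlinarith
    exact (pow_le_one_iff_of_nonneg (norm_nonneg _) two_ne_zero).1 h8
  · intro i h1 k h2 v w _ _ e
    rw [hi i h1, hi k h2] at e
    exact ⟨congrArg Prod.fst e,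
      smul_right_injective _ hs.ne' (congrArg (fun p : ℕ × Fib j j' => p.2.1) e)⟩

/-- Let `Dsc = {(a, 0) | ‖a‖ ^ 2 ≤ ε}`; it lies in `L1` (note `1 < C` since `μ 0 = 2`, `μ' > -1`).
The pair `(L1, L0 ∪ Dsc)` is acyclic: shrink `b` by
`H (τ, (a, b)) = (a, ((1 - τ) + τ * sqrt (max 0 (‖a‖ ^ 2 - ε)) / ‖b‖) • b)`; the factor is in
`[0, 1]` on `L1`, which gives continuity at `b = 0` (`beta_acyc`, `beta_left`). The pair
`(L0 ∪ Dsc, L0)` is a cell (`beta_cell` with `m = 6`, `Φ v = (0, (sqrt ε • v, 0))`). -/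
theorem beta_model {l : K} (hl : Good l) {μ : ℝ → ℝ} {C ε : ℝ} (h : Prof μ C) (hε : 0 < ε)
    (n : ℕ) :
    beta ((Act.cyc 6 dvd_rfl).prod (Fib j j')) l (Iio 6 ×ˢ L1 j j' μ C ε) (Iio 6 ×ˢ L0 j j' μ C ε)
      n = if n = j then 1 else 0 := by
  rw [← Model_cell (j' := j') hl h hε]
  exact beta_left (prod_mono Subset.rfl subset_union_left)
    (prod_mono Subset.rfl (union_subset inter_subset_left (ModelD_sub h hε))) (Model_acyc hl h hε) n

end Vale.Agent.P265
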