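import Vale.Agent.P265.AS

/-!
Relative homeomorphisms induce isomorphisms in Alexander-Spanier cohomology.
-/

open Set

noncomputable section

namespace Vale.Agent.P265

variable {K : Type} [Field K] {X Y : Type} [MetricSpace X] [MetricSpace Y]

variable (K) in
/-- Cochains that vanish on all lists of length `n` made of points of `Z` close to `A`. -/
def Near (Z A : Set X) (n : ℕ) : Submodule K (List X → K) where
  carrier := {φ | ∃ ε > 0, ∀ l : List X, l.length = n →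
    (∀ x ∈ l, x ∈ Z ∧ ∃ y ∈ A, dist x y < ε) → φ l = 0}
  zero_mem' := ⟨1, one_pos, fun _ _ _ => rfl⟩
  add_mem' := by
    rintro φ ψ ⟨ε, hε, h⟩ ⟨δ, hδ, h'⟩
    refine ⟨min ε δ, lt_min hε hδ, fun l hl hs => ?_⟩
    rw [Pi.add_apply, h l hl fun x hx => ⟨(hs x hx).1, (hs x hx).2.imp fun y hy =>
        ⟨hy.1, hy.2.trans_le (min_le_left _ _)⟩⟩,
      h' l hl fun x hx => ⟨(hs x hx).1, (hs x hx).2.imp fun y hy =>
        ⟨hy.1, hy.2.trans_le (min_le_right _ _)⟩⟩, add_zero]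
  smul_mem' := by
    rintro c φ ⟨ε, hε, h⟩
    exact ⟨ε, hε, fun l hl hs => by rw [Pi.smul_apply, h l hl hs, smul_zero]⟩

theorem Rel_r {Z A : Set X} (hA : A ⊆ Z) {δ : ℝ} (hδ : 0 < δ) : ∃ r : X → X, MapsTo r Z Z ∧
    MapsTo r A A ∧ (∀ x, (∃ y ∈ A, dist x y < δ) → r x ∈ A) ∧ ∀ x y, dist x y < δ →
      dist (id x) (id y) < 3 * δ ∧ dist (id x) (r y) < 3 * δ ∧ dist (r x) (id y) < 3 * δ ∧
        dist (r x) (r y) < 3 * δ := by
  have h : ∀ x, ∃ z, dist x z < δ ∧ ((∃ y ∈ A, dist x y < δ) → z ∈ A) ∧ (x ∈ Z → z ∈ Z) :=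
    fun x => by
      by_cases h : ∃ y ∈ A, dist x y < δ
      · obtain ⟨y, hy, h⟩ := h
        exact ⟨y, h, fun _ => hy, fun _ => hA hy⟩
      · exact ⟨x, by simpa using hδ, fun h' => (h h').elim, id⟩
  choose r h1 h2 h3 using h
  refine ⟨r, h3, fun x hx => h2 x ⟨x, hx, by simpa using hδ⟩, h2, fun x y h => ?_⟩
  have h4 := h1 x
  have h5 := h1 y
  have h6 := dist_triangle x y (r y)
  have h7 := dist_triangle_left (r x) y x
  have h8 := dist_triangle (r x) y (r y)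
  simp only [id]
  refine ⟨?_, ?_, ?_, ?_⟩ <;> linarith

open Classical in
/-- The part of a cochain on small lists. -/
def Rel_cut (Z : Set X) (δ : ℝ) (φ : List X → K) (l : List X) : K :=
  if Small Z δ l then φ l else 0

theorem Rel_cut_nul (Z : Set X) {δ : ℝ} (hδ : 0 < δ) (φ : List X → K) (n : ℕ) :
    φ - Rel_cut Z δ φ ∈ Nul K Z n :=
  ⟨δ, hδ, fun l _ hs => by rw [Pi.sub_apply, Rel_cut, if_pos hs, sub_self]⟩

theorem Rel_cut_near {Z A : Set X} {δ : ℝ} (hδ : 0 < δ) {φ : List X → K} {n : ℕ}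
    (h : ∀ l : List X, l.length = n → Small Z δ l → (∀ x ∈ l, ∃ y ∈ A, dist x y < δ) → φ l = 0) :
    Rel_cut Z δ φ ∈ Near K Z A n :=
  ⟨δ, hδ, fun l hl hs => by
    rw [Rel_cut]
    split_ifs with h'
    exacts [h l hl h' fun x hx => (hs x hx).2, rfl]⟩

theorem Rel_small {Z A : Set X} {δ ε : ℝ} {r : X → X}
    (h1 : ∀ x, (∃ y ∈ A, dist x y < δ) → r x ∈ A) (h2 : ∀ x y, dist x y < δ → dist (r x) (r y) < ε)
    {l : List X} (hs : Small Z δ l) (h : ∀ x ∈ l, ∃ y ∈ A, dist x y < δ) :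
    Small A ε (l.map r) := by
  refine ⟨?_, ?_⟩ <;> simp only [List.forall_mem_map]
  exacts [fun x hx => h1 x (h x hx), fun x hx y hy => h2 x y (hs.2 x hx y hy)]

theorem Rel_pull_id (φ : List X → K) : pull K id φ = φ :=
  funext fun l => congrArg φ (List.map_id l)

/-- Tautness, first half. Let `r x` be a point of `A` within `δ` of `x` if there is one, and `x`
otherwise (also `r x = x` on `A`). Apply `prism` to `id` and `r`: `φ` differs from `pull r φ` by an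
element of `Bc`; finally cut `pull r φ` into its parts on small and on non small lists. -/
theorem taut_surj {Z A : Set X} (hA : A ⊆ Z) {n : ℕ} {φ : List X → K}
    (hφ : φ ∈ Zc (dL K X) (Nul K A) (Nul K Z) n) :
    ∃ ψ ∈ Near K Z A (n + 1), φ - ψ ∈ Bc (dL K X) (Nul K A) (Nul K Z) n := by
  obtain ⟨⟨ε₁, hε₁, h3⟩, ε₂, hε₂, h4⟩ := hφ
  have hδ : 0 < min ε₁ ε₂ / 3 := by positivity
  obtain ⟨r, hZ, hA', h1, h2⟩ := Rel_r hA hδ
  have h5 : ∀ ε, min ε₁ ε₂ ≤ ε → ∀ x y, dist x y < min ε₁ ε₂ / 3 → dist (id x) (id y) < ε ∧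
      dist (id x) (r y) < ε ∧ dist (r x) (id y) < ε ∧ dist (r x) (r y) < ε := fun ε h x y h' => by
    obtain ⟨a, b, c, d⟩ := h2 x y h'
    refine ⟨?_, ?_, ?_, ?_⟩ <;> linarith
  refine ⟨Rel_cut Z _ (pull K r φ), Rel_cut_near hδ fun l hl hs h => h3 _ (by simpa using hl)
    (Rel_small h1 (fun x y h => (h5 _ (min_le_left _ _) x y h).2.2.2) hs h), ?_⟩
  rw [← sub_add_sub_cancel _ (pull K r φ), ← neg_sub]
  refine Submodule.add_mem _ (Submodule.neg_mem _ ?_)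
    (Submodule.mem_sup_right (Rel_cut_nul Z hδ _ _))
  have h6 := prism id r φ
  rw [Rel_pull_id] at h6
  rw [h6]
  exact Submodule.add_mem_sup ⟨_, ⟨_, hδ, fun l hl hs => AS_pr_nul (Z := A) h3 (mapsTo_id A) hA'
    (fun x _ y _ => h5 _ (min_le_left _ _) x y) hl hs⟩, rfl⟩
    ⟨_, hδ, fun l hl hs => AS_pr_nul (Z := Z) h4 (mapsTo_id Z) hZ
      (fun x _ y _ => h5 _ (min_le_right _ _) x y) hl hs⟩

/-- Tautness, second half: if `φ = d ψ + q` with `ψ ∈ Nul A`, `q ∈ Nul Z`, replace `ψ` by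
`pull r ψ - (prism of φ)`, again cut into small and non small lists. -/
theorem taut_inj {Z A : Set X} (hA : A ⊆ Z) {n : ℕ} {φ : List X → K}
    (hφ : φ ∈ Near K Z A (n + 1)) (hb : φ ∈ Bc (dL K X) (Nul K A) (Nul K Z) n) :
    ∃ ψ ∈ Near K Z A n, φ - dL K X ψ ∈ Nul K Z (n + 1) := by
  obtain ⟨ε₀, hε₀, h0⟩ := hφ
  obtain ⟨_, ⟨ψ, ⟨ε₁, hε₁, h3⟩, rfl⟩, q, hq, rfl⟩ := Submodule.mem_sup.1 hb
  obtain ⟨ε₂, hε₂, h4⟩ := id hq
  have hδ : 0 < min ε₀ (min ε₁ ε₂ / 3) := by positivity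
  obtain ⟨r, hZ, hA', h1, h2⟩ := Rel_r hA hδ
  have h5 : ∀ ε, min ε₁ ε₂ ≤ ε → ∀ x y, dist x y < min ε₀ (min ε₁ ε₂ / 3) →
      dist (id x) (id y) < ε ∧ dist (id x) (r y) < ε ∧ dist (r x) (id y) < ε ∧
        dist (r x) (r y) < ε := fun ε h x y h' => by
    obtain ⟨a, b, c, d⟩ := h2 x y h'
    have := min_le_right ε₀ (min ε₁ ε₂ / 3)
    refine ⟨?_, ?_, ?_, ?_⟩ <;> linarith
  refine ⟨Rel_cut Z _ (pull K r ψ - fun l => pr id r l (dL K X ψ + q)),
    Rel_cut_near hδ fun l hl hs h => ?_, ?_⟩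
  · rw [Pi.sub_apply, pr_eq_zero fun m h6 h7 => h0 m (by omega) fun y hy => ?_, sub_zero]
    · exact h3 _ (by simpa using hl)
        (Rel_small h1 (fun x y h => (h5 _ (min_le_left _ _) x y h).2.2.2) hs h)
    · obtain ⟨x, hx, h8 | rfl⟩ := h7 y hy
      · exact h8 ▸ ⟨hs.1 x hx, (h x hx).imp fun a ha => ⟨ha.1, ha.2.trans_le (min_le_left _ _)⟩⟩
      · exact ⟨hZ (hs.1 x hx), _, h1 x (h x hx), by simpa using hε₀⟩
  · have h6 := prism id r ψ
    rw [Rel_pull_id, sub_eq_iff_eq_add] at h6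
    have h7 : (fun l => pr id r l (dL K X ψ + q)) =
        (fun l => pr id r l (dL K X ψ)) + fun l => pr id r l q := funext fun l => by
      have := AS_pr_sub id r l (dL K X ψ + q) q
      simp only [Pi.add_apply, add_sub_cancel_right] at this ⊢
      exact (eq_sub_iff_add_eq.1 this).symm
    have h8 : (fun l => pr id r l q) ∈ Nul K Z n := ⟨_, hδ, fun l hl hs =>
      AS_pr_nul (Z := Z) h4 (mapsTo_id Z) hZ (fun x _ y _ => h5 _ (min_le_right _ _) x y) hl hs⟩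
    have h9 := Submodule.add_mem _ (Submodule.add_mem _ hq (Nul.sub Z n _ h8))
      (Nul.sub Z n _ (Rel_cut_nul Z hδ (pull K r ψ - fun l => pr id r l (dL K X ψ + q)) n))
    rw [map_sub] at h9
    generalize dL K X (Rel_cut Z _ _) = w at h9 ⊢
    rw [h6, h7] at h9
    simp only [map_sub, map_add, dL_dL] at h9
    exact Set.mem_of_eq_of_mem (by abel) h9

/-- A relative homeomorphism of compact pairs. -/
structure RelH (f : X → Y) (Z A : Set X) (Z' A' : Set Y) : Prop where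
  cZ : IsCompact Z
  cA : IsCompact A
  cZ' : IsCompact Z'
  cA' : IsCompact A'
  sub : A ⊆ Z
  sub' : A' ⊆ Z'
  cont : ContinuousOn f Z
  mA : MapsTo f A A'
  bij : BijOn f (Z \ A) (Z' \ A')

theorem Rel_near_nul {Z A : Set X} (hA : A ⊆ Z) {n : ℕ} {φ : List X → K}
    (h : φ ∈ Near K Z A n) : φ ∈ Nul K A n := by
  obtain ⟨ε, hε, h⟩ := h
  exact ⟨ε, hε, fun l hl hs => h l hl fun x hx =>
    ⟨hA (hs.1 x hx), x, hs.1 x hx, by simpa using hε⟩⟩

theorem Rel_near_d {Z A : Set X} {n : ℕ} {φ : List X → K} (h : φ ∈ Near K Z A n) :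
    dL K X φ ∈ Near K Z A (n + 1) := by
  obtain ⟨ε, hε, h⟩ := h
  exact ⟨ε, hε, fun l hl hs => dd_eq_zero fun m h1 h2 => h m (by omega) fun x hx => hs x (h2 x hx)⟩

theorem Rel_near_zero {Z A : Set X} {ε : ℝ} {l : List X} (hs : Small Z ε l)
    (h : ¬∀ y ∈ l, y ∉ A) : ∀ x ∈ l, x ∈ Z ∧ ∃ y ∈ A, dist x y < ε := fun x hx => by
  push Not at h
  obtain ⟨y, hy, h⟩ := h
  exact ⟨hs.1 x hx, y, h, hs.2 x hx y hy⟩

open Classical in
/-- The inverse of the pull-back. -/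
def Rel_G (g : Y → X) (A' : Set Y) (φ : List X → K) (l : List Y) : K :=
  if ∀ y ∈ l, y ∉ A' then φ (l.map g) else 0

section
variable {f : X → Y} {Z A : Set X} {Z' A' : Set Y} {g : Y → X} {n : ℕ}

theorem RelH.Rel_maps (h : RelH f Z A Z' A') : MapsTo f Z Z' := fun x hx => by
  by_cases h' : x ∈ A
  exacts [h.sub' (h.mA h'), (h.bij.mapsTo ⟨hx, h'⟩).1]

theorem Rel_not_thick {ε : ℝ} (hε : 0 < ε) {x : X} (h : x ∉ Metric.thickening ε A) : x ∉ A :=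
  fun h' => h (Metric.self_subset_thickening hε A h')

theorem RelH.Rel_c1 (h : RelH f Z A Z' A') {ε : ℝ} (hε : 0 < ε) : ∃ δ > 0, ∀ x ∈ Z, ∀ y ∈ A',
    dist (f x) y < δ → ∃ a ∈ A, dist x a < ε := by
  obtain ⟨δ, hδ, h1⟩ := ((h.cZ.diff Metric.isOpen_thickening).prod h.cA').exists_forall_le'
    (f := fun p : X × Y => dist (f p.1) p.2) (a := 0)
    (continuous_dist.comp_continuousOn ((h.cont.comp continuousOn_fst fun p hp => hp.1.1).prodMk
      continuousOn_snd)) fun p hp => dist_pos.2 fun h' =>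
        (h.bij.mapsTo ⟨hp.1.1, Rel_not_thick hε hp.1.2⟩).2 (h' ▸ hp.2)
  exact ⟨δ, hδ, fun x hx y hy h' => Metric.mem_thickening_iff.1
    (not_not.1 fun h2 => (h1 (x, y) ⟨⟨hx, h2⟩, hy⟩).not_gt h')⟩

theorem RelH.Rel_c2 (h : RelH f Z A Z' A') {ε : ℝ} (hε : 0 < ε) : ∃ δ > 0, ∀ x ∈ Z, ∀ y ∈ Z,
    dist (f x) (f y) < δ → dist x y < ε ∨ ∃ a ∈ A, dist x a < ε := by
  obtain ⟨δ, hδ, h1⟩ := (((h.cZ.diff Metric.isOpen_thickening).prod h.cZ).diff
    (isOpen_lt continuous_dist (continuous_const (y := ε)))).exists_forall_le'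
    (f := fun p : X × X => dist (f p.1) (f p.2)) (a := 0)
    (continuous_dist.comp_continuousOn ((h.cont.comp continuousOn_fst fun p hp => hp.1.1.1).prodMk
      (h.cont.comp continuousOn_snd fun p hp => hp.1.2))) fun p hp => dist_pos.2 fun h' => by
        have h2 : p.1 ∈ Z \ A := ⟨hp.1.1.1, Rel_not_thick hε hp.1.1.2⟩
        have h3 := h.bij.injOn h2 ⟨hp.1.2, fun h3 => (h.bij.mapsTo h2).2 (h' ▸ h.mA h3)⟩ h'
        exact hp.2 (by simpa [h3] using hε)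
  refine ⟨δ, hδ, fun x hx y hy h' => or_iff_not_imp_left.2 fun h2 => Metric.mem_thickening_iff.1
    (not_not.1 fun h3 => (h1 (x, y) ⟨⟨⟨hx, h3⟩, hy⟩, h2⟩).not_gt h')⟩

theorem RelH.Rel_near (h : RelH f Z A Z' A') (hg : ∀ y ∈ Z' \ A', g y ∈ Z \ A ∧ f (g y) = y)
    {φ : List X → K} (hφ : φ ∈ Near K Z A n) : Rel_G g A' φ ∈ Near K Z' A' n := by
  obtain ⟨ε, hε, h1⟩ := hφ
  obtain ⟨δ, hδ, h2⟩ := h.Rel_c1 hε
  refine ⟨δ, hδ, fun l hl hs => ?_⟩
  rw [Rel_G]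
  split_ifs with h3
  · refine h1 _ (by simpa using hl) (List.forall_mem_map.2 fun y hy => ?_)
    obtain ⟨h4, a, ha, h5⟩ := hs y hy
    obtain ⟨h6, h7⟩ := hg y ⟨h4, h3 y hy⟩
    exact ⟨h6.1, h2 _ h6.1 a ha (by rwa [h7])⟩
  · rfl

theorem RelH.Rel_d (h : RelH f Z A Z' A') (hg : ∀ y ∈ Z' \ A', g y ∈ Z \ A ∧ f (g y) = y)
    {φ : List X → K} (hφ : φ ∈ Near K Z A n) :
    Rel_G g A' (dL K X φ) - dL K Y (Rel_G g A' φ) ∈ Nul K Z' (n + 1) := by
  obtain ⟨δ, hδ, h1⟩ := Rel_near_d (h.Rel_near hg hφ)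
  refine ⟨δ, hδ, fun l hl hs => ?_⟩
  rw [Pi.sub_apply, Rel_G]
  split_ifs with h3
  · refine ((congrArg (· - _) (AS_dd_map g l φ).symm).trans (AS_dd_sub l _ _).symm).trans
      (dd_eq_zero fun m _ h2 => ?_)
    rw [Rel_G, if_pos fun y hy => h3 y (h2 y hy), sub_self]
  · rw [h1 l hl (Rel_near_zero hs h3), sub_zero]

theorem RelH.Rel_nul (h : RelH f Z A Z' A') (hg : ∀ y ∈ Z' \ A', g y ∈ Z \ A ∧ f (g y) = y)
    {φ : List X → K} (hφ : φ ∈ Near K Z A n) (hq : φ ∈ Nul K Z n) :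
    Rel_G g A' φ ∈ Nul K Z' n := by
  obtain ⟨ε₁, hε₁, h1⟩ := hφ
  obtain ⟨ε₂, hε₂, h2⟩ := hq
  obtain ⟨δ, hδ, h4⟩ := h.Rel_c2 (lt_min (half_pos hε₁) hε₂)
  refine ⟨δ, hδ, fun l hl hs => ?_⟩
  rw [Rel_G]
  split_ifs with h3
  · have h5 := fun y hy => hg y ⟨hs.1 y hy, h3 y hy⟩
    have h6 := fun x hx y hy => h4 _ (h5 x hx).1.1 _ (h5 y hy).1.1
      (by rw [(h5 x hx).2, (h5 y hy).2]; exact hs.2 x hx y hy)
    by_cases h7 : ∃ y ∈ l, ∃ a ∈ A, dist (g y) a < min (ε₁ / 2) ε₂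
    · obtain ⟨y, hy, a, ha, h7⟩ := h7
      refine h1 _ (by simpa using hl) (List.forall_mem_map.2 fun x hx => ⟨(h5 x hx).1.1, ?_⟩)
      have := min_le_left (ε₁ / 2) ε₂
      rcases h6 x hx y hy with h8 | ⟨b, hb, h8⟩
      · exact ⟨a, ha, by linarith [dist_triangle (g x) (g y) a]⟩
      · exact ⟨b, hb, by linarith⟩
    · refine h2 _ (by simpa using hl) ⟨?_, ?_⟩ <;> simp only [List.forall_mem_map]
      · exact fun y hy => (h5 y hy).1.1
      · exact fun x hx y hy => ((h6 x hx y hy).resolve_right fun h8 =>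
          h7 ⟨x, hx, h8⟩).trans_le (min_le_right _ _)
  · rfl

theorem RelH.Rel_left (h : RelH f Z A Z' A') (hg : ∀ y ∈ Z' \ A', g y ∈ Z \ A ∧ f (g y) = y)
    {φ : List X → K} (hφ : φ ∈ Near K Z A n) : φ - pull K f (Rel_G g A' φ) ∈ Nul K Z n := by
  obtain ⟨ε, hε, h1⟩ := hφ
  refine ⟨ε, hε, fun l hl hs => sub_eq_zero.2 ?_⟩
  change φ l = Rel_G g A' φ (l.map f)
  rw [Rel_G]
  by_cases h3 : ∀ y ∈ l, y ∉ A
  · have h4 := fun x hx => h.bij.mapsTo ⟨hs.1 x hx, h3 x hx⟩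
    rw [if_pos (List.forall_mem_map (f := f).2 fun x hx => (h4 x hx).2), List.map_map,
      List.map_congr_left (f := g ∘ f) (g := id) fun x hx =>
        h.bij.injOn (hg _ (h4 x hx)).1 ⟨hs.1 x hx, h3 x hx⟩ (hg _ (h4 x hx)).2, List.map_id]
  · rw [h1 l hl (Rel_near_zero hs h3), if_neg fun h4 => h3 fun x hx h5 =>
      h4 _ (List.mem_map_of_mem hx) (h.mA h5)]

theorem Rel_right (hg : ∀ y ∈ Z' \ A', g y ∈ Z \ A ∧ f (g y) = y)
    {φ : List Y → K} (hφ : φ ∈ Near K Z' A' n) : φ - Rel_G g A' (pull K f φ) ∈ Nul K Z' n := by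
  obtain ⟨ε, hε, h1⟩ := hφ
  refine ⟨ε, hε, fun l hl hs => sub_eq_zero.2 ?_⟩
  rw [Rel_G]
  split_ifs with h3
  · change φ l = φ ((l.map g).map f)
    rw [List.map_map, List.map_congr_left (f := f ∘ g) (g := id) fun x hx =>
      (hg x ⟨hs.1 x hx, h3 x hx⟩).2, List.map_id]
  · exact h1 l hl (Rel_near_zero hs h3)

theorem RelH.Rel_pull (h : RelH f Z A Z' A') {φ : List Y → K} (hφ : φ ∈ Near K Z' A' n) :
    pull K f φ ∈ Near K Z A n := by
  obtain ⟨ε, hε, h1⟩ := hφ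
  obtain ⟨δ, hδ, h2⟩ :=
    Metric.uniformContinuousOn_iff.1 (h.cZ.uniformContinuousOn_of_continuous h.cont) ε hε
  refine ⟨δ, hδ, fun l hl hs => h1 (l.map f) (by simpa using hl)
    (List.forall_mem_map.2 fun x hx => ?_)⟩
  obtain ⟨h3, a, ha, h4⟩ := hs x hx
  exact ⟨h.Rel_maps h3, f a, h.mA ha, h2 x h3 a (h.sub ha) h4⟩

theorem RelH.Rel_B (h : RelH f Z A Z' A') {φ : List Y → K}
    (hφ : φ ∈ Bc (dL K Y) (Nul K A') (Nul K Z') n) :
    pull K f φ ∈ Bc (dL K X) (Nul K A) (Nul K Z) n := by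
  obtain ⟨_, ⟨ψ, hψ, rfl⟩, q, hq, rfl⟩ := Submodule.mem_sup.1 hφ
  rw [map_add, ← dL_pull]
  exact Submodule.add_mem_sup ⟨_, Nul.pull h.cA (h.cont.mono h.sub) h.mA hψ, rfl⟩
    (Nul.pull h.cZ h.cont h.Rel_maps hq)

theorem RelH.Rel_qi (h : RelH f Z A Z' A') (hg : ∀ y ∈ Z' \ A', g y ∈ Z \ A ∧ f (g y) = y) :
    QI K f Z A Z' A' := by
  refine ⟨fun n φ hφ hb => ?_, fun n φ hφ => ?_⟩
  · obtain ⟨ψ, h1, h2⟩ := taut_surj h.sub' hφ
    have h3 := Submodule.sub_mem _ hb (h.Rel_B h2)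
    rw [map_sub, sub_sub_cancel] at h3
    obtain ⟨χ, h4, h5⟩ := taut_inj h.sub (h.Rel_pull h1) h3
    have h6 := h.Rel_nul hg (Submodule.sub_mem _ (h.Rel_pull h1) (Rel_near_d h4)) h5
    have h7 : Rel_G g A' (pull K f ψ - dL K X χ) =
        Rel_G g A' (pull K f ψ) - Rel_G g A' (dL K X χ) := funext fun l => by
      simp only [Rel_G, Pi.sub_apply]
      split_ifs <;> simp
    rw [h7] at h6
    have h8 := Submodule.add_mem _ h2 (Submodule.add_mem_sup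
      ⟨_, Rel_near_nul h.sub' (h.Rel_near hg h4), rfl⟩
      (Submodule.add_mem _ (Submodule.add_mem _ (Rel_right hg h1) h6) (h.Rel_d hg h4)))
    exact Set.mem_of_eq_of_mem (by abel) h8
  · obtain ⟨ψ, h1, h2⟩ := taut_surj h.sub hφ
    have h3 : dL K X ψ ∈ Nul K Z (n + 2) := by
      have := Submodule.sub_mem _ hφ.2
        (Lin_BZ dL_dL (Nul.sub A) (Nul.sub Z) (Nul.anti h.sub) n h2).2
      rwa [sub_sub_cancel] at this
    refine ⟨Rel_G g A' ψ, ⟨Rel_near_nul h.sub' (h.Rel_near hg h1), ?_⟩, ?_⟩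
    · have := Submodule.sub_mem _ (h.Rel_nul hg (Rel_near_d h1) h3) (h.Rel_d hg h1)
      rwa [sub_sub_cancel] at this
    · rw [← sub_add_sub_cancel _ ψ]
      exact Submodule.add_mem _ h2 (Submodule.mem_sup_right (h.Rel_left hg h1))

end

/-- For `φ ∈ Near Z A` put `G φ l = φ (l.map g)` if no point of `l` is in `A'` and `0` otherwise,
where `g` inverts `f` on `Z' \ A'`. A small list in `Z'` either lies close to `A'` (then `G φ`
vanishes on it and on its faces, because `g` maps points close to `A'` close to `A`, by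
compactness) or stays away from `A'` (there `g` is uniformly continuous). So `G` commutes with `d`
modulo `Nul Z'` and inverts `pull f` on `Near`. -/
theorem RelH.qi {f : X → Y} {Z A : Set X} {Z' A' : Set Y} (h : RelH f Z A Z' A') :
    QI K f Z A Z' A' := by
  rcases isEmpty_or_nonempty X with hX | hX
  · have h1 : A' = Z' := h.sub'.antisymm fun y hy => not_not.1 fun h' =>
      isEmptyElim (h.bij.surjOn ⟨hy, h'⟩).choose
    obtain rfl : A = Z := Subsingleton.elim _ _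
    subst h1
    exact ⟨fun n φ hφ _ => Submodule.mem_sup_right hφ.1, fun n φ hφ =>
      ⟨0, Submodule.zero_mem _, Submodule.mem_sup_right (by simpa using hφ.1)⟩⟩
  · exact h.Rel_qi (g := Function.invFunOn f (Z \ A)) fun y hy =>
      Function.invFunOn_pos (h.bij.surjOn hy)

end Vale.Agent.P265
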