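import Vale.Agent.P265.Lam
import Vale.Agent.P265.XDef

/-!
The function `ρ` on `X`: a circle of minima and ten nondegenerate critical points.
-/

open scoped ContDiff Topology
open Set Filter Complex

noncomputable section

namespace Vale.Agent.P265

/-- The coefficient of the real part. -/
def rr (p : P3) (a : ℂ) : ℝ := (1 - kk p.2.2) * uu p / ‖a‖ + kk p.2.2 * 60

/-- The function `ρ`. -/
def rho (x : AX) : ℝ :=
  199 + 2 * tt x.1 + rr x.1 x.2.1.1 * x.2.1.1.re + rr (flp x.1) x.2.2.1 * x.2.2.1.re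

/-- The circle of minima. -/
def KK : Set AX :=
  {x | x.1.2.2 = 0 ∧ x.2.1.1.im = 0 ∧ x.2.1.1.re < 0 ∧ x.2.2.1.im = 0 ∧ x.2.2.1.re < 0}

theorem rho_fa (p : P3) : ‖fa p‖ ^ 2 = PP p := by
  rw [Complex.sq_norm, normSq_apply, fa_re, fa_im, PP]; ring

theorem rho_fb (p : P3) : ‖fb p‖ ^ 2 = PP (flp p) := by
  rw [Complex.sq_norm, normSq_apply, fb_re, fb_im, PP, flp]; ring

theorem rho_a4 {x : AX} (h : x ∈ XS) : ‖x.2.1.1‖ ^ 4 = PP x.1 := by
  rw [← rho_fa, show 4 = 2 * 2 from rfl, pow_mul, ← norm_pow x.2.1.1, h.2.2.2.1, norm_mul, h.2.1,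
    mul_one]

theorem rho_c6 {x : AX} (h : x ∈ XS) : ‖x.2.2.1‖ ^ 6 = PP (flp x.1) := by
  rw [← rho_fb, show 6 = 3 * 2 from rfl, pow_mul, ← norm_pow x.2.2.1, h.2.2.2.2, norm_mul,
    h.2.2.1, mul_one]

theorem norm_a {x : AX} (h : x ∈ XS) : ‖x.2.1.1‖ = PP x.1 ^ (1 / 4 : ℝ) := by
  rw [← rho_a4 h, one_div]
  exact_mod_cast (Real.pow_rpow_inv_natCast (norm_nonneg _) (n := 4) (by norm_num)).symm

theorem norm_c {x : AX} (h : x ∈ XS) : ‖x.2.2.1‖ = PP (flp x.1) ^ (1 / 6 : ℝ) := by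
  rw [← rho_c6 h, one_div]
  exact_mod_cast (Real.pow_rpow_inv_natCast (norm_nonneg _) (n := 6) (by norm_num)).symm

theorem a_ne {x : AX} (h : x ∈ XS) (h' : x.1.2.2 ≠ 3 / 5) : x.2.1.1 ≠ 0 := fun h0 => by
  have := rho_a4 h
  rw [h0, norm_zero, PP] at this
  exact h' (by nlinarith [sq_nonneg x.1.2.1, sq_nonneg (x.1.2.2 - 3 / 5)])

theorem c_ne {x : AX} (h : x ∈ XS) (h' : x.1.2.2 ≠ -3 / 5) : x.2.2.1 ≠ 0 := fun h0 => by
  have := rho_c6 h
  rw [h0, norm_zero, PP, flp] at this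
  exact h' (by nlinarith [sq_nonneg x.1.2.1, sq_nonneg (x.1.2.2 + 3 / 5)])

theorem PPa_ne {x : AX} (h : x ∈ XS) (ha : x.2.1.1 ≠ 0) : PP x.1 ≠ 0 := by
  rw [← rho_a4 h]; exact pow_ne_zero _ (norm_ne_zero_iff.2 ha)

theorem PPc_ne {x : AX} (h : x ∈ XS) (hc : x.2.2.1 ≠ 0) : PP (flp x.1) ≠ 0 := by
  rw [← rho_c6 h]; exact pow_ne_zero _ (norm_ne_zero_iff.2 hc)

theorem rr_smooth {z : P3 × ℂ} (h : z.2 ≠ 0 ∨ 1 / 2 < z.1.2.2) :
    ContDiffAt ℝ ∞ (fun z : P3 × ℂ => rr z.1 z.2) z := by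
  have hk : ContDiff ℝ ∞ fun z : P3 × ℂ => kk z.1.2.2 :=
    Real.smoothTransition.contDiff.comp (by fun_prop)
  rcases h with h | h
  · exact (((contDiffAt_const.sub hk.contDiffAt).mul
      (uu_smooth.comp contDiff_fst).contDiffAt).div (contDiffAt_snd.norm ℝ h)
        (norm_ne_zero_iff.2 h)).add (hk.contDiffAt.mul contDiffAt_const)
  · refine (contDiffAt_const (c := (60 : ℝ))).congr_of_eventuallyEq ?_
    filter_upwards [(by fun_prop : Continuous fun z : P3 × ℂ => z.1.2.2).continuousAt.eventually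
      (lt_mem_nhds h)] with y hy
    have : kk y.1.2.2 = 1 := Real.smoothTransition.one_of_one_le (by linarith)
    simp [rr, this]

/-- Smooth on the open set `(a ≠ 0 ∨ 1 / 2 < h) ∧ (c ≠ 0 ∨ h < -1 / 2)`, which contains `X`. -/
theorem rho_smooth : ∃ O, IsOpen O ∧ XS ⊆ O ∧ ContDiffOn ℝ ∞ rho O := by
  refine ⟨({x | x.2.1.1 ≠ 0} ∪ {x | 1 / 2 < x.1.2.2}) ∩
    ({x | x.2.2.1 ≠ 0} ∪ {x | 1 / 2 < -x.1.2.2}), ?_, fun x hx => ⟨?_, ?_⟩, fun x hx => ?_⟩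
  · exact ((isOpen_ne_fun (by fun_prop) (by fun_prop)).union
      (isOpen_lt (by fun_prop) (by fun_prop))).inter ((isOpen_ne_fun (by fun_prop)
        (by fun_prop)).union (isOpen_lt (by fun_prop) (by fun_prop)))
  · by_cases h : x.1.2.2 = 3 / 5
    · exact Or.inr (by rw [mem_ofPred_eq, h]; norm_num)
    · exact Or.inl (a_ne hx h)
  · by_cases h : x.1.2.2 = -3 / 5
    · exact Or.inr (by rw [mem_ofPred_eq, h]; norm_num)
    · exact Or.inl (c_ne hx h)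
  · have h1 := (rr_smooth (z := (x.1, x.2.1.1)) hx.1).comp x
      (f := fun x : AX => (x.1, x.2.1.1)) (by fun_prop)
    have h2 := (rr_smooth (z := (flp x.1, x.2.2.1)) hx.2).comp x
      (f := fun x : AX => (flp x.1, x.2.2.1)) (by unfold flp; fun_prop)
    exact (((contDiffAt_const.add (contDiffAt_const.mul
      (tt_smooth.comp contDiff_fst).contDiffAt)).add (h1.mul (reCLM.contDiff.comp
        (by fun_prop : ContDiff ℝ ∞ fun x : AX => x.2.1.1)).contDiffAt)).add (h2.mul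
          (reCLM.contDiff.comp
            (by fun_prop : ContDiff ℝ ∞ fun x : AX => x.2.2.1)).contDiffAt)).contDiffWithinAt

theorem rr_mul {p : P3} {a : ℂ} {α : ℝ} (h : ‖a‖ = PP p ^ α) :
    rr p a * a.re = WW α p * (a.re / ‖a‖) := by
  by_cases ha : a = 0
  · simp [ha]
  · have := norm_ne_zero_iff.2 ha
    rw [rr, WW, ← h]; field_simp

theorem rho_eq {x : AX} (h : x ∈ XS) : rho x = 199 + 2 * tt x.1 +
    WW (1 / 4) x.1 * (x.2.1.1.re / ‖x.2.1.1‖) +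
      WW (1 / 6) (flp x.1) * (x.2.2.1.re / ‖x.2.2.1‖) := by
  rw [rho, rr_mul (norm_a h), rr_mul (norm_c h)]

theorem flp_mem {p : P3} (h : p ∈ S2) : flp p ∈ S2 := by simpa [S2, flp] using h

theorem rho_term {α : ℝ} (hα : α = 1 / 4 ∨ α = 1 / 6) {p : P3} (hp : p ∈ S2) (a : ℂ) :
    0 ≤ uu p + WW α p * (a.re / ‖a‖) ∧ (p.2.2 = 0 →
      (uu p + WW α p * (a.re / ‖a‖) = 0 ↔ a.im = 0 ∧ a.re < 0)) := by
  have h1 : -1 ≤ a.re / ‖a‖ := by
    by_cases ha : a = 0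
    · simp [ha]
    · rw [le_div_iff₀ (norm_pos_iff.2 ha)]
      linarith [neg_abs_le a.re, abs_re_le_norm a]
  have h2 := (WW_le hα hp).2.1
  have h3 := uu_ge hp
  have h4 : 0 ≤ WW α p := add_nonneg (mul_nonneg (sub_nonneg.2 (Real.smoothTransition.le_one _))
    (by linarith)) (mul_nonneg (Real.smoothTransition.nonneg _)
      (mul_nonneg (by norm_num) (Real.rpow_nonneg (lam_PP hp).1 _)))
  refine ⟨by nlinarith, fun h0 => ?_⟩
  have hk : kk p.2.2 = 0 := Real.smoothTransition.zero_of_nonpos (by rw [h0]; norm_num)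
  have : uu p + WW α p * (a.re / ‖a‖) = uu p * (1 + a.re / ‖a‖) := by rw [WW, hk]; ring
  rw [this, mul_eq_zero, or_iff_right (by linarith)]
  have e := Complex.sq_norm a
  rw [normSq_apply] at e
  constructor
  · intro h
    have ha : ‖a‖ ≠ 0 := fun ha => by simp [ha] at h
    have h' : a.re = -‖a‖ := by field_simp at h; linarith
    refine ⟨by rw [h'] at e; nlinarith, ?_⟩
    rw [h']; exact neg_neg_of_pos ((norm_nonneg a).lt_of_ne' ha)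
  · rintro ⟨h, h'⟩
    have : ‖a‖ = -a.re := by rw [← abs_re_eq_norm.2 h, abs_of_neg h']
    rw [this, div_neg, div_self h'.ne]; ring

/-- `ρ = h ^ 2 + (uu p + rr * re a) + (uu (flp p) + rr * re c)`, a sum of nonnegative terms
(`uu_add`, `WW_le`). -/
theorem rho_nonneg {x : AX} (h : x ∈ XS) : 0 ≤ rho x ∧ (rho x = 0 ↔ x ∈ KK) := by
  obtain ⟨a1, a2⟩ := rho_term (Or.inl rfl) h.1 x.2.1.1
  obtain ⟨b1, b2⟩ := rho_term (Or.inr rfl) (flp_mem h.1) x.2.2.1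
  have e := uu_add x.1
  have := sq_nonneg x.1.2.2
  rw [rho_eq h]
  refine ⟨by linarith, fun h0 => ?_, fun h0 => ?_⟩
  · have hz : x.1.2.2 = 0 := pow_eq_zero_iff (two_ne_zero) |>.1 (by linarith)
    have c1 := (a2 hz).1 (by linarith)
    have c2 := (b2 (by simp [flp, hz])).1 (by linarith)
    exact ⟨hz, c1.1, c1.2, c2.1, c2.2⟩
  · have c1 := (a2 h0.1).2 ⟨h0.2.1, h0.2.2.1⟩
    have c2 := (b2 (by simp [flp, h0.1])).2 h0.2.2.2
    rw [h0.1] at e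
    linarith

/-- The lift of a point `q` near `x.1` that keeps the phases of `a` and `c`. -/
def liftX (x : AX) (q : P3) : AX :=
  (q, (x.2.1.1 * ((PP q / PP x.1) ^ (1 / 4 : ℝ) : ℝ),
      (x.2.1.1 * ((PP q / PP x.1) ^ (1 / 4 : ℝ) : ℝ)) ^ 2 / fa q),
    (x.2.2.1 * ((PP (flp q) / PP (flp x.1)) ^ (1 / 6 : ℝ) : ℝ),
      (x.2.2.1 * ((PP (flp q) / PP (flp x.1)) ^ (1 / 6 : ℝ) : ℝ)) ^ 3 / fb q))

theorem liftX_self {x : AX} (h : x ∈ XS) (ha : x.2.1.1 ≠ 0) (hc : x.2.2.1 ≠ 0) :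
    liftX x x.1 = x := by
  have h1 := PPa_ne h ha
  have h2 := PPc_ne h hc
  have h3 : fa x.1 ≠ 0 := fun h => h1 (by rw [← rho_fa, h]; simp)
  have h4 : fb x.1 ≠ 0 := fun h => h2 (by rw [← rho_fb, h]; simp)
  simp only [liftX, div_self h1, div_self h2, Real.one_rpow, ofReal_one, mul_one, h.2.2.2.1,
    h.2.2.2.2, mul_div_cancel_left₀ _ h3, mul_div_cancel_left₀ _ h4]

theorem rho_lift {a f : ℂ} {P Q : ℝ} {n : ℕ} (hn : n ≠ 0) (h : ‖a‖ ^ (n * 2) = P) (hP : P ≠ 0)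
    (hf : ‖f‖ ^ 2 = Q) (hQ : Q ≠ 0) {α : ℝ} (hα : α = ((n * 2 : ℕ) : ℝ)⁻¹) :
    ‖(a * ((Q / P) ^ α : ℝ)) ^ n / f‖ = 1 ∧ (a * ((Q / P) ^ α : ℝ)) ^ n =
      f * ((a * ((Q / P) ^ α : ℝ)) ^ n / f) := by
  have h0 : f ≠ 0 := fun h => hQ (by rw [← hf, h]; simp)
  have h1 : 0 ≤ Q / P := div_nonneg (by rw [← hf]; positivity) (by rw [← h]; positivity)
  refine ⟨?_, (mul_div_cancel₀ _ h0).symm⟩
  rw [← sq_eq_sq₀ (norm_nonneg _) zero_le_one, norm_div, div_pow, norm_pow, ← pow_mul, norm_mul,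
    mul_pow, h, hf, norm_real, Real.norm_of_nonneg (Real.rpow_nonneg h1 _), hα,
    Real.rpow_inv_natCast_pow h1 (by omega)]
  field_simp

theorem liftX_mem {x : AX} (h : x ∈ XS) (ha : x.2.1.1 ≠ 0) (hc : x.2.2.1 ≠ 0) {q : P3}
    (hq : q ∈ S2) (h1 : PP q ≠ 0) (h2 : PP (flp q) ≠ 0) : liftX x q ∈ XS := by
  have a := rho_lift (n := 2) two_ne_zero (rho_a4 h) (PPa_ne h ha) (rho_fa q) h1 (α := 1 / 4)
    (by norm_num)
  have b := rho_lift (n := 3) three_ne_zero (rho_c6 h) (PPc_ne h hc) (rho_fb q) h2 (α := 1 / 6)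
    (by norm_num)
  exact ⟨hq, a.1, b.1, a.2, b.2⟩

theorem liftX_smooth : ContDiffOn ℝ ∞ (fun z : AX × P3 => liftX z.1 z.2)
    {z | PP z.1.1 ≠ 0 ∧ PP (flp z.1.1) ≠ 0 ∧ PP z.2 ≠ 0 ∧ PP (flp z.2) ≠ 0} := by
  intro z hz
  obtain ⟨h1, h2, h3, h4⟩ := hz
  have a : ContDiffAt ℝ ∞ (fun z : AX × P3 =>
      z.1.2.1.1 * ((PP z.2 / PP z.1.1) ^ (1 / 4 : ℝ) : ℝ)) z :=
    ContDiffAt.mul (by fun_prop) (ofRealCLM.contDiff.contDiffAt.comp z
      ((ContDiffAt.div (f := fun z : AX × P3 => PP z.2) (g := fun z : AX × P3 => PP z.1.1)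
        (by unfold PP; fun_prop) (by unfold PP; fun_prop) h1).rpow_const_of_ne
          (div_ne_zero h3 h1)))
  have b : ContDiffAt ℝ ∞ (fun z : AX × P3 =>
      z.1.2.2.1 * ((PP (flp z.2) / PP (flp z.1.1)) ^ (1 / 6 : ℝ) : ℝ)) z :=
    ContDiffAt.mul (by fun_prop) (ofRealCLM.contDiff.contDiffAt.comp z
      ((ContDiffAt.div (f := fun z : AX × P3 => PP (flp z.2))
        (g := fun z : AX × P3 => PP (flp z.1.1)) (by unfold PP flp; fun_prop)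
          (by unfold PP flp; fun_prop) h2).rpow_const_of_ne (div_ne_zero h4 h2)))
  have a' := (a.pow 2).mul ((fa_smooth.comp contDiff_snd).contDiffAt.inv
    fun h => h3 (by rw [← rho_fa, show fa z.2 = 0 from h]; simp))
  have b' := (b.pow 3).mul ((fb_smooth.comp contDiff_snd).contDiffAt.inv
    fun h => h4 (by rw [← rho_fb, show fb z.2 = 0 from h]; simp))
  exact (contDiffAt_snd.prodMk ((a.prodMk a').prodMk (b.prodMk b'))).contDiffWithinAt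

theorem rho_phase (a : ℂ) {r : ℝ} (h : 0 < r) : (a * r).re / ‖a * r‖ = a.re / ‖a‖ := by
  rw [re_mul_ofReal, norm_mul, norm_real, Real.norm_of_nonneg h.le, mul_div_mul_right _ _ h.ne']

theorem PP_nonneg (p : P3) : 0 ≤ PP p := by unfold PP; positivity

theorem rho_liftX {x : AX} (h : x ∈ XS) (ha : x.2.1.1 ≠ 0) (hc : x.2.2.1 ≠ 0) {q : P3}
    (hq : q ∈ S2) (h1 : PP q ≠ 0) (h2 : PP (flp q) ≠ 0) : rho (liftX x q) =
      Lam (1 / 4) (1 / 6) (x.2.1.1.re / ‖x.2.1.1‖) (x.2.2.1.re / ‖x.2.2.1‖) q := by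
  rw [rho_eq (liftX_mem h ha hc hq h1 h2), Lam]
  simp only [liftX]
  rw [rho_phase _ (Real.rpow_pos_of_pos (div_pos ((PP_nonneg _).lt_of_ne' h1)
    ((PP_nonneg _).lt_of_ne' (PPa_ne h ha))) _), rho_phase _ (Real.rpow_pos_of_pos (div_pos
      ((PP_nonneg _).lt_of_ne' h2) ((PP_nonneg _).lt_of_ne' (PPc_ne h hc))) _)]
  ring

end Vale.Agent.P265
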