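import Vale.Agent.P265.Chart
import Vale.Agent.P265.AS

/-!
The surface of genus two: a cyclic branched cover of degree six of the sphere.
-/

open scoped ContDiff Topology
open Set Filter Complex

noncomputable section

namespace Vale.Agent.P265

/-- Points `(X₁, X₂, h)` of three-space. -/
abbrev P3 : Type := ℝ × ℝ × ℝ

/-- The unit sphere. -/
def S2 : Set P3 := {p | p.1 ^ 2 + p.2.1 ^ 2 + p.2.2 ^ 2 = 1}

/-- Vanishes at `(± 4 / 5, 0, 3 / 5)` on the sphere. -/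
def fa (p : P3) : ℂ := (p.2.1 : ℂ) + ((p.2.2 - 3 / 5 : ℝ) : ℂ) * I

/-- Vanishes at `(± 4 / 5, 0, -3 / 5)` on the sphere. -/
def fb (p : P3) : ℂ := (p.2.1 : ℂ) + ((p.2.2 + 3 / 5 : ℝ) : ℂ) * I

@[simp] theorem fa_re (p : P3) : (fa p).re = p.2.1 := by simp [fa]
@[simp] theorem fa_im (p : P3) : (fa p).im = p.2.2 - 3 / 5 := by simp [fa]
@[simp] theorem fb_re (p : P3) : (fb p).re = p.2.1 := by simp [fb]
@[simp] theorem fb_im (p : P3) : (fb p).im = p.2.2 + 3 / 5 := by simp [fb]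

theorem fa_smooth : ContDiff ℝ ∞ fa :=
  (ofRealCLM.contDiff.comp (by fun_prop : ContDiff ℝ ∞ fun p : P3 => p.2.1)).add
    ((ofRealCLM.contDiff.comp (by fun_prop : ContDiff ℝ ∞ fun p : P3 => p.2.2 - 3 / 5)).mul
      contDiff_const)

theorem fb_smooth : ContDiff ℝ ∞ fb :=
  (ofRealCLM.contDiff.comp (by fun_prop : ContDiff ℝ ∞ fun p : P3 => p.2.1)).add
    ((ofRealCLM.contDiff.comp (by fun_prop : ContDiff ℝ ∞ fun p : P3 => p.2.2 + 3 / 5)).mul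
      contDiff_const)

/-- The ambient space of the surface. -/
abbrev ASig : Type := P3 × ℂ × ℂ

/-- The surface. -/
def Sig : Set ASig := {s | s.1 ∈ S2 ∧ s.2.1 ^ 2 = fa s.1 ∧ s.2.2 ^ 3 = fb s.1}

/-- A primitive cube root of unity. -/
def z3 : ℂ := cexp (2 * Real.pi * I / 3)

theorem z3_prim : IsPrimitiveRoot z3 3 := by
  simpa [z3] using Complex.isPrimitiveRoot_exp 3 (by norm_num)

/-- The deck transformation. -/
def TS : ASig →L[ℝ] ASig :=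
  (ContinuousLinearMap.id ℝ P3).prodMap ((-ContinuousLinearMap.id ℝ ℂ).prodMap
    (z3 • ContinuousLinearMap.id ℝ ℂ))

theorem TS_apply (s : ASig) : TS s = (s.1, -s.2.1, z3 * s.2.2) := rfl

theorem TS_iter (i : ℕ) (s : ASig) : TS^[i] s = (s.1, (-1) ^ i * s.2.1, z3 ^ i * s.2.2) := by
  induction i with
  | zero => simp
  | succ i ih =>
    rw [Function.iterate_succ_apply', ih, TS_apply]
    refine Prod.ext rfl (Prod.ext ?_ ?_) <;> simp only [pow_succ] <;> ring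

/-- The action on the ambient space of the surface. -/
def actS : Act ASig := ⟨TS, TS.continuous, fun s => by
  have : z3 ^ 6 = 1 := by rw [show 6 = 3 * 2 from rfl, pow_mul, z3_prim.pow_eq_one, one_pow]
  rw [TS_iter, this]; norm_num⟩

theorem Sig_fst {X Y : Type} [NormedAddCommGroup X] [NormedSpace ℝ X] [NormedAddCommGroup Y]
    [NormedSpace ℝ Y] {γ : ℝ → X × Y} {v : X × Y} (h : HasDerivAt γ v 0) :
    HasDerivAt (fun t => (γ t).1) v.1 0 := h.fst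

theorem Sig_snd {X Y : Type} [NormedAddCommGroup X] [NormedSpace ℝ X] [NormedAddCommGroup Y]
    [NormedSpace ℝ Y] {γ : ℝ → X × Y} {v : X × Y} (h : HasDerivAt γ v 0) :
    HasDerivAt (fun t => (γ t).2) v.2 0 := h.snd

theorem Sig_abs {p : P3} (hp : p ∈ S2) : |p.1| ≤ 1 ∧ |p.2.1| ≤ 1 ∧ |p.2.2| ≤ 1 := by
  have h : p.1 ^ 2 + p.2.1 ^ 2 + p.2.2 ^ 2 = 1 := hp
  have h1 := sq_nonneg p.1
  have h2 := sq_nonneg p.2.1
  have h3 := sq_nonneg p.2.2
  refine ⟨?_, ?_, ?_⟩ <;> exact (sq_le_one_iff_abs_le_one _).1 (by linarith)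

theorem S2_cpt : IsCompact S2 := by
  refine Metric.isCompact_of_isClosed_isBounded (isClosed_eq (by fun_prop) continuous_const)
    ((Metric.isBounded_closedBall (x := 0) (r := 1)).subset fun p hp => ?_)
  obtain ⟨h1, h2, h3⟩ := Sig_abs hp
  simp only [mem_closedBall_zero_iff, Prod.norm_def, Real.norm_eq_abs, max_le_iff]
  exact ⟨h1, h2, h3⟩

/-- Use the curve `(p + t v) / |p + t v|` for one direction. -/
theorem tan_S2 {p v : P3} (hp : p ∈ S2) :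
    Tan S2 p v ↔ p.1 * v.1 + p.2.1 * v.2.1 + p.2.2 * v.2.2 = 0 := by
  have h : p.1 ^ 2 + p.2.1 ^ 2 + p.2.2 ^ 2 = 1 := hp
  constructor
  · rintro ⟨γ, h0, h1, h2⟩
    have d := (((Sig_fst h1).pow 2).add ((Sig_fst (Sig_snd h1)).pow 2)).add
      ((Sig_snd (Sig_snd h1)).pow 2)
    have e := d.unique ((hasDerivAt_const (0 : ℝ) (1 : ℝ)).congr_of_eventuallyEq h2)
    simp only [h0] at e
    norm_num at e
    linarith
  · intro hv
    obtain ⟨N, hN⟩ : ∃ N, N = v.1 ^ 2 + v.2.1 ^ 2 + v.2.2 ^ 2 := ⟨_, rfl⟩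
    have N0 : ∀ t : ℝ, 0 < 1 + t ^ 2 * N := fun t => by rw [hN]; positivity
    have d : HasDerivAt (fun t : ℝ => (√(1 + t ^ 2 * N))⁻¹) 0 0 := by
      exact ((((((hasDerivAt_id (0 : ℝ)).pow 2).mul_const N).const_add 1).sqrt (N0 0).ne').inv
        (Real.sqrt_pos.2 (N0 0)).ne').congr_deriv (by simp)
    refine ⟨fun t => (√(1 + t ^ 2 * N))⁻¹ • (p + t • v), by simp, ?_, Eventually.of_forall fun t => ?_⟩
    · exact (d.smul (((hasDerivAt_id (0 : ℝ)).smul_const v).const_add p)).congr_deriv (by simp)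
    · have e := Real.sq_sqrt (N0 t).le
      have e0 := (Real.sqrt_pos.2 (N0 t)).ne'
      simp only [S2, mem_ofPred_eq, Prod.smul_fst, Prod.smul_snd, Prod.fst_add, Prod.snd_add,
        smul_eq_mul]
      field_simp
      rw [e, hN]
      linear_combination h + 2 * t * hv

theorem sig_inv : actS.Inv Sig := by
  refine ⟨(S2_cpt.prod ((isCompact_closedBall (0 : ℂ) 3).prod
    (isCompact_closedBall (0 : ℂ) 3))).of_isClosed_subset ?_ fun s hs => ?_, fun s hs => ?_⟩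
  · exact (S2_cpt.isClosed.preimage continuous_fst).inter
      ((isClosed_eq (by fun_prop) (fa_smooth.continuous.comp continuous_fst)).inter
        (isClosed_eq (by fun_prop) (fb_smooth.continuous.comp continuous_fst)))
  · obtain ⟨-, h2, h3⟩ := Sig_abs hs.1
    rw [abs_le] at h3
    have a1 : ‖s.2.1‖ ^ 2 ≤ 3 ^ 2 := by
      rw [← norm_pow, hs.2.1]
      refine (norm_le_abs_re_add_abs_im _).trans ?_
      rw [fa_re, fa_im]
      linarith [abs_le.2 (⟨by linarith, by linarith⟩ : -2 ≤ s.1.2.2 - 3 / 5 ∧ s.1.2.2 - 3 / 5 ≤ 2)]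
    have a2 : ‖s.2.2‖ ^ 3 ≤ 3 ^ 3 := by
      rw [← norm_pow, hs.2.2]
      refine (norm_le_abs_re_add_abs_im _).trans ?_
      rw [fb_re, fb_im]
      linarith [abs_le.2 (⟨by linarith, by linarith⟩ : -2 ≤ s.1.2.2 + 3 / 5 ∧ s.1.2.2 + 3 / 5 ≤ 2)]
    exact ⟨hs.1, mem_closedBall_zero_iff.2 (le_of_pow_le_pow_left₀ two_ne_zero (by norm_num) a1),
      mem_closedBall_zero_iff.2 (le_of_pow_le_pow_left₀ three_ne_zero (by norm_num) a2)⟩
  · refine ⟨hs.1, ?_, ?_⟩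
    · show (-s.2.1) ^ 2 = fa s.1
      rw [neg_sq, hs.2.1]
    · show (z3 * s.2.2) ^ 3 = fb s.1
      rw [mul_pow, z3_prim.pow_eq_one, one_mul, hs.2.2]

/-- The fibres are orbits (Chinese remainder theorem; `IsPrimitiveRoot.eq_pow_of_pow_eq_one`). -/
theorem sig_fib {s s' : ASig} (hs : s ∈ Sig) (hs' : s' ∈ Sig) (h : s.1 = s'.1) :
    ∃ i < 6, s' = TS^[i] s := by
  obtain ⟨j, hj, e⟩ : ∃ j < 3, s'.2.2 = z3 ^ j * s.2.2 := by
    have e : s'.2.2 ^ 3 = s.2.2 ^ 3 := by rw [hs.2.2, hs'.2.2, h]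
    by_cases h0 : s.2.2 = 0
    · rw [h0, zero_pow three_ne_zero, pow_eq_zero_iff three_ne_zero] at e
      exact ⟨0, by norm_num, by rw [e, h0, mul_zero]⟩
    · obtain ⟨j, hj, e'⟩ := z3_prim.eq_pow_of_pow_eq_one (ξ := s'.2.2 / s.2.2)
        (by rw [div_pow, e, div_self (pow_ne_zero _ h0)])
      exact ⟨j, hj, by rw [e', div_mul_cancel₀ _ h0]⟩
  have e2 : s'.2.1 ^ 2 = ((-1) ^ j * s.2.1) ^ 2 := by
    rw [mul_pow, ← pow_mul, mul_comm j, pow_mul, neg_one_sq, one_pow, one_mul, hs.2.1, hs'.2.1, h]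
  rcases sq_eq_sq_iff_eq_or_eq_neg.1 e2 with e3 | e3
  · exact ⟨j, by omega, by rw [TS_iter]; exact Prod.ext h.symm (Prod.ext e3 e)⟩
  · refine ⟨j + 3, by omega, ?_⟩
    rw [TS_iter]
    refine Prod.ext h.symm (Prod.ext ?_ ?_)
    · rw [e3]; ring
    · rw [e, pow_add z3, z3_prim.pow_eq_one, mul_one]

/-- Continuous sections over the closed hemispheres: for `e = 1` take
`(p, (fa p) ^ (1 / 2), (fb p) ^ (1 / 3))` (complex powers are continuous on the closed right half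
plane), for `e = -1` take `(p, I * (-fa p) ^ (1 / 2), -(-fb p) ^ (1 / 3))`. -/
theorem sig_lift {e : ℝ} (he : e = 1 ∨ e = -1) : ∃ L : P3 → ASig,
    ContinuousOn L (S2 ∩ {p | 0 ≤ e * p.2.1}) ∧
      ∀ p ∈ S2 ∩ {p | 0 ≤ e * p.2.1}, L p ∈ Sig ∧ (L p).1 = p := by
  have key : ∀ (g : P3 → ℂ) (n : ℕ) (W : Set P3), Continuous g → 0 < n → (∀ p ∈ W, 0 ≤ (g p).re) →
      ContinuousOn (fun p => g p ^ ((n : ℂ)⁻¹)) W := fun g n W hg hn hW p hp =>
    ((continuousAt_cpow_const_of_re_pos (Or.inl (hW p hp)) (by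
      rw [← ofReal_natCast, ← ofReal_inv, ofReal_re]; positivity)).comp
      hg.continuousAt).continuousWithinAt
  rcases he with rfl | rfl
  · refine ⟨fun p => (p, fa p ^ (((2 : ℕ) : ℂ)⁻¹), fb p ^ (((3 : ℕ) : ℂ)⁻¹)), continuousOn_id.prodMk
      ((key _ 2 _ fa_smooth.continuous two_pos fun p hp => by simpa using hp.2).prodMk
        (key _ 3 _ fb_smooth.continuous three_pos fun p hp => by simpa using hp.2)),
      fun p hp => ⟨⟨hp.1, cpow_nat_inv_pow _ two_ne_zero, cpow_nat_inv_pow _ three_ne_zero⟩, rfl⟩⟩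
  · refine ⟨fun p => (p, I * (-fa p) ^ (((2 : ℕ) : ℂ)⁻¹), -(-fb p) ^ (((3 : ℕ) : ℂ)⁻¹)),
      continuousOn_id.prodMk ((continuousOn_const.mul
        (key _ 2 _ fa_smooth.continuous.neg two_pos fun p hp => by simpa using hp.2)).prodMk
        (key _ 3 _ fb_smooth.continuous.neg three_pos fun p hp => by simpa using hp.2).neg),
      fun p hp => ⟨⟨hp.1, ?_, ?_⟩, rfl⟩⟩
    · show (I * _) ^ 2 = fa p
      rw [mul_pow, cpow_nat_inv_pow _ two_ne_zero, I_sq]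
      ring
    · show (-_) ^ 3 = fb p
      rw [Odd.neg_pow (by decide), cpow_nat_inv_pow _ three_ne_zero, neg_neg]

/-- The closed hemispheres are images of the closed unit disc. -/
theorem hemi_conn {e : ℝ} (he : e = 1 ∨ e = -1) : IsPreconnected (S2 ∩ {p | 0 ≤ e * p.2.1}) := by
  have e2 : e ^ 2 = 1 := by rcases he with rfl | rfl <;> norm_num
  have key : S2 ∩ {p | 0 ≤ e * p.2.1} = (fun z : ℂ => ((z.re, e * √(1 - ‖z‖ ^ 2), z.im) : P3)) ''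
      Metric.closedBall 0 1 := by
    ext p
    constructor
    · rintro ⟨h1, h2⟩
      have h : p.1 ^ 2 + p.2.1 ^ 2 + p.2.2 ^ 2 = 1 := h1
      have n : ‖(⟨p.1, p.2.2⟩ : ℂ)‖ ^ 2 = p.1 ^ 2 + p.2.2 ^ 2 := by
        rw [Complex.sq_norm, normSq_mk]; ring
      refine ⟨⟨p.1, p.2.2⟩, mem_closedBall_zero_iff.2 (le_of_pow_le_pow_left₀ two_ne_zero
        zero_le_one (by rw [n]; nlinarith [sq_nonneg p.2.1])), Prod.ext rfl (Prod.ext ?_ rfl)⟩
      show e * √(1 - _) = p.2.1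
      rw [n, show 1 - (p.1 ^ 2 + p.2.2 ^ 2) = (e * p.2.1) ^ 2 by rw [mul_pow, e2]; linarith,
        Real.sqrt_sq h2, ← mul_assoc, ← sq, e2, one_mul]
    · rintro ⟨z, hz, rfl⟩
      have h1 : 0 ≤ 1 - ‖z‖ ^ 2 :=
        sub_nonneg.2 (pow_le_one₀ (norm_nonneg _) (mem_closedBall_zero_iff.1 hz))
      refine ⟨?_, ?_⟩
      · show z.re ^ 2 + (e * √(1 - ‖z‖ ^ 2)) ^ 2 + z.im ^ 2 = 1
        rw [mul_pow, e2, Real.sq_sqrt h1, Complex.sq_norm, normSq_apply]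
        ring
      · show 0 ≤ e * (e * √(1 - ‖z‖ ^ 2))
        rw [← mul_assoc, ← sq, e2, one_mul]
        exact Real.sqrt_nonneg _
  rw [key]
  exact (convex_closedBall (0 : ℂ) 1).isPreconnected.image _ (by fun_prop)

/-- The defining equations of the surface. -/
def SigPhi (s : ASig) : ℝ × ℂ × ℂ :=
  (s.1.1 ^ 2 + s.1.2.1 ^ 2 + s.1.2.2 ^ 2 - 1, s.2.1 ^ 2 - fa s.1, s.2.2 ^ 3 - fb s.1)

/-- The common derivative of `fa` and `fb`. -/
def SigD (v : P3) : ℂ := (v.2.1 : ℂ) + (v.2.2 : ℂ) * I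

theorem SigPhi_smooth : ContDiff ℝ ∞ SigPhi := by
  have h1 := fa_smooth
  have h2 := fb_smooth
  unfold SigPhi
  fun_prop

theorem SigPhi_zero : {s | SigPhi s = 0} = Sig := by
  ext s
  simp only [SigPhi, Sig, S2, mem_ofPred_eq, Prod.mk_eq_zero, sub_eq_zero]

theorem SigPhi_curve {s v : ASig} {γ : ℝ → ASig} (h0 : γ 0 = s) (h : HasDerivAt γ v 0) :
    HasDerivAt (fun t => SigPhi (γ t))
      (2 * (s.1.1 * v.1.1 + s.1.2.1 * v.1.2.1 + s.1.2.2 * v.1.2.2),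
        2 * s.2.1 * v.2.1 - SigD v.1, 3 * s.2.2 ^ 2 * v.2.2 - SigD v.1) 0 := by
  have a1 := Sig_fst (Sig_fst h)
  have a2 := Sig_fst (Sig_snd (Sig_fst h))
  have a3 := Sig_snd (Sig_snd (Sig_fst h))
  have a4 := Sig_fst (Sig_snd h)
  have a5 := Sig_snd (Sig_snd h)
  have b1 := a2.ofReal_comp.add ((a3.sub_const (3 / 5)).ofReal_comp.mul_const I)
  have b2 := a2.ofReal_comp.add ((a3.add_const (3 / 5)).ofReal_comp.mul_const I)
  refine (((((a1.pow 2).add (a2.pow 2)).add (a3.pow 2)).sub_const 1).prodMk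
    (((a4.pow 2).sub b1).prodMk ((a5.pow 3).sub b2))).congr_deriv ?_
  simp only [h0, SigD, Prod.mk.injEq]
  refine ⟨?_, ?_, ?_⟩ <;> (norm_num; try ring)

theorem SigPhi_fderiv (s v : ASig) : fderiv ℝ SigPhi s v =
    (2 * (s.1.1 * v.1.1 + s.1.2.1 * v.1.2.1 + s.1.2.2 * v.1.2.2),
      2 * s.2.1 * v.2.1 - SigD v.1, 3 * s.2.2 ^ 2 * v.2.2 - SigD v.1) := by
  have h : HasDerivAt (fun t : ℝ => s + t • v) v 0 :=
    (((hasDerivAt_id (0 : ℝ)).smul_const v).const_add s).congr_deriv (by simp)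
  exact ((SigPhi_smooth.differentiable (by simp) s).hasFDerivAt.comp_hasDerivAt_of_eq 0 h
    (by simp)).unique (SigPhi_curve (by simp) h)

theorem Sig_tan {s v : ASig} (h : Tan Sig s v) :
    s.1.1 * v.1.1 + s.1.2.1 * v.1.2.1 + s.1.2.2 * v.1.2.2 = 0 ∧
      2 * s.2.1 * v.2.1 = SigD v.1 ∧ 3 * s.2.2 ^ 2 * v.2.2 = SigD v.1 := by
  obtain ⟨γ, h0, h1, h2⟩ := h
  rw [← SigPhi_zero] at h2
  have e := (SigPhi_curve h0 h1).unique ((hasDerivAt_const (0 : ℝ) (0 : ℝ × ℂ × ℂ)).congr_of_eventuallyEq h2)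
  simp only [Prod.mk_eq_zero, sub_eq_zero] at e
  exact ⟨by linarith [e.1], e.2⟩

theorem Sig_a0 {s : ASig} (hs : s ∈ Sig) (h : s.2.1 = 0) : s.1.1 ≠ 0 ∧ s.2.2 ≠ 0 := by
  have e : fa s.1 = 0 := by rw [← hs.2.1, h, zero_pow two_ne_zero]
  have e1 := fa_re s.1
  have e2 := fa_im s.1
  rw [e] at e1 e2
  have e3 : s.1.1 ^ 2 + s.1.2.1 ^ 2 + s.1.2.2 ^ 2 = 1 := hs.1
  have e4 : s.1.2.2 = 3 / 5 := by rw [zero_im] at e2; linarith
  refine ⟨fun h0 => ?_, fun h0 => ?_⟩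
  · rw [h0, ← e1, e4] at e3
    norm_num at e3
  · have e5 := fb_im s.1
    rw [← hs.2.2, h0, e4] at e5
    norm_num at e5

theorem Sig_b0 {s : ASig} (hs : s ∈ Sig) (h : s.2.2 = 0) : s.1.1 ≠ 0 ∧ s.2.1 ≠ 0 := by
  refine ⟨fun h0 => ?_, fun h0 => (Sig_a0 hs h0).2 h⟩
  have e : fb s.1 = 0 := by rw [← hs.2.2, h, zero_pow three_ne_zero]
  have e1 := fb_re s.1
  have e2 := fb_im s.1
  rw [e] at e1 e2
  have e3 : s.1.1 ^ 2 + s.1.2.1 ^ 2 + s.1.2.2 ^ 2 = 1 := hs.1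
  have e4 : s.1.2.2 = -(3 / 5) := by rw [zero_im] at e2; linarith
  rw [h0, ← e1, e4] at e3
  norm_num at e3

/-- `exists_pchart` for `Φ s = (|p| ^ 2 - 1, α ^ 2 - fa p, β ^ 3 - fb p)`. -/
theorem sig_chart {s : ASig} (hs : s ∈ Sig) : ∃ c : PChart Sig (ℝ × ℝ), s ∈ c.O := by
  rw [← SigPhi_zero] at hs ⊢
  refine exists_pchart SigPhi_smooth hs (fun w => ?_) (by simp)
  rw [SigPhi_zero] at hs
  have key : ∀ z : ℂ, s.1.1 ≠ 0 → ∃ p : P3,
      2 * (s.1.1 * p.1 + s.1.2.1 * p.2.1 + s.1.2.2 * p.2.2) = w.1 ∧ SigD p = z := fun z h =>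
    ⟨((w.1 / 2 - s.1.2.1 * z.re - s.1.2.2 * z.im) / s.1.1, z.re, z.im), by field_simp; ring,
      re_add_im z⟩
  by_cases h1 : s.2.1 = 0
  · obtain ⟨h2, h3⟩ := Sig_a0 hs h1
    obtain ⟨p, e1, e2⟩ := key (-w.2.1) h2
    refine ⟨(p, 0, (w.2.2 - w.2.1) / (3 * s.2.2 ^ 2)), ?_⟩
    rw [SigPhi_fderiv, e1, e2]
    refine Prod.ext rfl (Prod.ext (by simp) ?_)
    show _ * (_ / _) - _ = _
    field_simp
    ring
  by_cases h2 : s.2.2 = 0
  · obtain ⟨p, e1, e2⟩ := key (-w.2.2) (Sig_b0 hs h2).1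
    refine ⟨(p, (w.2.1 - w.2.2) / (2 * s.2.1), 0), ?_⟩
    rw [SigPhi_fderiv, e1, e2]
    refine Prod.ext rfl (Prod.ext ?_ (by simp))
    show _ * (_ / _) - _ = _
    field_simp
    ring
  have e3 : s.1.1 ^ 2 + s.1.2.1 ^ 2 + s.1.2.2 ^ 2 = 1 := hs.1
  refine ⟨((w.1 / 2) • s.1, (w.2.1 + SigD ((w.1 / 2) • s.1)) / (2 * s.2.1),
    (w.2.2 + SigD ((w.1 / 2) • s.1)) / (3 * s.2.2 ^ 2)), ?_⟩
  rw [SigPhi_fderiv]
  refine Prod.ext ?_ (Prod.ext ?_ ?_)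
  · simp only [Prod.smul_fst, Prod.smul_snd, smul_eq_mul]
    linear_combination w.1 * e3
  · show _ * (_ / _) - _ = _
    field_simp
    ring
  · show _ * (_ / _) - _ = _
    field_simp
    ring

/-- The triple product. -/
def trip (p u v : P3) : ℝ :=
  p.1 * (u.2.1 * v.2.2 - u.2.2 * v.2.1) + p.2.1 * (u.2.2 * v.1 - u.1 * v.2.2) +
    p.2.2 * (u.1 * v.2.1 - u.2.1 * v.1)

/-- The standard area form of the complex plane. -/
def area (a b : ℂ) : ℝ := a.re * b.im - a.im * b.re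

/-- An invariant area form on the surface. -/
def sigma (s u v : ASig) : ℝ :=
  trip s.1 u.1 v.1 + s.1.1 * area u.2.1 v.2.1 + s.1.1 * area u.2.2 v.2.2

theorem Sig_dep {x y : P3} (h1 : x.2.1 * y.2.2 - x.2.2 * y.2.1 = 0) (h2 : x.2.2 * y.1 - x.1 * y.2.2 = 0)
    (h3 : x.1 * y.2.1 - x.2.1 * y.1 = 0) : ∃ a b : ℝ, ¬ (a = 0 ∧ b = 0) ∧ a • x + b • y = 0 := by
  have key : ∀ a b : ℝ, a * x.1 + b * y.1 = 0 → a * x.2.1 + b * y.2.1 = 0 →
      a * x.2.2 + b * y.2.2 = 0 → a • x + b • y = 0 := fun a b e1 e2 e3 =>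
    Prod.ext e1 (Prod.ext e2 e3)
  by_cases e1 : x.1 = 0
  · by_cases e2 : x.2.1 = 0
    · by_cases e3 : x.2.2 = 0
      · exact ⟨1, 0, by simp, key _ _ (by simp [e1]) (by simp [e2]) (by simp [e3])⟩
      · exact ⟨-y.2.2, x.2.2, fun h => e3 h.2, key _ _ (by linarith) (by linarith) (by ring)⟩
    · exact ⟨-y.2.1, x.2.1, fun h => e2 h.2, key _ _ (by linarith) (by ring) (by linarith)⟩
  · exact ⟨-y.1, x.1, fun h => e1 h.2, key _ _ (by ring) (by linarith) (by linarith)⟩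

theorem Sig_depC {x y : ℂ} (h : area x y = 0) :
    ∃ a b : ℝ, ¬ (a = 0 ∧ b = 0) ∧ a • x + b • y = 0 := by
  obtain ⟨a, b, h1, h2⟩ := Sig_dep (x := (x.re, x.im, 0)) (y := (y.re, y.im, 0)) (by simp) (by simp) h
  refine ⟨a, b, h1, Complex.ext ?_ ?_⟩
  · simpa using congrArg Prod.fst h2
  · simpa using congrArg (fun p : P3 => p.2.1) h2

theorem Sig_area (c x y : ℂ) : area (c * x) (c * y) = normSq c * area x y := by
  simp only [area, mul_re, mul_im, normSq_apply]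
  ring

theorem SigD_lin (a b : ℝ) (x y : P3) : SigD (a • x + b • y) = a • SigD x + b • SigD y := by
  simp only [SigD, Prod.smul_fst, Prod.smul_snd, Prod.fst_add, Prod.snd_add, smul_eq_mul,
    real_smul]
  push_cast
  ring

theorem Sig_cancel {c x y : ℂ} {u v : P3} (hc : c ≠ 0) (h1 : c * x = SigD u) (h2 : c * y = SigD v)
    {a b : ℝ} (h : a • u + b • v = 0) : a • x + b • y = 0 := by
  have e := SigD_lin a b u v
  rw [h, ← h1, ← h2, show SigD 0 = 0 by simp [SigD]] at e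
  refine (mul_eq_zero.1 ?_).resolve_left hc
  rw [e]
  simp only [real_smul]
  ring

theorem Sig_p0 {p v : P3} (h0 : p.1 ≠ 0) (h1 : p.1 * v.1 + p.2.1 * v.2.1 + p.2.2 * v.2.2 = 0)
    (h2 : 0 = SigD v) : v = 0 := by
  have e1 : v.2.1 = 0 := by simpa [SigD] using (congrArg re h2).symm
  have e2 : v.2.2 = 0 := by simpa [SigD] using (congrArg im h2).symm
  rw [e1, e2, mul_zero, mul_zero, add_zero, add_zero] at h1
  exact Prod.ext ((mul_eq_zero.1 h1).resolve_left h0) (Prod.ext e1 e2)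

theorem Sig_sigma {s u v : ASig} (hs : s ∈ Sig) (hu : Tan Sig s u) (hv : Tan Sig s v)
    (h : sigma s u v = 0) : ∃ a b : ℝ, ¬ (a = 0 ∧ b = 0) ∧ a • u + b • v = 0 := by
  obtain ⟨u1, u2, u3⟩ := Sig_tan hu
  obtain ⟨v1, v2, v3⟩ := Sig_tan hv
  have z : ∀ a b : ℝ, ∀ x y : P3, x = 0 → y = 0 → a • x + b • y = 0 := fun a b x y h1 h2 => by
    simp [h1, h2]
  unfold sigma at h
  by_cases h1 : s.2.1 = 0
  · obtain ⟨h2, h3⟩ := Sig_a0 hs h1
    rw [h1, mul_zero, zero_mul] at u2 v2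
    have eu := Sig_p0 h2 u1 u2
    have ev := Sig_p0 h2 v1 v2
    have h4 : 3 * s.2.2 ^ 2 ≠ 0 := mul_ne_zero three_ne_zero (pow_ne_zero _ h3)
    rw [← u2, mul_eq_zero_iff_left h4] at u3
    rw [eu, u3] at h
    obtain ⟨a, b, e1, e2⟩ := Sig_depC (x := u.2.1) (y := v.2.1) (by simpa [trip, area, h2] using h)
    rw [← v2, mul_eq_zero_iff_left h4] at v3
    exact ⟨a, b, e1, Prod.ext (z a b _ _ eu ev) (Prod.ext e2 (by simp [u3, v3]))⟩
  have h4 : 2 * s.2.1 ≠ 0 := mul_ne_zero two_ne_zero h1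
  by_cases h3 : s.2.2 = 0
  · have h2 := (Sig_b0 hs h3).1
    rw [h3, zero_pow two_ne_zero, mul_zero, zero_mul] at u3 v3
    have eu := Sig_p0 h2 u1 u3
    have ev := Sig_p0 h2 v1 v3
    rw [← u3, mul_eq_zero_iff_left h4] at u2
    rw [eu, u2] at h
    obtain ⟨a, b, e1, e2⟩ := Sig_depC (x := u.2.2) (y := v.2.2) (by simpa [trip, area, h2] using h)
    rw [← v3, mul_eq_zero_iff_left h4] at v2
    exact ⟨a, b, e1, Prod.ext (z a b _ _ eu ev) (Prod.ext (by simp [u2, v2]) e2)⟩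
  have h5 : 3 * s.2.2 ^ 2 ≠ 0 := mul_ne_zero three_ne_zero (pow_ne_zero _ h3)
  have e3 : s.1.1 ^ 2 + s.1.2.1 ^ 2 + s.1.2.2 ^ 2 = 1 := hs.1
  have c1 : u.1.2.1 * v.1.2.2 - u.1.2.2 * v.1.2.1 = s.1.1 * trip s.1 u.1 v.1 := by
    unfold trip
    linear_combination (u.1.2.2 * v.1.2.1 - u.1.2.1 * v.1.2.2) * e3 +
      (s.1.2.1 * v.1.2.2 - s.1.2.2 * v.1.2.1) * u1 + (s.1.2.2 * u.1.2.1 - s.1.2.1 * u.1.2.2) * v1
  have c2 : u.1.2.2 * v.1.1 - u.1.1 * v.1.2.2 = s.1.2.1 * trip s.1 u.1 v.1 := by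
    unfold trip
    linear_combination (u.1.1 * v.1.2.2 - u.1.2.2 * v.1.1) * e3 +
      (s.1.2.2 * v.1.1 - s.1.1 * v.1.2.2) * u1 + (s.1.1 * u.1.2.2 - s.1.2.2 * u.1.1) * v1
  have c3 : u.1.1 * v.1.2.1 - u.1.2.1 * v.1.1 = s.1.2.2 * trip s.1 u.1 v.1 := by
    unfold trip
    linear_combination (u.1.2.1 * v.1.1 - u.1.1 * v.1.2.1) * e3 +
      (s.1.1 * v.1.2.1 - s.1.2.1 * v.1.1) * u1 + (s.1.2.1 * u.1.1 - s.1.1 * u.1.2.1) * v1
  have d0 : area (SigD u.1) (SigD v.1) = s.1.1 * trip s.1 u.1 v.1 := by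
    rw [← c1]
    simp [area, SigD]
  have d1 := Sig_area (2 * s.2.1) u.2.1 v.2.1
  have d2 := Sig_area (3 * s.2.2 ^ 2) u.2.2 v.2.2
  rw [u2, v2, d0] at d1
  rw [u3, v3, d0] at d2
  have n1 := normSq_pos.2 h4
  have n2 := normSq_pos.2 h5
  have t0 : trip s.1 u.1 v.1 = 0 := by
    generalize normSq (2 * s.2.1) = A at d1 n1
    generalize normSq (3 * s.2.2 ^ 2) = B at d2 n2
    have e : (A * B + s.1.1 ^ 2 * B + s.1.1 ^ 2 * A) * trip s.1 u.1 v.1 = 0 := by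
      linear_combination A * B * h + s.1.1 * B * d1 + s.1.1 * A * d2
    exact (mul_eq_zero.1 e).resolve_left (by positivity)
  rw [t0, mul_zero] at c1 c2 c3
  obtain ⟨a, b, e1, e2⟩ := Sig_dep c1 c2 c3
  exact ⟨a, b, e1, Prod.ext e2 (Prod.ext (Sig_cancel h4 u2 v2 e2) (Sig_cancel h5 u3 v3 e2))⟩

/-- Tangent vectors satisfy `p · δp = 0`, `2 α δα = δX₂ + δh I = 3 β ^ 2 δβ`, and the two vectors
below are linearly independent (`PChart.dχ_dψ`). One has `area (δ fa) (δ' fa) = X₁ * trip`, so for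
`α ≠ 0`, `β ≠ 0` the form is a positive multiple of `trip`, and `trip = 0` forces `δp`, `δ'p` to be
dependent. If `α = 0` then `δp = 0`, `δβ = 0`, `X₁ ≠ 0`. Similarly for `β = 0`. -/
theorem sigma_ne (c : PChart Sig (ℝ × ℝ)) {η : ℝ × ℝ} (h : η ∈ c.U) :
    sigma (c.ψ η) (fderiv ℝ c.ψ η (1, 0)) (fderiv ℝ c.ψ η (0, 1)) ≠ 0 := by
  intro e
  obtain ⟨a, b, h1, h2⟩ := Sig_sigma (c.mψ h).1 (c.tan h _) (c.tan h _) e
  have h3 := congrArg (fderiv ℝ c.χ (c.ψ η)) h2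
  rw [map_add, map_smul, map_smul, c.dχ_dψ h, c.dχ_dψ h, map_zero] at h3
  exact h1 (by simpa using h3)

end Vale.Agent.P265
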