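import Vale.Agent.P265.Chart

/-!
The toric surface of a hexagon, embedded in a vector space.
-/

open scoped ContDiff Topology ComplexConjugate
open Set Filter Complex

noncomputable section

namespace Vale.Agent.P265

/-- The inward normals. -/
def nu : Fin 6 → ℤ × ℤ := ![(1, 0), (1, 1), (1, 2), (0, 1), (-1, 0), (0, -1)]

/-- The constants. -/
def cc : Fin 6 → ℝ := ![0, -2, -3, 0, 4, 3]

/-- The affine functions that cut out the hexagon. -/
def ell (j : Fin 6) (x : ℝ × ℝ) : ℝ := (nu j).1 * x.1 + (nu j).2 * x.2 + cc j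

/-- Determinants of pairs of normals. -/
def DD (k j : Fin 6) : ℤ := (nu k).1 * (nu j).2 - (nu k).2 * (nu j).1

/-- The hexagon. -/
def Hex : Set (ℝ × ℝ) := {x | ∀ j, 0 ≤ ell j x}

/-- The moduli of the monomials. -/
def rad (k : Fin 6) (x : ℝ × ℝ) : ℝ := √(∏ j, ell j x ^ (DD k j).natAbs)

/-- The phases of the monomials. -/
def ph (k : Fin 6) (θ : ℝ × ℝ) : ℝ := (nu k).1 * θ.2 - (nu k).2 * θ.1

/-- The ambient space. -/
abbrev AY : Type := (ℝ × ℝ) × (Fin 6 → ℂ)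

/-- Action-angle coordinates. -/
def PiY (x θ : ℝ × ℝ) : AY := (x, fun k => rad k x * cexp (ph k θ * I))

/-- The surface. -/
def YS : Set AY := {y | y.1 ∈ Hex ∧ ∃ θ, y = PiY y.1 θ}

/-- The circle action. -/
def rotY (t : ℝ) : AY →L[ℝ] AY :=
  (ContinuousLinearMap.id ℝ (ℝ × ℝ)).prodMap (ContinuousLinearMap.pi fun k =>
    cexp (ph k (Real.pi * t, 0) * I) • ContinuousLinearMap.proj k)

theorem rotY_apply (t : ℝ) (y : AY) :
    rotY t y = (y.1, fun k => cexp (ph k (Real.pi * t, 0) * I) * y.2 k) := rfl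

/-- The vertex between the edges `i` and `i + 1`. -/
def vert : Fin 6 → ℝ × ℝ := ![(0, 2), (1, 1), (3, 0), (4, 0), (4, 3), (0, 3)]

/-- The point with `ell i = s` and `ell (i + 1) = t`. -/
def xv (i : Fin 6) (s t : ℝ) : ℝ × ℝ :=
  ((vert i).1 + s * (nu (i + 1)).2 - t * (nu i).2, (vert i).2 - s * (nu (i + 1)).1 + t * (nu i).1)

/-- Monomials with conjugates in place of negative powers. -/
def mono (z : ℂ) (n : ℤ) : ℂ := z ^ n.toNat * conj z ^ (-n).toNat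

/-- The part of the modulus that does not vanish near the vertex `i`. -/
def rest (i k : Fin 6) (x : ℝ × ℝ) : ℝ :=
  √(∏ j ∈ (Finset.univ.erase i).erase (i + 1), ell j x ^ (DD k j).natAbs)

/-- The parametrisation near the vertex `i`. -/
def psiY (i : Fin 6) (z : ℂ × ℂ) : AY :=
  (xv i (‖z.1‖ ^ 2) (‖z.2‖ ^ 2), fun k => mono z.1 (DD k i) * mono z.2 (DD k (i + 1)) *
    rest i k (xv i (‖z.1‖ ^ 2) (‖z.2‖ ^ 2)))

/-- Its inverse. -/
def chiY (i : Fin 6) (y : AY) : ℂ × ℂ :=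
  (conj (y.2 (i + 1)) / rest i (i + 1) y.1, y.2 i / rest i i y.1)

/-- The part of the plane where all other affine functions are positive. -/
def OY (i : Fin 6) : Set (ℝ × ℝ) := {x | ∀ j, j ≠ i → j ≠ i + 1 → 0 < ell j x}

theorem DD_self (i : Fin 6) : DD i i = 0 := by revert i; decide
theorem DD_succ (i : Fin 6) : DD i (i + 1) = 1 := by revert i; decide
theorem DD_pred (i : Fin 6) : DD (i + 1) i = -1 := by revert i; decide

theorem ydef_det (i : Fin 6) :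
    ((nu i).1 : ℝ) * (nu (i + 1)).2 - (nu i).2 * (nu (i + 1)).1 = 1 := by
  exact_mod_cast DD_succ i

theorem ydef_vert (i : Fin 6) : ell i (vert i) = 0 ∧ ell (i + 1) (vert i) = 0 := by
  fin_cases i <;> simp [ell, nu, cc, vert] <;> norm_num

theorem ydef_ell (x : ℝ × ℝ) : ell 0 x = x.1 ∧ ell 1 x = x.1 + x.2 - 2 ∧
    ell 2 x = x.1 + 2 * x.2 - 3 ∧ ell 3 x = x.2 ∧ ell 4 x = 4 - x.1 ∧ ell 5 x = 3 - x.2 := by
  simp only [ell, nu, cc]
  refine ⟨?_, ?_, ?_, ?_, ?_, ?_⟩ <;> simp <;> ring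

theorem ydef_ell_sm (j : Fin 6) : ContDiff ℝ ∞ (ell j) := by
  unfold ell
  fun_prop

theorem ell_xv (i : Fin 6) (s t : ℝ) : ell i (xv i s t) = s ∧ ell (i + 1) (xv i s t) = t := by
  have h := ydef_det i
  obtain ⟨h1, h2⟩ := ydef_vert i
  simp only [ell, xv] at h1 h2 ⊢
  constructor
  · linear_combination h1 + s * h
  · linear_combination h2 + t * h

theorem xv_ell (i : Fin 6) (x : ℝ × ℝ) : xv i (ell i x) (ell (i + 1) x) = x := by
  have h := ydef_det i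
  obtain ⟨h1, h2⟩ := ydef_vert i
  simp only [ell, xv] at h1 h2 ⊢
  refine Prod.ext ?_ ?_
  · linear_combination ((nu (i + 1)).2 : ℝ) * h1 - ((nu i).2 : ℝ) * h2 + (x.1 - (vert i).1) * h
  · linear_combination -((nu (i + 1)).1 : ℝ) * h1 + ((nu i).1 : ℝ) * h2 + (x.2 - (vert i).2) * h

theorem Hex_cpt : IsCompact Hex := by
  refine (isCompact_Icc (a := ((0 : ℝ), (0 : ℝ))) (b := (4, 3))).of_isClosed_subset ?_
    fun x h => ?_
  · simp only [Hex, ofPred_forall]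
    exact isClosed_iInter fun j => isClosed_le continuous_const (ydef_ell_sm j).continuous
  · obtain ⟨e0, -, -, e3, e4, e5⟩ := ydef_ell x
    exact ⟨⟨e0 ▸ h 0, e3 ▸ h 3⟩, ⟨sub_nonneg.1 (e4 ▸ h 4), sub_nonneg.1 (e5 ▸ h 5)⟩⟩

theorem ydef_far {x : ℝ × ℝ} (h : x ∈ Hex) {j k : Fin 6} (h0 : ell j x = 0) (h1 : k ≠ j)
    (h2 : k ≠ j + 1) (h3 : k + 1 ≠ j) : 0 < ell k x := by
  obtain ⟨e0, e1, e2, e3, e4, e5⟩ := ydef_ell x
  have p0 := h 0
  have p1 := h 1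
  have p2 := h 2
  have p3 := h 3
  have p4 := h 4
  have p5 := h 5
  have hc : ∀ j : Fin 6, j = 0 ∨ j = 1 ∨ j = 2 ∨ j = 3 ∨ j = 4 ∨ j = 5 := by decide
  rcases hc j with rfl | rfl | rfl | rfl | rfl | rfl <;>
    rcases hc k with rfl | rfl | rfl | rfl | rfl | rfl <;>
    first
      | exact absurd rfl h1
      | exact absurd rfl h2
      | exact absurd rfl h3
      | linarith

theorem Hex_cover {x : ℝ × ℝ} (h : x ∈ Hex) : ∃ i, x ∈ OY i := by
  by_cases h0 : ∃ j, ell j x = 0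
  · obtain ⟨j, hj⟩ := h0
    by_cases h1 : ell (j + 1) x = 0
    · refine ⟨j, fun k k1 k2 => ?_⟩
      by_cases k3 : k + 1 = j
      · subst k3
        have hc : ∀ k : Fin 6, k ≠ k + 1 + 1 + 1 ∧ k + 1 ≠ k + 1 + 1 := by decide
        exact ydef_far h h1 k2 (hc k).1 (hc k).2
      · exact ydef_far h hj k1 k2 k3
    · refine ⟨j - 1, fun k k1 k2 => ?_⟩
      rw [sub_add_cancel] at k2
      by_cases k3 : k = j + 1
      · exact k3 ▸ lt_of_le_of_ne (h _) (Ne.symm h1)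
      · exact ydef_far h hj k2 k3 fun e => k1 (eq_sub_of_add_eq e)
  · exact ⟨0, fun k _ _ => lt_of_le_of_ne (h k) fun e => h0 ⟨k, e.symm⟩⟩

theorem PiY_mem {x : ℝ × ℝ} (h : x ∈ Hex) (θ : ℝ × ℝ) : PiY x θ ∈ YS := ⟨h, θ, rfl⟩

theorem PiY_cont : Continuous fun z : (ℝ × ℝ) × ℝ × ℝ => PiY z.1 z.2 := by
  unfold PiY rad ph ell
  fun_prop

theorem rotY_PiY (t : ℝ) (x θ : ℝ × ℝ) : rotY t (PiY x θ) = PiY x (θ.1 + Real.pi * t, θ.2) := by
  rw [rotY_apply]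
  refine Prod.ext rfl (funext fun k => ?_)
  simp only [PiY, ph]
  rw [mul_left_comm, ← Complex.exp_add]
  congr 2
  push_cast
  ring

theorem ydef_mono_rot (α : ℝ) (z : ℂ) (n : ℤ) :
    mono (cexp (α * I) * z) n = cexp (n * α * I) * mono z n := by
  have e : conj (cexp (α * I)) = cexp (-α * I) := by
    rw [← exp_conj, map_mul, conj_ofReal, conj_I, mul_neg, neg_mul]
  have e1 : (n : ℂ) = (n.toNat : ℂ) - ((-n).toNat : ℂ) := by
    exact_mod_cast (Int.toNat_sub_toNat_neg n).symm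
  rw [mono, mono, map_mul, e, mul_pow, mul_pow, ← exp_nat_mul, ← exp_nat_mul, mul_mul_mul_comm,
    ← Complex.exp_add, e1]
  congr 2
  ring

theorem ydef_mono_real (r : ℝ) (n : ℤ) : mono r n = (r : ℂ) ^ n.natAbs := by
  rw [mono, conj_ofReal, ← pow_add, Int.toNat_add_toNat_neg_eq_natAbs]

theorem ydef_rad (i k : Fin 6) {x : ℝ × ℝ} (h : 0 ≤ ell i x) (h' : 0 ≤ ell (i + 1) x) :
    rad k x = √(ell i x) ^ (DD k i).natAbs * √(ell (i + 1) x) ^ (DD k (i + 1)).natAbs *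
      rest i k x := by
  have e : ∀ (a : ℝ) (n : ℕ), 0 ≤ a → √(a ^ n) = √a ^ n := fun a n ha => by
    rw [Real.sqrt_eq_iff_mul_self_eq (pow_nonneg ha n) (pow_nonneg (Real.sqrt_nonneg a) n),
      ← mul_pow, Real.mul_self_sqrt ha]
  have hi : ∀ i : Fin 6, i + 1 ∈ Finset.univ.erase i := by decide
  rw [rad, rest, ← Finset.mul_prod_erase _ _ (Finset.mem_univ i), ← Finset.mul_prod_erase _ _ (hi i),
    Real.sqrt_mul (pow_nonneg h _), Real.sqrt_mul (pow_nonneg h' _), e _ _ h, e _ _ h', mul_assoc]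

theorem ydef_norm {s : ℝ} (hs : 0 ≤ s) (φ : ℝ) : ‖(√s : ℂ) * cexp (φ * I)‖ ^ 2 = s := by
  rw [norm_mul, norm_exp_ofReal_mul_I, mul_one, norm_real, Real.norm_eq_abs, sq_abs,
    Real.sq_sqrt hs]

theorem ydef_ph (i k : Fin 6) (φ φ' : ℝ) :
    ph k (φ * (nu i).1 + φ' * (nu (i + 1)).1, φ * (nu i).2 + φ' * (nu (i + 1)).2) =
      DD k i * φ + DD k (i + 1) * φ' := by
  simp only [ph, DD]
  push_cast
  ring

theorem ydef_ang (i : Fin 6) (θ : ℝ × ℝ) :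
    (-ph (i + 1) θ * (nu i).1 + ph i θ * (nu (i + 1)).1,
      -ph (i + 1) θ * (nu i).2 + ph i θ * (nu (i + 1)).2) = θ := by
  have h := ydef_det i
  simp only [ph]
  refine Prod.ext ?_ ?_
  · linear_combination θ.1 * h
  · linear_combination θ.2 * h

theorem ydef_prod_pos (i k : Fin 6) {x : ℝ × ℝ} (h : x ∈ OY i) :
    0 < ∏ j ∈ (Finset.univ.erase i).erase (i + 1), ell j x ^ (DD k j).natAbs :=
  Finset.prod_pos fun j hj => pow_pos (h j (Finset.ne_of_mem_erase (Finset.mem_of_mem_erase hj))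
    (Finset.ne_of_mem_erase hj)) _

theorem ydef_rest_pos (i k : Fin 6) {x : ℝ × ℝ} (h : x ∈ OY i) : 0 < rest i k x :=
  Real.sqrt_pos.2 (ydef_prod_pos i k h)

/-- Polar coordinates in the chart; note `ph k (φ • nu i + φ' • nu (i + 1)) =
DD k i * φ + DD k (i + 1) * φ'`. -/
theorem psiY_polar (i : Fin 6) {s t : ℝ} (hs : 0 ≤ s) (ht : 0 ≤ t) (φ φ' : ℝ) :
    psiY i (√s * cexp (φ * I), √t * cexp (φ' * I)) =
      PiY (xv i s t) (φ * (nu i).1 + φ' * (nu (i + 1)).1, φ * (nu i).2 + φ' * (nu (i + 1)).2) := by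
  simp only [psiY, PiY, ydef_norm hs, ydef_norm ht]
  refine Prod.ext rfl (funext fun k => ?_)
  obtain ⟨h1, h2⟩ := ell_xv i s t
  dsimp only
  rw [ydef_rad i k (h1.symm ▸ hs) (h2.symm ▸ ht), h1, h2, ydef_ph, mul_comm (√s : ℂ),
    mul_comm (√t : ℂ), ydef_mono_rot, ydef_mono_rot, ydef_mono_real, ydef_mono_real]
  push_cast
  rw [add_mul, Complex.exp_add]
  ring

theorem chiY_PiY (i : Fin 6) {x : ℝ × ℝ} (h : x ∈ Hex) (h' : x ∈ OY i) (θ : ℝ × ℝ) :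
    chiY i (PiY x θ) = (√(ell i x) * cexp (-(ph (i + 1) θ) * I),
      √(ell (i + 1) x) * cexp (ph i θ * I)) := by
  have h1 : (rest i (i + 1) x : ℂ) ≠ 0 := ofReal_ne_zero.2 (ydef_rest_pos i _ h').ne'
  have h2 : (rest i i x : ℂ) ≠ 0 := ofReal_ne_zero.2 (ydef_rest_pos i _ h').ne'
  simp only [chiY, PiY]
  rw [ydef_rad i (i + 1) (h _) (h _), ydef_rad i i (h _) (h _), DD_self, DD_self, DD_succ, DD_pred,
    map_mul, conj_ofReal, ← exp_conj, map_mul, conj_ofReal, conj_I, mul_neg, ← neg_mul]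
  refine Prod.ext ?_ ?_ <;> simp <;> field_simp

/-- The image of `Hex × [0, 2 π] × [0, 2 π]`. -/
theorem YS_cpt : IsCompact YS := by
  have e : YS = (fun z : (ℝ × ℝ) × ℝ × ℝ => PiY z.1 z.2) ''
      (Hex ×ˢ (Icc 0 (2 * Real.pi) ×ˢ Icc 0 (2 * Real.pi))) := by
    refine Subset.antisymm ?_ ?_
    · rintro y ⟨h, θ, hy⟩
      refine ⟨(y.1, toIcoMod Real.two_pi_pos 0 θ.1, toIcoMod Real.two_pi_pos 0 θ.2),
        ⟨h, Ico_subset_Icc_self (toIcoMod_mem_Ico' _ _), Ico_subset_Icc_self (toIcoMod_mem_Ico' _ _)⟩,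
        Eq.trans ?_ hy.symm⟩
      refine Prod.ext rfl (funext fun k => congrArg (fun w => (rad k y.1 : ℂ) * w) (exp_eq_exp_iff_exists_int.2
        ⟨(nu k).2 * toIcoDiv Real.two_pi_pos 0 θ.1 - (nu k).1 * toIcoDiv Real.two_pi_pos 0 θ.2, ?_⟩))
      simp only [ph, toIcoMod, zsmul_eq_mul]
      push_cast
      ring
    · rintro _ ⟨z, hz, rfl⟩
      exact PiY_mem hz.1 _
  exact e ▸ (Hex_cpt.prod (isCompact_Icc.prod isCompact_Icc)).image PiY_cont

theorem YS_conn : IsConnected YS := by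
  have e : YS = (fun z : (ℝ × ℝ) × ℝ × ℝ => PiY z.1 z.2) '' (Hex ×ˢ univ) := by
    refine Subset.antisymm ?_ ?_
    · rintro y ⟨h, θ, hy⟩
      exact ⟨(y.1, θ), ⟨h, mem_univ _⟩, hy.symm⟩
    · rintro _ ⟨z, hz, rfl⟩
      exact PiY_mem hz.1 _
  have h1 : Convex ℝ Hex := fun x hx y hy a b ha hb hab j => by
    have : ell j (a • x + b • y) = a * ell j x + b * ell j y := by
      simp only [ell, Prod.fst_add, Prod.snd_add, Prod.smul_fst, Prod.smul_snd, smul_eq_mul]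
      linear_combination (-cc j) * hab
    exact this ▸ add_nonneg (mul_nonneg ha (hx j)) (mul_nonneg hb (hy j))
  have h2 : ((2 : ℝ), (2 : ℝ)) ∈ Hex := fun j => by
    fin_cases j <;> simp [ell, nu, cc] <;> norm_num
  exact e ▸ ((h1.isConnected ⟨_, h2⟩).prod isConnected_univ).image _ PiY_cont.continuousOn

theorem ydef_OY_open (i : Fin 6) : IsOpen (OY i) := by
  simp only [OY, ofPred_forall]
  exact isOpen_iInter_of_finite fun j => isOpen_iInter_of_finite fun _ =>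
    isOpen_iInter_of_finite fun _ => isOpen_lt continuous_const (ydef_ell_sm j).continuous

theorem ydef_rest_sm (i k : Fin 6) : ContDiffOn ℝ ∞ (fun x => (rest i k x : ℂ)) (OY i) :=
  ofRealCLM.contDiff.comp_contDiffOn
    ((contDiff_prod fun j _ => (ydef_ell_sm j).pow _).contDiffOn.sqrt
      fun _ h => (ydef_prod_pos i k h).ne')

theorem ydef_xv_sm (i : Fin 6) :
    ContDiff ℝ ∞ fun z : ℂ × ℂ => xv i (‖z.1‖ ^ 2) (‖z.2‖ ^ 2) := by
  have h1 : ContDiff ℝ ∞ fun z : ℂ × ℂ => ‖z.1‖ ^ 2 := contDiff_fst.norm_sq ℂ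
  have h2 : ContDiff ℝ ∞ fun z : ℂ × ℂ => ‖z.2‖ ^ 2 := contDiff_snd.norm_sq ℂ
  unfold xv
  fun_prop

theorem ydef_mono_sm (n : ℤ) : ContDiff ℝ ∞ fun z => mono z n :=
  (contDiff_id.pow _).mul (conjCLE.contDiff.pow _)

theorem ydef_polar (z : ℂ) : z = (√(‖z‖ ^ 2) : ℝ) * cexp (arg z * I) := by
  rw [Real.sqrt_sq (norm_nonneg z), norm_mul_exp_arg_mul_I]

theorem ydef_psi (i : Fin 6) (z : ℂ × ℂ) : psiY i z = PiY (xv i (‖z.1‖ ^ 2) (‖z.2‖ ^ 2))
    (arg z.1 * (nu i).1 + arg z.2 * (nu (i + 1)).1,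
      arg z.1 * (nu i).2 + arg z.2 * (nu (i + 1)).2) := by
  rw [← psiY_polar i (sq_nonneg _) (sq_nonneg _), ← ydef_polar, ← ydef_polar]

theorem ydef_xv_mem (i : Fin 6) {s t : ℝ} (hs : 0 ≤ s) (ht : 0 ≤ t) (h : xv i s t ∈ OY i) :
    xv i s t ∈ Hex := fun j => by
  by_cases h1 : j = i
  · rwa [h1, (ell_xv i s t).1]
  · by_cases h2 : j = i + 1
    · rwa [h2, (ell_xv i s t).2]
    · exact (h j h1 h2).le

theorem exists_chY (i : Fin 6) : ∃ c : PChart YS (ℂ × ℂ), c.ψ = psiY i ∧ c.χ = chiY i ∧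
    c.U = {z | xv i (‖z.1‖ ^ 2) (‖z.2‖ ^ 2) ∈ OY i} ∧ c.O = {y | y.1 ∈ OY i} := by
  have hr : ∀ k, ContDiffOn ℝ ∞ (fun y : AY => ((rest i k y.1 : ℝ) : ℂ)⁻¹) {y | y.1 ∈ OY i} :=
    fun k => ((ydef_rest_sm i k).comp contDiffOn_fst fun _ h => h).inv
      fun _ h => ofReal_ne_zero.2 (ydef_rest_pos i k h).ne'
  have hp : ∀ k, ContDiff ℝ ∞ fun y : AY => y.2 k := fun k => by fun_prop
  refine ⟨⟨psiY i, chiY i, _, _, (ydef_OY_open i).preimage (ydef_xv_sm i).continuous,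
    (ydef_OY_open i).preimage continuous_fst, ?_, ?_, fun z hz => ⟨?_, hz⟩, ?_, fun z hz => ?_, ?_⟩,
    rfl, rfl, rfl, rfl⟩
  · exact (ydef_xv_sm i).contDiffOn.prodMk (contDiffOn_pi.2 fun k =>
      (((ydef_mono_sm _).comp contDiff_fst).mul ((ydef_mono_sm _).comp contDiff_snd)).contDiffOn.mul
        ((ydef_rest_sm i k).comp (ydef_xv_sm i).contDiffOn fun _ h => h))
  · exact ((conjCLE.contDiff.comp (hp _)).contDiffOn.mul (hr _)).prodMk
      ((hp _).contDiffOn.mul (hr _))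
  · rw [ydef_psi]
    exact PiY_mem (ydef_xv_mem i (sq_nonneg _) (sq_nonneg _) hz) _
  · rintro y ⟨⟨h, θ, hy⟩, h'⟩
    have e := chiY_PiY i h h' θ
    rw [← hy, ← ofReal_neg] at e
    rw [mem_preimage, e, ydef_norm (h _), ydef_norm (h _), xv_ell]
    exact h'
  · obtain ⟨h1, h2⟩ := ell_xv i (‖z.1‖ ^ 2) (‖z.2‖ ^ 2)
    rw [ydef_psi, chiY_PiY i (ydef_xv_mem i (sq_nonneg _) (sq_nonneg _) hz) hz, h1, h2, ydef_ph,
      ydef_ph, DD_self, DD_self, DD_succ, DD_pred]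
    simp
  · rintro y ⟨⟨h, θ, hy⟩, h'⟩
    have e := chiY_PiY i h h' θ
    rw [← hy, ← ofReal_neg] at e
    rw [e, psiY_polar i (h _) (h _), xv_ell, ydef_ang, ← hy]

/-- The circle action in the chart. -/
theorem rotY_psiY (i : Fin 6) (t : ℝ) (z : ℂ × ℂ) : rotY t (psiY i z) =
    psiY i (cexp (-(ph (i + 1) (Real.pi * t, 0)) * I) * z.1,
      cexp (ph i (Real.pi * t, 0) * I) * z.2) := by
  rw [rotY_apply, ← ofReal_neg]
  simp only [psiY, norm_mul, norm_exp_ofReal_mul_I, one_mul]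
  refine Prod.ext rfl (funext fun k => ?_)
  have e := ydef_ph i k (-ph (i + 1) (Real.pi * t, 0)) (ph i (Real.pi * t, 0))
  rw [ydef_ang] at e
  dsimp only
  rw [ydef_mono_rot, ydef_mono_rot, e]
  push_cast
  rw [add_mul, Complex.exp_add]
  ring

end Vale.Agent.P265
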